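import Vale.Agent.P029.Defs

/-! P029: definitions for the analytic construction of an associator. -/

noncomputable section

namespace Vale.Agent.P029

open Finset

variable {B : Type} [NormedRing B] [NormedAlgebra ℝ B]

/-- Smallness. -/
def Sm (a : B) : Prop := ‖a‖ ≤ 1 / 10000

/-- The diagonal sum `∑_{m ≥ 1} h (i-m) (j-m)`. -/
def dsum (h : ℕ → ℕ → B) (i j : ℕ) : B := ∑ m ∈ range (min i j), h (i - 1 - m) (j - 1 - m)

/-- The recursion for the coefficients of the holomorphic part. -/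
def IsSol (a c d e β : B) (h : ℕ → ℕ → B) : Prop :=
  h 0 0 = 1 ∧ ∀ i j, 0 < i + j →
    ((i + j : ℕ) : ℝ) • h i j - br (a + c) (h i j) =
      -(e * ∑ m ∈ range i, h m j) - d * ∑ m ∈ range j, h i m - (2 : ℝ) • (β * dsum h i j)

/-- The coefficients. -/
def hc (a c d e β : B) : ℕ → ℕ → B := Classical.epsilon (IsSol a c d e β)

/-- The coefficient bound. -/
def Bd (h : ℕ → ℕ → B) : Prop :=
  h 0 0 = 1 ∧ ∀ i j, 0 < i + j → ‖h i j‖ ≤ 2 / 125 * (11 / 10 : ℝ) ^ (i + j)

/-- The first separate equation. -/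
def PdeS (a e β : B) (h : ℕ → ℕ → B) : Prop :=
  ∀ i j : ℕ, (i : ℝ) • h i j - br a (h i j) = -(e * ∑ m ∈ range i, h m j) - β * dsum h i j

/-- The second separate equation. -/
def PdeT (c d β : B) (h : ℕ → ℕ → B) : Prop :=
  ∀ i j : ℕ, (j : ℝ) • h i j - br c (h i j) = -(d * ∑ m ∈ range j, h i m) - β * dsum h i j

/-- The sum of the double series. -/
def Hf (h : ℕ → ℕ → B) (s t : ℝ) : B := ∑' p : ℕ × ℕ, (s ^ p.1 * t ^ p.2) • h p.1 p.2

/-- The partial derivative in `s`. -/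
def Hs (h : ℕ → ℕ → B) (s t : ℝ) : B :=
  ∑' p : ℕ × ℕ, ((p.1 : ℝ) * s ^ (p.1 - 1) * t ^ p.2) • h p.1 p.2

/-- The partial derivative in `t`. -/
def Ht (h : ℕ → ℕ → B) (s t : ℝ) : B :=
  ∑' p : ℕ × ℕ, ((p.2 : ℝ) * s ^ p.1 * t ^ (p.2 - 1)) • h p.1 p.2

/-- `s ^ a`. -/
def pw (s : ℝ) (a : B) : B := NormedSpace.exp (Real.log s • a)

/-- The radius used. -/
def rr : ℝ := 63 / 100

/-- The holomorphic part of the one variable solution. -/
def H1 (A C : B) (s : ℝ) : B := Hf (hc A 0 0 C 0) s 0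

/-- The one variable solution of `G' = (A/s + C/(s-1)) G` with `G ~ s^A`. -/
def G1 (A C : B) (s : ℝ) : B := H1 A C s * pw s A

/-- The two variable solution. -/
def W2 (a b c d e : B) (s t : ℝ) : B := Hf (hc a c d e (b - d - e)) s t * pw s a * pw t c

/-- The golden section. -/
def s0 : ℝ := (Real.sqrt 5 - 1) / 2

/-- The associator. -/
def Phi (A C : B) : B := Ring.inverse (G1 C A (1 - s0)) * G1 A C s0

end Vale.Agent.P029
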