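import Vale.Agent.P029.ADefs

noncomputable section

namespace Vale.Agent.P029

variable {B : Type} [NormedRing B] [NormedAlgebra ℝ B] [CompleteSpace B] [NormOneClass B]

open Finset

omit [CompleteSpace B] [NormOneClass B] [NormedAlgebra ℝ B] in
theorem an1_norm_br (u z : B) : ‖br u z‖ ≤ 2 * ‖u‖ * ‖z‖ := by
  unfold br
  have h1 := norm_sub_le (u * z) (z * u)
  have h2 := norm_mul_le u z
  have h3 := norm_mul_le z u
  nlinarith

omit [CompleteSpace B] [NormOneClass B] in
theorem an1_res_bound {u : B} (hu : ‖u‖ ≤ 1 / 4) {n : ℕ} (hn : 0 < n) (z : B) :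
    ‖z‖ ≤ 2 * ‖(n : ℝ) • z - br u z‖ := by
  have h1 : ‖(n : ℝ) • z‖ ≤ ‖(n : ℝ) • z - br u z‖ + ‖br u z‖ := by
    simpa using norm_add_le ((n : ℝ) • z - br u z) (br u z)
  rw [norm_smul, Real.norm_natCast] at h1
  have h2 := an1_norm_br u z
  have h3 : (1 : ℝ) ≤ n := by exact_mod_cast hn
  have h4 := norm_nonneg z
  nlinarith

omit [NormOneClass B] in
theorem an1_res_surj {u : B} (hu : ‖u‖ ≤ 1 / 4) {n : ℕ} (hn : 0 < n) (w : B) :
    ∃ z : B, (n : ℝ) • z - br u z = w := by
  have h3 : (1 : ℝ) ≤ n := by exact_mod_cast hn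
  have hn0 : (n : ℝ) ≠ 0 := by positivity
  let T : B → B := fun z => (n : ℝ)⁻¹ • (w + br u z)
  have hT : ContractingWith (1 / 2) T := by
    refine ⟨by norm_num, LipschitzWith.of_dist_le_mul fun x y => ?_⟩
    have e1 : T x - T y = (n : ℝ)⁻¹ • br u (x - y) := by
      simp only [T, br, ← smul_sub]
      congr 1
      noncomm_ring
    rw [dist_eq_norm, dist_eq_norm, e1, norm_smul, norm_inv, Real.norm_natCast]
    have h2 := an1_norm_br u (x - y)
    have h4 := norm_nonneg (x - y)
    have h5 : (n : ℝ)⁻¹ ≤ 1 := inv_le_one_of_one_le₀ h3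
    have h6 := norm_nonneg (br u (x - y))
    have h7 : (n : ℝ)⁻¹ * ‖br u (x - y)‖ ≤ ‖br u (x - y)‖ := mul_le_of_le_one_left h6 h5
    have h8 : ((1 / 2 : NNReal) : ℝ) = 1 / 2 := by norm_num
    rw [h8]
    nlinarith
  refine ⟨hT.fixedPoint T, ?_⟩
  have h := hT.fixedPoint_isFixedPt
  set z := hT.fixedPoint T
  have h' : (n : ℝ)⁻¹ • (w + br u z) = z := h
  have h'' : (n : ℝ) • z = w + br u z := by
    conv_lhs => rw [← h']
    rw [smul_smul, mul_inv_cancel₀ hn0, one_smul]
  rw [h'']
  abel

/-- The right side of the recursion. -/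
def an1_rhs (d e β : B) (h : ℕ → ℕ → B) (i j : ℕ) : B :=
  -(e * ∑ m ∈ range i, h m j) - d * ∑ m ∈ range j, h i m - (2 : ℝ) • (β * dsum h i j)

omit [CompleteSpace B] [NormOneClass B] in
theorem an1_rhs_congr (d e β : B) {h h' : ℕ → ℕ → B} {i j : ℕ}
    (H : ∀ i' j', i' + j' < i + j → h i' j' = h' i' j') :
    an1_rhs d e β h i j = an1_rhs d e β h' i j := by
  unfold an1_rhs dsum
  have e1 : ∑ m ∈ range i, h m j = ∑ m ∈ range i, h' m j :=
    sum_congr rfl fun m hm => H _ _ (by have := mem_range.1 hm; omega)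
  have e2 : ∑ m ∈ range j, h i m = ∑ m ∈ range j, h' i m :=
    sum_congr rfl fun m hm => H _ _ (by have := mem_range.1 hm; omega)
  have e3 : ∑ m ∈ range (min i j), h (i - 1 - m) (j - 1 - m) =
      ∑ m ∈ range (min i j), h' (i - 1 - m) (j - 1 - m) :=
    sum_congr rfl fun m hm => H _ _ (by have := mem_range.1 hm; omega)
  rw [e1, e2, e3]

/-- The recursive solution for a given resolvent. -/
def an1_sol (Rs : ℕ → B → B) (d e β : B) (i j : ℕ) : B :=
  if i + j = 0 then 1 else
    Rs (i + j) (an1_rhs d e β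
      (fun i' j' => if _h : i' + j' < i + j then an1_sol Rs d e β i' j' else 0) i j)
termination_by i + j

omit [CompleteSpace B] [NormOneClass B] [NormedAlgebra ℝ B] in
theorem an1_sm_add {a c : B} (ha : Sm a) (hcc : Sm c) : ‖a + c‖ ≤ 1 / 4 := by
  unfold Sm at ha hcc
  have := norm_add_le a c
  linarith

omit [CompleteSpace B] [NormOneClass B] [NormedAlgebra ℝ B] in
theorem an1_sm_zero : Sm (0 : B) := by
  unfold Sm
  rw [norm_zero]
  norm_num

theorem an1_geom (k : ℕ) : ∑ m ∈ range k, (11 / 10 : ℝ) ^ m ≤ 10 * (11 / 10 : ℝ) ^ k := by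
  induction k with
  | zero => simp
  | succ k ih => rw [sum_range_succ, pow_succ]; linarith

/-- `n - ad u` is injective for `‖u‖ ≤ 1/4`, `n ≥ 1`. -/
theorem res_inj {u : B} (hu : ‖u‖ ≤ 1 / 4) {n : ℕ} (hn : 0 < n) {z : B}
    (hz : (n : ℝ) • z - br u z = 0) : z = 0 := by
  have h := an1_res_bound hu hn z
  rw [hz, norm_zero, mul_zero] at h
  exact norm_le_zero_iff.1 h

theorem isSol_unique {a c d e β : B} (ha : Sm a) (hcc : Sm c) {h h' : ℕ → ℕ → B}
    (H : IsSol a c d e β h) (H' : IsSol a c d e β h') : h = h' := by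
  have key : ∀ n i j, i + j = n → h i j = h' i j := by
    intro n
    induction n using Nat.strong_induction_on with
    | _ n ih =>
      intro i j hij
      rcases Nat.eq_zero_or_pos (i + j) with h0 | h0
      · obtain ⟨rfl, rfl⟩ := Nat.add_eq_zero_iff.1 h0
        rw [H.1, H'.1]
      · have e1 : _ = an1_rhs d e β h i j := H.2 i j h0
        have e2 : _ = an1_rhs d e β h' i j := H'.2 i j h0
        rw [an1_rhs_congr d e β (h' := h') fun i' j' hl => ih _ (hij ▸ hl) i' j' rfl, ← e2] at e1
        refine sub_eq_zero.1 (res_inj (an1_sm_add ha hcc) h0 ?_)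
        rw [← sub_eq_zero] at e1
        rw [← e1, smul_sub]
        unfold br
        noncomm_ring
  funext i j
  exact key _ i j rfl

theorem hc_isSol {a c : B} (d e β : B) (ha : Sm a) (hcc : Sm c) :
    IsSol a c d e β (hc a c d e β) := by
  refine Classical.epsilon_spec (p := IsSol a c d e β) ?_
  have hs : ∀ (n : ℕ) (w : B), ∃ z : B, 0 < n → (n : ℝ) • z - br (a + c) z = w := by
    intro n w
    rcases Nat.eq_zero_or_pos n with h0 | h0
    · exact ⟨0, fun h => absurd h (by omega)⟩
    · obtain ⟨z, hz⟩ := an1_res_surj (an1_sm_add ha hcc) h0 w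
      exact ⟨z, fun _ => hz⟩
  choose Rs hRs using hs
  refine ⟨an1_sol Rs d e β, ?_, ?_⟩
  · rw [an1_sol]
    simp
  · intro i j hij
    change _ = an1_rhs d e β (an1_sol Rs d e β) i j
    have e1 : an1_sol Rs d e β i j = Rs (i + j) (an1_rhs d e β (an1_sol Rs d e β) i j) := by
      rw [an1_sol, if_neg hij.ne']
      congr 1
      exact an1_rhs_congr d e β fun i' j' hl => dif_pos hl
    rw [e1]
    exact hRs _ _ hij

theorem hc_bd {a c d e β : B} (ha : Sm a) (hcc : Sm c) (hd : Sm d) (he : Sm e)
    (hβ : ‖β‖ ≤ 3 / 10000) : Bd (hc a c d e β) := by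
  have H := hc_isSol d e β ha hcc
  set h := hc a c d e β
  have key : ∀ n i j, i + j = n → 0 < i + j → ‖h i j‖ ≤ 2 / 125 * (11 / 10 : ℝ) ^ (i + j) := by
    intro n
    induction n using Nat.strong_induction_on with
    | _ n ih =>
      intro i j hij h0
      have ih' : ∀ i' j', i' + j' < i + j → ‖h i' j'‖ ≤ (11 / 10 : ℝ) ^ (i' + j') := by
        intro i' j' hl
        rcases Nat.eq_zero_or_pos (i' + j') with h1 | h1
        · obtain ⟨rfl, rfl⟩ := Nat.add_eq_zero_iff.1 h1
          rw [H.1, norm_one]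
          simp
        · have h2 := ih _ (hij ▸ hl) i' j' rfl h1
          have h3 : (0 : ℝ) < (11 / 10 : ℝ) ^ (i' + j') := by positivity
          linarith
      have hp : (0 : ℝ) < (11 / 10 : ℝ) ^ (i + j) := by positivity
      have b1 : ‖∑ m ∈ range i, h m j‖ ≤ 10 * (11 / 10 : ℝ) ^ (i + j) := by
        refine (norm_sum_le _ _).trans ?_
        refine (sum_le_sum (g := fun m => (11 / 10 : ℝ) ^ m * (11 / 10 : ℝ) ^ j)
          fun m hm => ?_).trans ?_
        · rw [← pow_add]
          exact ih' _ _ (by have := mem_range.1 hm; omega)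
        · rw [← sum_mul, pow_add, ← mul_assoc]
          exact mul_le_mul_of_nonneg_right (an1_geom i) (by positivity)
      have b2 : ‖∑ m ∈ range j, h i m‖ ≤ 10 * (11 / 10 : ℝ) ^ (i + j) := by
        refine (norm_sum_le _ _).trans ?_
        refine (sum_le_sum (g := fun m => (11 / 10 : ℝ) ^ m * (11 / 10 : ℝ) ^ i)
          fun m hm => ?_).trans ?_
        · rw [← pow_add, add_comm m i]
          exact ih' _ _ (by have := mem_range.1 hm; omega)
        · rw [← sum_mul, add_comm i j, pow_add, ← mul_assoc]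
          exact mul_le_mul_of_nonneg_right (an1_geom j) (by positivity)
      have b3 : ‖dsum h i j‖ ≤ 10 * (11 / 10 : ℝ) ^ (i + j) := by
        unfold dsum
        refine (norm_sum_le _ _).trans ?_
        refine (sum_le_sum (g := fun m => (11 / 10 : ℝ) ^ (i - 1 - m) * (11 / 10 : ℝ) ^ j)
          fun m hm => ?_).trans ?_
        · rw [← pow_add]
          refine (ih' _ _ (by have := mem_range.1 hm; omega)).trans ?_
          exact pow_le_pow_right₀ (by norm_num) (by omega)
        · refine (sum_le_sum_of_subset_of_nonneg (t := range i)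
            (range_subset_range.2 (min_le_left _ _)) fun _ _ _ => by positivity).trans ?_
          rw [← sum_mul, pow_add, ← mul_assoc,
            sum_range_reflect (fun m => (11 / 10 : ℝ) ^ m) i]
          exact mul_le_mul_of_nonneg_right (an1_geom i) (by positivity)
      have r := an1_res_bound (an1_sm_add ha hcc) h0 (h i j)
      rw [H.2 i j h0] at r
      have c1 : ‖e * ∑ m ∈ range i, h m j‖ ≤ 1 / 10000 * (10 * (11 / 10 : ℝ) ^ (i + j)) :=
        (norm_mul_le _ _).trans (mul_le_mul he b1 (norm_nonneg _) (by norm_num))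
      have c2 : ‖d * ∑ m ∈ range j, h i m‖ ≤ 1 / 10000 * (10 * (11 / 10 : ℝ) ^ (i + j)) :=
        (norm_mul_le _ _).trans (mul_le_mul hd b2 (norm_nonneg _) (by norm_num))
      have c3 : ‖β * dsum h i j‖ ≤ 3 / 10000 * (10 * (11 / 10 : ℝ) ^ (i + j)) :=
        (norm_mul_le _ _).trans (mul_le_mul hβ b3 (norm_nonneg _) (by norm_num))
      have c4 : ‖(2 : ℝ) • (β * dsum h i j)‖ = 2 * ‖β * dsum h i j‖ := by
        rw [norm_smul]
        norm_num
      have c5 := norm_sub_le (-(e * ∑ m ∈ range i, h m j) - d * ∑ m ∈ range j, h i m)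
        ((2 : ℝ) • (β * dsum h i j))
      have c6 := norm_sub_le (-(e * ∑ m ∈ range i, h m j)) (d * ∑ m ∈ range j, h i m)
      rw [norm_neg] at c6
      linarith
  exact ⟨H.1, fun i j => key _ i j rfl⟩

/-- Anything commuting with the data commutes with the coefficients. -/
theorem hc_commute {a c d e β z : B} (ha : Sm a) (hcc : Sm c) (h1 : Commute z a) (h2 : Commute z c)
    (h3 : Commute z d) (h4 : Commute z e) (h5 : Commute z β) (i j : ℕ) :
    Commute z (hc a c d e β i j) := by
  have H := hc_isSol d e β ha hcc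
  set h := hc a c d e β
  have key : ∀ n i j, i + j = n → Commute z (h i j) := by
    intro n
    induction n using Nat.strong_induction_on with
    | _ n ih =>
      intro i j hij
      rcases Nat.eq_zero_or_pos (i + j) with h0 | h0
      · obtain ⟨rfl, rfl⟩ := Nat.add_eq_zero_iff.1 h0
        rw [H.1]
        exact Commute.one_right z
      · have ih' : ∀ i' j', i' + j' < i + j → Commute z (h i' j') :=
          fun i' j' hl => ih _ (hij ▸ hl) i' j' rfl
        have c1 : Commute z (((i + j : ℕ) : ℝ) • h i j - br (a + c) (h i j)) := by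
          rw [H.2 i j h0]
          refine Commute.sub_right (Commute.sub_right (Commute.neg_right (h4.mul_right ?_))
            (h3.mul_right ?_)) (Commute.smul_right (h5.mul_right ?_) _)
          · exact Commute.sum_right _ _ _ fun m hm => ih' _ _ (by have := mem_range.1 hm; omega)
          · exact Commute.sum_right _ _ _ fun m hm => ih' _ _ (by have := mem_range.1 hm; omega)
          · exact Commute.sum_right _ _ _ fun m hm => ih' _ _ (by have := mem_range.1 hm; omega)
        have c2 : Commute z (a + c) := h1.add_right h2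
        have c3 : z * h i j - h i j * z = 0 := by
          refine res_inj (an1_sm_add ha hcc) h0 ?_
          have e1 := sub_eq_zero.2 c1.eq
          rw [← e1]
          unfold br
          generalize a + c = u at c2
          have e2 : ∀ x, z * (u * x) = u * (z * x) := fun x => by
            rw [← mul_assoc, c2.eq, mul_assoc]
          simp only [mul_sub, sub_mul, smul_sub, mul_smul_comm, smul_mul_assoc, mul_assoc, e2,
            c2.eq]
          abel
        exact sub_eq_zero.1 c3
  exact key _ i j rfl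

theorem hc_row {a c e : B} (d β : B) (ha : Sm a) (hcc : Sm c) (h1 : Commute c a) (h2 : Commute c e)
    (i : ℕ) : hc a c d e β i 0 = hc a 0 0 e 0 i 0 := by
  have H := hc_isSol d e β ha hcc
  have G := hc_isSol (0 : B) e 0 ha an1_sm_zero
  induction i using Nat.strong_induction_on with
  | _ i ih =>
    rcases Nat.eq_zero_or_pos i with rfl | h0
    · rw [H.1, G.1]
    · have e1 := H.2 i 0 h0
      have e2 := G.2 i 0 h0
      have c1 := hc_commute (z := c) ha an1_sm_zero h1 (Commute.zero_right c)
        (Commute.zero_right c) h2 (Commute.zero_right c) i 0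
      have e3 : ∑ m ∈ range i, hc a c d e β m 0 = ∑ m ∈ range i, hc a 0 0 e 0 m 0 :=
        sum_congr rfl fun m hm => ih m (mem_range.1 hm)
      simp only [dsum, Nat.min_zero, range_zero, sum_empty, mul_zero, smul_zero, sub_zero,
        add_zero] at e1 e2
      rw [e3, ← e2, ← sub_eq_zero] at e1
      refine sub_eq_zero.1 (res_inj (an1_sm_add ha hcc) h0 (Eq.trans ?_ e1))
      unfold br
      simp only [mul_sub, sub_mul, smul_sub, add_mul, mul_add, c1.eq]
      abel

theorem hc_col {a c d : B} (e β : B) (ha : Sm a) (hcc : Sm c) (h1 : Commute a c) (h2 : Commute a d)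
    (j : ℕ) : hc a c d e β 0 j = hc c 0 0 d 0 j 0 := by
  have H := hc_isSol d e β ha hcc
  have G := hc_isSol (0 : B) d 0 hcc an1_sm_zero
  induction j using Nat.strong_induction_on with
  | _ j ih =>
    rcases Nat.eq_zero_or_pos j with rfl | h0
    · rw [H.1, G.1]
    · have e1 := H.2 0 j (by omega)
      have e2 := G.2 j 0 h0
      have c1 := hc_commute (z := a) hcc an1_sm_zero h1 (Commute.zero_right a)
        (Commute.zero_right a) h2 (Commute.zero_right a) j 0
      have e3 : ∑ m ∈ range j, hc a c d e β 0 m = ∑ m ∈ range j, hc c 0 0 d 0 m 0 :=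
        sum_congr rfl fun m hm => ih m (mem_range.1 hm)
      simp only [dsum, Nat.min_zero, Nat.zero_min, range_zero, sum_empty, mul_zero, smul_zero,
        sub_zero, add_zero, zero_add, neg_zero, zero_sub] at e1 e2
      rw [e3, ← e2, ← sub_eq_zero] at e1
      refine sub_eq_zero.1 (res_inj (an1_sm_add ha hcc) h0 (Eq.trans ?_ e1))
      unfold br
      simp only [mul_sub, sub_mul, smul_sub, add_mul, mul_add, c1.eq]
      abel

theorem hc_map {B' : Type} [NormedRing B'] [NormedAlgebra ℝ B'] [CompleteSpace B'] [NormOneClass B']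
    (f : B →ₐ[ℝ] B') {a c : B} (d e β : B) (ha : Sm a) (hcc : Sm c) (ha' : Sm (f a))
    (hc' : Sm (f c)) (i j : ℕ) :
    f (hc a c d e β i j) = hc (f a) (f c) (f d) (f e) (f β) i j := by
  have H := hc_isSol d e β ha hcc
  have G : IsSol (f a) (f c) (f d) (f e) (f β) fun i j => f (hc a c d e β i j) := by
    refine ⟨by simp only [H.1, map_one], fun i j h0 => ?_⟩
    have e1 := congrArg f (H.2 i j h0)
    simpa only [br, dsum, map_sub, map_smul, map_mul, map_add, map_neg, map_sum] using e1
  exact congrFun (congrFun (isSol_unique ha' hc' G (hc_isSol _ _ _ ha' hc')) i) j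

end Vale.Agent.P029
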