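import Vale.Agent.P029.An1

noncomputable section

namespace Vale.Agent.P029

open Finset

section abstract
variable {E : Type} [Ring E]

theorem an2_brD {θ La Ra Lx ρ : E} (h1 : Commute θ Lx) (h2 : Commute ρ La) (h3 : Commute ρ Ra)
    (h4 : Commute Ra Lx) :
    br (θ - La + Ra) (Lx * ρ) = Lx * br θ ρ - br La Lx * ρ := by
  unfold br
  have e1 : θ * (Lx * ρ) = Lx * (θ * ρ) := by rw [← mul_assoc, h1.eq, mul_assoc]
  have e2 : Lx * ρ * La = Lx * La * ρ := by rw [mul_assoc, h2.eq, mul_assoc]
  have e3 : Ra * (Lx * ρ) = Lx * ρ * Ra := by rw [← mul_assoc, h4.eq, mul_assoc, ← h3.eq, mul_assoc]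
  rw [add_mul, sub_mul, mul_add, mul_sub, e1, e2, e3]
  noncomm_ring

theorem an2_brX {Lx Ly ρ ρ' : E} (h1 : Commute ρ Ly) (h2 : Commute ρ' Lx) (h3 : Commute ρ ρ') :
    br (Lx * ρ) (Ly * ρ') = br Lx Ly * (ρ * ρ') := by
  unfold br
  have e1 : Lx * ρ * (Ly * ρ') = Lx * Ly * (ρ * ρ') := by
    rw [mul_assoc, ← mul_assoc ρ, h1.eq, mul_assoc, mul_assoc]
  have e2 : Ly * ρ' * (Lx * ρ) = Ly * Lx * (ρ * ρ') := by
    rw [mul_assoc, ← mul_assoc ρ', h2.eq, mul_assoc, mul_assoc, h3.eq]
  rw [e1, e2, sub_mul]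

theorem an2_br_expand (D X Y D' X' Y' : E) :
    br (D + X + Y) (D' + X' + Y') = br D D' + br D X' + br D Y' - br D' X - br D' Y +
      br X X' + br X Y' + br Y X' + br Y Y' := by
  unfold br
  noncomm_ring

theorem an2_final (d e β X Y Z p s t : E) :
    0 + (d * 0 - 0 * t) + (β * Z - X * p) - (e * 0 - 0 * s) - (β * Z - (X - Y) * p) +
      Y * (p * (1 + s + t)) + -Y * (p * s) + -Y * (p * t) + 0 = 0 := by
  noncomm_ring

end abstract

variable {B : Type} [NormedRing B] [NormedAlgebra ℝ B]

theorem an2_dsum_zero_left (h : ℕ → ℕ → B) (j : ℕ) : dsum h 0 j = 0 := by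
  simp [dsum]

theorem an2_dsum_zero_right (h : ℕ → ℕ → B) (i : ℕ) : dsum h i 0 = 0 := by
  simp [dsum]

theorem an2_dsum_succ (h : ℕ → ℕ → B) (i j : ℕ) :
    dsum h (i + 1) (j + 1) = h i j + dsum h i j := by
  unfold dsum
  rw [Nat.succ_min_succ, sum_range_succ', add_comm]
  congr 1
  refine sum_congr rfl (fun m _ => ?_)
  congr 1 <;> omega

theorem an2_dsum_eq {g X : ℕ → ℕ → B} (h1 : ∀ j, X 0 j = 0) (h2 : ∀ i, X i 0 = 0)
    (h3 : ∀ i j, X (i + 1) (j + 1) = g i j + X i j) (i j : ℕ) : X i j = dsum g i j := by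
  induction i generalizing j with
  | zero => rw [h1, an2_dsum_zero_left]
  | succ i ih =>
    cases j with
    | zero => rw [h2, an2_dsum_zero_right]
    | succ j => rw [h3, an2_dsum_succ, ih]

/-- Euler operator in the first variable. -/
def an2_ts : Module.End ℝ (ℕ → ℕ → B) where
  toFun h := fun i j => (i : ℝ) • h i j
  map_add' a b := by ext i j; simp
  map_smul' r a := by ext i j; simp [smul_comm r]

/-- Euler operator in the second variable. -/
def an2_tt : Module.End ℝ (ℕ → ℕ → B) where
  toFun h := fun i j => (j : ℝ) • h i j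
  map_add' a b := by ext i j; simp
  map_smul' r a := by ext i j; simp [smul_comm r]

/-- Left multiplication. -/
def an2_L (x : B) : Module.End ℝ (ℕ → ℕ → B) where
  toFun h := fun i j => x * h i j
  map_add' a b := by ext i j; simp [mul_add]
  map_smul' r a := by ext i j; simp

/-- Right multiplication. -/
def an2_R (x : B) : Module.End ℝ (ℕ → ℕ → B) where
  toFun h := fun i j => h i j * x
  map_add' a b := by ext i j; simp [add_mul]
  map_smul' r a := by ext i j; simp

/-- Summation in the first index. -/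
def an2_sg : Module.End ℝ (ℕ → ℕ → B) where
  toFun h := fun i j => ∑ m ∈ range i, h m j
  map_add' a b := by ext i j; simp [sum_add_distrib]
  map_smul' r a := by ext i j; simp [smul_sum]

/-- Summation in the second index. -/
def an2_ta : Module.End ℝ (ℕ → ℕ → B) where
  toFun h := fun i j => ∑ m ∈ range j, h i m
  map_add' a b := by ext i j; simp [sum_add_distrib]
  map_smul' r a := by ext i j; simp [smul_sum]

/-- Diagonal summation. -/
def an2_pi : Module.End ℝ (ℕ → ℕ → B) where
  toFun h := dsum h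
  map_add' a b := by ext i j; simp [dsum, sum_add_distrib]
  map_smul' r a := by ext i j; simp [dsum, smul_sum]

theorem an2_ts_apply (h : ℕ → ℕ → B) (i j : ℕ) : an2_ts h i j = (i : ℝ) • h i j := rfl
theorem an2_tt_apply (h : ℕ → ℕ → B) (i j : ℕ) : an2_tt h i j = (j : ℝ) • h i j := rfl
theorem an2_L_apply (x : B) (h : ℕ → ℕ → B) (i j : ℕ) : an2_L x h i j = x * h i j := rfl
theorem an2_R_apply (x : B) (h : ℕ → ℕ → B) (i j : ℕ) : an2_R x h i j = h i j * x := rfl
theorem an2_sg_apply (h : ℕ → ℕ → B) (i j : ℕ) : an2_sg h i j = ∑ m ∈ range i, h m j := rfl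
theorem an2_ta_apply (h : ℕ → ℕ → B) (i j : ℕ) : an2_ta h i j = ∑ m ∈ range j, h i m := rfl
theorem an2_pi_apply (h : ℕ → ℕ → B) (i j : ℕ) : an2_pi h i j = dsum h i j := rfl

theorem an2_ext {f g : Module.End ℝ (ℕ → ℕ → B)} (H : ∀ h i j, f h i j = g h i j) : f = g :=
  LinearMap.ext fun h => funext fun i => funext fun j => H h i j

theorem an2_comm {f g : Module.End ℝ (ℕ → ℕ → B)} (H : ∀ h i j, f (g h) i j = g (f h) i j) :
    Commute f g := an2_ext H

theorem an2_ts_L (x : B) : Commute an2_ts (an2_L x) :=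
  an2_comm fun h i j => by simp [an2_ts_apply, an2_L_apply]

theorem an2_tt_L (x : B) : Commute an2_tt (an2_L x) :=
  an2_comm fun h i j => by simp [an2_tt_apply, an2_L_apply]

theorem an2_ts_R (x : B) : Commute an2_ts (an2_R x) :=
  an2_comm fun h i j => by simp [an2_ts_apply, an2_R_apply]

theorem an2_tt_R (x : B) : Commute an2_tt (an2_R x) :=
  an2_comm fun h i j => by simp [an2_tt_apply, an2_R_apply]

theorem an2_sg_L (x : B) : Commute an2_sg (an2_L x) :=
  an2_comm fun h i j => by simp [an2_sg_apply, an2_L_apply, mul_sum]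

theorem an2_ta_L (x : B) : Commute an2_ta (an2_L x) :=
  an2_comm fun h i j => by simp [an2_ta_apply, an2_L_apply, mul_sum]

theorem an2_pi_L (x : B) : Commute an2_pi (an2_L x) :=
  an2_comm fun h i j => by simp [an2_pi_apply, an2_L_apply, mul_sum, dsum]

theorem an2_sg_R (x : B) : Commute an2_sg (an2_R x) :=
  an2_comm fun h i j => by simp [an2_sg_apply, an2_R_apply, sum_mul]

theorem an2_ta_R (x : B) : Commute an2_ta (an2_R x) :=
  an2_comm fun h i j => by simp [an2_ta_apply, an2_R_apply, sum_mul]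

theorem an2_pi_R (x : B) : Commute an2_pi (an2_R x) :=
  an2_comm fun h i j => by simp [an2_pi_apply, an2_R_apply, sum_mul, dsum]

theorem an2_R_L (x y : B) : Commute (an2_R x) (an2_L y) :=
  an2_comm fun h i j => by simp [an2_R_apply, an2_L_apply, mul_assoc]

theorem an2_L_L {x y : B} (H : Commute x y) : Commute (an2_L x) (an2_L y) :=
  an2_comm fun h i j => by simp [an2_L_apply, ← mul_assoc, H.eq]

theorem an2_R_R {x y : B} (H : Commute x y) : Commute (an2_R x) (an2_R y) :=
  an2_comm fun h i j => by simp [an2_R_apply, mul_assoc, H.eq]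

theorem an2_ts_tt : Commute (an2_ts (B := B)) an2_tt :=
  an2_comm fun h i j => by simp [an2_ts_apply, an2_tt_apply, smul_comm (i : ℝ)]

theorem an2_ts_ta : Commute (an2_ts (B := B)) an2_ta :=
  an2_comm fun h i j => by simp [an2_ts_apply, an2_ta_apply, smul_sum]

theorem an2_tt_sg : Commute (an2_tt (B := B)) an2_sg :=
  an2_comm fun h i j => by simp [an2_tt_apply, an2_sg_apply, smul_sum]

theorem an2_sg_ta : Commute (an2_sg (B := B)) an2_ta :=
  an2_comm fun h i j => by
    simp only [an2_ta_apply, an2_sg_apply]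
    exact sum_comm

theorem an2_sg_pi : Commute (an2_sg (B := B)) an2_pi :=
  an2_comm fun h i j => by
    rw [an2_pi_apply]
    refine an2_dsum_eq (X := an2_sg (an2_pi h)) (fun j => ?_) (fun i => ?_) (fun i j => ?_) i j
    · simp [an2_sg_apply]
    · simp [an2_sg_apply, an2_pi_apply, an2_dsum_zero_right]
    · simp only [an2_sg_apply, an2_pi_apply]
      rw [sum_range_succ', an2_dsum_zero_left, add_zero, ← sum_add_distrib]
      exact sum_congr rfl fun m _ => an2_dsum_succ _ _ _

theorem an2_ta_pi : Commute (an2_ta (B := B)) an2_pi :=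
  an2_comm fun h i j => by
    rw [an2_pi_apply]
    refine an2_dsum_eq (X := an2_ta (an2_pi h)) (fun j => ?_) (fun i => ?_) (fun i j => ?_) i j
    · simp [an2_ta_apply, an2_pi_apply, an2_dsum_zero_left]
    · simp [an2_ta_apply]
    · simp only [an2_ta_apply, an2_pi_apply]
      rw [sum_range_succ', an2_dsum_zero_right, add_zero, ← sum_add_distrib]
      exact sum_congr rfl fun m _ => an2_dsum_succ _ _ _

theorem an2_sg_mul_ta :
    (an2_sg (B := B)) * an2_ta = an2_pi * (1 + an2_sg + an2_ta) :=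
  an2_ext fun h i j => by
    rw [Module.End.mul_apply, Module.End.mul_apply, an2_pi_apply]
    refine an2_dsum_eq (X := an2_sg (an2_ta h)) (fun j => ?_) (fun i => ?_) (fun i j => ?_) i j
    · simp [an2_sg_apply]
    · simp [an2_sg_apply, an2_ta_apply]
    · simp only [an2_sg_apply, an2_ta_apply, LinearMap.add_apply, Module.End.one_apply,
        Pi.add_apply, sum_range_succ, sum_add_distrib]
      abel

theorem an2_br_pi :
    br (an2_ts (B := B)) an2_pi = br an2_tt an2_pi := by
  refine an2_ext fun h i j => ?_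
  simp only [br, LinearMap.sub_apply, Module.End.mul_apply, Pi.sub_apply, an2_ts_apply,
    an2_tt_apply, an2_pi_apply]
  induction i generalizing j with
  | zero => simp [an2_dsum_zero_left]
  | succ i ih =>
    cases j with
    | zero => simp [an2_dsum_zero_right]
    | succ j =>
      simp only [an2_dsum_succ, an2_ts_apply, an2_tt_apply]
      have := ih j
      push_cast
      linear_combination (norm := module) this

theorem an2_br_L (x y : B) : br (an2_L x) (an2_L y) = an2_L (br x y) :=
  an2_ext fun h i j => by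
    simp [br, an2_L_apply, sub_mul, mul_assoc]

theorem an2_L_neg (x : B) : an2_L (-x) = -an2_L x :=
  an2_ext fun h i j => by simp [an2_L_apply]

theorem an2_L_sub (x y : B) : an2_L (x - y) = an2_L x - an2_L y :=
  an2_ext fun h i j => by simp [an2_L_apply, sub_mul]

/-- The first connection operator. -/
def an2_Ns (a e β : B) : Module.End ℝ (ℕ → ℕ → B) :=
  (an2_ts - an2_L a + an2_R a) + an2_L e * an2_sg + an2_L β * an2_pi

/-- The second connection operator. -/
def an2_Nt (c d β : B) : Module.End ℝ (ℕ → ℕ → B) :=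
  (an2_tt - an2_L c + an2_R c) + an2_L d * an2_ta + an2_L β * an2_pi

theorem an2_br_comm {E : Type} [Ring E] {x y : E} (h : Commute x y) : br x y = 0 :=
  sub_eq_zero.2 h.eq

theorem an2_flat {a b c d e : B} (hS : Sys a b c d e) :
    Commute (an2_Ns a e (b - d - e)) (an2_Nt c d (b - d - e)) := by
  have h1 : br e (b - d - e) = -br e d := by
    have := hS.be.eq
    unfold br
    linear_combination (norm := noncomm_ring) -this
  have h2 : br (b - d - e) d = -br e d := by
    have := hS.bd.eq
    unfold br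
    linear_combination (norm := noncomm_ring) this
  have h3 : br c (b - d - e) = br a (b - d - e) - br e d := by
    have e1 := hS.ad.eq
    have e2 := hS.ce.eq
    have e3 := hS.five
    unfold br at e3 ⊢
    linear_combination (norm := noncomm_ring) e1 - e2 - e3
  have h0 : br (an2_ts - an2_L a + an2_R a) (an2_tt - an2_L c + an2_R c) = 0 := by
    refine an2_br_comm ?_
    refine Commute.add_left (Commute.sub_left ?_ ?_) ?_ <;>
      refine Commute.add_right (Commute.sub_right ?_ ?_) ?_
    exacts [an2_ts_tt, an2_ts_L c, an2_ts_R c, (an2_tt_L a).symm, an2_L_L hS.ac,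
      (an2_R_L c a).symm, (an2_tt_R a).symm, an2_R_L a c, an2_R_R hS.ac]
  refine sub_eq_zero.1 ?_
  change br (an2_Ns a e (b - d - e)) (an2_Nt c d (b - d - e)) = 0
  unfold an2_Ns an2_Nt
  rw [an2_br_expand, h0, an2_brD (an2_ts_L d) (an2_ta_L a) (an2_ta_R a) (an2_R_L a d),
    an2_brD (an2_ts_L _) (an2_pi_L a) (an2_pi_R a) (an2_R_L a _),
    an2_brD (an2_tt_L e) (an2_sg_L c) (an2_sg_R c) (an2_R_L c e),
    an2_brD (an2_tt_L _) (an2_pi_L c) (an2_pi_R c) (an2_R_L c _),
    an2_brX (an2_sg_L d) (an2_ta_L e) an2_sg_ta,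
    an2_brX (an2_sg_L _) (an2_pi_L e) an2_sg_pi,
    an2_brX (an2_pi_L d) (an2_ta_L _) an2_ta_pi.symm,
    an2_br_comm (Commute.refl (an2_L (b - d - e) * an2_pi)),
    an2_br_comm (an2_ts_ta (B := B)), an2_br_comm (an2_tt_sg (B := B)), an2_br_pi]
  simp only [an2_br_L]
  rw [h1, h2, h3, an2_br_comm hS.ad, an2_br_comm hS.ce, an2_L_neg, an2_L_sub (br a _),
    an2_sg_mul_ta,
    an2_sg_pi.eq]
  have z : an2_L (0 : B) = 0 := an2_ext fun h i j => by simp [an2_L_apply]
  rw [z]
  exact an2_final _ _ _ _ _ _ _ _ _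

theorem an2_Ns_apply (a e β : B) (h : ℕ → ℕ → B) (i j : ℕ) :
    an2_Ns a e β h i j = (i : ℝ) • h i j - br a (h i j) + e * ∑ m ∈ range i, h m j +
      β * dsum h i j := by
  simp only [an2_Ns, LinearMap.add_apply, LinearMap.sub_apply, Module.End.mul_apply, Pi.add_apply,
    Pi.sub_apply, an2_ts_apply, an2_L_apply, an2_R_apply, an2_sg_apply, an2_pi_apply, br]
  abel

theorem an2_Nt_apply (c d β : B) (h : ℕ → ℕ → B) (i j : ℕ) :
    an2_Nt c d β h i j = (j : ℝ) • h i j - br c (h i j) + d * ∑ m ∈ range j, h i m +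
      β * dsum h i j := by
  simp only [an2_Nt, LinearMap.add_apply, LinearMap.sub_apply, Module.End.mul_apply, Pi.add_apply,
    Pi.sub_apply, an2_tt_apply, an2_L_apply, an2_R_apply, an2_ta_apply, an2_pi_apply, br]
  abel

theorem an2_isSol_iff {a c d e β : B} {h : ℕ → ℕ → B} (h0 : h 0 0 = 1) :
    IsSol a c d e β h ↔ (an2_Ns a e β + an2_Nt c d β) h = 0 := by
  have key : ∀ i j : ℕ, (an2_Ns a e β + an2_Nt c d β) h i j =
      (((i + j : ℕ) : ℝ) • h i j - br (a + c) (h i j)) -
      (-(e * ∑ m ∈ range i, h m j) - d * ∑ m ∈ range j, h i m - (2 : ℝ) • (β * dsum h i j)) := by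
    intro i j
    rw [LinearMap.add_apply, Pi.add_apply, Pi.add_apply, an2_Ns_apply, an2_Nt_apply]
    unfold br
    rw [add_mul, mul_add]
    push_cast
    module
  constructor
  · intro H
    funext i j
    rw [key]
    rcases Nat.eq_zero_or_pos (i + j) with h1 | h1
    · obtain rfl : i = 0 := by omega
      obtain rfl : j = 0 := by omega
      simp [h0, br, dsum]
    · rw [H.2 i j h1, sub_self]
      rfl
  · intro H
    refine ⟨h0, fun i j _ => sub_eq_zero.1 ?_⟩
    rw [← key, H]
    rfl

variable [CompleteSpace B] [NormOneClass B]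

/-- Flatness: the summed equation implies the two separate equations. -/
theorem pde_of_isSol {a b c d e : B} (hS : Sys a b c d e) (ha : Sm a) (hcc : Sm c)
    {h : ℕ → ℕ → B} (H : IsSol a c d e (b - d - e) h) :
    PdeS a e (b - d - e) h ∧ PdeT c d (b - d - e) h := by
  have h1 := (an2_isSol_iff H.1).1 H
  have hc : Commute (an2_Ns a e (b - d - e) + an2_Nt c d (b - d - e)) (an2_Ns a e (b - d - e)) :=
    (Commute.refl _).add_left (an2_flat hS).symm
  have h2 : (an2_Ns a e (b - d - e) + an2_Nt c d (b - d - e)) (an2_Ns a e (b - d - e) h) = 0 := by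
    rw [← Module.End.mul_apply, hc.eq, Module.End.mul_apply, h1, map_zero]
  have h3 : (h + an2_Ns a e (b - d - e) h) 0 0 = 1 := by
    rw [Pi.add_apply, Pi.add_apply, an2_Ns_apply, H.1]
    simp [br, dsum]
  have h4 : IsSol a c d e (b - d - e) (h + an2_Ns a e (b - d - e) h) := by
    rw [an2_isSol_iff h3, map_add, h1, h2, add_zero]
  have h5 : an2_Ns a e (b - d - e) h = 0 := by
    have := isSol_unique ha hcc h4 H
    simpa using this
  have h6 : an2_Nt c d (b - d - e) h = 0 := by
    rwa [LinearMap.add_apply, h5, zero_add] at h1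
  constructor
  · intro i j
    have := congrFun (congrFun h5 i) j
    rw [an2_Ns_apply, Pi.zero_apply, Pi.zero_apply] at this
    rw [← sub_eq_zero, ← this]
    abel
  · intro i j
    have := congrFun (congrFun h6 i) j
    rw [an2_Nt_apply, Pi.zero_apply, Pi.zero_apply] at this
    rw [← sub_eq_zero, ← this]
    abel

end Vale.Agent.P029
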