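import Vale.Agent.P029.ADefs

noncomputable section

namespace Vale.Agent.P029

variable {B : Type} [NormedRing B] [NormedAlgebra ℝ B] [CompleteSpace B] [NormOneClass B]

/-- The ratio of the dominating geometric series. -/
def an3q : ℝ := 693 / 1000

/-- The dominating series for the derivatives. -/
def an3u (p : ℕ × ℕ) : ℝ :=
  2 * ((p.1 * an3q ^ p.1) * an3q ^ p.2) + 2 * (an3q ^ p.1 * (p.2 * an3q ^ p.2))

theorem an3_rr : 0 ≤ rr := by norm_num [rr]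

theorem an3_q0 : 0 ≤ an3q := by norm_num [an3q]

theorem an3_q1 : an3q < 1 := by norm_num [an3q]

theorem an3_mul (i j : ℕ) : rr ^ i * rr ^ j * (11 / 10 : ℝ) ^ (i + j) = an3q ^ i * an3q ^ j := by
  have : an3q = rr * (11 / 10) := by norm_num [an3q, rr]
  rw [this, mul_pow, mul_pow, pow_add]
  ring

theorem an3_geo : HasSum (fun p : ℕ × ℕ => an3q ^ p.1 * an3q ^ p.2)
    ((1 - an3q)⁻¹ * (1 - an3q)⁻¹) := by
  have h := hasSum_geometric_of_lt_one an3_q0 an3_q1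
  exact h.mul h (h.summable.mul_of_nonneg h.summable (fun i => pow_nonneg an3_q0 i)
    (fun i => pow_nonneg an3_q0 i))

theorem an3_u : Summable an3u := by
  have h := summable_geometric_of_lt_one an3_q0 an3_q1
  have h' : Summable fun n : ℕ => (n : ℝ) * an3q ^ n := by
    have := summable_pow_mul_geometric_of_norm_lt_one 1 (r := an3q)
      (by rw [Real.norm_eq_abs, abs_of_nonneg an3_q0]; exact an3_q1)
    simpa using this
  have p1 : ∀ i : ℕ, 0 ≤ an3q ^ i := fun i => pow_nonneg an3_q0 i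
  have p2 : ∀ i : ℕ, 0 ≤ (i : ℝ) * an3q ^ i := fun i => mul_nonneg (Nat.cast_nonneg i) (p1 i)
  exact ((h'.mul_of_nonneg h p2 p1).mul_left 2).add ((h.mul_of_nonneg h' p1 p2).mul_left 2)

theorem an3_bd {h : ℕ → ℕ → B} (hb : Bd h) (i j : ℕ) : ‖h i j‖ ≤ (11 / 10 : ℝ) ^ (i + j) := by
  rcases Nat.eq_zero_or_pos (i + j) with h0 | h0
  · obtain ⟨rfl, rfl⟩ : i = 0 ∧ j = 0 := by omega
    rw [hb.1, norm_one]
    simp
  · have := hb.2 i j h0
    have h1 : 0 ≤ (11 / 10 : ℝ) ^ (i + j) := by positivity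
    linarith

theorem an3_pw {s : ℝ} (hs : |s| ≤ rr) (i : ℕ) : |s ^ i| ≤ rr ^ i := by
  rw [abs_pow]
  exact pow_le_pow_left₀ (abs_nonneg _) hs i

theorem an3_pm (i : ℕ) : (i : ℝ) * rr ^ (i - 1) ≤ 2 * (i * rr ^ i) := by
  rcases i with _ | i
  · simp
  · have h1 : 0 ≤ ((i + 1 : ℕ) : ℝ) * rr ^ i := mul_nonneg (Nat.cast_nonneg _) (pow_nonneg an3_rr i)
    have h2 : (1 : ℝ) ≤ 2 * rr := by norm_num [rr]
    rw [Nat.add_sub_cancel, pow_succ]
    nlinarith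

theorem an3_dw {s : ℝ} (hs : |s| ≤ rr) (i : ℕ) : |(i : ℝ) * s ^ (i - 1)| ≤ 2 * (i * rr ^ i) := by
  rw [abs_mul, Nat.abs_cast]
  exact (mul_le_mul_of_nonneg_left (an3_pw hs _) (Nat.cast_nonneg _)).trans (an3_pm i)

theorem an3_sub {s s' : ℝ} (hs : |s| ≤ rr) (hs' : |s'| ≤ rr) (i : ℕ) :
    |s ^ i - s' ^ i| ≤ |s - s'| * (2 * (i * rr ^ i)) := by
  refine (abs_pow_sub_pow_le s s' i).trans ?_
  rw [mul_assoc]
  refine mul_le_mul_of_nonneg_left (le_trans ?_ (an3_pm i)) (abs_nonneg _)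
  exact mul_le_mul_of_nonneg_left
    (pow_le_pow_left₀ (le_max_of_le_left (abs_nonneg _)) (max_le hs hs') _) (Nat.cast_nonneg _)

theorem an3_sm {h : ℕ → ℕ → B} (hb : Bd h) {c M : ℝ} {i j : ℕ} (hc : |c| ≤ M * (rr ^ i * rr ^ j)) :
    ‖c • h i j‖ ≤ M * (an3q ^ i * an3q ^ j) := by
  rw [norm_smul, Real.norm_eq_abs, ← an3_mul, ← mul_assoc]
  exact mul_le_mul hc (an3_bd hb i j) (norm_nonneg _) ((abs_nonneg _).trans hc)

theorem an3_st {s t : ℝ} (hs : |s| ≤ rr) (ht : |t| ≤ rr) (i j : ℕ) :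
    |s ^ i * t ^ j| ≤ rr ^ i * rr ^ j := by
  rw [abs_mul]
  exact mul_le_mul (an3_pw hs i) (an3_pw ht j) (abs_nonneg _) (pow_nonneg an3_rr i)

theorem an3_sum {h : ℕ → ℕ → B} (hb : Bd h) {s t : ℝ} (hs : |s| ≤ rr) (ht : |t| ≤ rr) :
    Summable fun p : ℕ × ℕ => (s ^ p.1 * t ^ p.2) • h p.1 p.2 :=
  Summable.of_norm_bounded (an3_geo.summable.mul_left 1) fun p =>
    an3_sm hb (by rw [one_mul]; exact an3_st hs ht _ _)

theorem an3_a {s t : ℝ} (hs : |s| ≤ rr) (ht : |t| ≤ rr) (i j : ℕ) :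
    |(i : ℝ) * s ^ (i - 1) * t ^ j| ≤ 2 * i * (rr ^ i * rr ^ j) := by
  rw [abs_mul]
  refine (mul_le_mul (an3_dw hs i) (an3_pw ht j) (abs_nonneg _)
    ((abs_nonneg _).trans (an3_dw hs i))).trans (le_of_eq ?_)
  ring

theorem an3_b {s t : ℝ} (hs : |s| ≤ rr) (ht : |t| ≤ rr) (i j : ℕ) :
    |(j : ℝ) * s ^ i * t ^ (j - 1)| ≤ 2 * j * (rr ^ i * rr ^ j) := by
  have := an3_a ht hs j i
  rwa [mul_right_comm, mul_comm (rr ^ j)] at this

theorem an3_ua (p : ℕ × ℕ) : 2 * p.1 * (an3q ^ p.1 * an3q ^ p.2) ≤ an3u p ∧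
    2 * p.2 * (an3q ^ p.1 * an3q ^ p.2) ≤ an3u p ∧
    (2 * p.1 + 2 * p.2) * (an3q ^ p.1 * an3q ^ p.2) = an3u p := by
  have h0 := mul_nonneg (pow_nonneg an3_q0 p.1) (pow_nonneg an3_q0 p.2)
  have h1 := mul_nonneg (Nat.cast_nonneg (α := ℝ) p.1) h0
  have h2 := mul_nonneg (Nat.cast_nonneg (α := ℝ) p.2) h0
  unfold an3u
  refine ⟨by linarith, by linarith, by ring⟩

theorem Hf_near {h : ℕ → ℕ → B} (hb : Bd h) {s t : ℝ} (hs : |s| ≤ rr) (ht : |t| ≤ rr) :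
    ‖Hf h s t - 1‖ ≤ 1 / 2 := by
  have h1 := (an3_sum hb hs ht).tsum_eq_add_tsum_ite (0, 0)
  simp only [pow_zero, mul_one, one_smul, hb.1] at h1
  rw [Hf, h1, add_sub_cancel_left]
  refine (tsum_of_norm_bounded (an3_geo.mul_left (2 / 125)) fun p => ?_).trans
    (by norm_num [an3q])
  have h0 := mul_nonneg (pow_nonneg an3_q0 p.1) (pow_nonneg an3_q0 p.2)
  split_ifs with hp
  · rw [norm_zero]
    positivity
  · have h2 : 0 < p.1 + p.2 := by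
      rcases p with ⟨i, j⟩
      simp only [Prod.mk.injEq] at hp ⊢
      omega
    rw [norm_smul, Real.norm_eq_abs, ← an3_mul]
    refine (mul_le_mul (an3_st hs ht _ _) (hb.2 _ _ h2) (norm_nonneg _)
      ((abs_nonneg _).trans (an3_st hs ht _ _))).trans (le_of_eq ?_)
    ring

theorem Hf_isUnit {h : ℕ → ℕ → B} (hb : Bd h) {s t : ℝ} (hs : |s| ≤ rr) (ht : |t| ≤ rr) :
    IsUnit (Hf h s t) ∧ ‖Ring.inverse (Hf h s t)‖ ≤ 2 := by
  have h1 : ‖1 - Hf h s t‖ ≤ 1 / 2 := by rw [norm_sub_rev]; exact Hf_near hb hs ht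
  have h2 : IsUnit (Hf h s t) := by
    have := (Units.oneSub (1 - Hf h s t) (by linarith)).isUnit
    rwa [Units.val_oneSub, sub_sub_cancel] at this
  refine ⟨h2, ?_⟩
  have h3 : Ring.inverse (Hf h s t) = 1 + Ring.inverse (Hf h s t) * (1 - Hf h s t) := by
    rw [mul_sub, Ring.inverse_mul_cancel _ h2, mul_one, add_sub_cancel]
  have h4 := norm_add_le (1 : B) (Ring.inverse (Hf h s t) * (1 - Hf h s t))
  rw [← h3, norm_one] at h4
  have h5 := (norm_mul_le (Ring.inverse (Hf h s t)) (1 - Hf h s t)).trans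
    (mul_le_mul_of_nonneg_left h1 (norm_nonneg _))
  linarith

theorem Hf_lip {h : ℕ → ℕ → B} (hb : Bd h) : ∃ C : ℝ, 0 ≤ C ∧ ∀ s t s' t' : ℝ, |s| ≤ rr →
    |t| ≤ rr → |s'| ≤ rr → |t'| ≤ rr → ‖Hf h s t - Hf h s' t'‖ ≤ C * (|s - s'| + |t - t'|) := by
  refine ⟨∑' p, an3u p, tsum_nonneg fun p => ?_, fun s t s' t' hs ht hs' ht' => ?_⟩
  · rw [← (an3_ua p).2.2]
    have := an3_q0
    positivity
  rw [Hf, Hf, ← (an3_sum hb hs ht).tsum_sub (an3_sum hb hs' ht')]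
  refine tsum_of_norm_bounded (an3_u.hasSum.mul_right _) fun p => ?_
  rw [← sub_smul, ← (an3_ua p).2.2, mul_right_comm]
  refine an3_sm hb ?_
  obtain ⟨i, j⟩ := p
  have e : s ^ i * t ^ j - s' ^ i * t' ^ j =
      (s ^ i - s' ^ i) * t ^ j + s' ^ i * (t ^ j - t' ^ j) := by ring
  have a1 := mul_le_mul (an3_sub hs hs' i) (an3_pw ht j) (abs_nonneg _)
    ((abs_nonneg _).trans (an3_sub hs hs' i))
  have a2 := mul_le_mul (an3_pw hs' i) (an3_sub ht ht' j) (abs_nonneg _) (pow_nonneg an3_rr i)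
  have h0 := mul_nonneg (pow_nonneg an3_rr i) (pow_nonneg an3_rr j)
  have a3 := mul_nonneg (mul_nonneg (Nat.cast_nonneg (α := ℝ) i) (abs_nonneg (t - t'))) h0
  have a4 := mul_nonneg (mul_nonneg (Nat.cast_nonneg (α := ℝ) j) (abs_nonneg (s - s'))) h0
  simp only []
  rw [e]
  refine (abs_add_le _ _).trans ?_
  rw [abs_mul, abs_mul]
  linarith

theorem Hf_zero {h : ℕ → ℕ → B} (hb : Bd h) : Hf h 0 0 = 1 := by
  rw [Hf, tsum_eq_single (0, 0)]
  · simp [hb.1]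
  · rintro ⟨i, j⟩ hp
    rcases i with _ | i
    · rcases j with _ | j
      · exact absurd rfl hp
      · simp
    · simp

theorem Hf_row {h : ℕ → ℕ → B} (hb : Bd h) {s : ℝ} (hs : |s| ≤ rr) :
    HasSum (fun i => s ^ i • h i 0) (Hf h s 0) := by
  have h1 := (an3_sum hb hs (t := 0) (by rw [abs_zero]; exact an3_rr)).hasSum
  have h2 : Function.Injective fun i : ℕ => (i, 0) := fun a b hab => (Prod.mk.inj hab).1
  rw [← h2.hasSum_iff] at h1
  · simpa [Function.comp_def, Hf] using h1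
  · rintro ⟨i, j⟩ hp
    rcases j with _ | j
    · exact absurd ⟨i, rfl⟩ hp
    · simp

theorem Hf_col {h : ℕ → ℕ → B} (hb : Bd h) {t : ℝ} (ht : |t| ≤ rr) :
    HasSum (fun j => t ^ j • h 0 j) (Hf h 0 t) := by
  have h1 := (an3_sum hb (s := 0) (by rw [abs_zero]; exact an3_rr) ht).hasSum
  have h2 : Function.Injective fun j : ℕ => (0, j) := fun a b hab => (Prod.mk.inj hab).2
  rw [← h2.hasSum_iff] at h1
  · simpa [Function.comp_def, Hf] using h1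
  · rintro ⟨i, j⟩ hp
    rcases i with _ | i
    · exact absurd ⟨j, rfl⟩ hp
    · simp

/-- The derivative of one term. -/
def an3d (h : ℕ → ℕ → B) (p : ℕ × ℕ) (x : ℝ × ℝ) : ℝ × ℝ →L[ℝ] B :=
  (ContinuousLinearMap.fst ℝ ℝ ℝ).smulRight (((p.1 : ℝ) * x.1 ^ (p.1 - 1) * x.2 ^ p.2) • h p.1 p.2) +
    (ContinuousLinearMap.snd ℝ ℝ ℝ).smulRight
      (((p.2 : ℝ) * x.1 ^ p.1 * x.2 ^ (p.2 - 1)) • h p.1 p.2)

theorem an3_fd (h : ℕ → ℕ → B) (p : ℕ × ℕ) (x : ℝ × ℝ) :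
    HasFDerivAt (fun y : ℝ × ℝ => (y.1 ^ p.1 * y.2 ^ p.2) • h p.1 p.2) (an3d h p x) x := by
  have h1 := (hasDerivAt_pow p.1 x.1).comp_hasFDerivAt x (hasFDerivAt_fst (𝕜 := ℝ) (p := x))
  have h2 := (hasDerivAt_pow p.2 x.2).comp_hasFDerivAt x (hasFDerivAt_snd (𝕜 := ℝ) (p := x))
  refine ((h1.mul h2).smul_const (h p.1 p.2)).congr_fderiv ?_
  refine ContinuousLinearMap.ext fun v => ?_
  simp only [an3d, ContinuousLinearMap.smulRight_apply, add_apply,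
    smul_apply, ContinuousLinearMap.coe_fst', ContinuousLinearMap.coe_snd',
    smul_eq_mul, Function.comp_apply, smul_smul, ← add_smul]
  congr 1
  ring

theorem an3_nd {h : ℕ → ℕ → B} (hb : Bd h) (p : ℕ × ℕ) {x : ℝ × ℝ} (hs : |x.1| ≤ rr)
    (ht : |x.2| ≤ rr) : ‖an3d h p x‖ ≤ an3u p := by
  rw [← (an3_ua p).2.2, add_mul]
  refine (norm_add_le _ _).trans (add_le_add ?_ ?_)
  · rw [ContinuousLinearMap.norm_smulRight_apply]
    exact (mul_le_of_le_one_left (norm_nonneg _) (ContinuousLinearMap.norm_fst_le _ _ _)).trans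
      (an3_sm hb (an3_a hs ht _ _))
  · rw [ContinuousLinearMap.norm_smulRight_apply]
    exact (mul_le_of_le_one_left (norm_nonneg _) (ContinuousLinearMap.norm_snd_le _ _ _)).trans
      (an3_sm hb (an3_b hs ht _ _))

theorem Hf_hasDerivAt {h : ℕ → ℕ → B} (hb : Bd h) {σ τ : ℝ → ℝ} {u σ' τ' : ℝ}
    (hσ : HasDerivAt σ σ' u) (hτ : HasDerivAt τ τ' u) (hs : |σ u| < rr) (ht : |τ u| < rr) :
    HasDerivAt (fun v => Hf h (σ v) (τ v))
      (σ' • Hs h (σ u) (τ u) + τ' • Ht h (σ u) (τ u)) u := by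
  have hx : (σ u, τ u) ∈ Set.Ioo (-rr) rr ×ˢ Set.Ioo (-rr) rr := ⟨abs_lt.1 hs, abs_lt.1 ht⟩
  have h1 := hasFDerivAt_tsum_of_isPreconnected an3_u (isOpen_Ioo.prod isOpen_Ioo)
    (isPreconnected_Ioo.prod isPreconnected_Ioo) (fun p x _ => an3_fd h p x)
    (fun p x hx => an3_nd hb p (abs_lt.2 hx.1).le (abs_lt.2 hx.2).le) hx
    (an3_sum hb hs.le ht.le) hx
  refine (h1.comp_hasDerivAt u (hσ.prodMk hτ)).congr_deriv ?_
  have s0 : Summable fun p => an3d h p (σ u, τ u) :=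
    Summable.of_norm_bounded an3_u fun p => an3_nd hb p hs.le ht.le
  have s1 : Summable fun p : ℕ × ℕ => ((p.1 : ℝ) * σ u ^ (p.1 - 1) * τ u ^ p.2) • h p.1 p.2 :=
    Summable.of_norm_bounded an3_u fun p =>
      (an3_sm hb (an3_a hs.le ht.le _ _)).trans (an3_ua p).1
  have s2 : Summable fun p : ℕ × ℕ => ((p.2 : ℝ) * σ u ^ p.1 * τ u ^ (p.2 - 1)) • h p.1 p.2 :=
    Summable.of_norm_bounded an3_u fun p =>
      (an3_sm hb (an3_b hs.le ht.le _ _)).trans (an3_ua p).2.1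
  exact ((ContinuousLinearMap.apply ℝ B (σ', τ')).hasSum s0.hasSum).unique
    ((s1.hasSum.const_smul σ').add (s2.hasSum.const_smul τ'))

end Vale.Agent.P029
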