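import Vale.Agent.P029.ADefs

noncomputable section

namespace Vale.Agent.P029

variable {B : Type} [NormedRing B] [NormedAlgebra ℝ B] [CompleteSpace B] [NormOneClass B]

theorem an3b_sum {g : ℕ → ℕ → B} {C : ℝ} (hg : ∀ i j, ‖g i j‖ ≤ C * (3 / 2) ^ (i + j)) {s t : ℝ}
    (hs : |s| ≤ rr) (ht : |t| ≤ rr) :
    HasSum (fun p : ℕ × ℕ => (s ^ p.1 * t ^ p.2) • g p.1 p.2) (Hf g s t) := by
  have h0 : Summable fun i : ℕ => (rr * (3 / 2)) ^ i :=
    summable_geometric_of_lt_one (by norm_num [rr]) (by norm_num [rr])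
  have hp : ∀ i : ℕ, 0 ≤ (rr * (3 / 2)) ^ i := fun i => pow_nonneg (by norm_num [rr]) i
  refine (Summable.of_norm_bounded ((h0.mul_of_nonneg h0 hp hp).mul_left C) fun p => ?_).hasSum
  have hr : 0 ≤ rr := (abs_nonneg _).trans hs
  rw [norm_smul, Real.norm_eq_abs, abs_mul, abs_pow, abs_pow]
  calc _ ≤ rr ^ p.1 * rr ^ p.2 * (C * (3 / 2) ^ (p.1 + p.2)) := by
        have := hg p.1 p.2
        gcongr
    _ = _ := by
        rw [mul_pow, mul_pow, pow_add]
        ring

theorem an3b_shift {g h : ℕ → ℕ → B} {s t : ℝ} (u v : ℕ)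
    (h1 : HasSum (fun p : ℕ × ℕ => (s ^ p.1 * t ^ p.2) • g p.1 p.2) (Hf g s t))
    (h2 : HasSum (fun p : ℕ × ℕ => (s ^ p.1 * t ^ p.2) • h p.1 p.2) (Hf h s t))
    (h0 : ∀ i j, i < u ∨ j < v → g i j = 0) (hr : ∀ i j, g (i + u) (j + v) = g i j + h i j)
    (hx : s ^ u * t ^ v < 1) :
    Hf g s t = (s ^ u * t ^ v / (1 - s ^ u * t ^ v)) • Hf h s t := by
  have hi : Function.Injective fun p : ℕ × ℕ => (p.1 + u, p.2 + v) := fun p q hpq => by
    simpa [Prod.ext_iff] using hpq
  have h3 := (hi.hasSum_iff fun p hp => by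
    have : p.1 < u ∨ p.2 < v := by
      by_contra hn
      exact hp ⟨(p.1 - u, p.2 - v), Prod.ext (by simp only; omega) (by simp only; omega)⟩
    rw [h0 _ _ this, smul_zero]).2 h1
  have h4 : Hf g s t = (s ^ u * t ^ v) • (Hf g s t + Hf h s t) := by
    refine h3.unique (((h1.add h2).const_smul (s ^ u * t ^ v)).congr_fun fun p => ?_)
    simp only [Function.comp, hr, ← smul_add, smul_smul, pow_add]
    congr 1
    ring
  have h5 : 1 - s ^ u * t ^ v ≠ 0 := by linarith [hx] |> fun h : 0 < 1 - s ^ u * t ^ v => h.ne'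
  have h6 : (1 - s ^ u * t ^ v) • Hf g s t = (s ^ u * t ^ v) • Hf h s t := by
    rw [sub_smul, one_smul, sub_eq_iff_eq_add', ← smul_add]
    exact h4
  rw [div_eq_inv_mul, mul_smul, ← h6, inv_smul_smul₀ h5]

theorem an3b_dsum (h : ℕ → ℕ → B) (i j : ℕ) : dsum h (i + 1) (j + 1) = dsum h i j + h i j := by
  unfold dsum
  rw [Nat.succ_min_succ, Finset.sum_range_succ']
  simp only [Nat.add_sub_cancel, Nat.sub_zero, Nat.sub_sub, add_comm 1]

theorem Hs_pde {a e β : B} {h : ℕ → ℕ → B} (hb : Bd h) (H : PdeS a e β h) {s t : ℝ}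
    (hs : |s| ≤ rr) (ht : |t| ≤ rr) :
    s • Hs h s t = br a (Hf h s t) -
      ((s / (1 - s)) • e + (s * t / (1 - s * t)) • β) * Hf h s t := by
  have b0 : ∀ i j, ‖h i j‖ ≤ 1 * (3 / 2) ^ (i + j) := fun i j => by
    rcases Nat.eq_zero_or_pos (i + j) with h0 | h0
    · obtain ⟨rfl, rfl⟩ := Nat.add_eq_zero_iff.1 h0
      simp [hb.1]
    · refine (hb.2 i j h0).trans ?_
      exact mul_le_mul (by norm_num) (pow_le_pow_left₀ (by norm_num) (by norm_num) _)
        (by positivity) (by norm_num)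
  have b1 : ∀ i j, ‖∑ m ∈ Finset.range i, h m j‖ ≤ 2 * (3 / 2) ^ (i + j) := fun i j => by
    induction i with
    | zero => simp; positivity
    | succ i ih =>
      rw [Finset.sum_range_succ, add_right_comm, pow_succ]
      linarith [norm_add_le (∑ m ∈ Finset.range i, h m j) (h i j), b0 i j]
  have z : ∀ i j, i < 1 ∨ j < 1 → dsum h i j = 0 := fun i j hij => by
    have : min i j = 0 := by omega
    simp [dsum, this]
  have b2 : ∀ i j, ‖dsum h i j‖ ≤ 1 * (3 / 2) ^ (i + j) := fun i => by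
    induction i with
    | zero => exact fun j => by simp [z]; positivity
    | succ i ih =>
      intro j
      cases j with
      | zero => simp [z]; positivity
      | succ j =>
        have hp : (0 : ℝ) ≤ (3 / 2) ^ (i + j) := by positivity
        rw [an3b_dsum, show i + 1 + (j + 1) = i + j + 1 + 1 by ring, pow_succ, pow_succ]
        linarith [norm_add_le (dsum h i j) (h i j), b0 i j, ih j]
  have s0 := an3b_sum b0 hs ht
  have s1 := an3b_sum (g := fun i j => ∑ m ∈ Finset.range i, h m j) b1 hs ht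
  have s2 := an3b_sum b2 hs ht
  have r1 : rr < 1 := by norm_num [rr]
  have e1 := an3b_shift 1 0 s1 s0 (fun i j hij => by
    have : i = 0 := by omega
    simp [this]) (fun i j => Finset.sum_range_succ _ _)
    (by simpa using (le_abs_self s).trans_lt (hs.trans_lt r1))
  have e2 := an3b_shift 1 1 s2 s0 z (an3b_dsum h) (by
    rw [pow_one, pow_one]
    refine (le_abs_self _).trans_lt ?_
    rw [abs_mul]
    exact mul_lt_one_of_nonneg_of_lt_one_left (abs_nonneg _) (hs.trans_lt r1) (ht.trans r1.le))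
  simp only [pow_one, pow_zero, mul_one] at e1 e2
  have s3 := (((s0.mul_left a).sub (s0.mul_right a)).sub (s1.mul_left e)).sub (s2.mul_left β)
  rw [e1, e2] at s3
  rw [Hs, ← tsum_const_smul'' s, add_mul, smul_mul_assoc, smul_mul_assoc, ← mul_smul_comm,
    ← mul_smul_comm, ← sub_sub, br, ← s3.tsum_eq]
  refine tsum_congr fun p => ?_
  have e3 : s * (p.1 * s ^ (p.1 - 1) * t ^ p.2) = s ^ p.1 * t ^ p.2 * p.1 := by
    cases p.1 with
    | zero => simp
    | succ i =>
      rw [Nat.add_sub_cancel, pow_succ]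
      ring
  rw [smul_smul, e3, mul_smul, sub_eq_iff_eq_add.1 (H p.1 p.2), br]
  simp only [mul_smul_comm, smul_mul_assoc, smul_add, smul_sub, smul_neg]
  abel

theorem Ht_pde {c d β : B} {h : ℕ → ℕ → B} (hb : Bd h) (H : PdeT c d β h) {s t : ℝ}
    (hs : |s| ≤ rr) (ht : |t| ≤ rr) :
    t • Ht h s t = br c (Hf h s t) -
      ((t / (1 - t)) • d + (s * t / (1 - s * t)) • β) * Hf h s t := by
  have h1 := Hs_pde (a := c) (e := d) (β := β) (h := fun i j => h j i)
    ⟨hb.1, fun i j hij => by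
      rw [add_comm] at hij ⊢
      exact hb.2 j i hij⟩
    (fun i j => by
      have := H j i
      rwa [dsum, min_comm] at this) ht hs
  have e1 : Hf (fun i j => h j i) t s = Hf h s t := by
    rw [Hf, Hf, ← (Equiv.prodComm ℕ ℕ).tsum_eq]
    exact tsum_congr fun p => by rw [mul_comm]; rfl
  have e2 : Hs (fun i j => h j i) t s = Ht h s t := by
    rw [Hs, Ht, ← (Equiv.prodComm ℕ ℕ).tsum_eq]
    exact tsum_congr fun p => by rw [mul_right_comm]; rfl
  rwa [e1, e2, mul_comm t s] at h1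

end Vale.Agent.P029
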