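import Vale.Agent.P029.An1
import Vale.Agent.P029.An2
import Vale.Agent.P029.An3
import Vale.Agent.P029.An3b

noncomputable section

namespace Vale.Agent.P029

variable {B : Type} [NormedRing B] [NormedAlgebra ℝ B] [CompleteSpace B] [NormOneClass B]

theorem s0_bounds : 3 / 5 < s0 ∧ s0 < 31 / 50 ∧ s0 * s0 = 1 - s0 := by
  have h5 : Real.sqrt 5 * Real.sqrt 5 = 5 := Real.mul_self_sqrt (by norm_num)
  have h0 : 0 ≤ Real.sqrt 5 := Real.sqrt_nonneg 5
  unfold s0
  refine ⟨?_, ?_, ?_⟩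
  · nlinarith
  · nlinarith
  · nlinarith

theorem pw_hasDerivAt (a : B) {σ : ℝ → ℝ} {u σ' : ℝ} (hσ : HasDerivAt σ σ' u) (h0 : 0 < σ u) :
    HasDerivAt (fun v => pw (σ v) a) ((σ' / σ u) • (a * pw (σ u) a)) u := by
  have h1 : HasDerivAt (fun v => Real.log (σ v)) (σ' / σ u) u := hσ.log h0.ne'
  have h2 := hasDerivAt_exp_smul_const' (𝕂 := ℝ) a (Real.log (σ u))
  exact h2.scomp u h1

theorem pw_commute {z a : B} (h : Commute z a) (s : ℝ) : Commute z (pw s a) := by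
  unfold pw
  exact (h.smul_right _).exp_right

theorem an4_exp_add {x y : B} (h : Commute x y) :
    NormedSpace.exp (x + y) = NormedSpace.exp x * NormedSpace.exp y :=
  NormedSpace.exp_add_of_commute_of_mem_ball (𝕂 := ℝ) h
    ((NormedSpace.expSeries_radius_eq_top ℝ B).symm ▸ edist_lt_top _ _)
    ((NormedSpace.expSeries_radius_eq_top ℝ B).symm ▸ edist_lt_top _ _)

theorem pw_add {a a' : B} (h : Commute a a') (s : ℝ) : pw s (a + a') = pw s a * pw s a' := by
  unfold pw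
  rw [smul_add]
  exact an4_exp_add ((h.smul_left _).smul_right _)

theorem an4_pw_zero (s : ℝ) : pw s (0 : B) = 1 := by
  unfold pw
  rw [smul_zero, NormedSpace.exp_zero]

theorem pw_mul_neg (s : ℝ) (a : B) : pw s a * pw s (-a) = 1 ∧ pw s (-a) * pw s a = 1 := by
  constructor
  · rw [← pw_add ((Commute.refl a).neg_right), add_neg_cancel, an4_pw_zero]
  · rw [← pw_add ((Commute.refl a).neg_left), neg_add_cancel, an4_pw_zero]

theorem an4_pw_isUnit (s : ℝ) (a : B) : IsUnit (pw s a) :=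
  ⟨⟨pw s a, pw s (-a), (pw_mul_neg s a).1, (pw_mul_neg s a).2⟩, rfl⟩

theorem an4_inverse_pw (s : ℝ) (a : B) : Ring.inverse (pw s a) = pw s (-a) := by
  have := Ring.inverse_unit (⟨pw s a, pw s (-a), (pw_mul_neg s a).1, (pw_mul_neg s a).2⟩ : Bˣ)
  simpa using this

theorem an4_inv_deriv {Z : ℝ → B} {Z' : B} {u : ℝ} (hZ : HasDerivAt Z Z' u) (hu : IsUnit (Z u)) :
    HasDerivAt (fun v => Ring.inverse (Z v))
      (-(Ring.inverse (Z u) * Z' * Ring.inverse (Z u))) u := by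
  obtain ⟨x, hx⟩ := hu
  have h1 := hasFDerivAt_ringInverse (𝕜 := ℝ) x
  rw [hx] at h1
  have h2 := h1.comp_hasDerivAt u hZ
  rw [← hx, Ring.inverse_unit]
  simp only [ContinuousLinearMap.neg_apply, ContinuousLinearMap.mulLeftRight_apply] at h2
  exact h2

/-- Two solutions of the same linear equation have constant ratio. -/
theorem ratio_const {Y Z ω : ℝ → B} {p q : ℝ} (hpq : p ≤ q)
    (hY : ∀ u ∈ Set.Icc p q, HasDerivAt Y (ω u * Y u) u)
    (hZ : ∀ u ∈ Set.Icc p q, HasDerivAt Z (ω u * Z u) u)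
    (hu : ∀ u ∈ Set.Icc p q, IsUnit (Z u)) :
    Ring.inverse (Z p) * Y p = Ring.inverse (Z q) * Y q := by
  have key : ∀ u ∈ Set.Icc p q, HasDerivAt (fun v => Ring.inverse (Z v) * Y v) 0 u := by
    intro u hm
    have h := (an4_inv_deriv (hZ u hm) (hu u hm)).mul (hY u hm)
    have e : -(Ring.inverse (Z u) * (ω u * Z u) * Ring.inverse (Z u)) * Y u +
        Ring.inverse (Z u) * (ω u * Y u) = 0 := by
      have h1 : Z u * Ring.inverse (Z u) = 1 := Ring.mul_inverse_cancel _ (hu u hm)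
      have : Ring.inverse (Z u) * (ω u * Z u) * Ring.inverse (Z u) =
          Ring.inverse (Z u) * ω u * (Z u * Ring.inverse (Z u)) := by simp only [mul_assoc]
      rw [this, h1]
      noncomm_ring
    rw [e] at h
    exact h
  have := constant_of_has_deriv_right_zero (f := fun v => Ring.inverse (Z v) * Y v) (a := p) (b := q)
    (fun u hm => (key u hm).continuousAt.continuousWithinAt)
    (fun u hm => (key u (Set.Ico_subset_Icc_self hm)).hasDerivWithinAt) q ⟨hpq, le_rfl⟩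
  exact this.symm

theorem an4_norm_exp (x : B) : ‖NormedSpace.exp x‖ ≤ Real.exp ‖x‖ := by
  have h1 := NormedSpace.exp_series_hasSum_exp' (𝕂 := ℝ) x
  have h2 := NormedSpace.exp_series_hasSum_exp' (𝕂 := ℝ) ‖x‖
  rw [Real.exp_eq_exp_ℝ]
  refine h1.norm_le_of_bounded h2 (fun n => ?_)
  rw [norm_smul, smul_eq_mul, Real.norm_eq_abs, abs_of_nonneg (by positivity)]
  exact mul_le_mul_of_nonneg_left (norm_pow_le x n) (by positivity)

theorem an4_norm_pw {c : B} (hcc : ‖c‖ ≤ 1 / 4) {t : ℝ} (h0 : 0 < t) (h1 : t ≤ 1) :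
    ‖pw t c‖ ≤ Real.exp (-Real.log t / 4) := by
  unfold pw
  refine (an4_norm_exp _).trans (Real.exp_le_exp.2 ?_)
  have hl : Real.log t ≤ 0 := Real.log_nonpos h0.le h1
  rw [norm_smul, Real.norm_eq_abs, abs_of_nonpos hl]
  nlinarith

theorem conj_tendsto {c : B} (hcc : ‖c‖ ≤ 1 / 4) {Z : ℝ → B} {C r : ℝ} (hr : 0 < r)
    (hZ : ∀ t ∈ Set.Ioc 0 r, ‖Z t‖ ≤ C * t) :
    Filter.Tendsto (fun t => pw t (-c) * Z t * pw t c) (nhdsWithin 0 (Set.Ioi 0)) (nhds 0) := by
  have hlim : Filter.Tendsto (fun t : ℝ => |C| * Real.sqrt t) (nhdsWithin 0 (Set.Ioi 0))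
      (nhds 0) := by
    have : Filter.Tendsto (fun t : ℝ => |C| * Real.sqrt t) (nhds 0) (nhds (|C| * Real.sqrt 0)) :=
      (continuous_const.mul Real.continuous_sqrt).tendsto 0
    rw [Real.sqrt_zero, mul_zero] at this
    exact this.mono_left nhdsWithin_le_nhds
  refine squeeze_zero_norm' ?_ hlim
  have hm : Set.Ioc (0 : ℝ) (min r 1) ∈ nhdsWithin (0 : ℝ) (Set.Ioi 0) :=
    Ioc_mem_nhdsGT (lt_min hr one_pos)
  filter_upwards [hm] with t ht
  have h0 : 0 < t := ht.1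
  have h1 : t ≤ 1 := ht.2.trans (min_le_right _ _)
  have e1 := an4_norm_pw hcc h0 h1
  have e2 := an4_norm_pw (c := -c) (by rwa [norm_neg]) h0 h1
  have e3 : ‖Z t‖ ≤ |C| * t :=
    (hZ t ⟨h0, ht.2.trans (min_le_left _ _)⟩).trans
      (mul_le_mul_of_nonneg_right (le_abs_self C) h0.le)
  have e4 : Real.exp (-Real.log t / 4) * t * Real.exp (-Real.log t / 4) = Real.sqrt t := by
    rw [Real.sqrt_eq_rpow, Real.rpow_def_of_pos h0]
    conv_lhs => rw [← Real.exp_log h0]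
    rw [← Real.exp_add, ← Real.exp_add, Real.log_exp]
    congr 1
    ring
  calc ‖pw t (-c) * Z t * pw t c‖ ≤ ‖pw t (-c)‖ * ‖Z t‖ * ‖pw t c‖ :=
        (norm_mul_le _ _).trans (mul_le_mul_of_nonneg_right (norm_mul_le _ _) (norm_nonneg _))
    _ ≤ Real.exp (-Real.log t / 4) * (|C| * t) * Real.exp (-Real.log t / 4) := by
        gcongr
    _ = |C| * Real.sqrt t := by rw [← e4]; ring

theorem an4_sm0 : Sm (0 : B) := by
  unfold Sm
  rw [norm_zero]
  norm_num

theorem H1_bd {A C : B} (hA : Sm A) (hC : Sm C) : Bd (hc A 0 0 C 0) :=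
  hc_bd hA an4_sm0 an4_sm0 hC (by rw [norm_zero]; norm_num)

theorem H1_commute {A C z : B} (hA : Sm A) (hC : Sm C) (h1 : Commute z A) (h2 : Commute z C)
    {s : ℝ} (hs : |s| ≤ rr) : Commute z (H1 A C s) := by
  unfold H1 Hf
  refine Commute.tsum_right _ (fun p => ?_)
  exact (hc_commute hA an4_sm0 h1 (Commute.zero_right z) (Commute.zero_right z) h2
    (Commute.zero_right z) _ _).smul_right _

theorem an4_zero_le : |(0 : ℝ)| ≤ rr := by
  unfold rr
  norm_num

theorem G1_isUnit {A C : B} (hA : Sm A) (hC : Sm C) {s : ℝ} (hs : |s| ≤ rr) :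
    IsUnit (G1 A C s) :=
  (Hf_isUnit (H1_bd hA hC) hs an4_zero_le).1.mul (an4_pw_isUnit s A)

theorem an4_pdeS {A C : B} (hA : Sm A) : PdeS A C 0 (hc A 0 0 C 0) := by
  have hS : Sys A C 0 0 C :=
    ⟨Commute.zero_right _, Commute.zero_right _, Commute.zero_right _, Commute.refl _,
      Commute.zero_left _, by simp [br]⟩
  have e : C - 0 - C = 0 := by simp
  have := (pde_of_isSol hS hA an4_sm0 (h := hc A 0 0 C 0)
    (by rw [e]; exact hc_isSol 0 C 0 hA an4_sm0)).1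
  rwa [e] at this

theorem G1_hasDerivAt {A C : B} (hA : Sm A) (hC : Sm C) {s : ℝ} (h0 : 0 < s) (hs : s < rr) :
    HasDerivAt (G1 A C) ((s⁻¹ • A + (s - 1)⁻¹ • C) * G1 A C s) s := by
  have hb := H1_bd hA hC
  have habs : |s| < rr := by rwa [abs_of_pos h0]
  have h1 : HasDerivAt (fun v => Hf (hc A 0 0 C 0) v 0)
      ((1 : ℝ) • Hs (hc A 0 0 C 0) s 0 + (0 : ℝ) • Ht (hc A 0 0 C 0) s 0) s :=
    Hf_hasDerivAt hb (σ := fun v => v) (τ := fun _ => 0) (hasDerivAt_id s) (hasDerivAt_const s 0)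
      habs (by unfold rr; norm_num)
  have h2 := pw_hasDerivAt A (σ := fun v => v) (hasDerivAt_id s) h0
  have h3 := Hs_pde hb (an4_pdeS hA) habs.le an4_zero_le
  have h4 := h1.mul h2
  have hs1 : s < 1 := hs.trans (by unfold rr; norm_num)
  have h5 : Hs (hc A 0 0 C 0) s 0 = s⁻¹ • br A (Hf (hc A 0 0 C 0) s 0) +
      (s - 1)⁻¹ • (C * Hf (hc A 0 0 C 0) s 0) := by
    have : Hs (hc A 0 0 C 0) s 0 = s⁻¹ • (s • Hs (hc A 0 0 C 0) s 0) := by
      rw [smul_smul, inv_mul_cancel₀ h0.ne', one_smul]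
    rw [this, h3, smul_zero, add_zero, smul_mul_assoc, smul_sub, smul_smul, sub_eq_add_neg,
      ← neg_smul]
    congr 2
    have : (1 - s) ≠ 0 := by linarith
    have : (s - 1) ≠ 0 := by linarith
    field_simp
    ring
  have e : ((1 : ℝ) • Hs (hc A 0 0 C 0) s 0 + (0 : ℝ) • Ht (hc A 0 0 C 0) s 0) * pw s A +
      Hf (hc A 0 0 C 0) s 0 * ((1 / s) • (A * pw s A)) =
      (s⁻¹ • A + (s - 1)⁻¹ • C) * G1 A C s := by
    rw [h5]
    unfold G1 H1 br
    simp only [one_smul, zero_smul, add_zero, one_div, add_mul, sub_mul, smul_sub, smul_mul_assoc,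
      mul_smul_comm, mul_assoc]
    abel
  rw [← e]
  exact h4

/-- Uniqueness of the solution with given asymptotics. -/
theorem G1_unique {A C : B} (hA : Sm A) (hC : Sm C) {Y : ℝ → B} {r K : ℝ} (h0 : 0 < r)
    (hr : r < rr) (hY : ∀ s ∈ Set.Ioc 0 r, HasDerivAt Y ((s⁻¹ • A + (s - 1)⁻¹ • C) * Y s) s)
    (hK : ∀ s ∈ Set.Ioc 0 r, ‖Y s * pw s (-A) - 1‖ ≤ K * s) : Y r = G1 A C r := by
  have hb := H1_bd hA hC
  obtain ⟨L, hL0, hL⟩ := Hf_lip hb
  have habs : ∀ s ∈ Set.Ioc 0 r, |s| ≤ rr := fun s hs => by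
    rw [abs_of_pos hs.1]; exact hs.2.trans hr.le
  let Z : ℝ → B := fun s => Ring.inverse (H1 A C s) * (Y s * pw s (-A)) - 1
  have hZ : ∀ s ∈ Set.Ioc 0 r, ‖Z s‖ ≤ (2 * (K + L)) * s := by
    intro s hs
    obtain ⟨hu, hn⟩ := Hf_isUnit hb (habs s hs) an4_zero_le
    have e : Z s = Ring.inverse (H1 A C s) * ((Y s * pw s (-A) - 1) - (H1 A C s - 1)) := by
      have : Ring.inverse (H1 A C s) * H1 A C s = 1 := Ring.inverse_mul_cancel _ hu
      simp only [Z]
      rw [sub_sub_sub_cancel_right, mul_sub, this]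
    have e1 : ‖H1 A C s - 1‖ ≤ L * s := by
      have := hL s 0 0 0 (habs s hs) an4_zero_le an4_zero_le an4_zero_le
      rw [Hf_zero hb] at this
      unfold H1
      simpa [abs_of_pos hs.1] using this
    have e2 := hK s hs
    rw [e]
    calc _ ≤ ‖Ring.inverse (H1 A C s)‖ * ‖(Y s * pw s (-A) - 1) - (H1 A C s - 1)‖ :=
          norm_mul_le _ _
      _ ≤ 2 * (K * s + L * s) := by
          gcongr
          · exact hn
          · exact (norm_sub_le _ _).trans (add_le_add e2 e1)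
      _ = _ := by ring
  have hA4 : ‖A‖ ≤ 1 / 4 := le_trans hA (by norm_num)
  have hlim := conj_tendsto hA4 h0 hZ
  have hconst : ∀ s ∈ Set.Ioc 0 r, pw s (-A) * Z s * pw s A =
      Ring.inverse (G1 A C r) * Y r - 1 := by
    intro s hs
    have hsub : ∀ u ∈ Set.Icc s r, u ∈ Set.Ioc 0 r := fun u hu => ⟨hs.1.trans_le hu.1, hu.2⟩
    have h := ratio_const (Y := Y) (Z := G1 A C) (ω := fun s => s⁻¹ • A + (s - 1)⁻¹ • C) hs.2
      (fun u hu => hY u (hsub u hu))
      (fun u hu => G1_hasDerivAt hA hC (hsub u hu).1 (hu.2.trans_lt hr))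
      (fun u hu => G1_isUnit hA hC (habs u (hsub u hu)))
    rw [← h]
    have e : Ring.inverse (G1 A C s) = pw s (-A) * Ring.inverse (H1 A C s) := by
      unfold G1
      rw [Ring.inverse_mul (Or.inr (an4_pw_isUnit s A)), an4_inverse_pw]
    rw [e]
    simp only [Z, mul_sub, sub_mul, mul_one, mul_assoc, (pw_mul_neg s A).2]
  have hev : (fun t => pw t (-A) * Z t * pw t A) =ᶠ[nhdsWithin 0 (Set.Ioi 0)]
      fun _ => Ring.inverse (G1 A C r) * Y r - 1 := by
    filter_upwards [Ioc_mem_nhdsGT h0] with t ht using hconst t ht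
  have h1 : Ring.inverse (G1 A C r) * Y r - 1 = 0 :=
    tendsto_nhds_unique tendsto_const_nhds (hlim.congr' hev)
  have hu := G1_isUnit hA hC (habs r ⟨h0, le_rfl⟩)
  calc Y r = G1 A C r * (Ring.inverse (G1 A C r) * Y r) := by
        rw [← mul_assoc, Ring.mul_inverse_cancel _ hu, one_mul]
    _ = G1 A C r := by rw [sub_eq_zero.1 h1, mul_one]

end Vale.Agent.P029
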