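import Vale.Agent.P029.An4

noncomputable section

namespace Vale.Agent.P029

variable {B : Type} [NormedRing B] [NormedAlgebra ℝ B] [CompleteSpace B] [NormOneClass B]

theorem an5_bd {a b c d e : B} (ha : Sm a) (hb : Sm b) (hcc : Sm c) (hd : Sm d) (he : Sm e) :
    Bd (hc a c d e (b - d - e)) := by
  refine hc_bd ha hcc hd he ?_
  have h1 := norm_sub_le (b - d) e
  have h2 := norm_sub_le b d
  unfold Sm at hb hd he
  linarith

theorem an5_unit (s : ℝ) (a : B) : IsUnit (pw s a) :=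
  ⟨⟨pw s a, pw s (-a), (pw_mul_neg s a).1, (pw_mul_neg s a).2⟩, rfl⟩

theorem an5_inv {x : B} (hx : IsUnit x) (s : ℝ) (a : B) :
    Ring.inverse (x * pw s a) = pw s (-a) * Ring.inverse x := by
  obtain ⟨u, rfl⟩ := hx
  let w : Bˣ := ⟨pw s a, pw s (-a), (pw_mul_neg s a).1, (pw_mul_neg s a).2⟩
  show Ring.inverse ((u * w : Bˣ) : B) = _
  rw [Ring.inverse_unit, Ring.inverse_unit, mul_inv_rev]
  rfl

omit [NormedAlgebra ℝ B] [CompleteSpace B] [NormOneClass B] in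
theorem an5_comm {z x : B} (h : Commute z x) (hx : IsUnit x) : Commute z (Ring.inverse x) := by
  obtain ⟨u, rfl⟩ := hx
  rw [Ring.inverse_unit]
  exact h.units_inv_right

omit [NormedAlgebra ℝ B] [CompleteSpace B] [NormOneClass B] in
theorem an5_rot {a b c d e : B} (hS : Sys a b c d e) : Sys c d e a b :=
  ⟨hS.ce, hS.ac.symm, hS.ad.symm, hS.bd.symm, hS.be.symm, by rw [← hS.five]; abel⟩

omit [CompleteSpace B] [NormOneClass B] in
theorem an5_div {s p q p' q' : ℝ} {X Y e β H : B} (hs : s ≠ 0) (hp : p = s * p') (hq : q = s * q')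
    (h : s • X = Y - (p • e + q • β) * H) : X = s⁻¹ • Y - (p' • e + q' • β) * H := by
  rw [← inv_smul_smul₀ hs X, h, hp, hq, mul_smul, mul_smul, ← smul_add, smul_mul_assoc, smul_sub,
    inv_smul_smul₀ hs]

omit [CompleteSpace B] [NormOneClass B] in
theorem an5_om (a b c d e : B) {s u : ℝ} (hs : s ≠ 0) (hs1 : 1 - s ≠ 0) (hu : 1 - u ≠ 0)
    (hsu : 1 - s * u ≠ 0) :
    (1 : ℝ) • (u⁻¹ • c - (1 - u)⁻¹ • b -
        ((1 - s) / (1 - s * u) / (1 - u * ((1 - s) / (1 - s * u)))) • (d - a - b)) +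
      ((1 - s) * s / (1 - s * u) ^ 2) • (((1 - s) / (1 - s * u))⁻¹ • e -
        (1 - (1 - s) / (1 - s * u))⁻¹ • a -
        (u / (1 - u * ((1 - s) / (1 - s * u)))) • (d - a - b)) =
    (0 : ℝ) • (s⁻¹ • a - (1 - s)⁻¹ • e - (u / (1 - s * u)) • (b - d - e)) +
      (1 : ℝ) • (u⁻¹ • c - (1 - u)⁻¹ • d - (s / (1 - s * u)) • (b - d - e)) := by
  have h1 : 1 - u * ((1 - s) / (1 - s * u)) = (1 - u) / (1 - s * u) := by
    rw [eq_div_iff hsu, sub_mul, mul_assoc, div_mul_cancel₀ _ hsu]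
    ring
  have h2 : 1 - (1 - s) / (1 - s * u) = s * (1 - u) / (1 - s * u) := by
    field_simp
    ring
  rw [h1, h2]
  obtain ⟨w, hw⟩ : ∃ w, 1 - s * u = w := ⟨_, rfl⟩
  rw [hw] at hsu ⊢
  match_scalars <;> field_simp <;> rw [← hw] <;> ring

theorem an5_v {s u : ℝ} (h : 1 - s * u ≠ 0) :
    HasDerivAt (fun u => (1 - s) / (1 - s * u)) ((1 - s) * s / (1 - s * u) ^ 2) u := by
  have h1 : HasDerivAt (fun u => 1 - s * u) (-(s * 1)) u :=
    ((hasDerivAt_id u).const_mul s).const_sub 1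
  refine ((hasDerivAt_const u (1 - s)).div h1 h).congr_deriv ?_
  ring

theorem an5_range {u : ℝ} (h0 : 0 ≤ u) (h1 : u ≤ s0) : 0 < 1 - s0 * u ∧
    0 < (1 - s0) / (1 - s0 * u) ∧ (1 - s0) / (1 - s0 * u) < rr ∧
    |1 - s0 - (1 - s0) / (1 - s0 * u)| ≤ u := by
  obtain ⟨b1, b2, b3⟩ := s0_bounds
  have a1 := mul_le_mul_of_nonneg_left h1 (show 0 ≤ s0 by linarith)
  have a2 : 0 ≤ s0 * u := by positivity
  have a3 : 0 < 1 - s0 * u := by linarith
  refine ⟨a3, div_pos (by linarith) a3, ?_, ?_⟩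
  · refine lt_of_le_of_lt (b := s0) ?_ (by unfold rr; linarith)
    rw [div_le_iff₀ a3]
    have := mul_le_mul_of_nonneg_left (show s0 ≤ 1 - s0 * u by linarith) (show 0 ≤ s0 by linarith)
    linarith
  · have a4 : (1 - s0) / (1 - s0 * u) - (1 - s0) = (1 - s0) * (s0 * u) / (1 - s0 * u) := by
      field_simp
      ring
    rw [abs_sub_comm, a4, abs_of_nonneg (div_nonneg (mul_nonneg (by linarith) a2) a3.le),
      div_le_iff₀ a3]
    have a5 := mul_le_mul_of_nonneg_left (show (1 - s0) * s0 ≤ 1 - s0 * u by nlinarith) h0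
    linarith

theorem W2_hasDerivAt {a b c d e : B} (hS : Sys a b c d e) (ha : Sm a) (hb : Sm b) (hcc : Sm c)
    (hd : Sm d) (he : Sm e) {σ τ : ℝ → ℝ} {u σ' τ' : ℝ}
    (hσ : HasDerivAt σ σ' u) (hτ : HasDerivAt τ τ' u) (hs0 : 0 < σ u) (hs : σ u < rr)
    (ht0 : 0 < τ u) (ht : τ u < rr) :
    HasDerivAt (fun v => W2 a b c d e (σ v) (τ v))
      ((σ' • ((σ u)⁻¹ • a - (1 - σ u)⁻¹ • e - (τ u / (1 - σ u * τ u)) • (b - d - e)) +
        τ' • ((τ u)⁻¹ • c - (1 - τ u)⁻¹ • d - (σ u / (1 - σ u * τ u)) • (b - d - e))) *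
        W2 a b c d e (σ u) (τ u)) u := by
  have hB := an5_bd ha hb hcc hd he
  obtain ⟨PS, PT⟩ := pde_of_isSol hS ha hcc (hc_isSol d e (b - d - e) ha hcc)
  have s1 : |σ u| < rr := by rwa [abs_of_pos hs0]
  have t1 : |τ u| < rr := by rwa [abs_of_pos ht0]
  have e1 := an5_div hs0.ne' (p' := (1 - σ u)⁻¹) (q' := τ u / (1 - σ u * τ u)) (by ring) (by ring)
    (Hs_pde hB PS s1.le t1.le)
  have e2 := an5_div ht0.ne' (p' := (1 - τ u)⁻¹) (q' := σ u / (1 - σ u * τ u)) (by ring) (by ring)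
    (Ht_pde hB PT s1.le t1.le)
  refine (((Hf_hasDerivAt hB hσ hτ s1 t1).mul (pw_hasDerivAt a hσ hs0)).mul
    (pw_hasDerivAt c hτ ht0)).congr_deriv ?_
  have e3 : ∀ x : B, pw (σ u) a * (c * x) = c * (pw (σ u) a * x) := fun x => by
    rw [← mul_assoc, ← (pw_commute hS.ac.symm (σ u)).eq, mul_assoc]
  rw [e1, e2]
  unfold W2 br
  generalize b - d - e = β
  simp only [Pi.mul_apply, mul_assoc, add_mul, sub_mul, smul_mul_assoc, mul_smul_comm, e3]
  module

theorem W2_isUnit {a b c d e : B} (ha : Sm a) (hb : Sm b) (hcc : Sm c)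
    (hd : Sm d) (he : Sm e) {s t : ℝ} (hs : |s| ≤ rr) (ht : |t| ≤ rr) :
    IsUnit (W2 a b c d e s t) := by
  exact ((Hf_isUnit (an5_bd ha hb hcc hd he) hs ht).1.mul (an5_unit _ _)).mul (an5_unit _ _)

/-- The edge lemma. -/
theorem edge {a b c d e : B} (hS : Sys a b c d e) (ha : Sm a) (hb : Sm b) (hcc : Sm c)
    (hd : Sm d) (he : Sm e) :
    Ring.inverse (W2 c d e a b s0 s0) * W2 a b c d e s0 s0 = Phi a e := by
  obtain ⟨b1, b2, b3⟩ := s0_bounds
  have r0 : 0 < s0 := by linarith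
  have r1 : s0 < rr := by unfold rr; linarith
  have r2 : |s0| ≤ rr := by rw [abs_of_pos r0]; exact r1.le
  have r3 : |1 - s0| ≤ rr := by rw [abs_of_pos (by linarith)]; unfold rr; linarith
  have r4 : |(0 : ℝ)| ≤ rr := by rw [abs_zero]; linarith
  have hB := an5_bd ha hb hcc hd he
  have hB' := an5_bd hcc hd he ha hb
  have rg : ∀ u ∈ Set.Ioc 0 s0, |u| ≤ rr ∧ |(1 - s0) / (1 - s0 * u)| ≤ rr := fun u hu => by
    obtain ⟨-, a1, a2, -⟩ := an5_range hu.1.le hu.2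
    rw [abs_of_pos hu.1, abs_of_pos a1]
    exact ⟨hu.2.trans r1.le, a2.le⟩
  have k1 : ∀ ε ∈ Set.Ioc 0 s0,
      Ring.inverse (W2 c d e a b ε ((1 - s0) / (1 - s0 * ε))) * W2 a b c d e s0 ε =
      Ring.inverse (W2 c d e a b s0 s0) * W2 a b c d e s0 s0 := by
    intro ε hε
    have hv : (1 - s0) / (1 - s0 * s0) = s0 := by
      rw [div_eq_iff (by linarith)]
      linear_combination (s0 - 1) * b3
    have := ratio_const (Y := fun u => W2 a b c d e s0 u)
      (Z := fun u => W2 c d e a b u ((1 - s0) / (1 - s0 * u))) hε.2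
      (fun u hu => W2_hasDerivAt hS ha hb hcc hd he (hasDerivAt_const u s0) (hasDerivAt_id u) r0 r1
        (hε.1.trans_le hu.1) (hu.2.trans_lt r1)) (fun u hu => ?_) (fun u hu => ?_)
    · rwa [hv] at this
    · have u0 := hε.1.trans_le hu.1
      obtain ⟨a0, a1, a2, -⟩ := an5_range u0.le hu.2
      have := W2_hasDerivAt (an5_rot hS) hcc hd he ha hb (hasDerivAt_id u) (an5_v a0.ne') u0
        (hu.2.trans_lt r1) a1 a2
      simp only [id] at this ⊢
      rwa [an5_om a b c d e r0.ne' (by linarith) (by linarith [hu.2]) a0.ne'] at this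
    · exact W2_isUnit hcc hd he ha hb (rg u ⟨hε.1.trans_le hu.1, hu.2⟩).1
        (rg u ⟨hε.1.trans_le hu.1, hu.2⟩).2
  have k2 : Hf (hc a c d e (b - d - e)) s0 0 = H1 a e s0 := by
    refine (Hf_row hB r2).unique ?_
    simp only [hc_row d _ ha hcc hS.ac.symm hS.ce]
    exact Hf_row (H1_bd ha he) r2
  have k3 : Hf (hc c e a b (d - a - b)) 0 (1 - s0) = H1 e a (1 - s0) := by
    refine (Hf_col hB' r3).unique ?_
    simp only [hc_col b _ hcc he hS.ce hS.ac.symm]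
    exact Hf_row (H1_bd he ha) r3
  have u3 : IsUnit (H1 e a (1 - s0)) := (Hf_isUnit (H1_bd he ha) r3 r4).1
  have k4 : Commute c (Ring.inverse (H1 e a (1 - s0)) * H1 a e s0) :=
    (an5_comm (H1_commute he ha hS.ce hS.ac.symm r3) u3).mul_right
      (H1_commute ha he hS.ac.symm hS.ce r2)
  have k5 : H1 e a (1 - s0) * (Ring.inverse (H1 e a (1 - s0)) * H1 a e s0) = H1 a e s0 :=
    Ring.mul_inverse_cancel_left _ _ u3
  have k6 : Phi a e = pw ((1 - s0) / (1 - s0 * 0)) (-e) *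
      (0 + Ring.inverse (H1 e a (1 - s0)) * H1 a e s0) * pw s0 a := by
    rw [Phi, G1, G1, an5_inv u3, mul_zero, sub_zero, div_one, zero_add]
    simp only [mul_assoc]
  generalize Ring.inverse (H1 e a (1 - s0)) * H1 a e s0 = M at k4 k5 k6
  obtain ⟨C, hC, hl⟩ := Hf_lip hB
  obtain ⟨C', hC', hl'⟩ := Hf_lip hB'
  have k7 := conj_tendsto (c := c) (le_trans hcc (by norm_num)) r0
    (Z := fun ε => Ring.inverse (Hf (hc c e a b (d - a - b)) ε ((1 - s0) / (1 - s0 * ε))) *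
      Hf (hc a c d e (b - d - e)) s0 ε - M) (C := 2 * (C + C' * 2 * ‖M‖)) fun ε hε => by
    obtain ⟨v1, v2⟩ := Hf_isUnit hB' (rg ε hε).1 (rg ε hε).2
    have a1 := hl s0 ε s0 0 r2 (rg ε hε).1 r2 r4
    have a2 := hl' 0 (1 - s0) ε _ r4 r3 (rg ε hε).1 (rg ε hε).2
    rw [k2, sub_self, abs_zero, zero_add, sub_zero, abs_of_pos hε.1] at a1
    rw [k3, zero_sub, abs_neg, abs_of_pos hε.1] at a2
    have a3 := (an5_range hε.1.le hε.2).2.2.2
    generalize Hf (hc c e a b (d - a - b)) ε ((1 - s0) / (1 - s0 * ε)) = X at v1 v2 a2 ⊢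
    generalize Hf (hc a c d e (b - d - e)) s0 ε = Y at a1 ⊢
    have a4 : Ring.inverse X * Y - M =
        Ring.inverse X * ((Y - H1 a e s0) + (H1 e a (1 - s0) - X) * M) := by
      rw [sub_mul, k5, sub_add_sub_cancel, mul_sub, Ring.inverse_mul_cancel_left _ _ v1]
    have a5 := a2.trans (mul_le_mul_of_nonneg_left (add_le_add_right a3 ε) hC')
    have a6 := (norm_add_le _ _).trans (add_le_add a1 ((norm_mul_le _ M).trans
      (mul_le_mul_of_nonneg_right a5 (norm_nonneg M))))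
    rw [a4]
    refine ((norm_mul_le _ _).trans (mul_le_mul v2 a6 (norm_nonneg _) zero_le_two)).trans_eq ?_
    ring
  obtain ⟨a0, a1, -⟩ := an5_range le_rfl r0.le
  have k8 := (((pw_hasDerivAt (-e) (an5_v a0.ne') a1).continuousAt.tendsto.mono_left
    (nhdsWithin_le_nhds (s := Set.Ioi 0))).mul (k7.add_const M)).mul_const (pw s0 a)
  rw [k6]
  refine tendsto_nhds_unique (tendsto_const_nhds.congr' ?_) k8
  filter_upwards [Ioc_mem_nhdsGT r0] with ε hε
  have v1 := (Hf_isUnit hB' (rg ε hε).1 (rg ε hε).2).1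
  have a2 : pw ε (-c) * M * pw ε c = M := by
    rw [mul_assoc, (pw_commute k4.symm ε).eq, ← mul_assoc, (pw_mul_neg ε c).2, one_mul]
  rw [← k1 ε hε, W2, W2, an5_inv (v1.mul (an5_unit _ _)), an5_inv v1, mul_sub, sub_mul, a2,
    sub_add_cancel]
  simp only [mul_assoc]
  rw [(pw_commute (pw_commute hS.ac.symm s0).symm ε).eq]

theorem phi_pent {a b c d e : B} (hS : Sys a b c d e) (ha : Sm a) (hb : Sm b) (hcc : Sm c)
    (hd : Sm d) (he : Sm e) :
    Phi d c * Phi b a * Phi e d * Phi c b * Phi a e = 1 := by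
  obtain ⟨b1, b2, -⟩ := s0_bounds
  have r2 : |s0| ≤ rr := by rw [abs_of_pos (by linarith)]; unfold rr; linarith
  have S2 := an5_rot hS
  have S3 := an5_rot S2
  have S4 := an5_rot S3
  have S5 := an5_rot S4
  rw [← edge hS ha hb hcc hd he, ← edge S2 hcc hd he ha hb, ← edge S3 he ha hb hcc hd,
    ← edge S4 hb hcc hd he ha, ← edge S5 hd he ha hb hcc]
  simp only [mul_assoc, Ring.mul_inverse_cancel_left _ _ (W2_isUnit hcc hd he ha hb r2 r2),
    Ring.mul_inverse_cancel_left _ _ (W2_isUnit he ha hb hcc hd r2 r2),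
    Ring.mul_inverse_cancel_left _ _ (W2_isUnit hb hcc hd he ha r2 r2),
    Ring.mul_inverse_cancel_left _ _ (W2_isUnit hd he ha hb hcc r2 r2)]
  exact Ring.inverse_mul_cancel _ (W2_isUnit ha hb hcc hd he r2 r2)

end Vale.Agent.P029
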