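import Vale.Agent.P029.An4

noncomputable section

namespace Vale.Agent.P029

variable {B : Type} [NormedRing B] [NormedAlgebra ℝ B] [CompleteSpace B] [NormOneClass B]

theorem an6_s0 : (0 < s0 ∧ s0 < rr) ∧ (0 < 1 - s0 ∧ 1 - s0 < rr) := by
  obtain ⟨a, b, -⟩ := s0_bounds
  unfold rr
  exact ⟨⟨by linarith, by linarith⟩, by linarith, by linarith⟩

theorem an6_abs {s : ℝ} (h0 : 0 < s) (h : s < rr) : |s| ≤ rr := by
  rw [abs_of_pos h0]
  exact h.le

omit [NormedAlgebra ℝ B] [CompleteSpace B] [NormOneClass B] in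
theorem an6_sm0 : Sm (0 : B) := by
  unfold Sm
  rw [norm_zero]
  norm_num

theorem an6_lip {A C : B} (hA : Sm A) (hC : Sm C) :
    ∃ K : ℝ, 0 ≤ K ∧ ∀ s, 0 < s → s < rr → ‖H1 A C s - 1‖ ≤ K * s := by
  obtain ⟨K, hK, h⟩ := Hf_lip (H1_bd hA hC)
  refine ⟨K, hK, fun s h0 hs => ?_⟩
  have hz : |(0 : ℝ)| ≤ rr := by
    unfold rr
    norm_num
  have := h s 0 0 0 (an6_abs h0 hs) hz hz hz
  rw [Hf_zero (H1_bd hA hC), sub_zero, sub_zero, abs_zero, add_zero, abs_of_pos h0] at this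
  exact this

theorem an6_comm {A C z : B} (hA : Sm A) (hC : Sm C) (h1 : Commute z A) (h2 : Commute z C)
    {s : ℝ} (hs : |s| ≤ rr) : Commute z (G1 A C s) :=
  (H1_commute hA hC h1 h2 hs).mul_right (pw_commute h1 s)

theorem an6_grp {A C A' C' : B} (hA : Sm A) (hC : Sm C) (hA' : Sm A') (hC' : Sm C')
    (hAA : Sm (A + A')) (hCC : Sm (C + C')) (h1 : Commute A A') (h2 : Commute A C')
    (h3 : Commute C A') (h4 : Commute C C') {r : ℝ} (h0 : 0 < r) (hr : r < rr) :
    G1 (A + A') (C + C') r = G1 A C r * G1 A' C' r := by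
  obtain ⟨K, hK, k1⟩ := an6_lip hA hC
  obtain ⟨K', -, k2⟩ := an6_lip hA' hC'
  refine (G1_unique (Y := fun s => G1 A C s * G1 A' C' s) (K := 2 * K + K') hAA hCC h0 hr
    (fun s hs => ?_) fun s hs => ?_).symm
  · have s1 := hs.2.trans_lt hr
    refine ((G1_hasDerivAt hA hC hs.1 s1).mul (G1_hasDerivAt hA' hC' hs.1 s1)).congr_deriv ?_
    have c1 : Commute (s⁻¹ • A' + (s - 1)⁻¹ • C') (G1 A C s) :=
      ((an6_comm hA hC h1.symm h3.symm (an6_abs hs.1 s1)).smul_left _).add_left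
        ((an6_comm hA hC h2.symm h4.symm (an6_abs hs.1 s1)).smul_left _)
    rw [← mul_assoc (G1 A C s), ← c1.eq, ← add_mul, ← add_mul, mul_assoc]
    congr 1
    module
  · have s1 := hs.2.trans_lt hr
    have c1 : Commute (pw s A) (H1 A' C' s) :=
      H1_commute hA' hC' (pw_commute h1.symm s).symm (pw_commute h2.symm s).symm
        (an6_abs hs.1 s1)
    have e : G1 A C s * G1 A' C' s * pw s (-(A + A')) = H1 A C s * H1 A' C' s := by
      unfold G1
      rw [neg_add_rev, pw_add h1.symm.neg_left.neg_right]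
      calc H1 A C s * pw s A * (H1 A' C' s * pw s A') * (pw s (-A') * pw s (-A))
          = H1 A C s * (pw s A * H1 A' C' s) * (pw s A' * pw s (-A')) * pw s (-A) := by
            simp only [mul_assoc]
        _ = H1 A C s * H1 A' C' s * (pw s A * pw s (-A)) := by
            rw [c1.eq, (pw_mul_neg s A').1]
            simp only [mul_assoc, mul_one]
        _ = _ := by rw [(pw_mul_neg s A).1, mul_one]
    have hz : |(0 : ℝ)| ≤ rr := by
      unfold rr
      norm_num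
    have a1 := k1 s hs.1 s1
    have a2 := k2 s hs.1 s1
    have a3 : ‖H1 A' C' s - 1‖ ≤ 1 / 2 := Hf_near (H1_bd hA' hC') (an6_abs hs.1 s1) hz
    show ‖G1 A C s * G1 A' C' s * pw s (-(A + A')) - 1‖ ≤ _
    rw [e, show H1 A C s * H1 A' C' s - 1 = (H1 A C s - 1) * (H1 A' C' s - 1) +
      (H1 A C s - 1) + (H1 A' C' s - 1) by noncomm_ring]
    have a4 := norm_mul_le (H1 A C s - 1) (H1 A' C' s - 1)
    have a5 := mul_le_mul_of_nonneg_left a3 (norm_nonneg (H1 A C s - 1))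
    have a6 := norm_nonneg (H1 A C s - 1)
    refine norm_add₃_le.trans ?_
    linarith

theorem phi_grp {A C A' C' : B} (hA : Sm A) (hC : Sm C) (hA' : Sm A') (hC' : Sm C')
    (hAA : Sm (A + A')) (hCC : Sm (C + C')) (h1 : Commute A A') (h2 : Commute A C')
    (h3 : Commute C A') (h4 : Commute C C') :
    Phi (A + A') (C + C') = Phi A C * Phi A' C' := by
  obtain ⟨⟨a1, a2⟩, b1, b2⟩ := an6_s0
  have a := an6_abs a1 a2
  have b := an6_abs b1 b2
  unfold Phi
  rw [an6_grp hA hC hA' hC' hAA hCC h1 h2 h3 h4 a1 a2,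
    an6_grp hC hA hC' hA' hCC hAA h4 h3 h2 h1 b1 b2]
  have cA : Commute (G1 C' A' (1 - s0)) A := (an6_comm hC' hA' h2 h1 b).symm
  have cC : Commute (G1 C' A' (1 - s0)) C := (an6_comm hC' hA' h4 h3 b).symm
  have c1 : Commute (G1 C' A' (1 - s0)) (G1 C A (1 - s0)) := an6_comm hC hA cC cA b
  have c2 : Commute (G1 C' A' (1 - s0)) (G1 A C s0) := an6_comm hA hC cA cC a
  obtain ⟨u, hu⟩ := G1_isUnit hC' hA' b
  rw [← c1.eq, Ring.mul_inverse_rev' c1]
  rw [← hu] at c2 ⊢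
  rw [Ring.inverse_unit]
  have c3 := c2.units_inv_left.eq
  simp only [mul_assoc]
  rw [← mul_assoc (↑u⁻¹ : B), c3, mul_assoc]

theorem an6_right {A : B} (hA : Sm A) {r : ℝ} (h0 : 0 < r) (hr : r < rr) : G1 A 0 r = pw r A := by
  refine (G1_unique (Y := fun s => pw s A) (K := 0) hA an6_sm0 h0 hr (fun s hs => ?_)
    fun s _ => ?_).symm
  · refine (pw_hasDerivAt A (hasDerivAt_id' s) hs.1).congr_deriv ?_
    simp
  · simp [(pw_mul_neg s A).1]

theorem an6_left {C : B} (hC : Sm C) {r : ℝ} (h0 : 0 < r) (hr : r < rr) :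
    G1 0 C r = pw (1 - r) C := by
  have hd : ∀ s, s ≤ r → HasDerivAt (fun s => pw (1 - s) C) ((s - 1)⁻¹ • (C * pw (1 - s) C)) s := by
    intro s hs
    have h1 : 0 < 1 - s := by
      unfold rr at hr
      linarith
    refine (pw_hasDerivAt C ((hasDerivAt_id' s).const_sub 1) h1).congr_deriv ?_
    rw [neg_div, one_div, ← inv_neg, neg_sub]
  have hc : ContinuousOn (fun s : ℝ => (s - 1)⁻¹ • (C * pw (1 - s) C)) (Set.Icc 0 r) := by
    refine ContinuousOn.smul (ContinuousOn.inv₀ (by fun_prop) fun s hs => ?_)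
      (continuousOn_const.mul fun s hs => (hd s hs.2).continuousAt.continuousWithinAt)
    unfold rr at hr
    linarith [hs.2]
  obtain ⟨M, hM⟩ := isCompact_Icc.exists_bound_of_continuousOn hc
  refine (G1_unique (Y := fun s => pw (1 - s) C) (K := M) an6_sm0 hC h0 hr (fun s hs => ?_)
    fun s hs => ?_).symm
  · refine (hd s hs.2).congr_deriv ?_
    simp
  · have := norm_image_sub_le_of_norm_deriv_le_segment'
      (fun x hx => (hd x hx.2).hasDerivWithinAt) (fun x hx => hM x (Set.Ico_subset_Icc_self hx))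
      s ⟨hs.1.le, hs.2⟩
    simpa [pw] using this

theorem phi_zero_right {A : B} (hA : Sm A) : Phi A 0 = 1 := by
  obtain ⟨⟨a1, a2⟩, b1, b2⟩ := an6_s0
  have e : G1 0 A (1 - s0) = G1 A 0 s0 := by
    rw [an6_left hA b1 b2, an6_right hA a1 a2, sub_sub_cancel]
  unfold Phi
  rw [e]
  exact Ring.inverse_mul_cancel _ (G1_isUnit hA an6_sm0 (an6_abs a1 a2))

theorem phi_zero_left {C : B} (hC : Sm C) : Phi 0 C = 1 := by
  obtain ⟨⟨a1, a2⟩, b1, b2⟩ := an6_s0
  have e : G1 C 0 (1 - s0) = G1 0 C s0 := by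
    rw [an6_left hC a1 a2, an6_right hC b1 b2]
  unfold Phi
  rw [e]
  exact Ring.inverse_mul_cancel _ (G1_isUnit an6_sm0 hC (an6_abs a1 a2))

theorem an6_map {B' : Type} [NormedRing B'] [NormedAlgebra ℝ B'] [CompleteSpace B']
    [NormOneClass B'] (f : B →ₐ[ℝ] B') (hf : Continuous f) {A C : B} (hA : Sm A) (hC : Sm C)
    (hA' : Sm (f A)) (hC' : Sm (f C)) {s : ℝ} (hs : |s| ≤ rr) :
    f (G1 A C s) = G1 (f A) (f C) s := by
  have e1 : f (H1 A C s) = H1 (f A) (f C) s := by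
    refine ((Hf_row (H1_bd hA hC) hs).map f hf).unique ?_
    have e : (f ∘ fun i => s ^ i • hc A 0 0 C 0 i 0) =
        fun i => s ^ i • hc (f A) 0 0 (f C) 0 i 0 := by
      funext i
      have := hc_map f 0 C 0 hA an6_sm0 hA' (by rw [map_zero]; exact an6_sm0) i 0
      rw [map_zero] at this
      rw [Function.comp_apply, map_smul, this]
    rw [e]
    exact Hf_row (H1_bd hA' hC') hs
  have e2 : f (pw s A) = pw s (f A) := by
    unfold pw
    rw [NormedSpace.map_exp_of_mem_ball (𝕂 := ℝ) f hf _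
      ((NormedSpace.expSeries_radius_eq_top ℝ B).symm ▸ edist_lt_top _ _), map_smul]
  unfold G1
  rw [map_mul, e1, e2]

theorem phi_map {B' : Type} [NormedRing B'] [NormedAlgebra ℝ B'] [CompleteSpace B'] [NormOneClass B']
    (f : B →ₐ[ℝ] B') (hf : Continuous f) {A C : B} (hA : Sm A) (hC : Sm C) (hA' : Sm (f A))
    (hC' : Sm (f C)) : f (Phi A C) = Phi (f A) (f C) := by
  obtain ⟨⟨a1, a2⟩, b1, b2⟩ := an6_s0
  have a := an6_abs a1 a2
  have b := an6_abs b1 b2
  unfold Phi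
  rw [map_mul, an6_map f hf hA hC hA' hC' a, ← an6_map f hf hC hA hC' hA' b]
  congr 1
  have hu := G1_isUnit hC hA b
  have h1 : f (Ring.inverse (G1 C A (1 - s0))) * f (G1 C A (1 - s0)) = 1 := by
    rw [← map_mul, Ring.inverse_mul_cancel _ hu, map_one]
  rw [← Ring.mul_inverse_cancel_right _ (f (Ring.inverse (G1 C A (1 - s0)))) (hu.map f), h1,
    one_mul]

end Vale.Agent.P029
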