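import Vale.Agent.P029.An4

noncomputable section

namespace Vale.Agent.P029

open Filter Topology

variable {B : Type} [NormedRing B] [NormedAlgebra ℝ B] [CompleteSpace B] [NormOneClass B]

theorem an7_inj {u z : B} (hu : Sm u) {n : ℕ} (hn : 0 < n) (hz : (n : ℝ) • z + z * u = 0) :
    z = 0 := by
  have h1 : (n : ℝ) • z = -(z * u) := eq_neg_of_add_eq_zero_left hz
  have h2 : (n : ℝ) * ‖z‖ ≤ ‖z‖ * ‖u‖ := by
    have := congrArg norm h1
    rw [norm_smul, norm_neg, Real.norm_eq_abs, abs_of_nonneg (Nat.cast_nonneg n)] at this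
    rw [this]
    exact norm_mul_le _ _
  have h3 : (1 : ℝ) ≤ n := by exact_mod_cast hn
  have h4 := norm_nonneg z
  unfold Sm at hu
  have : ‖z‖ ≤ 0 := by nlinarith
  exact norm_le_zero_iff.1 this

theorem an7_coef {C X Y : B} (hX : Sm X) (h1 : C * X = 0) (h2 : C * Y = 0) {i : ℕ} (hi : 0 < i) :
    C * hc X 0 0 Y 0 i 0 = 0 := by
  have h := (hc_isSol (0 : B) Y 0 hX an4_sm0).2 i 0 (by omega)
  have h' := congrArg (fun z => C * z) h
  simp only [add_zero, br, mul_sub, mul_smul_comm, ← mul_assoc, h1, h2, zero_mul, mul_neg,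
    mul_zero, smul_zero, sub_zero, neg_zero, zero_sub, sub_neg_eq_add] at h'
  exact an7_inj hX hi h'

theorem an7_H1 {C X Y : B} (hX : Sm X) (hY : Sm Y) (h1 : C * X = 0) (h2 : C * Y = 0) {s : ℝ}
    (hs : |s| ≤ rr) : C * H1 X Y s = C := by
  have hb := H1_bd hX hY
  have h := (Hf_row hb hs).mul_left C
  have h' : HasSum (fun i => C * s ^ i • hc X 0 0 Y 0 i 0) (C * s ^ 0 • hc X 0 0 Y 0 0 0) := by
    refine hasSum_single 0 (fun i hi => ?_)
    rw [mul_smul_comm, an7_coef hX h1 h2 (Nat.pos_of_ne_zero hi), smul_zero]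
  have := h.unique h'
  rw [hb.1, pow_zero, one_smul, mul_one] at this
  exact this

theorem an7_pw {C X : B} (h1 : C * X = 0) (s : ℝ) : C * pw s X = C := by
  have h := (NormedSpace.exp_series_hasSum_exp' (𝕂 := ℝ) (Real.log s • X)).mul_left C
  have h' : HasSum (fun n : ℕ => C * ((n.factorial : ℝ)⁻¹ • (Real.log s • X) ^ n))
      (C * (((0 : ℕ).factorial : ℝ)⁻¹ • (Real.log s • X) ^ 0)) := by
    refine hasSum_single 0 (fun n hn => ?_)
    obtain ⟨m, rfl⟩ := Nat.exists_eq_succ_of_ne_zero hn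
    rw [pow_succ', mul_smul_comm, ← mul_assoc, mul_smul_comm, h1]
    simp
  have := h.unique h'
  simpa [pw] using this

theorem an7_G1 {C X Y : B} (hX : Sm X) (hY : Sm Y) (h1 : C * X = 0) (h2 : C * Y = 0) {s : ℝ}
    (hs : |s| ≤ rr) : C * G1 X Y s = C := by
  unfold G1
  rw [← mul_assoc, an7_H1 hX hY h1 h2 hs, an7_pw h1]

theorem an7_pw_sq {C : B} (h2 : C * C = 0) (s : ℝ) : pw s C = 1 + Real.log s • C := by
  have h := NormedSpace.exp_series_hasSum_exp' (𝕂 := ℝ) (Real.log s • C)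
  have h' : HasSum (fun n : ℕ => ((n.factorial : ℝ)⁻¹ • (Real.log s • C) ^ n))
      (∑ n ∈ Finset.range 2, ((n.factorial : ℝ)⁻¹ • (Real.log s • C) ^ n)) := by
    refine hasSum_sum_of_ne_finset_zero (fun n hn => ?_)
    obtain ⟨m, rfl⟩ : ∃ m, n = m + 2 := ⟨n - 2, by simp at hn; omega⟩
    rw [pow_add, pow_two, smul_mul_smul_comm, h2]
    simp
  have := h.unique h'
  simpa [pw, Finset.sum_range_succ] using this

theorem an7_ell {A C : B} (ℓ : B →L[ℝ] ℝ) {i : ℕ} {μ : ℝ}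
    (hk : ∀ k, ℓ (A ^ k * C) = if k = i then μ else 0) (s : ℝ) :
    ℓ (pw s (-A) * C) = (i.factorial : ℝ)⁻¹ * (-Real.log s) ^ i * μ := by
  have h := ℓ.hasSum
    ((NormedSpace.exp_series_hasSum_exp' (𝕂 := ℝ) (Real.log s • (-A))).mul_right C)
  have e : ∀ n : ℕ, ℓ ((n.factorial : ℝ)⁻¹ • (Real.log s • (-A)) ^ n * C) =
      (n.factorial : ℝ)⁻¹ * (-Real.log s) ^ n * (if n = i then μ else 0) := by
    intro n
    rw [smul_neg, ← neg_smul, smul_pow, smul_smul, smul_mul_assoc, map_smul, hk, smul_eq_mul]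
  have h' : HasSum (fun n : ℕ => ℓ ((n.factorial : ℝ)⁻¹ • (Real.log s • (-A)) ^ n * C))
      (ℓ ((i.factorial : ℝ)⁻¹ • (Real.log s • (-A)) ^ i * C)) := by
    refine hasSum_single i (fun n hn => ?_)
    rw [e, if_neg hn, mul_zero]
  have := h.unique h'
  rw [e, if_pos rfl] at this
  exact this

theorem an7_ell_pos {A C : B} (ℓ : B →L[ℝ] ℝ) {i : ℕ} {μ : ℝ} (hμ : 0 < μ)
    (hk : ∀ k, ℓ (A ^ k * C) = if k = i then μ else 0) {s : ℝ} (h0 : 0 < s) (h1 : s < 1) :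
    0 < ℓ (pw s (-A) * C) := by
  rw [an7_ell ℓ hk]
  have : 0 < -Real.log s := neg_pos.2 (Real.log_neg h0 h1)
  positivity

theorem an7_rr : (31 / 50 : ℝ) < rr ∧ rr < 1 := by
  unfold rr
  norm_num

theorem an7_d0 {A C : B} (hA : Sm A) (hC : Sm C) (h1 : C * A = 0) (h2 : C * C = 0) {s : ℝ}
    (h0 : 0 < s) (hs : s < rr) :
    HasDerivAt (fun v => pw v (-A) * G1 A C v) ((s - 1)⁻¹ • (pw s (-A) * C)) s := by
  have h3 := (pw_hasDerivAt (-A) (σ := fun v => v) (hasDerivAt_id s) h0).mul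
    (G1_hasDerivAt hA hC h0 hs)
  have hc : pw s (-A) * A = A * pw s (-A) := (pw_commute (Commute.refl A).neg_right s).eq.symm
  have hG : C * G1 A C s = C := an7_G1 hA hC h1 h2 (by rw [abs_of_pos h0]; exact hs.le)
  have e : ((1 / s) • (-A * pw s (-A))) * G1 A C s +
      pw s (-A) * ((s⁻¹ • A + (s - 1)⁻¹ • C) * G1 A C s) = (s - 1)⁻¹ • (pw s (-A) * C) := by
    rw [add_mul, mul_add, smul_mul_assoc, smul_mul_assoc, smul_mul_assoc, hG, mul_smul_comm,
      mul_smul_comm, ← mul_assoc, hc, one_div, neg_mul, neg_mul, smul_neg]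
    abel
  rw [← e]
  exact h3

theorem an7_d1 {A C : B} (hA : Sm A) (hC : Sm C) (h1 : C * A = 0) (h2 : C * C = 0) {u : ℝ}
    (h0 : 0 < u) (hs : u < rr) :
    HasDerivAt (fun v => pw (1 - v) (-A) * G1 C A v) (u⁻¹ • (pw (1 - u) (-A) * C)) u := by
  have hu1 : 0 < 1 - u := by linarith [an7_rr.2]
  have h3 := (pw_hasDerivAt (-A) (σ := fun v => 1 - v) ((hasDerivAt_id u).const_sub 1) hu1).mul
    (G1_hasDerivAt hC hA h0 hs)
  have hc : pw (1 - u) (-A) * A = A * pw (1 - u) (-A) :=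
    (pw_commute (Commute.refl A).neg_right _).eq.symm
  have hG : C * G1 C A u = C := an7_G1 hC hA h2 h1 (by rw [abs_of_pos h0]; exact hs.le)
  have e1 : -1 / (1 - u) = (u - 1)⁻¹ := by
    rw [← neg_sub 1 u, inv_neg, neg_div, one_div]
  have e : ((-1 / (1 - u)) • (-A * pw (1 - u) (-A))) * G1 C A u +
      pw (1 - u) (-A) * ((u⁻¹ • C + (u - 1)⁻¹ • A) * G1 C A u) =
      u⁻¹ • (pw (1 - u) (-A) * C) := by
    rw [e1, add_mul, mul_add, smul_mul_assoc, smul_mul_assoc, smul_mul_assoc, hG, mul_smul_comm,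
      mul_smul_comm, ← mul_assoc, hc, neg_mul, neg_mul, smul_neg]
    abel
  rw [← e]
  exact h3

theorem an7_left {A C : B} (hA : Sm A) (hC : Sm C) (h1 : C * A = 0) (h2 : C * C = 0)
    (ℓ : B →L[ℝ] ℝ) {i : ℕ} {μ : ℝ} (hμ : 0 < μ) (h0 : ℓ 1 = 0)
    (hk : ∀ k, ℓ (A ^ k * C) = if k = i then μ else 0) : ℓ (pw s0 (-A) * G1 A C s0) < 0 := by
  obtain ⟨b1, b2, -⟩ := s0_bounds
  obtain ⟨r1, r2⟩ := an7_rr
  let f : ℝ → ℝ := fun v => ℓ (pw v (-A) * G1 A C v)
  have hd : ∀ s ∈ Set.Ioc 0 s0, HasDerivAt f ((s - 1)⁻¹ * ℓ (pw s (-A) * C)) s := by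
    intro s hs
    have := ℓ.hasFDerivAt.comp_hasDerivAt s (an7_d0 hA hC h1 h2 hs.1 (by linarith [hs.2]))
    rw [map_smul, smul_eq_mul] at this
    exact this
  have hanti : StrictAntiOn f (Set.Ioc 0 s0) := by
    refine strictAntiOn_of_deriv_neg (convex_Ioc 0 s0)
      (fun s hs => (hd s hs).continuousAt.continuousWithinAt) (fun s hs => ?_)
    have hs' := interior_subset hs
    rw [(hd s hs').deriv]
    have e1 : s < 1 := by linarith [hs'.2]
    exact mul_neg_of_neg_of_pos (inv_neg''.2 (by linarith)) (an7_ell_pos ℓ hμ hk hs'.1 e1)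
  have hb := H1_bd hA hC
  obtain ⟨L, hL0, hL⟩ := Hf_lip hb
  have hZ : ∀ s ∈ Set.Ioc 0 s0, ‖H1 A C s - 1‖ ≤ L * s := by
    intro s hs
    have := hL s 0 0 0 (by rw [abs_of_pos hs.1]; linarith [hs.2]) an4_zero_le an4_zero_le
      an4_zero_le
    rw [Hf_zero hb] at this
    unfold H1
    simpa [abs_of_pos hs.1] using this
  have hA4 : ‖A‖ ≤ 1 / 4 := le_trans hA (by norm_num)
  have hlim := conj_tendsto hA4 (by linarith) hZ
  have hlim2 : Tendsto f (𝓝[>] 0) (𝓝 0) := by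
    have := (ℓ.continuous.tendsto 0).comp hlim
    rw [map_zero] at this
    refine this.congr (fun t => ?_)
    simp only [Function.comp, f, G1, mul_sub, sub_mul, mul_one, (pw_mul_neg t A).2, map_sub, h0,
      sub_zero, mul_assoc]
  have hhalf : f (s0 / 2) ≤ 0 := by
    refine ge_of_tendsto hlim2 ?_
    filter_upwards [Ioc_mem_nhdsGT (show (0 : ℝ) < s0 / 2 by linarith)] with t ht
    exact hanti.antitoneOn ⟨ht.1, by linarith [ht.2]⟩ ⟨by linarith, by linarith⟩ ht.2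
  have : f s0 < f (s0 / 2) :=
    hanti ⟨by linarith, by linarith⟩ ⟨by linarith, le_rfl⟩ (by linarith)
  exact this.trans_le hhalf

theorem an7_lim {A C P : B} (hA : Sm A) (hC : Sm C) (h2 : C * C = 0) (hP : C * P = C)
    (ℓ : B →L[ℝ] ℝ) (h0 : ℓ C = 0) :
    Tendsto (fun v => ℓ (pw (1 - v) (-A) * G1 C A v * P)) (𝓝[>] 0) (𝓝 (ℓ P)) := by
  have hb := H1_bd hC hA
  have hr0 : |(0 : ℝ)| < rr := by unfold rr; norm_num
  obtain ⟨M', hM⟩ : ∃ M', HasDerivAt (fun v => pw (1 - v) (-A) * H1 C A v) M' 0 :=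
    ⟨_, (pw_hasDerivAt (-A) (σ := fun v => 1 - v) ((hasDerivAt_id (0 : ℝ)).const_sub 1)
      (by norm_num)).mul (Hf_hasDerivAt hb (σ := fun v => v) (τ := fun _ => 0) (hasDerivAt_id 0)
        (hasDerivAt_const 0 0) hr0 hr0)⟩
  have hM0 : pw (1 - 0) (-A) * H1 C A 0 = 1 := by
    unfold H1 pw
    rw [Hf_zero hb]
    simp
  have t1 : Tendsto (fun v => ℓ (pw (1 - v) (-A) * H1 C A v * P)) (𝓝[>] 0) (𝓝 (ℓ P)) := by
    have := (ℓ.continuous.tendsto _).comp (hM.continuousAt.tendsto.mul_const P)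
    rw [hM0, one_mul] at this
    exact this.mono_left nhdsWithin_le_nhds
  have t2 : Tendsto (fun v : ℝ => v⁻¹ * ℓ (pw (1 - v) (-A) * H1 C A v * C)) (𝓝[>] 0)
      (𝓝 (ℓ (M' * C))) := by
    have := (ℓ.hasFDerivAt.comp_hasDerivAt (0 : ℝ) (hM.mul_const C)).tendsto_slope_zero_right
    simp only [Function.comp, zero_add, hM0, one_mul, h0, smul_eq_mul] at this
    simpa only [sub_zero] using this
  have t3 : Tendsto (fun v : ℝ => v * Real.log v) (𝓝[>] 0) (𝓝 0) := by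
    have := Real.continuous_mul_log.tendsto 0
    rw [zero_mul] at this
    exact this.mono_left nhdsWithin_le_nhds
  have t4 := t1.add (t3.mul t2)
  rw [zero_mul, add_zero] at t4
  refine t4.congr' ?_
  filter_upwards [self_mem_nhdsWithin] with v hv
  have hv0 : v ≠ 0 := ne_of_gt hv
  unfold G1
  rw [an7_pw_sq h2, ← mul_assoc (pw (1 - v) (-A)), mul_add, add_mul, mul_one, map_add,
    mul_smul_comm, smul_mul_assoc, mul_assoc _ C P, hP, map_smul, smul_eq_mul]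
  field_simp

/-- The coefficient of `A^i C` in the associator is negative. -/
theorem phi_coef {A C : B} (hA : Sm A) (hC : Sm C) (h1 : C * A = 0) (h2 : C * C = 0)
    (ℓ : B →L[ℝ] ℝ) {i : ℕ} (hi : 0 < i) {μ : ℝ} (hμ : 0 < μ) (h0 : ℓ 1 = 0)
    (hk : ∀ k, ℓ (A ^ k * C) = if k = i then μ else 0) : ℓ (Phi A C) < 0 := by
  obtain ⟨b1, b2, -⟩ := s0_bounds
  obtain ⟨r1, r2⟩ := an7_rr
  have a1 : |1 - s0| ≤ rr := by rw [abs_of_pos (by linarith)]; linarith
  have a2 : |s0| ≤ rr := by rw [abs_of_pos (by linarith)]; linarith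
  have hu := G1_isUnit hC hA a1
  have hGP : G1 C A (1 - s0) * Phi A C = G1 A C s0 := by
    unfold Phi
    rw [← mul_assoc, Ring.mul_inverse_cancel _ hu, one_mul]
  have hP : C * Phi A C = C := by
    calc C * Phi A C = C * G1 C A (1 - s0) * Phi A C := by rw [an7_G1 hC hA h2 h1 a1]
      _ = C := by rw [mul_assoc, hGP, an7_G1 hA hC h1 h2 a2]
  have hC0 : ℓ C = 0 := by
    have := hk 0
    rwa [pow_zero, one_mul, if_neg hi.ne] at this
  let F : ℝ → ℝ := fun v => ℓ (pw (1 - v) (-A) * G1 C A v * Phi A C)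
  have hd : ∀ u ∈ Set.Ioc 0 (1 - s0), HasDerivAt F (u⁻¹ * ℓ (pw (1 - u) (-A) * C)) u := by
    intro u hu
    have := ℓ.hasFDerivAt.comp_hasDerivAt u
      ((an7_d1 hA hC h1 h2 hu.1 (by linarith [hu.2])).mul_const (Phi A C))
    rw [smul_mul_assoc, mul_assoc, hP, map_smul, smul_eq_mul] at this
    exact this
  have hmono : StrictMonoOn F (Set.Ioc 0 (1 - s0)) := by
    refine strictMonoOn_of_deriv_pos (convex_Ioc 0 _)
      (fun s hs => (hd s hs).continuousAt.continuousWithinAt) (fun s hs => ?_)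
    have hs' := interior_subset hs
    rw [(hd s hs').deriv]
    exact mul_pos (inv_pos.2 hs'.1)
      (an7_ell_pos ℓ hμ hk (by linarith [hs'.2]) (by linarith [hs'.1]))
  have hend : F (1 - s0) < 0 := by
    simp only [F]
    rw [sub_sub_cancel, mul_assoc, hGP]
    exact an7_left hA hC h1 h2 ℓ hμ h0 hk
  refine lt_of_le_of_lt ?_ hend
  refine le_of_tendsto (an7_lim hA hC h2 hP ℓ hC0) ?_
  filter_upwards [Ioc_mem_nhdsGT (show (0 : ℝ) < 1 - s0 by linarith)] with t ht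
  exact hmono.monotoneOn ht ⟨by linarith, le_rfl⟩ ht.2

end Vale.Agent.P029
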