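import Vale.Agent.P029.Red

noncomputable section

namespace Vale.Agent.P029

open FreeAlgebra

theorem exists_sigma_int (k : ℕ) : ∃ ψ, Lam (2 * k + 3) ψ ∧ co (xy (2 * k + 2)) ψ ≠ 0 := by
  obtain ⟨ψ, h1, h2, h3⟩ := exists_sigma_rat k
  obtain ⟨c, hc, χ, h4, h5⟩ := clear_LieW h1
  refine ⟨χ, ⟨h4, by rw [h5]; exact h2.smul _⟩, fun h6 => ?_⟩
  have h7 := co_bc (K := ℚ) (xy (2 * k + 2)) χ
  rw [h5, h6, map_smul, smul_eq_mul, Int.cast_zero] at h7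
  exact mul_ne_zero (Nat.cast_ne_zero.2 hc.ne') h3 h7

namespace Asm1

variable {n : ℕ} {Ω Ω' : FA F2 ℕ}

/-- Reductions of solutions without depth one part. -/
def Dec (n : ℕ) (Ω : FA F2 ℕ) : Prop := ∃ ψ, Lam n ψ ∧ red ψ = Ω ∧ ∀ j, co (xy j) ψ = 0

theorem f2_cases (r : F2) : r = 0 ∨ r = 1 := by revert r; decide

theorem Dec.zero : Dec n 0 := ⟨0, Lam.zero, map_zero _, fun _ => map_zero _⟩

theorem Dec.add (h : Dec n Ω) (h' : Dec n Ω') : Dec n (Ω + Ω') := by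
  obtain ⟨ψ, h1, h2, h3⟩ := h
  obtain ⟨φ, h4, h5, h6⟩ := h'
  exact ⟨ψ + φ, h1.add h4, by rw [map_add, h2, h5], fun j => by rw [map_add, h3, h6, add_zero]⟩

theorem Dec.smul (h : Dec n Ω) (r : F2) : Dec n (r • Ω) := by
  rcases f2_cases r with rfl | rfl
  · rw [zero_smul]; exact Dec.zero
  · rwa [one_smul]

theorem three_le (m : FreeMagma ℕ) : 3 ≤ mw wtG m := by
  induction m with
  | ih1 x => exact Nat.le_add_left _ _
  | ih2 a b ha _ => exact ha.trans (Nat.le_add_right _ _)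

theorem low (hn : n < 3) (h : Ω ∈ LieW F2 wtG n) : Ω = 0 := by
  refine (Submodule.span_le (p := ⊥)).2 ?_ h
  rintro _ ⟨m, h1, -⟩
  have := three_le m
  omega

theorem gen (h : Ω ∈ Submodule.span F2 {f | ∃ x, wtG x = n ∧ f = ι F2 x}) :
    Ω = 0 ∨ ∃ k, wtG k = n ∧ Ω = ι F2 k := by
  induction h using Submodule.span_induction with
  | mem f hf => exact Or.inr hf
  | zero => exact Or.inl rfl
  | add f g _ _ hf hg =>
    rcases hf with rfl | ⟨k, hk, rfl⟩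
    · rwa [zero_add]
    rcases hg with rfl | ⟨l, hl, rfl⟩
    · exact Or.inr ⟨k, hk, add_zero _⟩
    obtain rfl : k = l := by unfold wtG at hk hl; omega
    left
    rw [← two_smul F2, show (2 : F2) = 0 from rfl, zero_smul]
  | smul r f _ hf =>
    rcases f2_cases r with rfl | rfl
    · exact Or.inl (zero_smul _ _)
    · rwa [one_smul]

variable (ih : ∀ i < n, 3 ≤ i → ∀ Ω ∈ LieW F2 wtG i, ∃ ψ, Lam i ψ ∧ red ψ = Ω)
include ih

theorem dec_br (h : Ω ∈ Submodule.span F2 {f | ∃ i j a b, 0 < i ∧ 0 < j ∧ i + j = n ∧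
    a ∈ LieW F2 wtG i ∧ b ∈ LieW F2 wtG j ∧ f = br a b}) : Dec n Ω := by
  induction h using Submodule.span_induction with
  | mem f hf =>
    obtain ⟨i, j, a, b, hi, hj, hn, ha, hb, rfl⟩ := hf
    rcases lt_or_ge i 3 with h1 | h1
    · rw [low h1 ha, br_zero_left]; exact Dec.zero
    rcases lt_or_ge j 3 with h2 | h2
    · rw [low h2 hb, br_zero_right]; exact Dec.zero
    obtain ⟨ψ, h3, rfl⟩ := ih i (by omega) h1 a ha
    obtain ⟨φ, h4, rfl⟩ := ih j (by omega) h2 b hb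
    exact ⟨_, hn ▸ h3.ih h1 h2 h4, red_ih h1 h2 h3 h4, fun l =>
      co_xy_ih (LieW_le_LieGe (by omega) h3.1) (LieW_le_LieGe (by omega) h4.1) l⟩
  | zero => exact Dec.zero
  | add f g _ _ hf hg => exact hf.add hg
  | smul r f _ hf => exact hf.smul r

theorem split (h : Ω ∈ LieW F2 wtG n) :
    Dec n Ω ∨ ∃ k Ω', wtG k = n ∧ Dec n Ω' ∧ Ω = ι F2 k + Ω' := by
  obtain ⟨f, hf, g, hg, rfl⟩ :=
    Submodule.mem_sup.1 (LieW_le_gen (fun _ => Nat.succ_pos _) h)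
  rcases gen hf with rfl | ⟨k, hk, rfl⟩
  · left; rw [zero_add]; exact dec_br ih hg
  · exact Or.inr ⟨k, g, hk, dec_br ih hg, rfl⟩

theorem gen_red {k : ℕ} (hk : wtG k = n) : ∃ ψ, Lam n ψ ∧ red ψ = ι F2 k := by
  by_contra hc
  have hn : 3 ≤ n := hk ▸ Nat.le_add_left _ _
  have h1 : ∀ ψ, Lam n ψ → ∃ χ, Lam n χ ∧ ∀ j, co (xy j) ψ = 2 * co (xy j) χ := by
    intro ψ hψ
    rcases split ih (red_mem hψ) with ⟨φ, h2, h3, h4⟩ | ⟨l, _, hl, ⟨φ, h2, rfl, -⟩, h3⟩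
    · obtain ⟨χ, h5, h6⟩ := red_eq_zero hn (hψ.sub h2) (by rw [map_sub, h3, sub_self])
      refine ⟨χ, h5, fun j => ?_⟩
      rw [← smul_eq_mul, ← map_smul, ← h6, map_sub, h4, sub_zero]
    · obtain rfl : k = l := by unfold wtG at hk hl; omega
      exact absurd ⟨ψ - φ, hψ.sub h2, by rw [map_sub, h3, add_sub_cancel_right]⟩ hc
  have h2 : ∀ (j N : ℕ) ψ, Lam n ψ → (co (xy j) ψ).natAbs = N → co (xy j) ψ = 0 := by
    intro j N
    induction N using Nat.strong_induction_on with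
    | _ N hN =>
      intro ψ hψ h3
      obtain ⟨χ, h4, h5⟩ := h1 ψ hψ
      have h6 := h5 j
      by_contra h7
      have h8 := hN _ (by omega) χ h4 rfl
      omega
  obtain ⟨ψ, h3, h4⟩ := exists_sigma_int k
  exact h4 (h2 _ _ ψ (hk ▸ h3) rfl)

end Asm1

theorem red_surj {n : ℕ} (hn : 3 ≤ n) {Ω : FA F2 ℕ} (h : Ω ∈ LieW F2 wtG n) :
    ∃ ψ, Lam n ψ ∧ red ψ = Ω := by
  induction n using Nat.strong_induction_on generalizing Ω with
  | _ n ih =>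
    have ih' : ∀ i < n, 3 ≤ i → ∀ Ω ∈ LieW F2 wtG i, ∃ ψ, Lam i ψ ∧ red ψ = Ω :=
      fun i hi h3 _ h4 => ih i hi h3 h4
    rcases Asm1.split ih' h with ⟨ψ, h1, h2, -⟩ | ⟨k, _, hk, ⟨φ, h1, rfl, -⟩, rfl⟩
    · exact ⟨ψ, h1, h2⟩
    · obtain ⟨ψ, h2, h3⟩ := Asm1.gen_red ih' hk
      exact ⟨ψ + φ, h2.add h1, by rw [map_add, h3]⟩

theorem exists_sigma : ∃ σ : ℕ → FA ℤ (Fin 2), ∀ k, Lam (2 * k + 3) (σ k) ∧ red (σ k) = ι F2 k := by
  choose σ hσ using fun k : ℕ =>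
    red_surj (n := 2 * k + 3) (Nat.le_add_left _ _) (ι_mem_LieW (R := F2) (wt := wtG) k)
  exact ⟨σ, hσ⟩

end Vale.Agent.P029
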