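import Vale.Agent.P029.Red

noncomputable section

namespace Vale.Agent.P029

open FreeAlgebra

variable {σ : ℕ → FA ℤ (Fin 2)}

theorem ihm_spec (hσ : ∀ k, Lam (2 * k + 3) (σ k) ∧ red (σ k) = ι F2 k) (m : FreeMagma ℕ) :
    3 ≤ mw wtG m ∧ Lam (mw wtG m) (ihm σ m) ∧ red (ihm σ m) = lm F2 m := by
  induction m with
  | ih1 k => exact ⟨Nat.le_add_left 3 _, hσ k⟩
  | ih2 a b ha hb =>
    refine ⟨ha.1.trans (Nat.le_add_right _ _), Lam.ih ha.1 hb.1 ha.2.1 hb.2.1, ?_⟩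
    exact (red_ih ha.1 hb.1 ha.2.1 hb.2.1).trans (by rw [ha.2.2, hb.2.2]; rfl)

theorem asm_inj (hσ : ∀ k, Lam (2 * k + 3) (σ k) ∧ red (σ k) = ι F2 k)
    (θ : FA ℚ ℕ →ₗ[ℚ] FA ℚ (Fin 2)) (hθ : ∀ m, θ (lm ℚ m) = bc ℚ (ihm σ m)) {a : FA ℚ ℕ}
    (ha : a ∈ LieA ℚ ℕ) (h0 : θ a = 0) : a = 0 := by
  have h1 : ∀ χ ∈ LieA ℤ ℕ, ∃ ψ, θ (bc ℚ χ) = bc ℚ ψ ∧ red ψ = bc F2 χ := fun χ hχ => by
    induction hχ using Submodule.span_induction with
    | mem x hx =>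
      obtain ⟨m, rfl⟩ := hx
      exact ⟨ihm σ m, by rw [bc_lm, hθ], by rw [bc_lm, (ihm_spec hσ m).2.2]⟩
    | zero => exact ⟨0, by simp, by simp⟩
    | add x y _ _ hx hy =>
      obtain ⟨u, hu, hu'⟩ := hx
      obtain ⟨v, hv, hv'⟩ := hy
      exact ⟨u + v, by simp [hu, hv], by simp [hu', hv']⟩
    | smul k x _ hx =>
      obtain ⟨u, hu, hu'⟩ := hx
      have e : ∀ (K : Type) [CommRing K], bc K (k • x) = k • bc K x := fun K _ => map_zsmul _ k x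
      exact ⟨k • u, (congrArg θ (e ℚ)).trans (by rw [map_zsmul, map_zsmul, hu]),
        (by rw [map_zsmul, hu'] : _ = k • bc F2 x).trans (e F2).symm⟩
  have h2 : ∀ (j : ℕ), ∀ χ ∈ LieA ℤ ℕ, θ (bc ℚ χ) = 0 → ∃ g, χ = (2 : ℤ) ^ j • g := fun j => by
    induction j with
    | zero => exact fun χ _ _ => ⟨χ, by simp⟩
    | succ j ih =>
      intro χ hχ h
      obtain ⟨ψ, h3, h4⟩ := h1 χ hχ
      rw [bc_inj (h3.symm.trans h), map_zero] at h4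
      obtain ⟨g, rfl⟩ := bc_two h4.symm
      rw [map_zsmul, map_zsmul, ← Int.cast_smul_eq_zsmul ℚ] at h
      obtain ⟨g', rfl⟩ := ih g (pure_lie two_ne_zero hχ)
        ((smul_eq_zero.1 h).resolve_left (by norm_num))
      exact ⟨g', by rw [smul_smul, pow_succ']⟩
  obtain ⟨k, hk, χ, hχ, e⟩ := clear_LieA ha
  rw [eq_zero_of_two_div fun j => h2 j χ hχ (by rw [e, map_smul, h0, smul_zero]), map_zero] at e
  exact (smul_eq_zero.1 e.symm).resolve_left (Nat.cast_ne_zero.2 hk.ne')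

theorem asm2_lam (hσ : ∀ k, Lam (2 * k + 3) (σ k) ∧ red (σ k) = ι F2 k) {n : ℕ} (hn : 3 ≤ n)
    {ψ : FA ℤ (Fin 2)} (h : Lam n ψ) :
    bc ℚ ψ ∈ Submodule.span ℚ (Set.range (fun m => bc ℚ (ihm σ m))) := by
  let P : Submodule ℤ (FA ℤ (Fin 2)) :=
    { carrier := {ψ | Lam n ψ}
      add_mem' := Lam.add
      zero_mem' := Lam.zero
      smul_mem' := fun k _ h => Lam.smul h k }
  let Q : Submodule ℤ (FA ℤ (Fin 2)) := Submodule.span ℤ {ψ | ∃ m, mw wtG m = n ∧ ψ = ihm σ m}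
  have hQ : Q ≤ P := Submodule.span_le.2 (by
    rintro _ ⟨m, rfl, rfl⟩
    exact (ihm_spec hσ m).2.1)
  have h1 : ∀ Ω ∈ LieW F2 wtG n, ∃ φ ∈ Q, red φ = Ω := fun Ω hΩ => by
    induction hΩ using Submodule.span_induction with
    | mem x hx =>
      obtain ⟨m, hm, rfl⟩ := hx
      exact ⟨ihm σ m, Submodule.subset_span ⟨m, hm, rfl⟩, (ihm_spec hσ m).2.2⟩
    | zero => exact ⟨0, Q.zero_mem, map_zero _⟩
    | add x y _ _ hx hy =>
      obtain ⟨u, hu, rfl⟩ := hx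
      obtain ⟨v, hv, rfl⟩ := hy
      exact ⟨u + v, Q.add_mem hu hv, map_add _ _ _⟩
    | smul c x _ hx =>
      obtain ⟨u, hu, rfl⟩ := hx
      obtain ⟨k, rfl⟩ := ZMod.intCast_surjective c
      exact ⟨k • u, Q.smul_mem k hu, by rw [map_zsmul, Int.cast_smul_eq_zsmul]⟩
  have h2 : (HomW ℤ (one1 : Fin 2 → ℕ) n).FG := Submodule.fg_span
    (((List.finite_length_eq (Fin 2) n).image (wd ℤ)).subset (by
      rintro _ ⟨w, hw, rfl⟩
      exact ⟨w, by simpa using hw, rfl⟩))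
  have h3 : P.FG := h2.of_le fun φ hφ => LieW_le_HomW hφ.1
  obtain ⟨r, hr, h4⟩ := Submodule.exists_sub_one_mem_and_smul_eq_zero_of_fg_of_le_smul
    (Ideal.span {(2 : ℤ)}) (P.map Q.mkQ) (h3.map _) (by
      rintro _ ⟨φ, hφ, rfl⟩
      obtain ⟨φ', h5, h6⟩ := h1 _ (red_mem hφ)
      obtain ⟨χ, h7, h8⟩ := red_eq_zero hn (Lam.sub hφ (hQ h5)) (by rw [map_sub, h6, sub_self])
      have h9 : Q.mkQ φ = (2 : ℤ) • Q.mkQ χ := by
        rw [← map_smul, ← h8, map_sub, Q.mkQ_apply φ', (Submodule.Quotient.mk_eq_zero Q).2 h5,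
          sub_zero]
      rw [h9]
      exact Submodule.smul_mem_smul (Ideal.mem_span_singleton_self _) ⟨χ, h7, rfl⟩)
  have h5 := h4 _ ⟨ψ, h, rfl⟩
  rw [← map_smul, Q.mkQ_apply, Submodule.Quotient.mk_eq_zero] at h5
  have h6 : ∀ φ ∈ Q, bc ℚ φ ∈ Submodule.span ℚ (Set.range (fun m => bc ℚ (ihm σ m))) :=
    fun φ hφ => by
      induction hφ using Submodule.span_induction with
      | mem x hx =>
        obtain ⟨m, -, rfl⟩ := hx
        exact Submodule.subset_span ⟨m, rfl⟩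
      | zero => simp
      | add x y _ _ hx hy => rw [map_add]; exact add_mem hx hy
      | smul k x _ hx => rw [map_zsmul]; exact zsmul_mem hx k
  have h7 := h6 _ h5
  rw [map_zsmul, ← Int.cast_smul_eq_zsmul ℚ] at h7
  rw [Ideal.mem_span_singleton] at hr
  exact (Submodule.smul_mem_iff _ (Int.cast_ne_zero.2 (by omega))).1 h7

theorem asm_surj (hσ : ∀ k, Lam (2 * k + 3) (σ k) ∧ red (σ k) = ι F2 k) {ψ : FA ℚ (Fin 2)}
    (hψ : ψ ∈ LieGe ℚ (Fin 2) 3) (h : Pent ψ) :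
    ψ ∈ Submodule.span ℚ (Set.range (fun m => bc ℚ (ihm σ m))) := by
  obtain ⟨N, -, e⟩ := exists_sum_proj one1 ψ
  rw [e]
  refine Submodule.sum_mem _ fun n _ => ?_
  rcases lt_or_ge n 3 with hn | hn
  · rw [proj_of_GeW (LieGe_le_GeW hψ) hn]
    exact Submodule.zero_mem _
  obtain ⟨k, hk, χ, hχ, e'⟩ := clear_LieW (proj_mem_LieW (wt := one1) (n := n) (LieGe_le_LieA hψ))
  have h1 := asm2_lam hσ hn ⟨hχ, e' ▸ (h.proj n).smul _⟩
  rw [e'] at h1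
  exact (Submodule.smul_mem_iff _ (Nat.cast_ne_zero.2 hk.ne')).1 h1

end Vale.Agent.P029
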