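import Vale.Agent.P029.Lie1

noncomputable section

namespace Vale.Agent.P029

open FreeAlgebra

variable {K : Type} [CommRing K] {X : Type} {wt : X → ℕ} {n : ℕ}

@[simp] theorem bc_ι (x : X) : bc K (ι ℤ x) = ι K x := by simp [bc]

theorem bc_smul (r : ℤ) (f : FA ℤ X) : bc K (r • f) = (r : K) • bc K f := by
  rw [map_smul, Int.cast_smul_eq_zsmul]

theorem bc_span {s : Set (FA ℤ X)} {T : Submodule K (FA K X)} (hs : ∀ f ∈ s, bc K f ∈ T)
    {f : FA ℤ X} (h : f ∈ Submodule.span ℤ s) : bc K f ∈ T := by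
  induction h using Submodule.span_induction with
  | mem f hf => exact hs f hf
  | zero => rw [map_zero]; exact zero_mem _
  | add f g _ _ hf hg => rw [map_add]; exact add_mem hf hg
  | smul r f _ hf => rw [bc_smul]; exact Submodule.smul_mem _ _ hf

theorem bc_clear {s : Set (FA ℚ X)} {T : Submodule ℤ (FA ℤ X)}
    (hs : ∀ f ∈ s, ∃ χ ∈ T, bc ℚ χ = f) {ψ : FA ℚ X} (h : ψ ∈ Submodule.span ℚ s) :
    ∃ k : ℕ, 0 < k ∧ ∃ χ ∈ T, bc ℚ χ = (k : ℚ) • ψ := by
  induction h using Submodule.span_induction with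
  | mem f hf =>
    obtain ⟨χ, h1, h2⟩ := hs f hf
    exact ⟨1, one_pos, χ, h1, by rw [h2, Nat.cast_one, one_smul]⟩
  | zero => exact ⟨1, one_pos, 0, zero_mem _, by rw [map_zero, smul_zero]⟩
  | add f g _ _ hf hg =>
    obtain ⟨k, hk, χ, h1, h2⟩ := hf
    obtain ⟨l, hl, ξ, h3, h4⟩ := hg
    refine ⟨k * l, Nat.mul_pos hk hl, (l : ℤ) • χ + (k : ℤ) • ξ,
      add_mem (T.smul_mem _ h1) (T.smul_mem _ h3), ?_⟩
    rw [map_add, bc_smul, bc_smul, h2, h4, smul_smul, smul_smul, smul_add]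
    push_cast
    rw [mul_comm (l : ℚ)]
  | smul r f _ hf =>
    obtain ⟨k, hk, χ, h1, h2⟩ := hf
    refine ⟨r.den * k, Nat.mul_pos r.den_pos hk, r.num • χ, T.smul_mem _ h1, ?_⟩
    rw [bc_smul, h2, smul_smul, smul_smul]
    push_cast
    rw [mul_right_comm, Rat.den_mul_eq_num]

theorem bc_wd (w : List X) : bc K (wd ℤ w) = wd K w := by
  induction w with
  | nil => simp
  | cons x w ih => rw [wd_cons, wd_cons, map_mul, bc_ι, ih]

theorem bc_lm (m : FreeMagma X) : bc K (lm ℤ m) = lm K m := by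
  induction m with
  | ih1 x => simp
  | ih2 a b ha hb => rw [lm_mul, lm_mul, map_br, ha, hb]

theorem co_bc (w : List X) (f : FA ℤ X) : co w (bc K f) = ((co w f : ℤ) : K) := by
  classical
  induction f using wd_ind with
  | h0 => simp
  | hadd f g hf hg => rw [map_add, map_add, map_add, hf, hg, Int.cast_add]
  | hw r v =>
    refine (congrArg (co w) (bc_smul r (wd ℤ v))).trans ?_
    rw [bc_wd, map_smul, map_smul, co_wd, co_wd]
    split_ifs <;> simp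

theorem bc_inj {f : FA ℤ X} (h : bc ℚ f = 0) : f = 0 := by
  refine ext_co fun w => ?_
  have := co_bc (K := ℚ) w f
  rw [h, map_zero] at this
  rw [map_zero]
  exact_mod_cast this.symm

theorem bc_two {f : FA ℤ X} (h : bc (ZMod 2) f = 0) : ∃ g : FA ℤ X, f = (2 : ℤ) • g := by
  obtain ⟨s, -, hs⟩ := exists_sum_wd f
  refine ⟨∑ w ∈ s, (co w f / 2) • wd ℤ w, ?_⟩
  rw [Finset.smul_sum]
  refine hs.trans (Finset.sum_congr rfl fun w _ => ?_)
  have := co_bc (K := ZMod 2) w f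
  rw [h, map_zero] at this
  have d : ((2 : ℕ) : ℤ) ∣ co w f := (ZMod.intCast_zmod_eq_zero_iff_dvd _ 2).1 this.symm
  rw [smul_smul, Int.mul_ediv_cancel' (by exact_mod_cast d)]
  rfl

theorem bc_two_smul (f : FA ℤ X) : bc (ZMod 2) ((2 : ℤ) • f) = 0 := by
  rw [bc_smul, show ((2 : ℤ) : ZMod 2) = 0 from rfl, zero_smul]

theorem eq_zero_of_smul_int {k : ℤ} (hk : k ≠ 0) {f : FA ℤ X} (h : k • f = 0) : f = 0 := by
  refine ext_co fun w => ?_
  have := congrArg (co w) h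
  rw [map_smul, map_zero, smul_eq_mul] at this
  rw [map_zero]
  exact (mul_eq_zero.1 this).resolve_left hk

theorem eq_zero_of_two_div {f : FA ℤ X} (h : ∀ j : ℕ, ∃ g : FA ℤ X, f = (2 : ℤ) ^ j • g) :
    f = 0 := by
  refine ext_co fun w => ?_
  rw [map_zero]
  obtain ⟨g, hg⟩ := h (co w f).natAbs
  refine Int.eq_zero_of_dvd_of_natAbs_lt_natAbs (d := 2 ^ (co w f).natAbs) ⟨co w g, ?_⟩ ?_
  · conv_lhs => rw [hg]
    rw [map_smul, smul_eq_mul]
  · rw [Int.natAbs_pow]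
    exact Nat.lt_two_pow_self

theorem HomW_of_smul_int {k : ℤ} (hk : k ≠ 0) {f : FA ℤ X} (h : k • f ∈ HomW ℤ wt n) :
    f ∈ HomW ℤ wt n := by
  rw [mem_HomW] at h ⊢
  intro w hw
  have := h w hw
  rw [map_smul, smul_eq_mul] at this
  exact (mul_eq_zero.1 this).resolve_left hk

theorem bc_LieA {f : FA ℤ X} (h : f ∈ LieA ℤ X) : bc K f ∈ LieA K X := by
  refine bc_span ?_ h
  rintro _ ⟨m, rfl⟩
  rw [bc_lm]
  exact lm_mem_LieA m

theorem bc_LieW {f : FA ℤ X} (h : f ∈ LieW ℤ wt n) : bc K f ∈ LieW K wt n := by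
  refine bc_span ?_ h
  rintro _ ⟨m, hm, rfl⟩
  exact Submodule.subset_span ⟨m, hm, bc_lm m⟩

theorem bc_LieGe {f : FA ℤ X} (h : f ∈ LieGe ℤ X n) : bc K f ∈ LieGe K X n := by
  refine bc_span ?_ h
  rintro _ ⟨m, hm, rfl⟩
  exact Submodule.subset_span ⟨m, hm, bc_lm m⟩

theorem clear_LieW {ψ : FA ℚ X} (h : ψ ∈ LieW ℚ wt n) :
    ∃ k : ℕ, 0 < k ∧ ∃ χ ∈ LieW ℤ wt n, bc ℚ χ = (k : ℚ) • ψ := by
  refine bc_clear ?_ h
  rintro _ ⟨m, hm, rfl⟩
  exact ⟨lm ℤ m, Submodule.subset_span ⟨m, hm, rfl⟩, bc_lm m⟩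

theorem clear_LieA {ψ : FA ℚ X} (h : ψ ∈ LieA ℚ X) :
    ∃ k : ℕ, 0 < k ∧ ∃ χ ∈ LieA ℤ X, bc ℚ χ = (k : ℚ) • ψ := by
  refine bc_clear ?_ h
  rintro _ ⟨m, rfl⟩
  exact ⟨lm ℤ m, lm_mem_LieA m, bc_lm m⟩

theorem lift_bc {A : Type} [Ring A] [Algebra K A] [Algebra ℤ A] (g : X → A) (f : FA ℤ X) :
    FreeAlgebra.lift K g (bc K f) = FreeAlgebra.lift ℤ g f := by
  induction f using FreeAlgebra.induction with
  | grade0 r =>
    rw [eq_intCast (algebraMap ℤ (FreeAlgebra ℤ X)) r, map_intCast, map_intCast, map_intCast]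
  | grade1 x => rw [bc_ι, lift_ι_apply, lift_ι_apply]
  | mul a b ha hb => rw [map_mul, map_mul, map_mul, ha, hb]
  | add a b ha hb => rw [map_add, map_add, map_add, ha, hb]

theorem ev_bc {A : Type} [Ring A] [Algebra K A] [Algebra ℤ A] (u v : A) (f : FA ℤ (Fin 2)) :
    ev u v (bc K f) = ev u v f := by
  exact lift_bc _ f

theorem bc_dI (ψ φ : FA ℤ (Fin 2)) : bc K (dI ψ φ) = dI (bc K ψ) (bc K φ) := by
  unfold dI
  induction φ using FreeAlgebra.induction with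
  | grade0 r =>
    have e : bc K (algebraMap ℤ (FreeAlgebra ℤ (Fin 2)) r) = (r : K) • 1 := by
      rw [eq_intCast (algebraMap ℤ (FreeAlgebra ℤ (Fin 2))) r, map_intCast,
        Int.cast_smul_eq_zsmul, zsmul_one]
    rw [e, Algebra.algebraMap_eq_smul_one, map_smul, map_smul, map_smul,
      (der_isDer _).map_one, (der_isDer _).map_one, map_zero, smul_zero, smul_zero]
  | grade1 x =>
    rw [bc_ι, der_ι, der_ι]
    fin_cases x
    · simp
    · simp [map_br]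
  | mul a b ha hb =>
    rw [der_isDer, map_add, map_mul (bc K), map_mul (bc K), map_mul (bc K), der_isDer, ha, hb]
  | add a b ha hb => rw [map_add, map_add, map_add, map_add, ha, hb]

theorem bc_ih (ψ φ : FA ℤ (Fin 2)) : bc K (ih ψ φ) = ih (bc K ψ) (bc K φ) := by
  rw [ih, ih, map_add, map_sub, bc_dI, bc_dI, map_br]

theorem pent_bc {ψ : FA ℤ (Fin 2)} (h : Pent ψ) : Pent (bc K ψ) := by
  intro A _ _ a b c d e hs
  have := h A a b c d e hs
  unfold pentE at this ⊢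
  simpa only [ev_bc] using this

end Vale.Agent.P029
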