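import Vale.Agent.P029.Defs

/-! P029: definitions for the mod 2 upper bound and the torsor argument. -/

noncomputable section

namespace Vale.Agent.P029

open FreeAlgebra

/-- The field with two elements. -/
abbrev F2 : Type := ZMod 2

/-- `F2<g, v0, v1>`. -/
abbrev R3 : Type := FA F2 (Fin 3)

/-- The derivation `η`. -/
def etaD : Module.End F2 R3 :=
  der ![0, br (ι F2 2) (ι F2 0) + ι F2 0 * ι F2 0, br (ι F2 1) (ι F2 0)]

/-- The derivation `X`. -/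
def XD : Module.End F2 R3 := der ![ι F2 0 * ι F2 1, ι F2 2 * ι F2 2, ι F2 1 * ι F2 2]

/-- `F2<a_0, a_1, …, b_1, b_2, …>`. -/
abbrev FF : Type := FA F2 (ℕ ⊕ ℕ)

/-- The letter `a_r`. -/
def aa (r : ℕ) : FF := ι F2 (Sum.inl r)

/-- The letter `b_r`, with `b_0 = 0`. -/
def bb : ℕ → FF
  | 0 => 0
  | r + 1 => ι F2 (Sum.inr r)

/-- `a_r ↦ a_{r+1}`, `b_r ↦ 0`. -/
def xF : Module.End F2 FF := der (Sum.elim (fun r => aa (r + 1)) (fun _ => 0))

/-- The value of `YF` on `a_r`. -/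
def Ya (r : ℕ) : FF := br (bb r) (aa 0) +
  ∑ i ∈ Finset.range r, (aa i * aa 0 * aa (r - 1 - i) + bb i * aa 0 * bb (r - 1 - i))

/-- The value of `YF` on `b_r`. -/
def Yb (r : ℕ) : FF := br (aa r) (aa 0) +
  ∑ i ∈ Finset.range r, (aa i * aa 0 * bb (r - 1 - i) + bb i * aa 0 * aa (r - 1 - i))

/-- The derivation `Y`. -/
def YF : Module.End F2 FF := der (Sum.elim Ya (fun r => Yb (r + 1)))

/-- The leading part of `Y`. -/
def yF : Module.End F2 FF := der (Sum.elim (fun r => br (bb r) (aa 0)) (fun _ => 0))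

/-- `ad (a_0^2)`. -/
def tF : Module.End F2 FF :=
  LinearMap.mulLeft F2 (aa 0 * aa 0) - LinearMap.mulRight F2 (aa 0 * aa 0)

/-- `(v0 + v1 J)^r = A_r + B_r J`. -/
def AB : ℕ → R3 × R3
  | 0 => (1, 0)
  | r + 1 => (ι F2 1 * (AB r).1 + ι F2 2 * (AB r).2, ι F2 1 * (AB r).2 + ι F2 2 * (AB r).1)

/-- `a_r ↦ g A_r`, `b_r ↦ g B_r`. -/
def jj : FF →ₐ[F2] R3 :=
  FreeAlgebra.lift F2 (Sum.elim (fun r => ι F2 0 * (AB r).1) (fun r => ι F2 0 * (AB (r + 1)).2))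

/-- The cost of the letters. -/
def cost : ℕ ⊕ ℕ → ℕ := Sum.elim (fun _ => 2) (fun _ => 1)

/-- The leading term recursion: `0 ↦ x`, `1 1 ↦ t`, single `1 ↦ y`. -/
def th {M : Type} (x y t : M → M) (m : M) : List (Fin 2) → M
  | [] => m
  | [a] => if a = 0 then x m else y m
  | a :: b :: w => if a = 0 then x (th x y t m (b :: w)) else
      if b = 1 then t (th x y t m w) else y (th x y t m (b :: w))

/-- The cost of a word. -/
def kap (w : List (Fin 2)) : ℕ := th id (· + 1) (· + 4) 2 w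

/-- Words ending in `x`. -/
def XE : Type := {w : List (Fin 2) // w.getLast? = some 0}

/-- Labels. -/
abbrev Lb : Type := List ℕ × ℕ

/-- The free algebra on the labels. -/
abbrev TT : Type := FA F2 Lb

/-- The label of `a_0`. -/
def P0 : Lb := ([], 0)

/-- The letter `a_0`. -/
def PP : TT := ι F2 P0

/-- Action of `x` on labels. -/
def xT : Module.End F2 TT := der (fun l => ι F2 (l.1, l.2 + 1))

/-- Action of `y` on labels. -/
def yT : Module.End F2 TT :=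
  der (fun l => if l.2 = 0 then 0 else ι F2 (l.1 ++ [l.2 - 1], 0))

/-- `ad (P^2)`. -/
def tT : Module.End F2 TT := LinearMap.mulLeft F2 (PP * PP) - LinearMap.mulRight F2 (PP * PP)

/-- `[β; i] ↦ ad_β a_i`. -/
def QQ : TT →ₐ[F2] FF := FreeAlgebra.lift F2 (fun l => adL (fun k => bb (k + 1)) l.1 (aa l.2))

/-- The derivation `x ↦ π ↦ 0`. -/
def dP : Module.End F2 (FA F2 (Fin 2)) := der ![ι F2 1, 0]

/-- The elimination of `y` modulo `y^2`. -/
def gam : FA F2 (Fin 2) →ₗ[F2] FA F2 (Fin 2) :=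
  elimR (fun x => x = 1) (fun _ => ![ι F2 1, 0]) (fun _ => ι F2 0)

/-- Keep the letters `0, 1`. -/
def kp : FA F2 ℕ →ₐ[F2] FA F2 (Fin 2) :=
  FreeAlgebra.lift F2 (fun i => if i = 0 then ι F2 0 else if i = 1 then ι F2 1 else 0)

/-- `p_0 ↦ π`, `p_1 ↦ [x, π]`. -/
def J1 : FA F2 (Fin 2) →ₐ[F2] FA F2 (Fin 2) := ev (ι F2 1) (br (ι F2 0) (ι F2 1))

/-- `g_k ↦ ad_π^k [x, π]`. -/
def JJ : FA F2 ℕ →ₐ[F2] FA F2 (Fin 2) := J1.comp (FreeAlgebra.lift F2 (adI (R := F2)))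

/-- The left inverse of `JJ`. -/
def JI : FA F2 (Fin 2) →ₗ[F2] FA F2 ℕ := rI ∘ₗ kp.toLinearMap ∘ₗ rI

/-- The reduction map. -/
def red : FA ℤ (Fin 2) →+ FA F2 ℕ :=
  (JI ∘ₗ gam).toAddMonoidHom.comp (bc F2 (X := Fin 2)).toLinearMap.toAddMonoidHom

/-- The weights `2k+3`. -/
def wtG (k : ℕ) : ℕ := 2 * k + 3

/-- The integral solutions of weight `n`. -/
def Lam (n : ℕ) (ψ : FA ℤ (Fin 2)) : Prop := ψ ∈ LieW ℤ one1 n ∧ Pent (bc ℚ ψ)

/-- Iterated Ihara brackets. -/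
def ihm (σ : ℕ → FA ℤ (Fin 2)) : FreeMagma ℕ → FA ℤ (Fin 2)
  | FreeMagma.of k => σ k
  | FreeMagma.mul a b => ih (ihm σ a) (ihm σ b)

end Vale.Agent.P029
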