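import Vale.Agent.P029.SDefs
import Vale.Agent.P029.UDefs

/-! P029: definitions for the bridge between free Lie algebras and free associative algebras. -/

noncomputable section

namespace Vale.Agent.P029

open FreeAlgebra

attribute [local instance 100] LieRing.ofAssociativeRing in
/-- The canonical map from the free Lie algebra to the free associative algebra. -/
def jL (X : Type) : FreeLieAlgebra ℚ X →ₗ[ℚ] FA ℚ X :=
  (FreeLieAlgebra.lift ℚ (ι ℚ : X → FA ℚ X)).toLinearMap

/-- Bracket monomials in a Lie algebra. -/
def fm {X g : Type} [LieRing g] (f : X → g) : FreeMagma X → g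
  | FreeMagma.of x => f x
  | FreeMagma.mul a b => ⁅fm f a, fm f b⁆

/-- The operator `(u, s) ↦ ([z, u] + k s z, 0)`. -/
def rho {g : Type} [LieRing g] [LieAlgebra ℚ g] (k : ℕ) (z : g) : Module.End ℚ (g × ℚ) where
  toFun p := (⁅z, p.1⁆ + ((k : ℚ) * p.2) • z, 0)
  map_add' p q := by ext <;> simp [mul_add, add_smul]; abel
  map_smul' r p := by ext <;> simp [smul_smul, mul_left_comm]

end Vale.Agent.P029
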