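import Vale.Agent.P029.Lie1

noncomputable section

namespace Vale.Agent.P029

open FreeAlgebra

variable {R : Type} [CommRing R] {X Y : Type} {A : Type} [Ring A] [Algebra R A]

theorem commute_lift {z : A} {g : X → A} (h : ∀ x, Commute z (g x)) (φ : FA R X) :
    Commute z (FreeAlgebra.lift R g φ) := by
  induction φ using FreeAlgebra.induction with
  | grade0 r => rw [AlgHom.commutes]; exact Algebra.commute_algebraMap_right r z
  | grade1 x => rw [lift_ι_apply]; exact h x
  | mul a b ha hb => rw [map_mul]; exact ha.mul_right hb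
  | add a b ha hb => rw [map_add]; exact ha.add_right hb

theorem commute_ev {z u v : A} (hu : Commute z u) (hv : Commute z v) (φ : FA R (Fin 2)) :
    Commute z (ev u v φ) := by
  exact commute_lift (Fin.forall_fin_two.2 ⟨hu, hv⟩) φ

/-- Lie elements are primitive. -/
theorem lift_prim {g g' : X → A} (h : ∀ x y, Commute (g x) (g' y)) {φ : FA R X}
    (hφ : φ ∈ LieA R X) : FreeAlgebra.lift R (fun x => g x + g' x) φ =
      FreeAlgebra.lift R g φ + FreeAlgebra.lift R g' φ := by
  have hc : ∀ a b : FA R X, Commute (FreeAlgebra.lift R g a) (FreeAlgebra.lift R g' b) :=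
    fun a b => commute_lift (fun y => (commute_lift (fun x => (h x y).symm) a).symm) b
  refine lieA_ind (P := fun φ => FreeAlgebra.lift R (fun x => g x + g' x) φ =
    FreeAlgebra.lift R g φ + FreeAlgebra.lift R g' φ) ?_ ?_ ?_ ?_ ?_ hφ
  · intro x
    simp only [lift_ι_apply]
  · simp only [map_zero, add_zero]
  · intro a b _ _ ha hb
    simp only [map_add, ha, hb]
    abel
  · intro r a _ ha
    simp only [map_smul, ha, smul_add]
  · intro a b _ _ ha hb
    simp only [map_br, ha, hb, br_add_left, br_add_right, Commute.br0 (hc a b),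
      Commute.br0 (hc b a).symm, add_zero, zero_add]

theorem ev_prim {u v u' v' : A} (h1 : Commute u u') (h2 : Commute u v') (h3 : Commute v u')
    (h4 : Commute v v') {φ : FA R (Fin 2)} (hφ : φ ∈ LieA R (Fin 2)) :
    ev (u + u') (v + v') φ = ev u v φ + ev u' v' φ := by
  have e : (![u + u', v + v'] : Fin 2 → A) = fun x => ![u, v] x + ![u', v'] x := by
    funext x
    fin_cases x <;> rfl
  unfold ev
  rw [e]
  exact lift_prim (Fin.forall_fin_two.2 ⟨Fin.forall_fin_two.2 ⟨h1, h2⟩,
    Fin.forall_fin_two.2 ⟨h3, h4⟩⟩) hφ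

theorem lift_ab {g : X → A} (h : ∀ x y, Commute (g x) (g y)) {φ : FA R X}
    (hφ : φ ∈ LieGe R X 2) : FreeAlgebra.lift R g φ = 0 := by
  have hc : ∀ a b : FA R X, Commute (FreeAlgebra.lift R g a) (FreeAlgebra.lift R g b) :=
    fun a b => commute_lift (fun y => (commute_lift (fun x => (h x y).symm) a).symm) b
  induction hφ using Submodule.span_induction with
  | mem f hf =>
    obtain ⟨m, hm, rfl⟩ := hf
    cases m with
    | of x => exact absurd hm (by simp [mw, one1])
    | mul a b =>
      change FreeAlgebra.lift R g (br (lm R a) (lm R b)) = 0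
      rw [map_br, Commute.br0 (hc _ _)]
  | zero => exact map_zero _
  | add a b _ _ ha hb => rw [map_add, ha, hb, add_zero]
  | smul r a _ ha => rw [map_smul, ha, smul_zero]

theorem ev_ab {u v : A} (h : Commute u v) {φ : FA R (Fin 2)} (hφ : φ ∈ LieGe R (Fin 2) 2) :
    ev u v φ = 0 := by
  exact lift_ab (Fin.forall_fin_two.2 ⟨Fin.forall_fin_two.2 ⟨Commute.refl u, h⟩,
    Fin.forall_fin_two.2 ⟨h.symm, Commute.refl v⟩⟩) hφ

/-- Central shift. -/
theorem ev_shift {u v z z' : A} (h1 : Commute u z) (h2 : Commute u z') (h3 : Commute v z)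
    (h4 : Commute v z') (h5 : Commute z z') {φ : FA R (Fin 2)} (hφ : φ ∈ LieGe R (Fin 2) 2) :
    ev (u + z) (v + z') φ = ev u v φ := by
  rw [ev_prim h1 h2 h3 h4 (LieGe_le_LieA hφ), ev_ab h5 hφ, add_zero]

theorem lie2_two {a b : FreeMagma X} (h : ¬3 ≤ mw one1 (a * b)) :
    ∃ x y, a = FreeMagma.of x ∧ b = FreeMagma.of y := by
  have hp : ∀ c : FreeMagma X, 0 < mw one1 c := mw_pos fun _ => Nat.one_pos
  have h1 : ∀ c : FreeMagma X, mw one1 c ≤ 1 → ∃ x, c = FreeMagma.of x := by
    intro c hc
    cases c with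
    | of x => exact ⟨x, rfl⟩
    | mul a b =>
      have h2 : mw one1 a + mw one1 b ≤ 1 := hc
      have := hp a
      have := hp b
      omega
  rw [mw_mul] at h
  have := hp a
  have := hp b
  obtain ⟨x, hx⟩ := h1 a (by omega)
  obtain ⟨y, hy⟩ := h1 b (by omega)
  exact ⟨x, y, hx, hy⟩

theorem ev_sq_zero {A : Type} [Ring A] [Algebra (ZMod 2) A] {u v : A} (hu : u * u = 0)
    (hv : v * v = 0) {φ : FA (ZMod 2) (Fin 2)} (hφ : φ ∈ LieGe (ZMod 2) (Fin 2) 3) :
    ev u v φ = 0 := by
  have h2 : ∀ z : A, z + z = 0 := fun z => by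
    rw [← two_smul (ZMod 2) z, show (2 : ZMod 2) = 0 from rfl, zero_smul]
  have e1 : Commute (br u v) u := by
    refine br_eq_zero.1 ?_
    have : br (br u v) u = (u * v * u + u * v * u) - v * (u * u) - (u * u) * v := by
      unfold br; noncomm_ring
    rw [this, h2, hu]; simp
  have e2 : Commute (br u v) v := by
    refine br_eq_zero.1 ?_
    have : br (br u v) v = u * (v * v) + (v * v) * u - (v * u * v + v * u * v) := by
      unfold br; noncomm_ring
    rw [this, h2, hv]; simp
  have key : ∀ a b : FreeMagma (Fin 2),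
      (2 ≤ mw one1 a → Commute (ev u v (lm (ZMod 2) a)) u ∧ Commute (ev u v (lm (ZMod 2) a)) v) →
      (2 ≤ mw one1 b → Commute (ev u v (lm (ZMod 2) b)) u ∧ Commute (ev u v (lm (ZMod 2) b)) v) →
      3 ≤ mw one1 (a * b) → ev u v (lm (ZMod 2) (a * b)) = 0 := by
    intro a b ha hb h
    rw [lm_mul, map_br]
    rw [mw_mul] at h
    by_cases h1 : 2 ≤ mw one1 a
    · exact Commute.br0 (commute_ev (ha h1).1 (ha h1).2 _)
    · have h3 : 2 ≤ mw one1 b := by omega
      exact Commute.br0 (commute_ev (hb h3).1 (hb h3).2 _).symm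
  have hQ : ∀ m : FreeMagma (Fin 2), 2 ≤ mw one1 m →
      Commute (ev u v (lm (ZMod 2) m)) u ∧ Commute (ev u v (lm (ZMod 2) m)) v := by
    intro m
    induction m with
    | ih1 x => intro h; exact absurd h (by simp [one1])
    | ih2 a b ha hb =>
      intro _
      by_cases h3 : 3 ≤ mw one1 (a * b)
      · rw [key a b ha hb h3]
        exact ⟨Commute.zero_left _, Commute.zero_left _⟩
      · obtain ⟨x, y, rfl, rfl⟩ := lie2_two h3
        rw [lm_mul, map_br, lm_of, lm_of]
        fin_cases x <;> fin_cases y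
        · simp
        · simpa using ⟨e1, e2⟩
        · simp only [Fin.mk_one, Fin.zero_eta, ev_x, ev_y]
          rw [br_skew]
          exact ⟨e1.neg_left, e2.neg_left⟩
        · simp
  induction hφ using Submodule.span_induction with
  | mem f hf =>
    obtain ⟨m, hm, rfl⟩ := hf
    cases m with
    | of x => exact absurd hm (by simp [mw, one1])
    | mul a b => exact key a b (hQ a) (hQ b) hm
  | zero => exact map_zero _
  | add a b _ _ ha hb => rw [map_add, ha, hb, add_zero]
  | smul r a _ ha => rw [map_smul, ha, smul_zero]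

theorem lie_decomp {φ : FA R (Fin 2)} (hφ : φ ∈ LieA R (Fin 2)) :
    φ - co [0] φ • ι R 0 - co [1] φ • ι R 1 - co [0, 1] φ • br (ι R 0) (ι R 1) ∈
      LieGe R (Fin 2) 3 := by
  have c1 : ∀ (w : List (Fin 2)) (x : Fin 2), co w (ι R x) = if [x] = w then 1 else 0 := by
    intro w x
    rw [← wd_singleton, co_wd]
    congr
  have c2 : ∀ (w : List (Fin 2)) (x y : Fin 2), co w (br (ι R x) (ι R y)) =
      (if [x, y] = w then 1 else 0) - if [y, x] = w then 1 else 0 := by
    intro w x y
    have e : br (ι R x) (ι R y) = wd R [x, y] - wd R [y, x] := by simp [br]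
    rw [e, map_sub, co_wd, co_wd]
    congr
  induction hφ using Submodule.span_induction with
  | mem f hf =>
    obtain ⟨m, rfl⟩ := hf
    by_cases h3 : 3 ≤ mw one1 m
    · have hm : lm R m ∈ LieGe R (Fin 2) 3 := Submodule.subset_span ⟨m, h3, rfl⟩
      have h0 := mem_GeW.1 (LieGe_le_GeW hm)
      rw [h0 [0] (by simp [one1]), h0 [1] (by simp [one1]), h0 [0, 1] (by simp [one1])]
      simpa using hm
    cases m with
    | of x =>
      change ι R x - co [0] (ι R x) • ι R 0 - co [1] (ι R x) • ι R 1 -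
        co [0, 1] (ι R x) • br (ι R 0) (ι R 1) ∈ _
      simp only [c1]
      fin_cases x <;> simp
    | mul a b =>
      obtain ⟨x, y, rfl, rfl⟩ := lie2_two h3
      change br (ι R x) (ι R y) - co [0] (br (ι R x) (ι R y)) • ι R 0 -
        co [1] (br (ι R x) (ι R y)) • ι R 1 -
        co [0, 1] (br (ι R x) (ι R y)) • br (ι R 0) (ι R 1) ∈ _
      simp only [c2]
      fin_cases x <;> fin_cases y
      · simp
      · simp
      · simp [br_skew (ι R (1 : Fin 2)) (ι R 0)]
      · simp
  | zero => simp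
  | add a b _ _ ha hb =>
    convert add_mem ha hb using 1
    simp only [map_add, add_smul]
    abel
  | smul r a _ ha =>
    convert Submodule.smul_mem _ r ha using 1
    simp only [map_smul, smul_sub, smul_eq_mul, mul_smul]

theorem lie2_br {f g : FA R X} (hf : f ∈ LieA R X) (hg : g ∈ LieA R X) :
    br f g ∈ LieGe R X 2 := by
  have h := LieGe_br (LieA_le_LieGe_one hf) (LieA_le_LieGe_one hg)
  rwa [one_add_one_eq_two] at h

theorem lie_decomp2 {φ : FA R (Fin 2)} (hφ : φ ∈ LieA R (Fin 2)) :
    φ - co [0] φ • ι R 0 - co [1] φ • ι R 1 ∈ LieGe R (Fin 2) 2 := by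
  have h1 : br (ι R 0) (ι R 1) ∈ LieGe R (Fin 2) 2 := lie2_br (ι_mem_LieA 0) (ι_mem_LieA 1)
  have h2 := add_mem (LieGe_anti (by norm_num : 2 ≤ 3) (lie_decomp hφ))
    (Submodule.smul_mem _ (co [0, 1] φ) h1)
  rwa [sub_add_cancel] at h2

theorem co_replicate {φ : FA R X} (hφ : φ ∈ LieGe R X 2) (z : X) (j : ℕ) :
    co (List.replicate j z) φ = 0 := by
  classical
  have h1 := co_lift_scale (fun x => if x = z then (1 : R) else 0) (List.replicate j z) φ
  rw [lift_ab (fun x y => ?_) hφ] at h1
  · simpa using h1.symm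
  · by_cases hx : x = z <;> by_cases hy : y = z <;> simp [hx, hy]

open Classical in
/-- Killing all letters but one. -/
theorem keep_single {φ : FA R X} (hφ : φ ∈ LieA R X) (z : X) :
    keep (fun x => x = z) φ = co [z] φ • ι R z := by
  refine lieA_ind (P := fun φ => keep (fun x => x = z) φ = co [z] φ • ι R z) ?_ ?_ ?_ ?_ ?_ hφ
  · intro x
    rw [keep, lift_ι_apply, ← wd_singleton (R := R) x, co_wd]
    by_cases hx : x = z <;> simp [hx]
  · simp
  · intro a b _ _ ha hb
    rw [map_add, map_add, ha, hb, add_smul]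
  · intro r a _ ha
    rw [map_smul, map_smul, ha, smul_eq_mul, mul_smul]
  · intro a b ha' hb' ha hb
    have h1 := co_replicate (lie2_br ha' hb') z 1
    rw [List.replicate_one] at h1
    rw [h1, map_br, ha, hb, br_smul_left, br_smul_right, br_self, smul_zero, smul_zero, zero_smul]

end Vale.Agent.P029
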