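import Vale.Agent.P029.BDefs
import Vale.Agent.P029.Lie2

noncomputable section

namespace Vale.Agent.P029

open FreeAlgebra

variable {X : Type} {g : Type} [LieRing g] [LieAlgebra ℚ g]

attribute [local instance 100] LieRing.ofAssociativeRing in
@[simp] theorem jL_of (x : X) : jL X (FreeLieAlgebra.of ℚ x) = ι ℚ x :=
  FreeLieAlgebra.lift_of_apply (ι ℚ : X → FA ℚ X) x

attribute [local instance 100] LieRing.ofAssociativeRing in
theorem jL_lie (a b : FreeLieAlgebra ℚ X) : jL X ⁅a, b⁆ = br (jL X a) (jL X b) :=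
  (FreeLieAlgebra.lift ℚ (ι ℚ : X → FA ℚ X)).map_lie a b

theorem jL_fm (m : FreeMagma X) : jL X (fm (FreeLieAlgebra.of ℚ) m) = lm ℚ m := by
  induction m with
  | ih1 x => exact jL_of x
  | ih2 a b ha hb =>
    show jL X ⁅fm _ a, fm _ b⁆ = br (lm ℚ a) (lm ℚ b)
    rw [jL_lie, ha, hb]

theorem lift_fm (f : X → g) (m : FreeMagma X) :
    FreeLieAlgebra.lift ℚ f (fm (FreeLieAlgebra.of ℚ) m) = fm f m := by
  induction m with
  | ih1 x => exact FreeLieAlgebra.lift_of_apply f x
  | ih2 a b ha hb =>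
    show FreeLieAlgebra.lift ℚ f ⁅fm _ a, fm _ b⁆ = ⁅fm f a, fm f b⁆
    rw [LieHom.map_lie, ha, hb]

theorem span_fm : Submodule.span ℚ (Set.range (fm (FreeLieAlgebra.of ℚ : X → _))) = ⊤ := by
  let S : LieSubalgebra ℚ (FreeLieAlgebra ℚ X) :=
    { Submodule.span ℚ (Set.range (fm (FreeLieAlgebra.of ℚ : X → _))) with
      lie_mem' := fun {a b} ha hb => by
        change ⁅a, b⁆ ∈ Submodule.span ℚ (Set.range (fm (FreeLieAlgebra.of ℚ : X → _)))
        change a ∈ Submodule.span ℚ (Set.range (fm (FreeLieAlgebra.of ℚ : X → _))) at ha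
        change b ∈ Submodule.span ℚ (Set.range (fm (FreeLieAlgebra.of ℚ : X → _))) at hb
        induction ha using Submodule.span_induction with
        | zero => rw [zero_lie]; exact zero_mem _
        | add x y _ _ hx hy => rw [add_lie]; exact add_mem hx hy
        | smul c x _ hx => rw [smul_lie]; exact Submodule.smul_mem _ _ hx
        | mem x hx =>
          obtain ⟨m, rfl⟩ := hx
          induction hb using Submodule.span_induction with
          | zero => rw [lie_zero]; exact zero_mem _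
          | add x y _ _ hx hy => rw [lie_add]; exact add_mem hx hy
          | smul c x _ hx => rw [lie_smul]; exact Submodule.smul_mem _ _ hx
          | mem y hy =>
            obtain ⟨m', rfl⟩ := hy
            exact Submodule.subset_span ⟨m * m', rfl⟩ }
  let φ : FreeLieAlgebra ℚ X →ₗ⁅ℚ⁆ S := FreeLieAlgebra.lift ℚ fun x =>
    ⟨FreeLieAlgebra.of ℚ x, Submodule.subset_span ⟨FreeMagma.of x, rfl⟩⟩
  have e : S.incl.comp φ = LieHom.id := FreeLieAlgebra.hom_ext fun x => by
    simp [φ]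
  refine eq_top_iff.2 fun a _ => ?_
  have h : ((φ a : S) : FreeLieAlgebra ℚ X) = a := LieHom.congr_fun e a
  rw [← h]
  exact (φ a).2

theorem br1_ind {P : FreeLieAlgebra ℚ X → Prop} (hm : ∀ m, P (fm (FreeLieAlgebra.of ℚ) m))
    (h0 : P 0) (hadd : ∀ a b, P a → P b → P (a + b)) (hs : ∀ (c : ℚ) a, P a → P (c • a))
    (a : FreeLieAlgebra ℚ X) : P a := by
  have ha : a ∈ Submodule.span ℚ (Set.range (fm (FreeLieAlgebra.of ℚ : X → _))) := by
    rw [span_fm]; trivial
  induction ha using Submodule.span_induction with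
  | mem x hx => obtain ⟨m, rfl⟩ := hx; exact hm m
  | zero => exact h0
  | add x y _ _ hx hy => exact hadd x y hx hy
  | smul c x _ hx => exact hs c x hx

theorem jL_mem (a : FreeLieAlgebra ℚ X) : jL X a ∈ LieA ℚ X := by
  induction a using br1_ind with
  | hm m => rw [jL_fm]; exact lm_mem_LieA m
  | h0 => rw [map_zero]; exact zero_mem _
  | hadd a b ha hb => rw [map_add]; exact add_mem ha hb
  | hs c a ha => rw [map_smul]; exact Submodule.smul_mem _ _ ha

theorem jL_surj {f : FA ℚ X} (hf : f ∈ LieA ℚ X) : ∃ a, jL X a = f := by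
  have : LieA ℚ X ≤ LinearMap.range (jL X) :=
    Submodule.span_le.2 (by rintro _ ⟨m, rfl⟩; exact ⟨_, jL_fm m⟩)
  exact this hf

theorem br1_rho (k : ℕ) (z : g) (p : g × ℚ) :
    rho k z p = (⁅z, p.1⁆ + ((k : ℚ) * p.2) • z, 0) := rfl

theorem rho_add (k : ℕ) (z w : g) : rho k (z + w) = rho k z + rho k w := by
  refine LinearMap.ext fun p => Prod.ext ?_ ?_
  · simp only [br1_rho, LinearMap.add_apply, Prod.fst_add, add_lie, smul_add]
    abel
  · simp [br1_rho]

theorem rho_zero (k : ℕ) : rho k (0 : g) = 0 := by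
  refine LinearMap.ext fun p => Prod.ext ?_ ?_ <;> simp [br1_rho]

theorem br1_rho_smul (k : ℕ) (c : ℚ) (z : g) : rho k (c • z) = c • rho k z := by
  refine LinearMap.ext fun p => Prod.ext ?_ ?_
  · simp only [br1_rho, LinearMap.smul_apply, Prod.smul_fst, smul_lie, smul_add, smul_comm c]
  · simp [br1_rho]

theorem rho_br (k l : ℕ) (z w : g) : br (rho k z) (rho l w) = rho (k + l) ⁅z, w⁆ := by
  refine LinearMap.ext fun p => Prod.ext ?_ ?_
  · simp only [br, br1_rho, LinearMap.sub_apply, Module.End.mul_apply, Prod.fst_sub, lie_add,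
      lie_smul, mul_zero, zero_smul, add_zero, lie_lie, Nat.cast_add, add_mul, add_smul]
    rw [← lie_skew w z, smul_neg]
    abel
  · simp [br, br1_rho]

theorem lift_rho_lm (f : X → g) (m : FreeMagma X) :
    FreeAlgebra.lift ℚ (fun x => rho 1 (f x)) (lm ℚ m) = rho (mw one1 m) (fm f m) := by
  induction m with
  | ih1 x => exact FreeAlgebra.lift_ι_apply _ x
  | ih2 a b ha hb =>
    rw [lm_mul, map_br, ha, hb, rho_br]
    rfl

theorem exists_jL_inv : ∃ θ : FA ℚ X →ₗ[ℚ] FreeLieAlgebra ℚ X, ∀ a, θ (jL X a) = a := by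
  let G : FA ℚ X →ₐ[ℚ] Module.End ℚ (FreeLieAlgebra ℚ X × ℚ) :=
    FreeAlgebra.lift ℚ fun x => rho 1 (FreeLieAlgebra.of ℚ x)
  let θ : FA ℚ X →ₗ[ℚ] FreeLieAlgebra ℚ X :=
    onW fun w => (w.length : ℚ)⁻¹ • (G (wd ℚ w) (0, 1)).1
  have h : ∀ (n : ℕ) (f : FA ℚ X), f ∈ HomW ℚ one1 n → θ f = (n : ℚ)⁻¹ • (G f (0, 1)).1 := by
    intro n f hf
    induction hf using Submodule.span_induction with
    | mem x hx =>
      obtain ⟨w, hw, rfl⟩ := hx
      rw [← hw, ww_one1]
      exact onW_wd _ w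
    | zero => simp
    | add x y _ _ hx hy =>
      rw [map_add, map_add, hx, hy, LinearMap.add_apply, Prod.fst_add, smul_add]
    | smul c x _ hx =>
      rw [map_smul, map_smul, hx, LinearMap.smul_apply, Prod.smul_fst, smul_comm]
  refine ⟨θ, fun a => ?_⟩
  induction a using br1_ind with
  | hm m =>
    have h0 : ((mw one1 m : ℕ) : ℚ) ≠ 0 :=
      Nat.cast_ne_zero.2 (mw_pos (fun _ => Nat.one_pos) m).ne'
    rw [jL_fm, h _ _ (lm_mem_HomW m), lift_rho_lm, br1_rho]
    simp [smul_smul, inv_mul_cancel₀ h0]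
  | h0 => rw [map_zero, map_zero]
  | hadd a b ha hb => rw [map_add, map_add, ha, hb]
  | hs c a ha => rw [map_smul, map_smul, ha]

theorem jL_inj : Function.Injective (jL X) := by
  obtain ⟨θ, h⟩ := exists_jL_inv (X := X)
  exact Function.LeftInverse.injective h

theorem lift_rho (f : X → g) {n : ℕ} {a : FreeLieAlgebra ℚ X} (ha : jL X a ∈ HomW ℚ one1 n) :
    FreeAlgebra.lift ℚ (fun x => rho 1 (f x)) (jL X a) = rho n (FreeLieAlgebra.lift ℚ f a) := by
  have key : ∀ φ ∈ LieW ℚ (one1 : X → ℕ) n, ∃ b, jL X b = φ ∧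
      FreeAlgebra.lift ℚ (fun x => rho 1 (f x)) φ = rho n (FreeLieAlgebra.lift ℚ f b) := by
    intro φ hφ
    induction hφ using Submodule.span_induction with
    | mem x hx =>
      obtain ⟨m, hm, rfl⟩ := hx
      exact ⟨_, jL_fm m, by rw [lift_rho_lm, lift_fm, hm]⟩
    | zero => exact ⟨0, map_zero _, by rw [map_zero, map_zero, rho_zero]⟩
    | add x y _ _ hx hy =>
      obtain ⟨b, h1, h2⟩ := hx
      obtain ⟨b', h3, h4⟩ := hy
      exact ⟨b + b', by rw [map_add, h1, h3], by rw [map_add, map_add, rho_add, h2, h4]⟩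
    | smul c x _ hx =>
      obtain ⟨b, h1, h2⟩ := hx
      exact ⟨c • b, by rw [map_smul, h1], by rw [map_smul, map_smul, br1_rho_smul, h2]⟩
  obtain ⟨b, h1, h2⟩ := key _ (mem_LieW_of (jL_mem a) ha)
  rw [h2, jL_inj h1]

/-- A linear map to an associative algebra compatible with brackets. -/
theorem map_lift_lie {A : Type} [Ring A] [Algebra ℚ A] (T : g →ₗ[ℚ] A)
    (hT : ∀ z w, T ⁅z, w⁆ = br (T z) (T w)) (f : X → g) (a : FreeLieAlgebra ℚ X) :
    T (FreeLieAlgebra.lift ℚ f a) = FreeAlgebra.lift ℚ (fun x => T (f x)) (jL X a) := by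
  induction a using br1_ind with
  | hm m =>
    rw [lift_fm, jL_fm]
    induction m with
    | ih1 x => exact (FreeAlgebra.lift_ι_apply (fun x => T (f x)) x).symm
    | ih2 a b ha hb =>
      rw [lm_mul, map_br, ← ha, ← hb, ← hT]
      rfl
  | h0 => simp
  | hadd a b ha hb => simp only [map_add, ha, hb]
  | hs c a ha => simp only [map_smul, ha]

theorem map_evL {A : Type} [Ring A] [Algebra ℚ A] (T : g →ₗ[ℚ] A)
    (hT : ∀ z w, T ⁅z, w⁆ = br (T z) (T w)) (ψ : L) (u v : g) :
    T (evL ψ u v) = ev (T u) (T v) (jL (Fin 2) ψ) := by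
  have e : (fun x => T (![u, v] x)) = ![T u, T v] := by
    funext i; fin_cases i <;> rfl
  rw [evL, map_lift_lie T hT, e, ev]

end Vale.Agent.P029
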