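import Vale.Agent.P029.KStm

noncomputable section
namespace Vale.Agent.P029.KZ

namespace KP5

theorem sum5 {M : Type} [AddCommMonoid M] (g : Fin 5 → M) {i j k l m : Fin 5}
    (h : Dis i j k l m) : ∑ t, g t = g i + g j + g k + g l + g m := by
  obtain ⟨h1, h2, h3, h4, h5, h6, h7, h8, h9, h10⟩ := h
  have a1 : i ∉ ({j, k, l, m} : Finset (Fin 5)) := by simp [h1, h2, h3, h4]
  have a2 : j ∉ ({k, l, m} : Finset (Fin 5)) := by simp [h5, h6, h7]
  have a3 : k ∉ ({l, m} : Finset (Fin 5)) := by simp [h8, h9]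
  have a4 : l ∉ ({m} : Finset (Fin 5)) := by simp [h10]
  have e : ({i, j, k, l, m} : Finset (Fin 5)) = Finset.univ := by
    apply Finset.eq_univ_of_card
    rw [Finset.card_insert_of_notMem a1, Finset.card_insert_of_notMem a2,
      Finset.card_insert_of_notMem a3, Finset.card_insert_of_notMem a4]
    simp
  rw [← e, Finset.sum_insert a1, Finset.sum_insert a2, Finset.sum_insert a3,
    Finset.sum_insert a4, Finset.sum_singleton]
  simp only [add_assoc]

variable {B : Type} [Ring B]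

theorem four {x : Fin 5 → Fin 5 → B} (h : P5 x) {i j k l m : Fin 5} (hd : Dis i j k l m) :
    x i j + x i k + x i l + x i m = 0 := by
  have := h.sum i
  rwa [sum5 _ hd, h.diag, zero_add] at this

theorem tri (K : Type) [Field K] [CharZero K] [Algebra K B] {x : Fin 5 → Fin 5 → B} (h : P5 x)
    {i j k l m : Fin 5} (hd : Dis i j k l m) : x i j + x i k + x j k = x l m := by
  have e1 := h.sum i
  have e2 := h.sum j
  have e3 := h.sum k
  have e4 := h.sum l
  have e5 := h.sum m
  rw [sum5 _ hd] at e1 e2 e3 e4 e5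
  rw [h.diag] at e1 e2 e3 e4 e5
  rw [h.symm j i] at e2
  rw [h.symm k i, h.symm k j] at e3
  rw [h.symm l i, h.symm l j, h.symm l k] at e4
  rw [h.symm m i, h.symm m j, h.symm m k, h.symm m l] at e5
  have h2 : (2 : K) • (x i j + x i k + x j k - x l m) = 0 := by
    rw [two_smul]
    linear_combination (norm := abel) e1 + e2 + e3 - e4 - e5
  have h3 : x i j + x i k + x j k - x l m = 0 := by
    have h4 : (2 : K) ≠ 0 := two_ne_zero
    have := congrArg (fun z => (2 : K)⁻¹ • z) h2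
    simpa only [smul_smul, inv_mul_cancel₀ h4, one_smul, smul_zero] using this
  exact sub_eq_zero.1 h3

theorem comm_of {x : Fin 5 → Fin 5 → B} (hs : ∀ i j, x i j = x j i) (hd : ∀ i, x i i = 0)
    (h : ∀ i j k l, i < j → k < l → i < k → j ≠ k → j ≠ l → Commute (x i j) (x k l)) :
    ∀ i j k l, i ≠ k → i ≠ l → j ≠ k → j ≠ l → Commute (x i j) (x k l) := by
  have h1 : ∀ i j k l, i < j → k < l → i ≠ k → i ≠ l → j ≠ k → j ≠ l →
      Commute (x i j) (x k l) := by
    intro i j k l a b c d e f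
    rcases lt_or_gt_of_ne c with c' | c'
    · exact h i j k l a b c' e f
    · exact (h k l i j b a c' d.symm f.symm).symm
  have h2 : ∀ i j k l, k < l → i ≠ k → i ≠ l → j ≠ k → j ≠ l → Commute (x i j) (x k l) := by
    intro i j k l b c d e f
    rcases lt_trichotomy i j with a | a | a
    · exact h1 i j k l a b c d e f
    · rw [a, hd]; exact Commute.zero_left _
    · rw [hs i j]; exact h1 j i k l a b e f c d
  intro i j k l c d e f
  rcases lt_trichotomy k l with b | b | b
  · exact h2 i j k l b c d e f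
  · rw [b, hd]; exact Commute.zero_right _
  · rw [hs k l]; exact h2 i j l k b d c f e

theorem cases15 : ∀ i j k l : Fin 5, i < j → k < l → i < k → j ≠ k → j ≠ l →
    (i, j, k, l) ∈ [((0 : Fin 5), (1 : Fin 5), (2 : Fin 5), (3 : Fin 5)), (0, 1, 2, 4), (0, 1, 3, 4),
      (0, 2, 1, 3), (0, 2, 1, 4), (0, 2, 3, 4), (0, 3, 1, 2), (0, 3, 1, 4), (0, 3, 2, 4),
      (0, 4, 1, 2), (0, 4, 1, 3), (0, 4, 2, 3), (1, 2, 3, 4), (1, 3, 2, 4), (1, 4, 2, 3)] := by
  decide

theorem fifth : ∀ i j k l : Fin 5, i < j → k < l → i < k → j ≠ k → j ≠ l →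
    ∃ m, Dis i j k l m := by
  unfold Dis
  decide

theorem others : ∀ i : Fin 5, ∃ j k l m, Dis i j k l m := by
  intro i
  fin_cases i
  · exact ⟨1, 2, 3, 4, by unfold Dis; decide⟩
  · exact ⟨0, 2, 3, 4, by unfold Dis; decide⟩
  · exact ⟨0, 1, 3, 4, by unfold Dis; decide⟩
  · exact ⟨0, 1, 2, 4, by unfold Dis; decide⟩
  · exact ⟨0, 1, 2, 3, by unfold Dis; decide⟩

/-- the table of all generators -/
def tab (a1 a2 a3 a4 a5 : B) : Fin 5 → Fin 5 → B :=
  ![![0, a1, a5 - a1 - a4, a4 - a3 - a5, a3], ![a1, 0, a4, a3 - a4 - a2, a2 - a1 - a3],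
    ![a5 - a1 - a4, a4, 0, a2, a1 - a2 - a5], ![a4 - a3 - a5, a3 - a4 - a2, a2, 0, a5],
    ![a3, a2 - a1 - a3, a1 - a2 - a5, a5, 0]]

theorem tab_p5 {a1 a2 a3 a4 a5 : B} (h : Pent a1 a2 a3 a4 a5) : P5 (tab a1 a2 a3 a4 a5) := by
  have hs : ∀ i j, tab a1 a2 a3 a4 a5 i j = tab a1 a2 a3 a4 a5 j i := by
    intro i j
    fin_cases i <;> fin_cases j <;> rfl
  have hd : ∀ i, tab a1 a2 a3 a4 a5 i i = 0 := by
    intro i
    fin_cases i <;> rfl
  refine ⟨hs, hd, ?_, comm_of hs hd ?_⟩
  · intro i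
    rw [Fin.sum_univ_five]
    fin_cases i
    · change 0 + a1 + (a5 - a1 - a4) + (a4 - a3 - a5) + a3 = 0
      abel
    · change a1 + 0 + a4 + (a3 - a4 - a2) + (a2 - a1 - a3) = 0
      abel
    · change (a5 - a1 - a4) + a4 + 0 + a2 + (a1 - a2 - a5) = 0
      abel
    · change (a4 - a3 - a5) + (a3 - a4 - a2) + a2 + 0 + a5 = 0
      abel
    · change a3 + (a2 - a1 - a3) + (a1 - a2 - a5) + a5 + 0 = 0
      abel
  · have e1 := h.c12.eq
    have e2 := h.c23.eq
    have e3 := h.c34.eq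
    have e4 := h.c45.eq
    have e5 := h.c51.eq
    have s := h.six
    unfold br at s
    have p1 : Commute (a5 - a1 - a4) (a3 - a4 - a2) := by
      change _ * _ = _ * _
      simp only [mul_sub, sub_mul, e1, e2, e3, e4, e5]
      linear_combination (norm := abel) -s
    have p2 : Commute (a5 - a1 - a4) (a2 - a1 - a3) := by
      change _ * _ = _ * _
      simp only [mul_sub, sub_mul, e1, e2, e3, e4, e5]
      linear_combination (norm := abel) s
    have p3 : Commute (a4 - a3 - a5) (a2 - a1 - a3) := by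
      change _ * _ = _ * _
      simp only [mul_sub, sub_mul, e1, e2, e3, e4, e5]
      linear_combination (norm := abel) -s
    have p4 : Commute (a4 - a3 - a5) (a1 - a2 - a5) := by
      change _ * _ = _ * _
      simp only [mul_sub, sub_mul, e1, e2, e3, e4, e5]
      linear_combination (norm := abel) s
    have p5 : Commute (a3 - a4 - a2) (a1 - a2 - a5) := by
      change _ * _ = _ * _
      simp only [mul_sub, sub_mul, e1, e2, e3, e4, e5]
      linear_combination (norm := abel) -s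
    intro i j k l a b c d e
    have hm := cases15 i j k l a b c d e
    simp only [List.mem_cons, Prod.mk.injEq, List.not_mem_nil, or_false] at hm
    rcases hm with ⟨rfl, rfl, rfl, rfl⟩ | ⟨rfl, rfl, rfl, rfl⟩ |
      ⟨rfl, rfl, rfl, rfl⟩ | ⟨rfl, rfl, rfl, rfl⟩ | ⟨rfl, rfl, rfl, rfl⟩ | ⟨rfl, rfl, rfl, rfl⟩ |
      ⟨rfl, rfl, rfl, rfl⟩ | ⟨rfl, rfl, rfl, rfl⟩ | ⟨rfl, rfl, rfl, rfl⟩ | ⟨rfl, rfl, rfl, rfl⟩ |
      ⟨rfl, rfl, rfl, rfl⟩ | ⟨rfl, rfl, rfl, rfl⟩ | ⟨rfl, rfl, rfl, rfl⟩ | ⟨rfl, rfl, rfl, rfl⟩ |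
      ⟨rfl, rfl, rfl, rfl⟩
    · exact h.c12
    · exact ((Commute.refl a1).sub_right h.c12).sub_right h.c51.symm
    · exact h.c51.symm
    · exact p1
    · exact p2
    · exact ((Commute.refl a5).sub_left h.c51.symm).sub_left h.c45
    · exact ((Commute.refl a4).sub_left h.c34).sub_left h.c45.symm
    · exact p3
    · exact p4
    · exact h.c34
    · exact ((Commute.refl a3).sub_right h.c34).sub_right h.c23.symm
    · exact h.c23.symm
    · exact h.c45
    · exact p5
    · exact ((Commute.refl a2).sub_left h.c12).sub_left h.c23.symm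

theorem pent (K : Type) [Field K] [CharZero K] [Algebra K B] {x : Fin 5 → Fin 5 → B} (h : P5 x)
    {i j k l m : Fin 5} (hd : Dis i j k l m) :
    Pent (x i j) (x k l) (x m i) (x j k) (x l m) := by
  have t1 := tri K h hd
  obtain ⟨h1, h2, h3, h4, h5, h6, h7, h8, h9, h10⟩ := hd
  have t2 : x j k + x j l + x k l = x m i :=
    tri K h ⟨h5, h6, h7, h1.symm, h8, h9, h2.symm, h10, h3.symm, h4.symm⟩
  have c12 : Commute (x i j) (x k l) := h.comm _ _ _ _ h2 h3 h5 h6
  have c23 : Commute (x k l) (x m i) := h.comm _ _ _ _ h9 h2.symm h10 h3.symm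
  have c34 : Commute (x m i) (x j k) := h.comm _ _ _ _ h7.symm h9.symm h1 h2
  have c45 : Commute (x j k) (x l m) := h.comm _ _ _ _ h6 h7 h8 h9
  have c51 : Commute (x l m) (x i j) := h.comm _ _ _ _ h3.symm h6.symm h4.symm h7.symm
  refine ⟨c12, c23, c34, c45, c51, ?_⟩
  have c : Commute (x i k) (x j l) := h.comm _ _ _ _ h1 h3 h5.symm h8
  have r1 : x i k = x l m - x i j - x j k := by rw [← t1]; abel
  have r2 : x j l = x m i - x j k - x k l := by rw [← t2]; abel
  have s := c.eq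
  rw [r1, r2] at s
  simp only [mul_sub, sub_mul, c12.eq, c23.eq, c34.eq, c45.eq, c51.eq] at s
  unfold br
  linear_combination (norm := abel) -s

theorem shift (K : Type) [Field K] [CharZero K] [Algebra K B] {x : Fin 5 → Fin 5 → B} (h : P5 x)
    {i j k l m : Fin 5} (hd : Dis i j k l m) (n : ℕ) (f : A K) (hn : n ≠ 1) (hf : LieW n f) :
    ev K (x i j) (x j k) f = ev K (x i j) (-x i k - x i j) f ∧
      ev K (x j k) (x i k) f = ev K (-x i k - x i j) (x i k) f := by
  have t1 := tri K h hd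
  obtain ⟨h1, h2, h3, h4, h5, h6, h7, h8, h9, h10⟩ := hd
  have c1 : Commute (x i j) (x l m) := h.comm _ _ _ _ h3 h4 h6 h7
  have c2 : Commute (x i k) (x l m) := h.comm _ _ _ _ h3 h4 h8 h9
  have c3 : Commute (-x i k - x i j) (x l m) := c2.neg_left.sub_left c1
  have r : x j k = (-x i k - x i j) + x l m := by rw [← t1]; abel
  constructor
  · have := hf.shift hn (a := x i j) (b := -x i k - x i j) (c := 0) (d := x l m)
      ⟨Commute.zero_right _, c1, Commute.zero_right _, c3⟩ (Commute.zero_left _)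
    rw [add_zero, ← r] at this
    exact this
  · have := hf.shift hn (a := -x i k - x i j) (b := x i k) (c := x l m) (d := 0)
      ⟨c3, Commute.zero_right _, c2, Commute.zero_right _⟩ (Commute.zero_right _)
    rw [add_zero, ← r] at this
    exact this

theorem ofSum {x : Fin 5 → Fin 5 → B} (hs : ∀ i j, x i j = x j i) (hd : ∀ i, x i i = 0)
    (ht : ∀ i j k l m, Dis i j k l m → x i j + x i k + x j k = x l m)
    (hc : ∀ i j k l m, Dis i j k l m → Commute (x i j) (x k l)) : P5 x := by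
  refine ⟨hs, hd, ?_, comm_of hs hd ?_⟩
  · intro i
    obtain ⟨j, k, l, m, h⟩ := others i
    have t1 := ht i j k l m h
    rw [sum5 _ h, hd]
    obtain ⟨h1, h2, h3, h4, h5, h6, h7, h8, h9, h10⟩ := h
    have t2 := ht i l m j k ⟨h3, h4, h1, h2, h10, h6.symm, h8.symm, h7.symm, h9.symm, h5⟩
    linear_combination (norm := abel) t1 + t2
  · intro i j k l a b c d e
    obtain ⟨m, h⟩ := fifth i j k l a b c d e
    exact hc i j k l m h

end KP5

theorem p5_pf (K : Type) [Field K] [CharZero K] :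
    S_p5 K := by
  refine ⟨?_, ?_, ?_, ?_, ?_, ?_⟩
  · intro B _ _ a1 a2 a3 a4 a5 h
    exact ⟨KP5.tab a1 a2 a3 a4 a5, KP5.tab_p5 h, rfl, rfl, rfl, rfl, rfl⟩
  · intro B _ _ x h i j k l m hd
    exact KP5.pent K h hd
  · intro B _ _ x h i j k l m hd
    exact KP5.tri K h hd
  · intro B _ _ x h i j k l m hd
    exact KP5.four h hd
  · intro B _ _ x h i j k l m hd n f hn hf
    exact KP5.shift K h hd n f hn hf
  · intro B _ _ x hs hd ht hc
    exact KP5.ofSum hs hd ht hc

end Vale.Agent.P029.KZ
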