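import Vale.Agent.P029.Lie2
import Vale.Agent.P029.KP5

noncomputable section

namespace Vale.Agent.P029

open FreeAlgebra

variable {R : Type} [CommRing R] {A : Type} [Ring A] [Algebra R A]

theorem Sys.rot {a b c d e : A} (h : Sys a b c d e) : Sys c d e a b :=
  ⟨h.ce, h.ac.symm, h.ad.symm, h.bd.symm, h.be.symm, by rw [← h.five]; abel⟩

theorem Sys.map {A' : Type} [Ring A'] {G : Type} [FunLike G A A'] [RingHomClass G A A'] (f : G)
    {a b c d e : A} (h : Sys a b c d e) : Sys (f a) (f b) (f c) (f d) (f e) :=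
  ⟨h.ac.map f, h.ad.map f, h.bd.map f, h.be.map f, h.ce.map f, by
    simp only [← map_br f, ← map_add, h.five, map_zero]⟩

theorem fib_br_central {a b τ : A} (ha : Commute τ a) (hb : Commute τ b) :
    br (τ * a) (τ * b) = τ * τ * br a b := by
  unfold br
  rw [mul_sub, ha.symm.mul_mul_mul_comm, hb.symm.mul_mul_mul_comm]

theorem Sys.central {a b c d e τ : A} (h : Sys a b c d e) (ha : Commute τ a) (hb : Commute τ b)
    (hc : Commute τ c) (hd : Commute τ d) (he : Commute τ e) :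
    Sys (τ * a) (τ * b) (τ * c) (τ * d) (τ * e) := by
  have k : ∀ {u v : A}, Commute τ u → Commute τ v → Commute u v → Commute (τ * u) (τ * v) := by
    intro u v hu hv huv
    rw [← br_eq_zero, fib_br_central hu hv, br_eq_zero.2 huv, mul_zero]
  refine ⟨k ha hc h.ac, k ha hd h.ad, k hb hd h.bd, k hb he h.be, k hc he h.ce, ?_⟩
  rw [fib_br_central ha hb, fib_br_central hb hc, fib_br_central hc hd, fib_br_central hd he,
    fib_br_central he ha]
  simp only [← mul_add, h.five, mul_zero]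

/-- The coefficient table. -/
def fibT : Fin 5 → Fin 5 → Fin 5 → ℤ :=
  ![![![0, 0, 0, 0, 0], ![1, 0, 0, 0, 0], ![-1, -1, 0, 1, 0], ![0, 1, 0, -1, -1], ![0, 0, 0, 0, 1]],
    ![![1, 0, 0, 0, 0], ![0, 0, 0, 0, 0], ![0, 1, 0, 0, 0], ![0, -1, -1, 0, 1], ![-1, 0, 1, 0, -1]],
    ![![-1, -1, 0, 1, 0], ![0, 1, 0, 0, 0], ![0, 0, 0, 0, 0], ![0, 0, 1, 0, 0], ![1, 0, -1, -1, 0]],
    ![![0, 1, 0, -1, -1], ![0, -1, -1, 0, 1], ![0, 0, 1, 0, 0], ![0, 0, 0, 0, 0], ![0, 0, 0, 1, 0]],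
    ![![0, 0, 0, 0, 1], ![-1, 0, 1, 0, -1], ![1, 0, -1, -1, 0], ![0, 0, 0, 1, 0], ![0, 0, 0, 0, 0]]]

theorem fibT_tri : ∀ i j k l m : Fin 5, i ≠ j → i ≠ k → i ≠ l → i ≠ m → j ≠ k → j ≠ l → j ≠ m →
    k ≠ l → k ≠ m → l ≠ m → ∀ t, fibT i j t + fibT j k t + fibT i k t = fibT l m t := by
  decide

theorem fibT_eq (a b c d e : A) (i j : Fin 5) : sbT a b c d e i j =
    fibT i j 0 • a + fibT i j 1 • b + fibT i j 2 • c + fibT i j 3 • d + fibT i j 4 • e := by
  fin_cases i <;> fin_cases j <;> simp [sbT, fibT] <;> abel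

theorem Sys.sb {a b c d e : A} (h : Sys a b c d e) : SB (sbT a b c d e) := by
  have hP : KZ.Pent a c e b d := ⟨h.ac, h.ce, h.be.symm, h.bd, h.ad.symm, by
    have := h.five
    unfold br at this
    unfold KZ.br
    linear_combination (norm := abel) -this⟩
  have e1 : sbT a b c d e = KZ.KP5.tab a c e b d := by
    unfold sbT KZ.KP5.tab
    rw [sub_right_comm b d e]
  have h5 := KZ.KP5.tab_p5 hP
  rw [← e1] at h5
  refine ⟨h5.symm, fun i j k l _ h1 h2 h3 h4 _ => h5.comm i j k l h1 h2 h3 h4,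
    fun i j k l m h1 h2 h3 h4 h5 h6 h7 h8 h9 h10 => ?_⟩
  have t := fibT_tri i j k l m h1 h2 h3 h4 h5 h6 h7 h8 h9 h10
  simp only [fibT_eq, ← t, add_smul]
  abel

theorem fib_commute {D : Module.End R A} (hD : IsDer D) {u : A} (h : D u = 0) :
    Commute D (LinearMap.mulLeft R u) := by
  rw [← br_eq_zero, hD.br_mulLeft, h]
  ext z
  simp

/-- The fibration representation on the free algebra on `c, d, v`. -/
theorem fib_sys : ∃ a b : Module.End R (FA R (Fin 3)), IsDer a ∧ IsDer b ∧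
    a (ι R 0) = 0 ∧ a (ι R 1) = 0 ∧ a (ι R 2) = br (ι R 0 + ι R 1) (ι R 2) + br (ι R 0) (ι R 1) ∧
    b (ι R 0) = br (ι R 0) (ι R 2) ∧ b (ι R 1) = 0 ∧ b (ι R 2) = 0 ∧
    Sys a b (LinearMap.mulLeft R (ι R 0)) (LinearMap.mulLeft R (ι R 1))
      (b + LinearMap.mulLeft R (ι R 2)) := by
  obtain ⟨a, ha, a0, a1, a2⟩ : ∃ a : Module.End R (FA R (Fin 3)), IsDer a ∧ a (ι R 0) = 0 ∧
      a (ι R 1) = 0 ∧ a (ι R 2) = br (ι R 0 + ι R 1) (ι R 2) + br (ι R 0) (ι R 1) :=
    ⟨der ![0, 0, br (ι R 0 + ι R 1) (ι R 2) + br (ι R 0) (ι R 1)], der_isDer _, by simp, by simp,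
      by simp⟩
  obtain ⟨b, hb, b0, b1, b2⟩ : ∃ b : Module.End R (FA R (Fin 3)), IsDer b ∧
      b (ι R 0) = br (ι R 0) (ι R 2) ∧ b (ι R 1) = 0 ∧ b (ι R 2) = 0 :=
    ⟨der ![br (ι R 0) (ι R 2), 0, 0], der_isDer _, by simp, by simp, by simp⟩
  refine ⟨a, b, ha, hb, a0, a1, a2, b0, b1, b2, fib_commute ha a0, fib_commute ha a1,
    fib_commute hb b1, (Commute.refl b).add_right (fib_commute hb b2), ?_, ?_⟩
  · rw [← br_eq_zero, br_add_right, br_skew _ b, hb.br_mulLeft, br_mulLeft, b0, neg_add_cancel]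
  · rw [br_add_right, br_add_left, br_skew b a, br_skew (LinearMap.mulLeft R _) b,
      br_skew (LinearMap.mulLeft R _) a, hb.br_mulLeft,
      hb.br_mulLeft, ha.br_mulLeft, br_mulLeft, br_mulLeft, b0, b1, a2]
    ext1 z
    simp only [LinearMap.add_apply, LinearMap.neg_apply, LinearMap.mulLeft_apply,
      LinearMap.zero_apply, br]
    noncomm_ring

theorem pent_zero : Pent (0 : FA R (Fin 2)) := by
  intro A _ _ a b c d e _
  simp [pentE]

theorem Pent.add {ψ φ : FA R (Fin 2)} (h : Pent ψ) (h' : Pent φ) : Pent (ψ + φ) := by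
  intro A _ _ a b c d e hS
  have h1 := h A a b c d e hS
  have h2 := h' A a b c d e hS
  simp only [pentE, map_add] at h1 h2 ⊢
  linear_combination (norm := abel) h1 + h2

theorem Pent.smul {ψ : FA R (Fin 2)} (h : Pent ψ) (r : R) : Pent (r • ψ) := by
  intro A _ _ a b c d e hS
  have h1 := h A a b c d e hS
  simp only [pentE, map_smul] at h1 ⊢
  simp only [← smul_add, h1, smul_zero]

theorem Pent.sub {ψ φ : FA R (Fin 2)} (h : Pent ψ) (h' : Pent φ) : Pent (ψ - φ) := by
  have := h.add (h'.smul (-1))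
  rwa [neg_one_smul, ← sub_eq_add_neg] at this

theorem fib_coeff (u v : A) (ψ : FA R (Fin 2)) (n : ℕ) :
    (ev (Polynomial.X * Polynomial.C u) (Polynomial.X * Polynomial.C v) ψ).coeff n =
      ev u v (proj one1 n ψ) := by
  have key : ∀ k, ∀ f ∈ HomW R (one1 : Fin 2 → ℕ) k,
      ev (Polynomial.X * Polynomial.C u) (Polynomial.X * Polynomial.C v) f =
        Polynomial.X ^ k * Polynomial.C (ev u v f) := by
    intro k f hf
    have h1 := lift_scale ![Polynomial.C u, Polynomial.C v] (Polynomial.X : Polynomial A)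
      (fun x => Polynomial.commute_X _) hf
    have h2 := map_ev (Polynomial.CAlgHom : A →ₐ[R] Polynomial A) u v f
    simp only [Polynomial.CAlgHom_apply] at h2
    rw [h2]
    refine Eq.trans ?_ h1
    unfold ev
    congr 2
    funext i
    fin_cases i <;> simp [one1]
  obtain ⟨N, hN, hs⟩ := exists_sum_proj one1 ψ
  conv_lhs => rw [hs]
  rw [map_sum, Polynomial.finsetSum_coeff]
  have e : ∀ k ∈ Finset.range N, (ev (Polynomial.X * Polynomial.C u) (Polynomial.X * Polynomial.C v)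
      (proj one1 k ψ)).coeff n = if k = n then ev u v (proj one1 k ψ) else 0 := by
    intro k _
    rw [key k _ (proj_mem _), Polynomial.X_pow_mul, Polynomial.coeff_C_mul_X_pow]
    simp only [eq_comm]
  rw [Finset.sum_congr rfl e, Finset.sum_ite_eq']
  split_ifs with h
  · rfl
  · rw [hN n (by simpa using h), map_zero]

theorem Pent.proj {ψ : FA R (Fin 2)} (h : Pent ψ) (n : ℕ) : Pent (proj one1 n ψ) := by
  intro A _ _ a b c d e hS
  have h1 := h (Polynomial A) _ _ _ _ _ ((hS.map Polynomial.C).central (Polynomial.commute_X _)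
    (Polynomial.commute_X _) (Polynomial.commute_X _) (Polynomial.commute_X _)
    (Polynomial.commute_X _))
  have h2 := congrArg (fun p => Polynomial.coeff p n) h1
  simpa only [pentE, Polynomial.coeff_add, fib_coeff, Polynomial.coeff_zero] using h2

theorem pent_two {ψ : FA R (Fin 2)} (hψ : ψ ∈ LieGe R (Fin 2) 2) (h : Pent ψ) (u v : A) :
    ev u v ψ + ev v u ψ = 0 := by
  have h1 := h A u v u 0 0 ⟨Commute.refl _, Commute.zero_right _, Commute.zero_right _,
    Commute.zero_right _, Commute.zero_right _, by simp [br]⟩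
  unfold pentE at h1
  rw [ev_ab (Commute.zero_right u) hψ, ev_ab (Commute.refl (0 : A)) hψ,
    ev_ab (Commute.zero_left u) hψ] at h1
  simpa using h1

end Vale.Agent.P029
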