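import Vale.Agent.P029.Br1
import Vale.Agent.P029.Fib

noncomputable section

namespace Vale.Agent.P029

open FreeAlgebra

theorem br2_fourth : ∀ i j k : Fin 4, i ≠ j → i ≠ k → j ≠ k → ∃ l : Fin 4, i ≠ l ∧ j ≠ l ∧ k ≠ l := by
  decide

theorem br2_tri {A : Type} [Ring A] {x : Fin 5 → Fin 5 → A} (h : SB x) {i j k : Fin 4} (h1 : i ≠ j)
    (h2 : i ≠ k) (h3 : j ≠ k) : Commute (x i.castSucc j.castSucc)
      (x i.castSucc k.castSucc + x j.castSucc k.castSucc) := by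
  obtain ⟨l, l1, l2, l3⟩ := br2_fourth i j k h1 h2 h3
  have c : ∀ {p q : Fin 4}, p ≠ q → p.castSucc ≠ q.castSucc := fun h h' => h (Fin.castSucc_injective _ h')
  have d : ∀ p : Fin 4, p.castSucc ≠ Fin.last 4 := fun p => (Fin.castSucc_lt_last p).ne
  have e := h.tri _ _ _ _ _ (c h1) (c h2) (c l1) (d i) (c h3) (c l2) (d j) (c l3) (d k) (d l)
  have e' : x i.castSucc k.castSucc + x j.castSucc k.castSucc =
      x l.castSucc (Fin.last 4) - x i.castSucc j.castSucc := by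
    rw [← e]
    abel
  rw [e']
  exact (h.comm _ _ _ _ (c h1) (c l1) (d i) (c l2) (d j) (d l)).sub_right (Commute.refl _)

theorem exists_t4_map {A : Type} [Ring A] [Algebra ℚ A] {a b c d e : A} (h : Sys a b c d e) :
    ∃ T : T4 →ₗ[ℚ] A, (∀ z w, T ⁅z, w⁆ = br (T z) (T w)) ∧ ∀ i j : Fin 4,
      T (t i j) = sbT a b c d e i.castSucc j.castSucc := by
  let _ : LieRing A := LieRing.ofAssociativeRing
  let G : T4Free →ₗ⁅ℚ⁆ A :=
    FreeLieAlgebra.lift ℚ fun p : Fin 4 × Fin 4 => sbT a b c d e p.1.castSucc p.2.castSucc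
  have hG : ∀ i j, G (tf i j) = sbT a b c d e i.castSucc j.castSucc := fun i j =>
    FreeLieAlgebra.lift_of_apply _ _
  have hb : ∀ z w, G ⁅z, w⁆ = br (G z) (G w) := fun z w => G.map_lie z w
  have hs := h.sb
  have c5 : ∀ {p q : Fin 4}, p ≠ q → p.castSucc ≠ q.castSucc :=
    fun h h' => h (Fin.castSucc_injective _ h')
  have hk : t4Ideal ≤ G.ker := by
    unfold t4Ideal
    rw [LieSubmodule.lieSpan_le]
    intro z hz
    change G z = 0
    rcases hz with ⟨i, rfl⟩ | ⟨i, j, rfl⟩ | ⟨i, j, k, l, h1, h2, h3, h4, h5, h6, rfl⟩ |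
      ⟨i, j, k, h1, h2, h3, rfl⟩
    · rw [hG]
      fin_cases i <;> rfl
    · rw [map_sub, hG, hG, hs.symm, sub_self]
    · rw [hb, hG, hG]
      exact br_eq_zero.2 (hs.comm _ _ _ _ (c5 h1) (c5 h2) (c5 h3) (c5 h4) (c5 h5) (c5 h6))
    · rw [hb, map_add, hG, hG, hG]
      exact br_eq_zero.2 (br2_tri hs h1 h2 h3)
  refine ⟨Submodule.liftQ t4Ideal.toSubmodule G.toLinearMap fun z hz => hk hz, ?_, hG⟩
  intro z w
  obtain ⟨z, rfl⟩ := Submodule.Quotient.mk_surjective t4Ideal.toSubmodule z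
  obtain ⟨w, rfl⟩ := Submodule.Quotient.mk_surjective t4Ideal.toSubmodule w
  exact hb z w

theorem br2_lin {A : Type} [Ring A] [Algebra ℚ A] {u v : A} (h : Commute u v) {φ : FA ℚ (Fin 2)}
    (hφ : φ ∈ LieA ℚ (Fin 2)) : ev u v φ = co [0] φ • u + co [1] φ • v := by
  have h1 := ev_ab h (lie_decomp2 hφ)
  simp only [map_sub, map_smul, ev, FreeAlgebra.lift_ι_apply, Matrix.cons_val_zero,
    Matrix.cons_val_one] at h1
  rw [sub_sub, sub_eq_zero] at h1
  exact h1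

theorem br2_anti {ψ : L} (h : ψ ∈ W) {A : Type} [Ring A] [Algebra ℚ A] (u v : A) :
    ev u v (jL (Fin 2) ψ) + ev v u (jL (Fin 2) ψ) = 0 := by
  have h1 := congrArg (fun z => ev (R := ℚ) u v (jL (Fin 2) z)) h.1
  simp only [map_add, map_zero, map_evL (jL (Fin 2)) jL_lie, map_ev, gx, gy, jL_of] at h1
  simpa only [ev, FreeAlgebra.lift_ι_apply, Matrix.cons_val_zero, Matrix.cons_val_one] using h1

theorem br2_pent {ψ : L} (h : ψ ∈ W) {A : Type} [Ring A] [Algebra ℚ A] {a b c d e : A}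
    (hs : Sys a b c d e) :
    ev a (e + -c) (jL (Fin 2) ψ) + ev (d + -a) c (jL (Fin 2) ψ) =
      ev b c (jL (Fin 2) ψ) + ev (d + -b) (e + -b) (jL (Fin 2) ψ) + ev a b (jL (Fin 2) ψ) := by
  obtain ⟨T, hT, hT'⟩ := exists_t4_map hs
  have h1 := congrArg T h.2.2
  have t01 : T (t 0 1) = a := hT' 0 1
  have t02 : T (t 0 2) = d - a - b := hT' 0 2
  have t12 : T (t 1 2) = b := hT' 1 2
  have t13 : T (t 1 3) = e - b - c := hT' 1 3
  have t23 : T (t 2 3) = c := hT' 2 3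
  simp only [map_add, map_evL T hT, t01, t02, t12, t13, t23] at h1
  rw [show b + (e - b - c) = e + -c by abel, show d - a - b + b = d + -a by abel,
    show a + (d - a - b) = d + -b by abel, show e - b - c + c = e + -b by abel] at h1
  exact h1

theorem br2_co (w : List (Fin 2)) (hw : ww one1 w < 3) {u v χ : FA ℚ (Fin 2)}
    (hu : u ∈ GeW ℚ one1 1) (hv : v ∈ GeW ℚ one1 1) (hχ : χ ∈ LieGe ℚ (Fin 2) 3) :
    co w (ev u v χ) = 0 := by
  have h1 : ev u v χ ∈ GeW ℚ one1 3 := by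
    refine lift_GeW (wt := one1) (fun x => ?_) (LieGe_le_GeW hχ)
    fin_cases x
    · exact hu
    · exact hv
  exact mem_GeW.1 h1 w hw

theorem br2_ge {ψ : L} (h : ψ ∈ W) : jL (Fin 2) ψ ∈ LieGe ℚ (Fin 2) 3 := by
  have hm := jL_mem ψ
  have s : Sys (1 : ℚ) 0 0 0 0 :=
    ⟨Commute.all _ _, Commute.all _ _, Commute.all _ _, Commute.all _ _, Commute.all _ _, by simp⟩
  have h1 := br2_pent h s
  have h2 := br2_anti h (1 : ℚ) 0
  have hl : ∀ u v : ℚ, ev u v (jL (Fin 2) ψ) = co [0] (jL (Fin 2) ψ) * u + co [1] (jL (Fin 2) ψ) * v :=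
    fun u v => br2_lin (Commute.all u v) hm
  simp only [hl] at h1 h2
  have a0 : co [0] (jL (Fin 2) ψ) = 0 := by linarith
  have a1 : co [1] (jL (Fin 2) ψ) = 0 := by linarith
  have h3 := lie_decomp hm
  rw [a0, a1, zero_smul, zero_smul, sub_zero, sub_zero] at h3
  suffices a2 : co [0, 1] (jL (Fin 2) ψ) = 0 by rwa [a2, zero_smul, sub_zero] at h3
  have h4 := congrArg (jL (Fin 2)) h.2.1
  simp only [map_add, map_zero, map_evL (jL (Fin 2)) jL_lie, gx, gy, jL_of, map_sub, map_neg] at h4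
  set φ := jL (Fin 2) ψ
  set γ := co [0, 1] φ with hγ
  have x0 : ι ℚ (0 : Fin 2) ∈ GeW ℚ one1 1 := HomW_le_GeW le_rfl (ι_mem_HomW (wt := one1) 0)
  have x1 : ι ℚ (1 : Fin 2) ∈ GeW ℚ one1 1 := HomW_le_GeW le_rfl (ι_mem_HomW (wt := one1) 1)
  have x2 : -ι ℚ (0 : Fin 2) - ι ℚ (1 : Fin 2) ∈ GeW ℚ one1 1 := sub_mem (neg_mem x0) x1
  have b1 : co [0, 1] (br (ι ℚ (0 : Fin 2)) (ι ℚ 1)) = 1 := by
    have e1 : br (ι ℚ (0 : Fin 2)) (ι ℚ 1) = wd ℚ [0, 1] - wd ℚ [1, 0] := by simp [br, wd]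
    rw [e1, map_sub, co_wd, co_wd]
    simp
  have key : ∀ u v : FA ℚ (Fin 2), u ∈ GeW ℚ one1 1 → v ∈ GeW ℚ one1 1 →
      br u v = br (ι ℚ (0 : Fin 2)) (ι ℚ 1) → co [0, 1] (ev u v φ) = γ := by
    intro u v hu hv e
    have h5 := br2_co [0, 1] (by simp [one1]) hu hv h3
    rw [map_sub, map_smul, map_br, map_sub, map_smul] at h5
    simp only [ev, FreeAlgebra.lift_ι_apply, Matrix.cons_val_zero, Matrix.cons_val_one] at h5
    rw [e, b1, smul_eq_mul, mul_one, sub_eq_zero] at h5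
    exact h5
  have h6 := congrArg (co [0, 1]) h4
  rw [map_add, map_add, map_zero, key _ _ x1 x2 (by unfold br; noncomm_ring),
    key _ _ x2 x0 (by unfold br; noncomm_ring), ← hγ] at h6
  linarith

theorem W_to_pent {ψ : L} (h : ψ ∈ W) :
    jL (Fin 2) ψ ∈ LieGe ℚ (Fin 2) 3 ∧ Pent (jL (Fin 2) ψ) := by
  refine ⟨br2_ge h, fun A _ _ a b c d e hs => ?_⟩
  have h2 : jL (Fin 2) ψ ∈ LieGe ℚ (Fin 2) 2 := LieGe_anti (by norm_num) (br2_ge h)
  have h1 := br2_pent h hs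
  have s1 := ev_shift (u := a) (v := e) (z := 0) (z' := -c) (Commute.zero_right _) hs.ac.neg_right
    (Commute.zero_right _) hs.ce.symm.neg_right (Commute.zero_left _) h2
  have s2 := ev_shift (u := d) (v := c) (z := -a) (z' := 0) hs.ad.symm.neg_right
    (Commute.zero_right _) hs.ac.symm.neg_right (Commute.zero_right _) (Commute.zero_right _) h2
  have s3 := ev_shift (u := d) (v := e) (z := -b) (z' := -b) hs.bd.symm.neg_right
    hs.bd.symm.neg_right hs.be.symm.neg_right hs.be.symm.neg_right (Commute.refl _) h2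
  rw [add_zero] at s1 s2
  rw [s1, s2, s3] at h1
  have a1 := br2_anti h b c
  have a2 := br2_anti h d e
  have a3 := br2_anti h a b
  unfold pentE
  rw [eq_neg_of_add_eq_zero_right a1, eq_neg_of_add_eq_zero_right a2,
    eq_neg_of_add_eq_zero_right a3, ← sub_eq_zero.2 h1]
  abel

end Vale.Agent.P029
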