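import Vale.Agent.P029.KStm

noncomputable section
namespace Vale.Agent.P029.KZ

namespace DefAux
variable {B : Type} [Ring B]

theorem br_add_of_commute {a g e : B} (h : Commute a e) : br a (g + e) = br a g := by
  unfold br
  rw [mul_add, add_mul, h.eq]
  abel

theorem jac {a b g : B} (h : Commute a b) : br a (br b g) + br (br a g) b = 0 := by
  unfold br
  have e1 : a * (b * g) = b * (a * g) := by rw [← mul_assoc, h.eq, mul_assoc]
  have e2 : g * b * a = g * a * b := by rw [mul_assoc, ← h.eq, mul_assoc]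
  simp only [mul_sub, sub_mul, e1, e2, mul_assoc]
  abel

theorem br_sub (a g c : B) : br a g - br a c = br a (g - c) := by
  unfold br
  noncomm_ring

end DefAux

open DefAux in
theorem def_pf (K : Type) [Field K] [CharZero K] (hp5 : S_p5 K) (hdel : S_del K)
    (hspec : S_spec K) : S_def K := by
  intro n f hn hf B _ _ a1 a2 a3 a4 a5 g1 g2 g3 g4 g5 hP e1 e2 e3 e4 e5
  have c1 : br a1 g1 = br a1 g5 := by
    rw [e1, br_add_of_commute (commute_ev hP.c12 hP.c51.symm f)]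
  have c2 : br a2 g2 = br a2 g1 := by
    rw [e2, br_add_of_commute (commute_ev hP.c23 hP.c12.symm f)]
  have c3 : br a3 g3 = br a3 g2 := by
    rw [e3, br_add_of_commute (commute_ev hP.c34 hP.c23.symm f)]
  have c4 : br a4 g4 = br a4 g3 := by
    rw [e4, br_add_of_commute (commute_ev hP.c45 hP.c34.symm f)]
  have c5 : br a5 g5 = br a5 g4 := by
    rw [e5, br_add_of_commute (commute_ev hP.c51 hP.c45.symm f)]
  refine ⟨⟨c1, c2, c3, c4, c5⟩, ?_⟩
  obtain ⟨x, hx, x1, x2, x3, x4, x5⟩ := hp5.ext B a1 a2 a3 a4 a5 hP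
  obtain ⟨γ, δ, d1, d2, d3⟩ := hdel n f hn hf B x hx
  obtain ⟨c, hc⟩ : ∃ c, c = γ 0 1 2 3 4 - g1 := ⟨_, rfl⟩
  have hx' : P5 (fun i j => dn (x i j) (δ i j - br (x i j) c)) := by
    refine hp5.ofSum _ _ (fun i j => by rw [hx.symm i j, d1 i j]) (fun i => ?_)
      (fun i j k l m hd => ?_) (fun i j k l m hd => ?_)
    · rw [hx.diag, d2]; simp [br, dn_zero]
    · have t := hp5.tri B x hx i j k l m hd
      have u := (d3 i j k l m hd).2.2.2.2.2.2
      rw [hspec n f hn hf, map_zero] at u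
      rw [dn_add, dn_add, t, ← t]
      congr 1
      unfold br
      linear_combination (norm := noncomm_ring) u
    · obtain ⟨u1, u2, -⟩ := d3 i j k l m hd
      have hc := hx.comm i j k l hd.2.1 hd.2.2.1 hd.2.2.2.2.1 hd.2.2.2.2.2.1
      refine commute_dn hc ?_
      rw [u1, u2, br_sub, br_sub]
      exact jac hc
  have hQ := hp5.pent _ _ hx' 0 1 2 3 4 (by unfold Dis; decide)
  simp only [x1, x2, x3, x4, x5] at hQ
  have D := fun i j k l m (h : Dis i j k l m) => d3 i j k l m h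
  obtain ⟨p1, p2, p3, -, p5, -⟩ := D 0 1 2 3 4 (by unfold Dis; decide)
  obtain ⟨-, -, -, -, -, q1, -⟩ := D 0 1 3 2 4 (by unfold Dis; decide)
  obtain ⟨-, q2, -, -, -, -, -⟩ := D 0 1 3 4 2 (by unfold Dis; decide)
  obtain ⟨-, -, -, -, -, r1, -⟩ := D 2 3 0 4 1 (by unfold Dis; decide)
  obtain ⟨-, r2, -, -, r3, -, -⟩ := D 2 3 4 0 1 (by unfold Dis; decide)
  obtain ⟨-, -, s0, -, -, s1, -⟩ := D 3 4 1 0 2 (by unfold Dis; decide)
  obtain ⟨-, s2, -, -, -, -, -⟩ := D 3 4 1 2 0 (by unfold Dis; decide)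
  obtain ⟨-, -, -, s3, -, -, -⟩ := D 0 1 3 4 2 (by unfold Dis; decide)
  rw [hx.symm 3 2, x2, x5, p5] at q1
  rw [hx.symm 0 4, x3, x1, p3, r3] at r1
  rw [hx.symm 1 0, x1, x4, ← s0, s3] at s1
  have f1 : δ 0 1 - br a1 c = br a1 g1 := by rw [p1, x1, br_sub, hc, sub_sub_cancel]
  have f2 : δ 2 3 - br a2 c = br a2 g2 := by rw [p2, x2, br_sub, hc, sub_sub_cancel, c2]
  have f5 : δ 3 4 - br a5 c = br a5 g5 := by
    rw [q2, x5, br_sub, hc, q1, e1]; congr 1; abel
  have f3 : δ 4 0 - br a3 c = br a3 g3 := by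
    rw [r2, x3, br_sub, hc, r1, e2, c3]; congr 1; abel
  have f4 : δ 1 2 - br a4 c = br a4 g4 := by
    rw [s2, x4, br_sub, hc, s1, q1, e5, e1]; congr 1; abel
  rwa [f1, f2, f3, f4, f5] at hQ

end Vale.Agent.P029.KZ
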