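import Vale.Agent.P029.KStm

noncomputable section
namespace Vale.Agent.P029.KZ

namespace DelAux
variable {B : Type} [Ring B]

theorem br_add_of_commute {a g e : B} (h : Commute a e) : br a (g + e) = br a g := by
  unfold br
  rw [mul_add, add_mul, h.eq]
  abel

instance (i j k l m : Fin 5) : Decidable (Dis i j k l m) := by unfold Dis; infer_instance

theorem mem5 {i j k l m : Fin 5} (h : Dis i j k l m) (t : Fin 5) :
    t = i ∨ t = j ∨ t = k ∨ t = l ∨ t = m := by
  by_contra hc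
  simp only [not_or] at hc
  obtain ⟨a, b, c, d, e⟩ := hc
  obtain ⟨h1, h2, h3, h4, h5, h6, h7, h8, h9, h10⟩ := h
  have : ({t, i, j, k, l, m} : Finset (Fin 5)).card = 6 := by
    rw [Finset.card_insert_of_notMem (by simp [*]), Finset.card_insert_of_notMem (by simp [*]),
      Finset.card_insert_of_notMem (by simp [*]), Finset.card_insert_of_notMem (by simp [*]),
      Finset.card_insert_of_notMem (by simp [*]), Finset.card_singleton]
  have h := Finset.card_le_univ ({t, i, j, k, l, m} : Finset (Fin 5))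
  rw [this, Fintype.card_fin] at h
  omega

theorem perm : ∀ i j k l m k' l' m' : Fin 5, Dis i j k l m → Dis i j k' l' m' →
    (k' = k ∧ l' = l ∧ m' = m) ∨ (k' = l ∧ l' = k ∧ m' = m) ∨ (k' = k ∧ l' = m ∧ m' = l) ∨
    (k' = m ∧ l' = k ∧ m' = l) ∨ (k' = l ∧ l' = m ∧ m' = k) ∨ (k' = m ∧ l' = l ∧ m' = k) := by
  intro i j k l m k' l' m' h h'
  have a := mem5 h k'
  have b := mem5 h l'
  have c := mem5 h m'
  obtain ⟨-, h2, h3, h4, h5, h6, h7, h8, h9, h10⟩ := h'
  rcases a with a | a | a | a | a <;> rcases b with b | b | b | b | b <;>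
    rcases c with c | c | c | c | c <;> simp_all

theorem s12 {i j k l m : Fin 5} (h : Dis i j k l m) : Dis j i k l m := by
  unfold Dis at *; omega
theorem s34 {i j k l m : Fin 5} (h : Dis i j k l m) : Dis i j l k m := by
  unfold Dis at *; omega
theorem s45 {i j k l m : Fin 5} (h : Dis i j k l m) : Dis i j k m l := by
  unfold Dis at *; omega
theorem sw {i j k l m : Fin 5} (h : Dis i j k l m) : Dis k l i j m := by
  unfold Dis at *; omega

end DelAux

open DelAux in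
theorem del_pf (K : Type) [Field K] [CharZero K] (hp5 : S_p5 K) (hpot : S_pot K) :
    S_del K := by
  intro n f hn hf B _ _ x hx
  have hn1 : n ≠ 1 := by omega
  obtain ⟨γ, hγ⟩ := hpot B (fun i j k => ev K (x i j) (x j k) f)
    (fun i j k => by
      show ev K (x k j) (x j i) f = -ev K (x i j) (x j k) f
      rw [hx.symm k j, hx.symm j i, hf.two.app])
    (fun i j k l m hd => by
      have := hf.five B _ _ _ _ _ (hp5.pent B x hx i j k l m hd)
      linear_combination (norm := abel) this)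
    (fun i j k l m hd => by
      obtain ⟨s1, s2⟩ := hp5.shift B x hx i j k l m hd n f hn1 hf.lie
      have := hf.three.app (x i k) (x i j)
      show ev K (x i j) (x j k) f + ev K (x j k) (x k i) f + ev K (x k i) (x i j) f = 0
      rw [hx.symm k i, s1, s2]
      linear_combination (norm := abel) this)
  have cm : ∀ i j k l m, Dis i j k l m → Commute (x i j) (x k l) := fun i j k l m hd =>
    hx.comm i j k l hd.2.1 hd.2.2.1 hd.2.2.2.2.1 hd.2.2.2.2.2.1
  have i34 : ∀ i j k l m, Dis i j k l m → br (x i j) (γ i j l k m) = br (x i j) (γ i j k l m) :=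
    fun i j k l m hd => by rw [(hγ i j k l m hd).2.1]
  have i45 : ∀ i j k l m, Dis i j k l m → br (x i j) (γ i j k m l) = br (x i j) (γ i j k l m) :=
    fun i j k l m hd => by
      rw [(hγ i j k l m hd).2.2.2,
        br_add_of_commute (commute_ev (cm _ _ _ _ _ (s34 hd)) (cm _ _ _ _ _ (s45 hd)) f)]
  have ind : ∀ i j k l m k' l' m', Dis i j k l m → Dis i j k' l' m' →
      br (x i j) (γ i j k' l' m') = br (x i j) (γ i j k l m) := by
    intro i j k l m k' l' m' h h'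
    rcases perm i j k l m k' l' m' h h' with ⟨rfl, rfl, rfl⟩ | ⟨rfl, rfl, rfl⟩ | ⟨rfl, rfl, rfl⟩ |
      ⟨rfl, rfl, rfl⟩ | ⟨rfl, rfl, rfl⟩ | ⟨rfl, rfl, rfl⟩
    · rfl
    · exact i34 _ _ _ _ _ h
    · exact i45 _ _ _ _ _ h
    · exact (i34 _ _ _ _ _ (s45 h)).trans (i45 _ _ _ _ _ h)
    · exact (i45 _ _ _ _ _ (s34 h)).trans (i34 _ _ _ _ _ h)
    · exact (i34 _ _ _ _ _ (s45 (s34 h))).trans ((i45 _ _ _ _ _ (s34 h)).trans (i34 _ _ _ _ _ h))
  obtain ⟨δ, hδ, hδ0⟩ : ∃ δ : Fin 5 → Fin 5 → B,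
      (∀ i j k l m, Dis i j k l m → δ i j = br (x i j) (γ i j k l m)) ∧ ∀ i, δ i i = 0 := by
    refine ⟨fun i j => if h : ∃ p : Fin 5 × Fin 5 × Fin 5, Dis i j p.1 p.2.1 p.2.2 then
      br (x i j) (γ i j h.choose.1 h.choose.2.1 h.choose.2.2) else 0, fun i j k l m hd => ?_,
      fun i => ?_⟩
    · have h : ∃ p : Fin 5 × Fin 5 × Fin 5, Dis i j p.1 p.2.1 p.2.2 := ⟨(k, l, m), hd⟩
      simp only [dif_pos h]
      exact ind _ _ _ _ _ _ _ _ hd h.choose_spec
    · have h : ¬∃ p : Fin 5 × Fin 5 × Fin 5, Dis i i p.1 p.2.1 p.2.2 := fun ⟨_, h⟩ => h.1 rfl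
      simp only [dif_neg h]
  have ex : ∀ i j : Fin 5, i ≠ j → ∃ k l m, Dis i j k l m := by decide
  refine ⟨γ, δ, fun i j => ?_, hδ0, fun i j k l m hd => ?_⟩
  · by_cases h : i = j
    · rw [h]
    · obtain ⟨k, l, m, hd⟩ := ex i j h
      rw [hδ _ _ _ _ _ hd, hδ _ _ _ _ _ (s12 hd), (hγ _ _ _ _ _ hd).1, hx.symm j i]
  obtain ⟨g1, g2, g3, g4⟩ := hγ i j k l m hd
  refine ⟨hδ _ _ _ _ _ hd, by rw [hδ _ _ _ _ _ (sw hd), g3], g3, g1, g2,
    by rw [g4, hx.symm l k], ?_⟩
  have h0 : Dis l m i j k := sw (s45 (s34 (s45 hd)) |> fun h => s34 h)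
  have u1 : δ i j = br (x i j) (γ l m i j k) := by
    rw [hδ _ _ _ _ _ (sw h0), (hγ _ _ _ _ _ h0).2.2.1]
  have u2 := hδ _ _ _ _ _ h0
  have u3 : δ i k = br (x i k) (γ l m i j k + ev K (x i j) (x i k) f) := by
    rw [hδ _ _ _ _ _ (sw (s45 h0)), (hγ _ _ _ _ _ (s45 h0)).2.2.1, (hγ _ _ _ _ _ h0).2.2.2,
      hx.symm j i]
  have u4 : δ j k = br (x j k) (γ l m i j k + ev K (x i j) (x j k) f) := by
    rw [hδ _ _ _ _ _ (sw (s45 (s34 h0))), (hγ _ _ _ _ _ (s45 (s34 h0))).2.2.1,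
      (hγ _ _ _ _ _ (s34 h0)).2.2.2, (hγ _ _ _ _ _ h0).2.1]
  have t := hp5.tri B x hx i j k l m hd
  have sh := (hp5.shift B x hx i j k l m hd n f hn1 hf.lie).1
  have c : Commute (x l m) (ev K (x i j) (x j k) f) :=
    commute_ev (cm _ _ _ _ _ h0) (cm _ _ _ _ _ (s45 (s34 h0))) f
  have e : -x i j - x i k = -x i k - x i j := by abel
  rw [u1, u2, u3, u4]
  simp only [map_add, map_br, map_ev, ev_X, ev_Y, map_sub, map_neg]
  rw [e, ← sh]
  have c' := c.eq
  rw [← t] at c' ⊢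
  unfold br
  linear_combination (norm := noncomm_ring) c'

end Vale.Agent.P029.KZ
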