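import Vale.Agent.P029.KStm

noncomputable section
namespace Vale.Agent.P029.KZ

namespace Depth

theorem red (hfin : S_fin) {N : ℕ} {Φ : A ℝ} (hΦ : IsPhi N Φ) (B : Type) [Ring B] [Algebra ℝ B]
    [Nontrivial B] (m : Submodule ℝ B) (hm : Nil N m) (z0 z1 : B) (h0 : z0 ∈ m) (h1 : z1 ∈ m) :
    ∃ (E : Type) (_ : NormedRing E) (_ : NormedAlgebra ℝ E) (_ : CompleteSpace E)
      (_ : NormOneClass E) (_ : FiniteDimensional ℝ E) (φ : E →ₐ[ℝ] B) (t : ℝ) (a c : E),
      Function.Injective φ ∧ 0 < t ∧ Sm a ∧ Sm c ∧ φ a = t • z0 ∧ φ c = t • z1 ∧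
        ev ℝ a c Φ = Phi a c := by
  obtain ⟨E, i1, i2, i3, i4, i5, φ, m', w, hφ, hm', hw⟩ := hfin N B m hm
    (fun i => if i = 0 then z0 else z1) fun i => by split_ifs <;> assumption
  set t : ℝ := 1 / (10000 * (‖w 0‖ + ‖w 1‖ + 1)) with ht
  have t0 : 0 < t := by positivity
  have hs : ∀ x : E, ‖x‖ ≤ ‖w 0‖ + ‖w 1‖ + 1 → Sm (t • x) := fun x hx => by
    unfold Sm
    rw [norm_smul, Real.norm_of_nonneg t0.le, ht, div_mul_eq_mul_div,
      div_le_div_iff₀ (by positivity) (by norm_num)]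
    linarith
  have s0 := hs (w 0) (by linarith [norm_nonneg (w 1)])
  have s1 := hs (w 1) (by linarith [norm_nonneg (w 0)])
  refine ⟨E, i1, i2, i3, i4, i5, φ, t, t • w 0, t • w 1, hφ, t0, s0, s1, ?_, ?_,
    hΦ E m' hm' _ _ (m'.smul_mem _ (hw 0).1) (m'.smul_mem _ (hw 1).1) s0 s1⟩
  · rw [map_smul, (hw 0).2, if_pos rfl]
  · rw [map_smul, (hw 1).2, if_neg (by decide)]

theorem nil_eps {N : ℕ} (hN : 1 ≤ N) :
    Nil N (Submodule.span ℝ {(DualNumber.eps : DualNumber ℝ)}) := by
  have h : Submodule.span ℝ {(DualNumber.eps : DualNumber ℝ)} *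
      Submodule.span ℝ {(DualNumber.eps : DualNumber ℝ)} = ⊥ := by
    rw [Submodule.span_mul_span, Set.singleton_mul_singleton, DualNumber.eps_mul_eps,
      Submodule.span_zero_singleton]
  refine ⟨h ▸ bot_le, ?_⟩
  obtain ⟨k, rfl⟩ : ∃ k, N = k + 1 := ⟨N - 1, by omega⟩
  rw [pow_succ, pow_succ, mul_assoc, h, Submodule.mul_bot]

theorem xM_pow (N k : ℕ) (i : Fin (N + 1)) :
    (xM ℝ N ^ k * yM ℝ N) (Pi.single 0 1) i = if i.val = k + 1 then 1 else 0 := by
  induction k generalizing i with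
  | zero => simp [yM]
  | succ k ih =>
    rw [pow_succ', mul_assoc, Module.End.mul_apply]
    change (if h : 2 ≤ i.val then (xM ℝ N ^ k * yM ℝ N) (Pi.single 0 1) ⟨i.val - 1, by omega⟩
      else 0) = _
    split_ifs with h1 h2 h2
    · rw [ih, if_pos (by simp only; omega)]
    · rw [ih, if_neg (by simp only; omega)]
    · omega
    · rfl

theorem yx (N : ℕ) : yM ℝ N * xM ℝ N = 0 := by
  refine LinearMap.ext fun v => funext fun i => ?_
  simp [xM, yM]

theorem yy (N : ℕ) : yM ℝ N * yM ℝ N = 0 := by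
  refine LinearMap.ext fun v => funext fun i => ?_
  simp [yM]

end Depth

open Depth in
theorem depth_pf (han : S_an) (hfin : S_fin) (hfil : S_fil ℝ) (hell : S_ell ℝ) :
    S_depth := by
  intro N Φ hN hΦ
  constructor
  · obtain ⟨ψ0, p0, r0⟩ := hfil.split 0 Φ (by rw [hfil.zero]; trivial)
    obtain ⟨ψ1, p1, r1⟩ := hfil.split 1 _ r0
    rw [Hom, pow_zero, Submodule.mem_one] at p0
    rw [Hom, pow_one, Submodule.mem_span_pair] at p1
    obtain ⟨c0, rfl⟩ := p0
    obtain ⟨c1, c2, rfl⟩ := p1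
    have he : (DualNumber.eps : DualNumber ℝ) ∈
        Submodule.span ℝ {(DualNumber.eps : DualNumber ℝ)} := Submodule.subset_span rfl
    have key : ∀ a b : DualNumber ℝ, a ∈ Submodule.span ℝ {(DualNumber.eps : DualNumber ℝ)} →
        b ∈ Submodule.span ℝ {(DualNumber.eps : DualNumber ℝ)} →
        ev ℝ a b Φ = algebraMap ℝ _ c0 + c1 • a + c2 • b := fun a b ha hb => by
      have := (nil_eps le_rfl).ev_Fil ha hb r1
      simp only [map_sub, map_add, map_smul, ev_X, ev_Y, AlgHom.commutes] at this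
      linear_combination this
    obtain ⟨E, _, _, _, _, _, φ, t, a, c, hφ, t0, sa, sc, ea, ec, e⟩ :=
      red hfin hΦ _ _ (nil_eps (by omega)) _ 0 he (zero_mem _)
    obtain ⟨E', _, _, _, _, _, φ', t', a', c', hφ', t0', sa', sc', ea', ec', e'⟩ :=
      red hfin hΦ _ _ (nil_eps (by omega)) 0 _ (zero_mem _) he
    have hc : c = 0 := hφ (by rw [ec, smul_zero, map_zero])
    have ha' : a' = 0 := hφ' (by rw [ea', smul_zero, map_zero])
    have k1 := congrArg φ e
    rw [map_ev, ea, ec, hc, han.zr E a sa, map_one, key _ _ (Submodule.smul_mem _ _ he)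
      (Submodule.smul_mem _ _ (zero_mem _))] at k1
    have k2 := congrArg φ' e'
    rw [map_ev, ea', ec', ha', han.zl E' c' sc', map_one, key _ _
      (Submodule.smul_mem _ _ (zero_mem _)) (Submodule.smul_mem _ _ he)] at k2
    have f0 : c0 = 1 := by
      simpa [Algebra.algebraMap_eq_smul_one] using congrArg TrivSqZeroExt.fst k1
    have f1 : c1 = 0 := by
      simpa [t0.ne', Algebra.algebraMap_eq_smul_one] using congrArg TrivSqZeroExt.snd k1
    have f2 : c2 = 0 := by
      simpa [t0'.ne', Algebra.algebraMap_eq_smul_one] using congrArg TrivSqZeroExt.snd k2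
    simpa [f0, f1, f2] using r1
  · obtain ⟨m, hm, hx, hy⟩ := hell.nil N
    obtain ⟨E, _, _, _, _, _, φ, t, a, c, hφ, t0, sa, sc, ea, ec, e⟩ :=
      red hfin hΦ _ m hm _ _ hx hy
    let l0 : E →ₗ[ℝ] ℝ := (LinearMap.proj (Fin.last N)) ∘ₗ
      (LinearMap.applyₗ (Pi.single 0 1 : Fin (N + 1) → ℝ)) ∘ₗ φ.toLinearMap
    have hl : ∀ z, LinearMap.toContinuousLinearMap l0 z = φ z (Pi.single 0 1) (Fin.last N) :=
      fun z => rfl
    have h := han.coef E a c sa sc
      (hφ (by rw [map_mul, ea, ec, smul_mul_smul_comm, yx, smul_zero, map_zero]))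
      (hφ (by rw [map_mul, ec, smul_mul_smul_comm, yy, smul_zero, map_zero]))
      (LinearMap.toContinuousLinearMap l0) (N - 1) (by omega) (t ^ N) (by positivity)
      (by
        rw [hl, map_one, Module.End.one_apply, Pi.single_eq_of_ne]
        intro h
        have := congrArg Fin.val h
        simp at this
        omega)
      (fun k => by
        rw [hl, map_mul, map_pow, ea, ec, smul_pow, smul_mul_smul_comm, LinearMap.smul_apply,
          Pi.smul_apply, xM_pow, Fin.val_last]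
        by_cases hk : k = N - 1
        · rw [if_pos hk, if_pos (by omega), smul_eq_mul, mul_one, ← pow_succ]
          congr 1
          omega
        · rw [if_neg hk, if_neg (by omega), smul_zero])
    have h2 := hell.scale N t Φ
    rw [ell, map_ev, map_smul, map_smul, ev_X, ev_Y] at h2
    rw [hl, ← e, map_ev, ea, ec, h2] at h
    intro h0
    rw [h0, mul_zero] at h
    exact lt_irrefl _ h

end Vale.Agent.P029.KZ
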