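import Vale.Agent.P029.KStm

open scoped TensorProduct

noncomputable section
namespace Vale.Agent.P029.KZ

namespace Desc

/-- contraction with a rational functional -/
def con (l : ℝ →ₗ[ℚ] ℚ) (M : Type) [AddCommGroup M] [Module ℚ M] : ℝ ⊗[ℚ] M →ₗ[ℚ] M :=
  (TensorProduct.lid ℚ M).toLinearMap ∘ₗ l.rTensor M

theorem con_tmul (l : ℝ →ₗ[ℚ] ℚ) {M : Type} [AddCommGroup M] [Module ℚ M] (r : ℝ) (m : M) :
    con l M (r ⊗ₜ m) = l r • m := by simp [con]

/-- the comparison map -/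
def th : A ℝ →ₐ[ℝ] ℝ ⊗[ℚ] A ℚ := ev ℝ (1 ⊗ₜ X) (1 ⊗ₜ Y)

/-- sums of pure tensors with Lie second factor -/
def LT (n : ℕ) : AddSubmonoid (ℝ ⊗[ℚ] A ℚ) :=
  AddSubmonoid.closure {t | ∃ (r : ℝ) (g : A ℚ), LieW n g ∧ t = r ⊗ₜ g}

theorem LT_tmul {n : ℕ} (r : ℝ) {g : A ℚ} (h : LieW n g) : r ⊗ₜ g ∈ LT n :=
  AddSubmonoid.subset_closure ⟨r, g, h, rfl⟩

theorem LT_smul {n : ℕ} (c : ℝ) {t : ℝ ⊗[ℚ] A ℚ} (h : t ∈ LT n) : c • t ∈ LT n := by
  induction h using AddSubmonoid.closure_induction with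
  | mem t ht =>
    obtain ⟨r, g, hg, rfl⟩ := ht
    rw [TensorProduct.smul_tmul']
    exact LT_tmul _ hg
  | zero => rw [smul_zero]; exact zero_mem _
  | add s t _ _ hs ht => rw [smul_add]; exact add_mem hs ht

theorem LT_br {m n : ℕ} {s t : ℝ ⊗[ℚ] A ℚ} (hs : s ∈ LT m) (ht : t ∈ LT n) :
    br s t ∈ LT (m + n) := by
  induction hs using AddSubmonoid.closure_induction with
  | mem s hs =>
    obtain ⟨r, g, hg, rfl⟩ := hs
    induction ht using AddSubmonoid.closure_induction with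
    | mem t ht =>
      obtain ⟨r', g', hg', rfl⟩ := ht
      have e : br (r ⊗ₜ[ℚ] g) (r' ⊗ₜ[ℚ] g') = (r * r') ⊗ₜ[ℚ] br g g' := by
        rw [br, br, Algebra.TensorProduct.tmul_mul_tmul, Algebra.TensorProduct.tmul_mul_tmul,
          mul_comm r' r, TensorProduct.tmul_sub]
      rw [e]
      exact LT_tmul _ (hg.br hg')
    | zero => rw [br, mul_zero, zero_mul, sub_zero]; exact zero_mem _
    | add t t' _ _ h1 h2 =>
      rw [br, mul_add, add_mul, add_sub_add_comm]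
      exact add_mem h1 h2
  | zero => rw [br, mul_zero, zero_mul, sub_zero]; exact zero_mem _
  | add s s' _ _ h1 h2 =>
    rw [br, mul_add, add_mul, add_sub_add_comm]
    exact add_mem h1 h2

theorem th_mem {n : ℕ} {f : A ℝ} (h : LieW n f) : th f ∈ LT n := by
  induction h with
  | x => rw [th, ev_X]; exact LT_tmul _ LieW.x
  | y => rw [th, ev_Y]; exact LT_tmul _ LieW.y
  | zero n => rw [map_zero]; exact zero_mem _
  | add _ _ h1 h2 => rw [map_add]; exact add_mem h1 h2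
  | smul c _ h1 => rw [map_smul]; exact LT_smul c h1
  | br _ _ h1 h2 => rw [map_br]; exact LT_br h1 h2

theorem con_lie (l : ℝ →ₗ[ℚ] ℚ) {n : ℕ} {t : ℝ ⊗[ℚ] A ℚ} (h : t ∈ LT n) :
    LieW n (con l _ t) := by
  induction h using AddSubmonoid.closure_induction with
  | mem t ht =>
    obtain ⟨r, g, hg, rfl⟩ := ht
    rw [con_tmul]
    exact hg.smul _
  | zero => rw [map_zero]; exact LieW.zero n
  | add s t _ _ hs ht => rw [map_add]; exact hs.add ht

theorem ev_con (l : ℝ →ₗ[ℚ] ℚ) {B : Type} [Ring B] [Algebra ℚ B] (a b : B) (f : A ℝ) :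
    ev ℚ a b (con l _ (th f)) = con l B (ev ℝ ((1 : ℝ) ⊗ₜ[ℚ] a) (1 ⊗ₜ b) f) := by
  have e : ev ℝ ((1 : ℝ) ⊗ₜ[ℚ] a) (1 ⊗ₜ b) f =
      Algebra.TensorProduct.map (AlgHom.id ℝ ℝ) (ev ℚ a b) (th f) := by
    rw [th, map_ev]
    simp
  rw [e]
  generalize th f = t
  induction t using TensorProduct.induction_on with
  | zero => simp
  | tmul r g => simp [con_tmul]
  | add s t hs ht => simp only [map_add, hs, ht]

theorem pent_map {B C : Type} [Ring B] [Ring C] [Algebra ℚ B] [Algebra ℚ C] (φ : B →ₐ[ℚ] C)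
    {a1 a2 a3 a4 a5 : B} (h : Pent a1 a2 a3 a4 a5) : Pent (φ a1) (φ a2) (φ a3) (φ a4) (φ a5) :=
  ⟨h.c12.map φ, h.c23.map φ, h.c34.map φ, h.c45.map φ, h.c51.map φ, by
    simpa only [map_add, map_br, map_zero] using congrArg φ h.six⟩

theorem ev_cast (N : ℕ) (g : A ℚ) : ∀ (v : Fin (N + 1) → ℚ) (i : Fin (N + 1)),
    ev ℚ (xM ℝ N) (yM ℝ N) g (fun k => (v k : ℝ)) i = (ev ℚ (xM ℚ N) (yM ℚ N) g v i : ℚ) := by
  induction g using A_ind with
  | hc c =>
    intro v i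
    simp [Algebra.algebraMap_eq_smul_one, Rat.smul_def]
  | hx =>
    intro v i
    rw [ev_X, ev_X]
    simp only [xM, LinearMap.coe_mk, AddHom.coe_mk]
    split_ifs <;> simp
  | hy =>
    intro v i
    rw [ev_Y, ev_Y]
    simp only [yM, LinearMap.coe_mk, AddHom.coe_mk]
    split_ifs <;> simp
  | hm f g hf hg =>
    intro v i
    rw [map_mul, map_mul, Module.End.mul_apply, Module.End.mul_apply, funext (hg v), hf]
  | ha f g hf hg =>
    intro v i
    rw [map_add, map_add, LinearMap.add_apply, LinearMap.add_apply, Pi.add_apply, Pi.add_apply,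
      hf, hg, Rat.cast_add]

theorem ell_con (l : ℝ →ₗ[ℚ] ℚ) (N : ℕ) (f : A ℝ) : ell N (con l _ (th f)) = l (ell N f) := by
  obtain ⟨ρ, hρ⟩ : ∃ ρ : ℝ ⊗[ℚ] A ℚ →ₐ[ℝ] Module.End ℝ (Fin (N + 1) → ℝ),
      ∀ r g, ρ (r ⊗ₜ g) = r • ev ℚ (xM ℝ N) (yM ℝ N) g :=
    ⟨Algebra.TensorProduct.lift (Algebra.ofId ℝ _) (ev ℚ (xM ℝ N) (yM ℝ N))
      fun r g => Algebra.commutes r _, fun r g =>
        (Algebra.TensorProduct.lift_tmul _ _ _ _ _).trans (Algebra.smul_def r _).symm⟩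
  have e : ev ℝ (xM ℝ N) (yM ℝ N) f = ρ (th f) := by
    rw [th, map_ev, hρ, hρ, ev_X, ev_Y, one_smul, one_smul]
  have e1 : (Pi.single 0 1 : Fin (N + 1) → ℝ) =
      fun k => ((Pi.single 0 1 : Fin (N + 1) → ℚ) k : ℝ) := by
    funext k
    by_cases h : k = 0 <;> simp [h]
  unfold ell
  rw [e]
  generalize th f = t
  induction t using TensorProduct.induction_on with
  | zero => simp
  | tmul r g =>
    rw [con_tmul, hρ, map_smul, LinearMap.smul_apply, LinearMap.smul_apply, Pi.smul_apply,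
      Pi.smul_apply, e1, ev_cast, smul_eq_mul, smul_eq_mul, mul_comm r, ← Rat.smul_def, map_smul,
      smul_eq_mul, mul_comm]
  | add s t hs ht => simp only [map_add, LinearMap.add_apply, Pi.add_apply, hs, ht]

end Desc

open Desc in
theorem desc_pf (hthree : S_three ℚ) :
    S_desc := by
  rintro N hN ⟨ψ, hψ, h0⟩
  obtain ⟨l, hl⟩ : ∃ l : Module.Dual ℚ ℝ, l (ell N ψ) ≠ 0 := by
    by_contra h
    exact h0 ((Module.forall_dual_apply_eq_zero_iff ℚ _).1 fun l => not_not.1 fun h' => h ⟨l, h'⟩)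
  have h1 := con_lie l (th_mem hψ.lie)
  have h2 : Five (con l _ (th ψ)) := by
    intro B _ _ a1 a2 a3 a4 a5 h
    have := congrArg (con l B) (hψ.five (ℝ ⊗[ℚ] B) _ _ _ _ _
      (pent_map Algebra.TensorProduct.includeRight h))
    simpa only [map_add, map_zero, ev_con, Algebra.TensorProduct.includeRight_apply] using this
  exact ⟨_, ⟨h1, (hthree N _ hN h1 h2).1, (hthree N _ hN h1 h2).2, h2⟩, by rwa [ell_con]⟩

end Vale.Agent.P029.KZ
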