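import Vale.Agent.P029.KStm

noncomputable section
namespace Vale.Agent.P029.KZ

namespace Dict

variable {K : Type} [Field K]

theorem lm_lie (m : FreeMagma (Fin 2)) : LieW (mw one1 m) (lm K m) := by
  induction m with
  | ih1 x =>
    fin_cases x
    · exact LieW.x
    · exact LieW.y
  | ih2 a b ha hb => exact ha.br hb

theorem br_mem {m n : ℕ} {f g : A K} (hf : f ∈ P029.LieW K one1 m) (hg : g ∈ P029.LieW K one1 n) :
    br f g ∈ P029.LieW K one1 (m + n) := by
  induction hf using Submodule.span_induction with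
  | mem f hf =>
    obtain ⟨a, rfl, rfl⟩ := hf
    induction hg using Submodule.span_induction with
    | mem g hg =>
      obtain ⟨b, rfl, rfl⟩ := hg
      exact Submodule.subset_span ⟨FreeMagma.mul a b, rfl, rfl⟩
    | zero => simp [br]
    | add x y _ _ hx hy =>
      have h : br (lm K a) (x + y) = br (lm K a) x + br (lm K a) y := by unfold br; noncomm_ring
      rw [h]
      exact add_mem hx hy
    | smul c x _ hx =>
      have h : br (lm K a) (c • x) = c • br (lm K a) x := by
        simp only [br, mul_smul_comm, smul_mul_assoc, smul_sub]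
      rw [h]
      exact Submodule.smul_mem _ _ hx
  | zero => simp [br]
  | add x y _ _ hx hy =>
    have h : br (x + y) g = br x g + br y g := by unfold br; noncomm_ring
    rw [h]
    exact add_mem hx hy
  | smul c x _ hx =>
    have h : br (c • x) g = c • br x g := by
      simp only [br, mul_smul_comm, smul_mul_assoc, smul_sub]
    rw [h]
    exact Submodule.smul_mem _ _ hx

theorem lie_iff (n : ℕ) (f : A K) : LieW n f ↔ f ∈ P029.LieW K one1 n := by
  constructor
  · intro h
    induction h with
    | x => exact Submodule.subset_span ⟨FreeMagma.of 0, rfl, rfl⟩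
    | y => exact Submodule.subset_span ⟨FreeMagma.of 1, rfl, rfl⟩
    | zero n => exact zero_mem _
    | add _ _ h1 h2 => exact add_mem h1 h2
    | smul c _ h1 => exact Submodule.smul_mem _ _ h1
    | br _ _ h1 h2 => exact br_mem h1 h2
  · intro h
    induction h using Submodule.span_induction with
    | mem f hf =>
      obtain ⟨a, rfl, rfl⟩ := hf
      exact lm_lie a
    | zero => exact LieW.zero n
    | add x y _ _ hx hy => exact hx.add hy
    | smul c x _ hx => exact hx.smul c

theorem basis_eq (w : List (Fin 2)) :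
    FreeAlgebra.basisFreeMonoid K (Fin 2) (FreeMonoid.ofList w) = wd K w := by
  simp [FreeAlgebra.basisFreeMonoid, FreeAlgebra.equivMonoidAlgebraFreeMonoid, wd,
    FreeMonoid.lift_apply]

theorem co_wd (u w : List (Fin 2)) : co u (wd K w) = if w = u then 1 else 0 := by
  classical
  rw [← basis_eq, co, Module.Basis.coord_apply, Module.Basis.repr_self, Finsupp.single_apply]
  simp

/-- the word that sends the first basis vector to the basis vector number `i` -/
def tw : ℕ → List (Fin 2)
  | 0 => []
  | j + 1 => xy j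

theorem xy_succ (j : ℕ) : xy (j + 1) = 0 :: xy j := rfl

theorem zero_cons (w : List (Fin 2)) (i : ℕ) : 0 :: w = tw i ↔ 2 ≤ i ∧ w = tw (i - 1) := by
  rcases i with _ | _ | i
  · simp [tw]
  · simp [tw, xy]
  · simp [tw, xy_succ]

theorem one_cons (w : List (Fin 2)) (i : ℕ) : 1 :: w = tw i ↔ i = 1 ∧ w = tw 0 := by
  rcases i with _ | _ | i
  · simp [tw]
  · simp [tw, xy]
  · simp [tw, xy_succ]

theorem ev_wd (N : ℕ) (w : List (Fin 2)) (i : Fin (N + 1)) :
    ev K (xM K N) (yM K N) (wd K w) (Pi.single 0 1) i = if w = tw i.val then 1 else 0 := by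
  induction w generalizing i with
  | nil =>
    obtain ⟨i, hi⟩ := i
    rcases i with _ | i
    · simp [wd, tw]
    · simp [wd, tw, xy]
  | cons z w ih =>
    have h : wd K (z :: w) = FreeAlgebra.ι K z * wd K w := by simp [wd]
    rw [h, map_mul, Module.End.mul_apply]
    fin_cases z
    · change ev K (xM K N) (yM K N) X _ i = if 0 :: w = tw i.val then 1 else 0
      rw [ev_X]
      change (if h : 2 ≤ i.val then _ else 0) = _
      simp only [ih, zero_cons]
      by_cases h2 : 2 ≤ i.val <;> simp [h2]
    · change ev K (xM K N) (yM K N) Y _ i = if 1 :: w = tw i.val then 1 else 0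
      rw [ev_Y]
      change (if i.val = 1 then _ else 0) = _
      simp only [ih, one_cons]
      by_cases h2 : i.val = 1 <;> by_cases h3 : w = tw 0 <;> simp [h2, h3]

theorem ell_eq (N : ℕ) (f : A K) (hN : 1 ≤ N) : ell N f = co (xy (N - 1)) f := by
  obtain ⟨j, rfl⟩ : ∃ j, N = j + 1 := ⟨N - 1, by omega⟩
  let l : A K →ₗ[K] K := (LinearMap.proj (Fin.last (j + 1))) ∘ₗ
    (LinearMap.applyₗ (Pi.single 0 1 : Fin (j + 1 + 1) → K)) ∘ₗ
      (ev K (xM K (j + 1)) (yM K (j + 1))).toLinearMap
  have h : l = co (xy j) := by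
    refine (FreeAlgebra.basisFreeMonoid K (Fin 2)).ext fun w => ?_
    have h1 := basis_eq (K := K) (FreeMonoid.toList w)
    rw [FreeMonoid.ofList_toList] at h1
    rw [h1, co_wd]
    exact ev_wd (j + 1) _ (Fin.last _)
  exact LinearMap.congr_fun h f

theorem dI_eq (ψ φ : A K) : dI ψ φ = D ψ φ := by
  have h : FreeAlgebra.lift K (fun x : Fin 2 => P029.dn (FreeAlgebra.ι K x)
      ((![0, P029.br (FreeAlgebra.ι K 1) ψ] : Fin 2 → A K) x)) =
      ev K (dn X 0) (dn Y (br Y ψ)) := by
    refine A_ext ?_ ?_
    · rw [ev_X, X, FreeAlgebra.lift_ι_apply]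
      rfl
    · rw [ev_Y, Y, FreeAlgebra.lift_ι_apply]
      rfl
  exact congrArg TrivSqZeroExt.snd (DFunLike.congr_fun h φ)

theorem five_iff (f : A K) : Five f ↔ P029.Pent f := by
  constructor
  · intro h B _ _ a b c d e hs
    have h1 := h B a d b e c ⟨hs.ad, hs.bd.symm, hs.be, hs.ce.symm, hs.ac.symm, by
      rw [← hs.five]; unfold br P029.br; abel⟩
    rw [← h1]
    change ev K a e f + ev K c b f + ev K e d f + ev K b a f + ev K d c f = _
    abel
  · intro h B _ _ a1 a2 a3 a4 a5 hp
    have h1 := h B a1 a3 a5 a2 a4 ⟨hp.c51.symm, hp.c12, hp.c23.symm, hp.c34, hp.c45.symm, by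
      rw [← hp.six]; unfold br P029.br; abel⟩
    rw [← h1]
    change _ = ev K a1 a4 f + ev K a5 a3 f + ev K a4 a2 f + ev K a3 a1 f + ev K a2 a5 f
    abel

end Dict

theorem dict_pf (K : Type) [Field K] [CharZero K] :
    S_dict K := by
  refine ⟨Dict.lie_iff, Dict.ell_eq, fun ψ φ => ?_, Dict.five_iff⟩
  unfold ihara P029.ih
  rw [Dict.dI_eq, Dict.dI_eq]
  rfl

end Vale.Agent.P029.KZ
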