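import Vale.Agent.P029.KStm

noncomputable section
namespace Vale.Agent.P029.KZ

namespace Diff

variable {K : Type} [Field K] {B C : Type} [Ring B] [Ring C] [Algebra K B] [Algebra K C]

/-- `u` is unipotent and `e` lies in the last power -/
def R (n : ℕ) (m : Submodule K C) (u e : C) : Prop := u - 1 ∈ m ∧ e ∈ m ^ n

theorem mulR {n : ℕ} {m : Submodule K C} (hm : Nil n m) (hn : 1 ≤ n) {u e u' e' : C}
    (h : R n m u e) (h' : R n m u' e') :
    (u + e) * (u' + e') = u * u' + (e + e') ∧ R n m (u * u') (e + e') := by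
  have l : ∀ x ∈ m ^ n, ∀ z ∈ m, x * z = 0 := fun x hx z hz => by
    have := Submodule.mul_mem_mul hx hz
    rwa [← pow_succ, hm.pow, Submodule.mem_bot] at this
  have r : ∀ x ∈ m ^ n, ∀ z ∈ m, z * x = 0 := fun x hx z hz => by
    have := Submodule.mul_mem_mul hz hx
    rwa [← pow_succ', hm.pow, Submodule.mem_bot] at this
  obtain ⟨k, rfl⟩ := Nat.exists_eq_add_of_le' hn
  have a1 := l e h.2 _ h'.1
  have a2 := r e' h'.2 _ h.1
  have a3 := l e h.2 _ (hm.pow_le k h'.2)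
  refine ⟨?_, ?_, add_mem h.2 h'.2⟩
  · linear_combination (norm := noncomm_ring) a1 + a2 + a3
  · have : u * u' - 1 = (u - 1) * (u' - 1) + (u - 1) + (u' - 1) := by noncomm_ring
    rw [this]
    exact add_mem (add_mem (hm.mul (Submodule.mul_mem_mul h.1 h'.1)) h.1) h'.1

theorem mulh (ι : B →ₐ[K] C) {h : C} (hc : ∀ z, Commute h z) (k : ℕ) (a b : B) :
    h * ι a * (h ^ k * ι b) = h ^ (k + 1) * ι (a * b) := by
  rw [map_mul, pow_succ', mul_assoc, mul_assoc, ← mul_assoc (ι a), ← ((hc _).pow_left k).eq,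
    mul_assoc]

theorem scale {n : ℕ} {f : A K} (hf : f ∈ Hom K n) (ι : B →ₐ[K] C) {h : C}
    (hc : ∀ z, Commute h z) (a b : B) :
    ev K (h * ι a) (h * ι b) f = h ^ n * ι (ev K a b f) := by
  refine Hom_ind (P := fun n f => ev K (h * ι a) (h * ι b) f = h ^ n * ι (ev K a b f))
    (by simp) (by simp) ?_ ?_ ?_ ?_ n f hf
  · intro n f g hf hg
    simp only [map_add, hf, hg, mul_add]
  · intro n d f hf
    simp only [map_smul, hf, mul_smul_comm]
  · intro n f _ hf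
    rw [map_mul, hf, ev_X, mulh ι hc, map_mul (ev K a b), ev_X]
  · intro n f _ hf
    rw [map_mul, hf, ev_Y, mulh ι hc, map_mul (ev K a b), ev_Y]

theorem brh (ι : B →ₐ[K] C) {h : C} (hc : ∀ z, Commute h z) (a b : B) :
    br (h * ι a) (h * ι b) = h ^ 2 * ι (br a b) := by
  have e1 := mulh ι hc 1 a b
  have e2 := mulh ι hc 1 b a
  rw [pow_one] at e1 e2
  unfold br
  rw [e1, e2, map_sub, mul_sub]

theorem comh (ι : B →ₐ[K] C) {h : C} (hc : ∀ z, Commute h z) {a b : B} (hab : Commute a b) :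
    Commute (h * ι a) (h * ι b) := by
  rw [← br_eq_zero, brh ι hc, br_eq_zero.2 hab, map_zero, mul_zero]

theorem penth (ι : B →ₐ[K] C) {h : C} (hc : ∀ z, Commute h z) {a1 a2 a3 a4 a5 : B}
    (hp : Pent a1 a2 a3 a4 a5) : Pent (h * ι a1) (h * ι a2) (h * ι a3) (h * ι a4) (h * ι a5) :=
  ⟨comh ι hc hp.c12, comh ι hc hp.c23, comh ι hc hp.c34, comh ι hc hp.c45, comh ι hc hp.c51, by
    simp only [brh ι hc, ← mul_add, ← map_add]
    rw [hp.six, map_zero, mul_zero]⟩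

end Diff

theorem diff_pf (K : Type) [Field K] [CharZero K] (hfil : S_fil K) (htrunc : S_trunc K) (hdyn : S_dyn K) (hthree : S_three K) :
    S_diff K := by
  intro N n Φ Φ' h3 hN p1 p2 g1 g2 h1 hd
  obtain ⟨ψ, hψ, hr⟩ := hfil.split n _ hd
  have n1 : 1 ≤ n := by omega
  have val : ∀ (C : Type) [Ring C] [Algebra K C] (m : Submodule K C), Nil n m → ∀ a b : C,
      a ∈ m → b ∈ m → ev K a b Φ = ev K a b Φ' + ev K a b ψ ∧
        Diff.R n m (ev K a b Φ') (ev K a b ψ) := fun C _ _ m hm a b ha hb => by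
    have e1 := hm.ev_Fil ha hb hr
    have e2 := hfil.evm C n m hm a b ha hb 1 _ le_rfl h1
    rw [map_sub, map_one, pow_one] at e2
    rw [map_sub, map_sub, sub_sub, sub_eq_zero] at e1
    exact ⟨e1, e2, ev_mem_pow hψ ha hb⟩
  have lie : LieW n ψ := by
    refine hdyn n ψ n1 hψ fun B _ _ a b a' b' hc => ?_
    obtain ⟨C, _, _, ι, h, m, hm, c, mem, inj⟩ := htrunc B n
    have hM : Nil N m := ⟨hm.mul, hm.pow_eq_bot (by omega)⟩
    have hc' : Cross (h * ι a) (h * ι b) (h * ι a') (h * ι b') :=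
      ⟨Diff.comh ι c hc.aa, Diff.comh ι c hc.ab, Diff.comh ι c hc.ba, Diff.comh ι c hc.bb⟩
    have e1 := g1 C m hM _ _ _ _ (mem a) (mem b) (mem a') (mem b') hc'
    have e2 := g2 C m hM _ _ _ _ (mem a) (mem b) (mem a') (mem b') hc'
    obtain ⟨v1, r1⟩ := val C m hm _ _ (mem a) (mem b)
    obtain ⟨v2, r2⟩ := val C m hm _ _ (mem a') (mem b')
    rw [(val C m hm _ _ (add_mem (mem a) (mem a')) (add_mem (mem b) (mem b'))).1, v1, v2,
      (Diff.mulR hm n1 r1 r2).1, e2, add_right_inj, ← mul_add, ← mul_add, ← map_add, ← map_add,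
      Diff.scale hψ ι c, Diff.scale hψ ι c, Diff.scale hψ ι c] at e1
    refine sub_eq_zero.1 (inj _ ?_)
    rw [map_sub, mul_sub, e1, map_add, mul_add, sub_self]
  have five : Five ψ := by
    intro B _ _ a1 a2 a3 a4 a5 hp
    obtain ⟨C, _, _, ι, h, m, hm, c, mem, inj⟩ := htrunc B n
    have hM : Nil N m := ⟨hm.mul, hm.pow_eq_bot (by omega)⟩
    have hp' := Diff.penth ι c hp
    have e1 := p1 C m hM _ _ _ _ _ (mem a1) (mem a2) (mem a3) (mem a4) (mem a5) hp'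
    have e2 := p2 C m hM _ _ _ _ _ (mem a1) (mem a2) (mem a3) (mem a4) (mem a5) hp'
    obtain ⟨v1, r1⟩ := val C m hm _ _ (mem a2) (mem a5)
    obtain ⟨v2, r2⟩ := val C m hm _ _ (mem a3) (mem a1)
    obtain ⟨v3, r3⟩ := val C m hm _ _ (mem a4) (mem a2)
    obtain ⟨v4, r4⟩ := val C m hm _ _ (mem a5) (mem a3)
    obtain ⟨v5, r5⟩ := val C m hm _ _ (mem a1) (mem a4)
    obtain ⟨w2, s2⟩ := Diff.mulR hm n1 r1 r2
    obtain ⟨w3, s3⟩ := Diff.mulR hm n1 s2 r3
    obtain ⟨w4, s4⟩ := Diff.mulR hm n1 s3 r4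
    rw [v1, v2, v3, v4, v5, w2, w3, w4, (Diff.mulR hm n1 s4 r5).1, e2, add_eq_left] at e1
    simp only [Diff.scale hψ ι c, ← mul_add, ← map_add] at e1
    exact inj _ e1
  obtain ⟨t2, t3⟩ := hthree n ψ h3 lie five
  exact ⟨ψ, ⟨lie, t2, t3, five⟩, hr⟩

end Vale.Agent.P029.KZ
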