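import Vale.Agent.P029.KStm

noncomputable section
namespace Vale.Agent.P029.KZ

namespace Dyn

variable {K : Type} [Field K]

variable (K) in
/-- the Euler operator -/
def Eu : Module.End K (A K) where
  toFun g := dv K X Y X Y g
  map_add' f g := dv_add _ _ _ _ f g
  map_smul' c f := dv_smul _ _ _ _ c f

variable (K) in
/-- left multiplication -/
def L : A K →ₐ[K] Module.End K (A K) := Algebra.lmul K (A K)

variable {C : Type} [Ring C] [Algebra K C]

variable (K) in
def lf : C →ₐ[K] Module.End K C := Algebra.lmul K C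

variable (K) in
def rt (p : C) : Module.End K C := -LinearMap.mulRight K p

theorem lf_app (p z : C) : lf K p z = p * z := rfl

theorem rt_app (p z : C) : rt K p z = -(z * p) := rfl

theorem comm (p q : C) : Commute (lf K p) (rt K q) :=
  LinearMap.ext fun z => by
    simp only [Module.End.mul_apply, lf_app, rt_app, mul_neg, mul_assoc]

theorem ad_app (p z : C) : (lf K p + rt K p) z = br p z := by
  rw [LinearMap.add_apply, lf_app, rt_app, br, sub_eq_add_neg]

theorem br_Eu {p : A K} (h : dv K X Y X Y p = p) : br (L K p) (Eu K) = -L K p :=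
  LinearMap.ext fun g => by
    show p * dv K X Y X Y g - dv K X Y X Y (p * g) = -(p * g)
    rw [dv_mul, ev_XY, ev_XY, h]
    abel

theorem step {p g : A K} {n : ℕ} {c : K} (h : dv K X Y X Y p = p) (hp : LieW 1 p)
    (hg : LieW n g) (hc : 1 ≤ n → c = 0) : br (L K p) (c • 1) = 0 ∧
      ∃ g', LieW (n + 1) g' ∧ br (L K p) (c • Eu K + L K g) = L K g' := by
  refine ⟨by simp [br], (-c) • p + br p g, LieW.add ?_ (add_comm 1 n ▸ hp.br hg), ?_⟩
  · rcases Nat.eq_zero_or_pos n with rfl | hn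
    · exact hp.smul _
    · rw [hc hn, neg_zero, zero_smul]
      exact LieW.zero _
  · have e := br_Eu h
    rw [map_add, map_smul, map_br]
    unfold br at e ⊢
    simp only [mul_add, add_mul, mul_smul_comm, smul_mul_assoc]
    linear_combination (norm := module) c • e

theorem main {n : ℕ} {f : A K} (hf : f ∈ Hom K n) : ∃ (c : K) (g : A K), LieW n g ∧
    (1 ≤ n → c = 0) ∧
    ev K (lf K (L K X) + rt K (L K X)) (lf K (L K Y) + rt K (L K Y)) f 1 = c • 1 ∧
    ev K (lf K (L K X) + rt K (L K X)) (lf K (L K Y) + rt K (L K Y)) f (Eu K) =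
      c • Eu K + L K g := by
  refine Hom_ind (P := fun n f => ∃ (c : K) (g : A K), LieW n g ∧ (1 ≤ n → c = 0) ∧
    ev K (lf K (L K X) + rt K (L K X)) (lf K (L K Y) + rt K (L K Y)) f 1 = c • 1 ∧
    ev K (lf K (L K X) + rt K (L K X)) (lf K (L K Y) + rt K (L K Y)) f (Eu K) =
      c • Eu K + L K g) ?_ ?_ ?_ ?_ ?_ ?_ n f hf
  · exact ⟨1, 0, LieW.zero _, fun h => absurd h (by norm_num), by simp, by simp⟩
  · exact fun n => ⟨0, 0, LieW.zero _, fun _ => rfl, by simp, by simp⟩
  · rintro n f f' ⟨c, g, h1, h2, h3, h4⟩ ⟨c', g', k1, k2, k3, k4⟩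
    refine ⟨c + c', g + g', h1.add k1, fun h => by rw [h2 h, k2 h, add_zero], ?_, ?_⟩
    · rw [map_add, LinearMap.add_apply, h3, k3, add_smul]
    · rw [map_add, LinearMap.add_apply, h4, k4, add_smul, map_add]
      abel
  · rintro n d f ⟨c, g, h1, h2, h3, h4⟩
    refine ⟨d * c, d • g, h1.smul d, fun h => by rw [h2 h, mul_zero], ?_, ?_⟩
    · rw [map_smul, LinearMap.smul_apply, h3, mul_smul]
    · rw [map_smul, LinearMap.smul_apply, h4, mul_smul, map_smul, smul_add]
  · rintro n f _ ⟨c, g, h1, h2, h3, h4⟩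
    obtain ⟨e1, g', e2, e3⟩ := step (dv_X X Y X Y) LieW.x h1 h2
    refine ⟨0, g', e2, fun _ => rfl, ?_, ?_⟩
    · rw [map_mul, ev_X, Module.End.mul_apply, h3, ad_app, e1, zero_smul]
    · rw [map_mul, ev_X, Module.End.mul_apply, h4, ad_app, e3, zero_smul, zero_add]
  · rintro n f _ ⟨c, g, h1, h2, h3, h4⟩
    obtain ⟨e1, g', e2, e3⟩ := step (dv_Y X Y X Y) LieW.y h1 h2
    refine ⟨0, g', e2, fun _ => rfl, ?_, ?_⟩
    · rw [map_mul, ev_Y, Module.End.mul_apply, h3, ad_app, e1, zero_smul]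
    · rw [map_mul, ev_Y, Module.End.mul_apply, h4, ad_app, e3, zero_smul, zero_add]

end Dyn

open Dyn in
theorem dyn_pf (K : Type) [Field K] [CharZero K] :
    S_dyn K := by
  intro n f hn hf h
  obtain ⟨c, g, h1, h2, h3, h4⟩ := Dyn.main hf
  have e := h _ (lf K (L K X)) (lf K (L K Y)) (rt K (L K X)) (rt K (L K Y))
    ⟨Dyn.comm _ _, Dyn.comm _ _, Dyn.comm _ _, Dyn.comm _ _⟩
  rw [← map_ev, ← map_ev, ev_XY] at e
  rw [e, h2 hn, zero_smul, LinearMap.add_apply, lf_app] at h3 h4
  have e1 := LinearMap.congr_fun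
    (commute_ev (K := K) (B := Module.End K (Module.End K (A K)))
      (Dyn.comm (K := K) (Eu K) (L K X))
      (Dyn.comm (K := K) (Eu K) (L K Y)) f).eq 1
  rw [Module.End.mul_apply, Module.End.mul_apply, lf_app, lf_app, mul_one,
    eq_neg_of_add_eq_zero_right h3, mul_one] at e1
  rw [← e1, zero_add] at h4
  have e2 : f * dv K X Y X Y 1 + dv K X Y X Y (-(f * 1)) = g * 1 := LinearMap.congr_fun h4 1
  rw [dv_one, mul_zero, zero_add, mul_one, mul_one, dv_euler (neg_mem hf), ev_XY] at e2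
  have hn0 : (n : K) ≠ 0 := Nat.cast_ne_zero.2 (by omega)
  have e3 : f = (-(n : K)⁻¹) • g := by
    rw [← e2, smul_smul, neg_mul, inv_mul_cancel₀ hn0, neg_smul, one_smul, neg_neg]
  rw [e3]
  exact h1.smul _

end Vale.Agent.P029.KZ
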