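import Vale.Agent.P029.KStm

noncomputable section
namespace Vale.Agent.P029.KZ

namespace Ell

variable {K : Type} [Field K] {N : ℕ}

theorem x_apply (v : Fin (N + 1) → K) (i : Fin (N + 1)) :
    xM K N v i = if h : 2 ≤ i.val then v ⟨i.val - 1, by omega⟩ else 0 := rfl

theorem y_apply (v : Fin (N + 1) → K) (i : Fin (N + 1)) :
    yM K N v i = if i.val = 1 then v 0 else 0 := rfl

variable (K N) in
/-- operators that raise the order of vanishing by `j` -/
def F (j : ℕ) : Submodule K (Module.End K (Fin (N + 1) → K)) where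
  carrier := {T | ∀ (k : ℕ) (v : Fin (N + 1) → K), (∀ i, i.val < k → v i = 0) →
    ∀ i, i.val < k + j → T v i = 0}
  add_mem' := fun hT hT' k v hv i hi => by
    rw [LinearMap.add_apply, Pi.add_apply, hT k v hv i hi, hT' k v hv i hi, add_zero]
  zero_mem' := fun _ _ _ _ _ => rfl
  smul_mem' := fun c T hT k v hv i hi => by
    rw [LinearMap.smul_apply, Pi.smul_apply, hT k v hv i hi, smul_zero]

theorem F_mul (j l : ℕ) : F K N j * F K N l ≤ F K N (l + j) :=
  Submodule.mul_le.2 fun _ hT _ hT' k v hv i hi =>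
    hT (k + l) _ (hT' k v hv) i (by omega)

theorem F_pow (j : ℕ) : F K N 1 ^ j ≤ F K N j := by
  induction j with
  | zero =>
    rw [pow_zero, Submodule.one_le]
    exact fun k v hv i hi => hv i hi
  | succ j ih =>
    rw [pow_succ']
    exact (mul_le_mul_right ih _).trans (F_mul 1 j)

theorem F_nil : Nil N (F K N 1) where
  mul := (F_mul 1 1).trans fun _ hT k v hv i hi => hT k v hv i (by omega)
  pow := eq_bot_iff.2 fun T hT => (Submodule.mem_bot K).2 <| LinearMap.ext fun v => funext fun i =>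
    F_pow (N + 1) hT 0 v (fun _ h => absurd h (Nat.not_lt_zero _)) i (by omega)

theorem x_mem : xM K N ∈ F K N 1 := fun k v hv i hi => by
  rw [x_apply]
  split_ifs with h
  · exact hv _ (by simp only; omega)
  · rfl

theorem y_mem : yM K N ∈ F K N 1 := fun k v hv i hi => by
  rw [y_apply]
  split_ifs with h
  · exact hv _ (by simp only [Fin.val_zero]; omega)
  · rfl

variable (N) in
/-- the diagonal operator -/
def dg (c : K) : Module.End K (Fin (N + 1) → K) where
  toFun v i := c ^ i.val * v i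
  map_add' v w := by funext i; simp only [Pi.add_apply, mul_add]
  map_smul' b v := by funext i; simp only [Pi.smul_apply, smul_eq_mul, RingHom.id_apply]; ring

theorem dg_apply (c : K) (v : Fin (N + 1) → K) (i : Fin (N + 1)) :
    dg N c v i = c ^ i.val * v i := rfl

theorem dg_ev (c : K) (f : A K) :
    dg N c * ev K (xM K N) (yM K N) f = ev K (c • xM K N) (c • yM K N) f * dg N c := by
  induction f using A_ind with
  | hc b => rw [AlgHom.commutes, AlgHom.commutes, Algebra.commutes]
  | hx =>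
    refine LinearMap.ext fun v => funext fun i => ?_
    simp only [ev_X, Module.End.mul_apply, LinearMap.smul_apply, Pi.smul_apply, dg_apply, x_apply,
      smul_eq_mul]
    split_ifs with h
    · rw [← mul_assoc, ← pow_succ', Nat.sub_add_cancel (by omega)]
    · simp
  | hy =>
    refine LinearMap.ext fun v => funext fun i => ?_
    simp only [ev_Y, Module.End.mul_apply, LinearMap.smul_apply, Pi.smul_apply, dg_apply, y_apply,
      smul_eq_mul]
    split_ifs with h
    · simp [h]
    · simp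
  | hm f g hf hg => rw [map_mul, map_mul, ← mul_assoc, hf, mul_assoc, hg, mul_assoc]
  | ha f g hf hg => rw [map_add, map_add, mul_add, add_mul, hf, hg]

theorem scale (c : K) (f : A K) : ell N (ev K (c • X) (c • Y) f) = c ^ N * ell N f := by
  have h0 : dg N c (Pi.single 0 1) = Pi.single 0 1 := by
    funext i
    rw [dg_apply]
    by_cases h : i = 0
    · simp [h]
    · simp [h]
  have h := congrFun (LinearMap.congr_fun (dg_ev (N := N) c f) (Pi.single 0 1)) (Fin.last N)
  rw [Module.End.mul_apply, Module.End.mul_apply, h0, dg_apply, Fin.val_last] at h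
  rw [ell, ell, map_ev, map_smul, map_smul, ev_X, ev_Y, ← h]

theorem smul (c : K) (f : A K) : ell N (c • f) = c * ell N f := by
  rw [ell, map_smul]; rfl

variable (K N) in
/-- operators with image in the hyperplane `v 0 = 0` that vanish on it -/
def J : Submodule K (Module.End K (Fin (N + 1) → K)) where
  carrier := {T | ∀ v : Fin (N + 1) → K, T v 0 = 0 ∧ (v 0 = 0 → T v = 0)}
  add_mem' := fun hT hT' v => ⟨by rw [LinearMap.add_apply, Pi.add_apply, (hT v).1, (hT' v).1,
    add_zero], fun h => by rw [LinearMap.add_apply, (hT v).2 h, (hT' v).2 h, add_zero]⟩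
  zero_mem' := fun _ => ⟨rfl, fun _ => rfl⟩
  smul_mem' := fun c T hT v => ⟨by rw [LinearMap.smul_apply, Pi.smul_apply, (hT v).1, smul_zero],
    fun h => by rw [LinearMap.smul_apply, (hT v).2 h, smul_zero]⟩

theorem x_zero (v : Fin (N + 1) → K) : xM K N v 0 = 0 := by rw [x_apply]; simp

theorem y_J : yM K N ∈ J K N := fun v =>
  ⟨by rw [y_apply]; simp, fun h => funext fun i => by rw [y_apply, h]; simp⟩

theorem x_mul {T : Module.End K (Fin (N + 1) → K)} (hT : T ∈ J K N) : xM K N * T ∈ J K N :=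
  fun v => ⟨x_zero (T v), fun h => by rw [Module.End.mul_apply, (hT v).2 h, map_zero]⟩

theorem mul_x {T : Module.End K (Fin (N + 1) → K)} (hT : T ∈ J K N) : T * xM K N = 0 :=
  LinearMap.ext fun v => (hT _).2 (x_zero v)

theorem J_mul {T T' : Module.End K (Fin (N + 1) → K)} (hT : T ∈ J K N) (hT' : T' ∈ J K N) :
    T * T' = 0 :=
  LinearMap.ext fun v => (hT _).2 (hT' v).1

theorem lie_aux {n : ℕ} {f : A K} (h : LieW n f) : ∃ (c : K) (T : Module.End K (Fin (N + 1) → K)),
    T ∈ J K N ∧ ev K (xM K N) (yM K N) f = c • xM K N + T ∧ (n ≠ 1 → c = 0) := by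
  induction h with
  | x => exact ⟨1, 0, zero_mem _, by simp, fun h => absurd rfl h⟩
  | y => exact ⟨0, _, y_J, by simp, fun _ => rfl⟩
  | zero n => exact ⟨0, 0, zero_mem _, by simp, fun _ => rfl⟩
  | add _ _ hf hg =>
    obtain ⟨c, T, hT, e, hc⟩ := hf
    obtain ⟨c', T', hT', e', hc'⟩ := hg
    exact ⟨c + c', T + T', add_mem hT hT', by rw [map_add, e, e']; module,
      fun h => by rw [hc h, hc' h, add_zero]⟩
  | smul b _ hf =>
    obtain ⟨c, T, hT, e, hc⟩ := hf
    exact ⟨b * c, b • T, Submodule.smul_mem _ b hT, by rw [map_smul, e]; module,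
      fun h => by rw [hc h, mul_zero]⟩
  | br _ _ hf hg =>
    obtain ⟨c, T, hT, e, -⟩ := hf
    obtain ⟨c', T', hT', e', -⟩ := hg
    refine ⟨0, c • (xM K N * T') - c' • (xM K N * T), sub_mem (Submodule.smul_mem _ _ (x_mul hT'))
      (Submodule.smul_mem _ _ (x_mul hT)), ?_, fun _ => rfl⟩
    rw [map_br, e, e', br]
    simp only [mul_add, add_mul, smul_mul_assoc, mul_smul_comm, mul_x hT, mul_x hT', J_mul hT hT',
      J_mul hT' hT]
    module

theorem lie_J {n : ℕ} {f : A K} (h : LieW n f) (hn : 2 ≤ n) : ev K (xM K N) (yM K N) f ∈ J K N := by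
  obtain ⟨c, T, hT, e, hc⟩ := lie_aux (N := N) h
  rwa [e, hc (by omega), zero_smul, zero_add]

theorem D_zero {n : ℕ} {ψ : A K} (h : LieW n ψ) (hn : 2 ≤ n) (f : A K) :
    ev K (xM K N) (yM K N) (D ψ f) = 0 := by
  rw [ev_D, br, J_mul y_J (lie_J h hn), J_mul (lie_J h hn) y_J, sub_zero, dv_zero_dir]

theorem S_ev {n : ℕ} {ψ : A K} (h : LieW n ψ) (hn : 2 ≤ n) (f : A K) :
    ev K (xM K N) (yM K N) (S ψ f) = ev K (xM K N) (yM K N) ψ * ev K (xM K N) (yM K N) f := by
  rw [S, map_add, D_zero h hn, zero_add, map_mul]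

end Ell

open Ell in
theorem ell_pf (K : Type) [Field K] [CharZero K] (hfil : S_fil K) (_hdict : S_dict K) :
    S_ell K where
  add N f g := by rw [ell, map_add]; rfl
  smul N c f := Ell.smul c f
  hom N n f hf hn := by
    have h := scale (N := N) (2 : K) f
    rw [ev_smul hf, ev_XY, Ell.smul] at h
    by_contra h0
    have h2 : ((2 ^ n : ℕ) : K) = ((2 ^ N : ℕ) : K) := by
      push_cast
      exact mul_right_cancel₀ h0 h
    exact hn (Nat.pow_right_injective le_rfl (Nat.cast_injective h2))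
  nil N := ⟨F K N 1, F_nil, x_mem, y_mem⟩
  scale N c f := scale c f
  flow N n ψ Φ hN hn hψ hΦ := by
    obtain ⟨M, hM⟩ : ∃ M, Finset.range (N + 1) = Finset.range (M + 1 + 1) :=
      ⟨N - 1, congrArg _ (by omega)⟩
    have h1 := hfil.evm _ N _ F_nil _ _ x_mem y_mem 1 _ le_rfl hΦ
    have h2 : ev K (xM K N) (yM K N) (Φ - 1) (Pi.single 0 1) 0 = 0 :=
      F_pow 1 h1 0 _ (fun _ h => absurd h (Nat.not_lt_zero _)) 0 (by simp)
    have h3 := (lie_J hψ hn _).2 h2
    rw [map_sub, map_one, LinearMap.sub_apply, map_sub, sub_eq_zero, Module.End.one_apply] at h3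
    have h4 : ∀ k, ev K (xM K N) (yM K N) ((S ψ)^[k + 1 + 1] Φ) = 0 := fun k => by
      rw [Function.iterate_succ_apply', Function.iterate_succ_apply', S_ev hψ hn, S_ev hψ hn,
        ← mul_assoc, J_mul (lie_J hψ hn) (lie_J hψ hn), zero_mul]
    have h5 : ev K (xM K N) (yM K N) (KZ.flow N ψ Φ) =
        ev K (xM K N) (yM K N) ψ * ev K (xM K N) (yM K N) Φ + ev K (xM K N) (yM K N) Φ := by
      rw [KZ.flow, hM, Finset.sum_range_succ', Finset.sum_range_succ', map_add, map_add, map_sum,
        Finset.sum_eq_zero fun k _ => by rw [map_smul, h4, smul_zero]]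
      simp [S_ev hψ hn]
    rw [ell, ell, ell, h5, LinearMap.add_apply, Module.End.mul_apply, h3, Pi.add_apply, add_comm]
  ih N m n ψ φ hm hn hψ hφ := by
    rw [ell, ihara, map_add, map_sub, D_zero hψ hm, D_zero hφ hn, map_br, br,
      J_mul (lie_J hψ hm) (lie_J hφ hn), J_mul (lie_J hφ hn) (lie_J hψ hm)]
    simp

end Vale.Agent.P029.KZ
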