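import Vale.Agent.P029.KStm

noncomputable section
namespace Vale.Agent.P029.KZ

namespace Fib

theorem pent {B : Type} [Ring B] {P Q R d e : B} (h1 : br d P = br P Q) (h2 : br d Q = br Q P)
    (h3 : br d R = 0) (h4 : br e P = 0) (h5 : br e Q = br Q R) (h6 : br e R = br R Q) :
    Pent P e (-(P + Q + R)) d (P + Q + d) := by
  unfold br at *
  refine ⟨?_, ?_, ?_, ?_, ?_, ?_⟩
  · show P * e = e * P
    linear_combination (norm := noncomm_ring) -h4
  · show e * (-(P + Q + R)) = (-(P + Q + R)) * e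
    linear_combination (norm := noncomm_ring) -h4 - h5 - h6
  · show (-(P + Q + R)) * d = d * (-(P + Q + R))
    linear_combination (norm := noncomm_ring) h1 + h2 + h3
  · show d * (P + Q + d) = (P + Q + d) * d
    linear_combination (norm := noncomm_ring) h1 + h2
  · show (P + Q + d) * P = P * (P + Q + d)
    linear_combination (norm := noncomm_ring) h1
  · unfold br
    linear_combination (norm := noncomm_ring) h1 + h2 + h3 + h1 - h4 - h5

variable {K : Type} [Field K]

theorem der (v : Fin 3 → FreeAlgebra K (Fin 3)) : ∃ δ : Module.End K (FreeAlgebra K (Fin 3)),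
    ∀ i, br δ (Algebra.lmul K _ (FreeAlgebra.ι K i)) = Algebra.lmul K _ (v i) := by
  let Φ : FreeAlgebra K (Fin 3) →ₐ[K] DualNumber (FreeAlgebra K (Fin 3)) :=
    FreeAlgebra.lift K fun i => dn (FreeAlgebra.ι K i) (v i)
  have h1 : ∀ w, (Φ w).fst = w := fun w =>
    DFunLike.congr_fun (FreeAlgebra.hom_ext (f := (TrivSqZeroExt.fstHom K _ _).comp Φ)
      (g := AlgHom.id K _) (funext fun i => by simp [Φ])) w
  refine ⟨⟨⟨fun w => (Φ w).snd, fun a b => by simp⟩, fun c a => by simp⟩, fun i => ?_⟩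
  refine LinearMap.ext fun w => ?_
  show (Φ (FreeAlgebra.ι K i * w)).snd - FreeAlgebra.ι K i * (Φ w).snd = v i * w
  rw [map_mul, snd_mul', h1, h1, add_sub_cancel_left]
  simp [Φ]

end Fib

theorem fib_pf (K : Type) [Field K] [CharZero K] (hp5 : S_p5 K) :
    S_fib K := by
  intro f1 f2 f3 f4 H B _ _ p q r
  obtain ⟨ι, hι⟩ : ∃ ι : Fin 3 → FreeAlgebra K (Fin 3), ι = FreeAlgebra.ι K := ⟨_, rfl⟩
  obtain ⟨d, hd⟩ := Fib.der (K := K) ![br (ι 0) (ι 1), br (ι 1) (ι 0), 0]
  obtain ⟨e, he⟩ := Fib.der (K := K) ![0, br (ι 1) (ι 2), br (ι 2) (ι 1)]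
  rw [← hι] at hd he
  have hP := Fib.pent ((hd 0).trans (map_br _ _ _)) ((hd 1).trans (map_br _ _ _))
    ((hd 2).trans (map_zero _)) ((he 0).trans (map_zero _)) ((he 1).trans (map_br _ _ _))
    ((he 2).trans (map_br _ _ _))
  obtain ⟨x, hx, e1, -, e3, e4, e5⟩ := hp5.ext _ _ _ _ _ _ hP
  have t := hp5.tri _ x hx 0 1 2 3 4 (by unfold Dis; decide)
  have u := hp5.four _ x hx 0 1 2 3 4 (by unfold Dis; decide)
  rw [hx.symm] at e3
  have e2 : x 0 2 = Algebra.lmul K _ (ι 1) := by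
    rw [e1, e4, e5] at t
    exact add_left_cancel (add_right_cancel t)
  have e6 : x 0 3 = Algebra.lmul K _ (ι 2) := by
    rw [e1, e2, e3, add_neg_eq_zero] at u
    exact add_left_cancel u
  have e7 : x 0 4 = Algebra.lmul K _ (-ι 0 - ι 1 - ι 2) := by
    rw [e3, map_sub, map_sub, map_neg]
    abel
  have h := H _ x hx
  rw [e1, e2, e6, e7, ← map_ev, ← map_ev, ← map_ev, ← map_ev, ← map_add, ← map_add,
    ← map_add] at h
  have h2 := Algebra.lmul_injective (h.trans (map_zero _).symm)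
  have h3 := congrArg (FreeAlgebra.lift K ![p, q, r]) h2
  simpa [map_ev, hι] using h3

end Vale.Agent.P029.KZ
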