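import Vale.Agent.P029.KStm

noncomputable section
namespace Vale.Agent.P029.KZ

namespace KFil

variable {K : Type} [Field K]

theorem hom {n : ℕ} {f : A K} (h : f ∈ Hom K n) : f ∈ Fil K n := by
  have := Submodule.mul_mem_mul h (Submodule.mem_top : (1 : A K) ∈ (⊤ : Submodule K (A K)))
  rwa [mul_one] at this

theorem mk {n : ℕ} {p : A K} (h : p ∈ Hom K n) (g : A K) : p * g ∈ Fil K n :=
  Submodule.mul_mem_mul h Submodule.mem_top

theorem ind {n : ℕ} {P : A K → Prop} (h1 : ∀ p ∈ Hom K n, ∀ g, P (p * g))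
    (h2 : ∀ f g, P f → P g → P (f + g)) {f : A K} (hf : f ∈ Fil K n) : P f :=
  Submodule.mul_induction_on hf (fun p hp g _ => h1 p hp g) h2

theorem mulR {n : ℕ} {f : A K} (hf : f ∈ Fil K n) (g : A K) : f * g ∈ Fil K n := by
  refine ind (P := fun f => f * g ∈ Fil K n) (fun p hp h => ?_) (fun f1 f2 a b => ?_) hf
  · rw [mul_assoc]; exact mk hp _
  · rw [add_mul]; exact add_mem a b

theorem homMul {m n : ℕ} {p g : A K} (hp : p ∈ Hom K m) (hg : g ∈ Fil K n) :
    p * g ∈ Fil K (m + n) := by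
  refine ind (P := fun g => p * g ∈ Fil K (m + n)) (fun q hq h => ?_) (fun f1 f2 a b => ?_) hg
  · rw [← mul_assoc]; exact mk (Hom_mul hp hq) _
  · rw [mul_add]; exact add_mem a b

theorem zero (f : A K) : f ∈ Fil K 0 := by
  have := mk (one_mem_Hom (K := K)) f
  rwa [one_mul] at this

theorem anti {m n : ℕ} (h : m ≤ n) {f : A K} (hf : f ∈ Fil K n) : f ∈ Fil K m := by
  obtain ⟨k, rfl⟩ := Nat.exists_eq_add_of_le h
  refine ind (P := fun f => f ∈ Fil K m) (fun p hp g => mulR ?_ g) (fun f1 f2 a b => add_mem a b) hf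
  rw [Hom, pow_add] at hp
  exact Submodule.mul_induction_on hp (fun p1 h1 p2 _ => mk h1 p2) (fun f1 f2 a b => add_mem a b)

theorem split0 (f : A K) : ∃ c : K, f - algebraMap K _ c ∈ Fil K 1 := by
  induction f using A_ind with
  | hc c => exact ⟨c, by rw [sub_self]; exact zero_mem _⟩
  | hx => exact ⟨0, by rw [map_zero, sub_zero]; exact hom X_mem⟩
  | hy => exact ⟨0, by rw [map_zero, sub_zero]; exact hom Y_mem⟩
  | hm f g hf hg =>
    obtain ⟨c, hc⟩ := hf
    obtain ⟨d, hd⟩ := hg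
    refine ⟨c * d, ?_⟩
    have e : f * g - algebraMap K _ (c * d) =
        (f - algebraMap K _ c) * g + c • (g - algebraMap K _ d) := by
      rw [map_mul, Algebra.smul_def]
      noncomm_ring
    rw [e]
    exact add_mem (mulR hc g) (Submodule.smul_mem _ _ hd)
  | ha f g hf hg =>
    obtain ⟨c, hc⟩ := hf
    obtain ⟨d, hd⟩ := hg
    refine ⟨c + d, ?_⟩
    have e : f + g - algebraMap K _ (c + d) = (f - algebraMap K _ c) + (g - algebraMap K _ d) := by
      rw [map_add]; abel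
    rw [e]
    exact add_mem hc hd

theorem split {n : ℕ} {f : A K} (hf : f ∈ Fil K n) : ∃ ψ ∈ Hom K n, f - ψ ∈ Fil K (n + 1) := by
  refine ind (P := fun f => ∃ ψ ∈ Hom K n, f - ψ ∈ Fil K (n + 1)) (fun p hp g => ?_)
    (fun f1 f2 a b => ?_) hf
  · obtain ⟨c, hc⟩ := split0 g
    refine ⟨c • p, Submodule.smul_mem _ _ hp, ?_⟩
    have e : p * g - c • p = p * (g - algebraMap K _ c) := by
      rw [mul_sub, Algebra.algebraMap_eq_smul_one, mul_smul_comm, mul_one]
    rw [e]
    exact homMul hp hc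
  · obtain ⟨u, hu, hu'⟩ := a
    obtain ⟨v, hv, hv'⟩ := b
    refine ⟨u + v, add_mem hu hv, ?_⟩
    have e : f1 + f2 - (u + v) = (f1 - u) + (f2 - v) := by abel
    rw [e]
    exact add_mem hu' hv'

theorem mulL {n : ℕ} (f : A K) : ∀ g ∈ Fil K n, f * g ∈ Fil K n := by
  induction f using A_ind with
  | hc c => intro g hg; rw [← Algebra.smul_def]; exact Submodule.smul_mem _ _ hg
  | hx => intro g hg; exact anti (Nat.le_add_left n 1) (homMul X_mem hg)
  | hy => intro g hg; exact anti (Nat.le_add_left n 1) (homMul Y_mem hg)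
  | hm f f' hf hf' => intro g hg; rw [mul_assoc]; exact hf _ (hf' g hg)
  | ha f f' hf hf' => intro g hg; rw [add_mul]; exact add_mem (hf g hg) (hf' g hg)

theorem mul {m n : ℕ} {f g : A K} (hf : f ∈ Fil K m) (hg : g ∈ Fil K n) :
    f * g ∈ Fil K (m + n) := by
  refine ind (P := fun f => f * g ∈ Fil K (m + n)) (fun p hp h => ?_) (fun f1 f2 a b => ?_) hf
  · rw [mul_assoc]; exact homMul hp (mulL h g hg)
  · rw [add_mul]; exact add_mem a b

theorem evm {B : Type} [Ring B] [Algebra K B] {N : ℕ} {m : Submodule K B} (h : Nil N m) {a b : B}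
    (ha : a ∈ m) (hb : b ∈ m) {n : ℕ} {f : A K} (hn : 1 ≤ n) (hf : f ∈ Fil K n) :
    ev K a b f ∈ m ^ n := by
  obtain ⟨k, rfl⟩ := Nat.exists_eq_add_of_le' hn
  have s1 : ∀ c ∈ m, ∀ z ∈ m ^ (k + 1), z * c ∈ m ^ (k + 1) := by
    intro c hc z hz
    apply h.pow_succ_le k
    rw [pow_succ _ (k + 1)]
    exact Submodule.mul_mem_mul hz hc
  have s2 : ∀ g : A K, ∀ z ∈ m ^ (k + 1), z * ev K a b g ∈ m ^ (k + 1) := by
    intro g
    induction g using A_ind with
    | hc c =>
      intro z hz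
      rw [AlgHom.commutes, Algebra.algebraMap_eq_smul_one, mul_smul_comm, mul_one]
      exact Submodule.smul_mem _ _ hz
    | hx => rw [ev_X]; exact s1 a ha
    | hy => rw [ev_Y]; exact s1 b hb
    | hm f f' hf hf' => intro z hz; rw [map_mul, ← mul_assoc]; exact hf' _ (hf z hz)
    | ha f f' hf hf' => intro z hz; rw [map_add, mul_add]; exact add_mem (hf z hz) (hf' z hz)
  refine ind (P := fun f => ev K a b f ∈ m ^ (k + 1)) (fun p hp g => ?_) (fun f1 f2 u v => ?_) hf
  · rw [map_mul]; exact s2 g _ (ev_mem_pow hp ha hb)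
  · rw [map_add]; exact add_mem u v

theorem sub {n : ℕ} {p q f : A K} (hp : p ∈ Fil K 1) (hq : q ∈ Fil K 1) (hf : f ∈ Fil K n) :
    ev K p q f ∈ Fil K n := by
  have s : ∀ n, ∀ h ∈ Hom K n, ev K p q h ∈ Fil K n := by
    refine Hom_ind (P := fun n h => ev K p q h ∈ Fil K n) (zero _) (by simp) ?_ ?_ ?_ ?_
    · intro n f g hf hg; rw [map_add]; exact add_mem hf hg
    · intro n d f hf; rw [map_smul]; exact Submodule.smul_mem _ _ hf
    · intro n f _ hf; rw [map_mul, ev_X, add_comm]; exact mul hp hf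
    · intro n f _ hf; rw [map_mul, ev_Y, add_comm]; exact mul hq hf
  refine ind (P := fun f => ev K p q f ∈ Fil K n) (fun h hh g => ?_) (fun f1 f2 u v => ?_) hf
  · rw [map_mul]; exact mulR (s n h hh) _
  · rw [map_add]; exact add_mem u v

theorem D_mul (ψ f g : A K) : D ψ (f * g) = f * D ψ g + D ψ f * g := by
  unfold D
  rw [dv_mul, ev_XY, ev_XY]

theorem D_add (ψ f g : A K) : D ψ (f + g) = D ψ f + D ψ g := dv_add _ _ _ _ _ _

theorem D_smul (ψ : A K) (c : K) (f : A K) : D ψ (c • f) = c • D ψ f := dv_smul _ _ _ _ _ _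

theorem D_X (ψ : A K) : D ψ X = 0 := dv_X _ _ _ _

theorem D_Y (ψ : A K) : D ψ Y = br Y ψ := dv_Y _ _ _ _

theorem brY {n : ℕ} {ψ : A K} (h : ψ ∈ Hom K n) : br Y ψ ∈ Fil K (n + 1) :=
  hom (sub_mem (by rw [add_comm]; exact Hom_mul Y_mem h) (Hom_mul h Y_mem))

theorem D1 {n : ℕ} {ψ : A K} (h : ψ ∈ Hom K n) (f : A K) : D ψ f ∈ Fil K (n + 1) := by
  induction f using A_ind with
  | hc c => rw [D, dv_algebraMap]; exact zero_mem _
  | hx => rw [D_X]; exact zero_mem _
  | hy => rw [D_Y]; exact brY h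
  | hm f g hf hg => rw [D_mul]; exact add_mem (mulL f _ hg) (mulR hf g)
  | ha f g hf hg => rw [D_add]; exact add_mem hf hg

theorem D2 {n : ℕ} {ψ : A K} (h : ψ ∈ Hom K n) : ∀ k, ∀ f ∈ Hom K k, D ψ f ∈ Fil K (n + k) := by
  refine Hom_ind (P := fun k f => D ψ f ∈ Fil K (n + k)) ?_ ?_ ?_ ?_ ?_ ?_
  · rw [D, dv_one]; exact zero_mem _
  · intro k; rw [D, dv_zero]; exact zero_mem _
  · intro k f g hf hg; rw [D_add]; exact add_mem hf hg
  · intro k d f hf; rw [D_smul]; exact Submodule.smul_mem _ _ hf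
  · intro k f _ hf
    rw [D_mul, D_X, zero_mul, add_zero]
    exact anti (by omega) (homMul X_mem hf)
  · intro k f hk hf
    rw [D_mul, D_Y]
    exact add_mem (anti (by omega) (homMul Y_mem hf)) (anti (by omega) (mul (brY h) (hom hk)))

theorem D3 {n k : ℕ} {ψ f : A K} (h : ψ ∈ Hom K n) (hf : f ∈ Fil K k) :
    D ψ f ∈ Fil K (n + k) := by
  refine ind (P := fun f => D ψ f ∈ Fil K (n + k)) (fun p hp g => ?_) (fun f1 f2 u v => ?_) hf
  · rw [D_mul]
    exact add_mem (anti (by omega) (homMul hp (D1 h g))) (mulR (D2 h k p hp) g)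
  · rw [D_add]; exact add_mem u v

variable {B : Type} [Ring B] [Algebra K B]

/-- dual numbers with both parts in a subspace -/
def both (p : Submodule K B) : Submodule K (DualNumber B) where
  carrier := {z | z.fst ∈ p ∧ z.snd ∈ p}
  add_mem' := fun {a b} ha hb => ⟨by simpa using add_mem ha.1 hb.1, by simpa using add_mem ha.2 hb.2⟩
  zero_mem' := ⟨by simp, by simp⟩
  smul_mem' := fun c z hz =>
    ⟨by simpa using Submodule.smul_mem p c hz.1, by simpa using Submodule.smul_mem p c hz.2⟩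

theorem mem_both {p : Submodule K B} {z : DualNumber B} : z ∈ both p ↔ z.fst ∈ p ∧ z.snd ∈ p :=
  Iff.rfl

theorem both_mono {p q : Submodule K B} (h : p ≤ q) : both p ≤ both q :=
  fun _ hz => ⟨h hz.1, h hz.2⟩

theorem both_mul (p q : Submodule K B) : both p * both q ≤ both (p * q) := by
  refine Submodule.mul_le.2 (fun z hz w hw => mem_both.2 ⟨?_, ?_⟩)
  · rw [TrivSqZeroExt.fst_mul]; exact Submodule.mul_mem_mul hz.1 hw.1
  · rw [snd_mul']
    exact add_mem (Submodule.mul_mem_mul hz.1 hw.2) (Submodule.mul_mem_mul hz.2 hw.1)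

theorem both_pow (p : Submodule K B) (k : ℕ) : both p ^ (k + 1) ≤ both (p ^ (k + 1)) := by
  induction k with
  | zero => rw [zero_add, pow_one, pow_one]
  | succ k ih =>
    rw [pow_succ _ (k + 1), pow_succ _ (k + 1)]
    exact (mul_le_mul' ih le_rfl).trans (both_mul _ _)

theorem dual {N : ℕ} {m : Submodule K B} (h : Nil N m) :
    ∃ m' : Submodule K (DualNumber B), Nil N m' ∧ ∀ a u, a ∈ m → u ∈ m → dn a u ∈ m' := by
  refine ⟨both m, ⟨(both_mul m m).trans (both_mono h.mul), ?_⟩, fun a u ha hu => ?_⟩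
  · refine le_bot_iff.1 (fun z hz => ?_)
    have h1 := both_pow m N hz
    rw [h.pow, mem_both, Submodule.mem_bot, Submodule.mem_bot] at h1
    rw [Submodule.mem_bot]
    exact TrivSqZeroExt.ext h1.1 h1.2
  · exact mem_both.2 ⟨by simpa using ha, by simpa using hu⟩

end KFil

theorem fil_pf (K : Type) [Field K] [CharZero K] :
    S_fil K := by
  refine ⟨?_, ?_, ?_, ?_, ?_, ?_, ?_, ?_, ?_⟩
  · intro n f hf
    exact KFil.hom hf
  · exact eq_top_iff.2 (fun f _ => KFil.zero f)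
  · intro m n h f hf
    exact KFil.anti h hf
  · intro m n f g hf hg
    exact KFil.mul hf hg
  · intro n f hf
    exact KFil.split hf
  · intro B _ _ N m h a b ha hb n f hn hf
    exact KFil.evm h ha hb hn hf
  · intro n p q f hp hq hf
    exact KFil.sub hp hq hf
  · intro n k ψ f h hf
    exact ⟨KFil.D3 h hf, KFil.D1 h f, add_mem (KFil.D3 h hf) (KFil.homMul h hf)⟩
  · intro B _ _ N m h
    exact KFil.dual h

end Vale.Agent.P029.KZ
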