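import Vale.Agent.P029.KStm

noncomputable section
namespace Vale.Agent.P029.KZ

namespace FinAux

variable {B : Type} [Ring B] [Algebra ℝ B]

theorem fd {N : ℕ} {m : Submodule ℝ B} (h : Nil N m) {z : Fin 5 → B} (hz : ∀ i, z i ∈ m) :
    FiniteDimensional ℝ (Algebra.adjoin ℝ (Set.range z)) := by
  obtain ⟨M, hM⟩ : ∃ M, M = Submodule.span ℝ (Set.range z) := ⟨_, rfl⟩
  have h1 : M ≤ m := hM ▸ Submodule.span_le.2 (Set.range_subset_iff.2 hz)
  have h2 : M.FG := hM ▸ Submodule.fg_span (Set.finite_range z)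
  have h3 : (⨆ k : Fin (N + 1), M ^ k.val).FG := Submodule.fg_iSup _ fun k => h2.pow k
  have h4 : ∀ k, M ^ k ≤ ⨆ k : Fin (N + 1), M ^ k.val := fun k => by
    rcases lt_or_ge N k with hk | hk
    · exact ((pow_le_pow_left' h1 k).trans (h.pow_eq_bot hk).le).trans bot_le
    · exact le_iSup (fun k : Fin (N + 1) => M ^ k.val) ⟨k, Nat.lt_succ_of_le hk⟩
  have h5 : ∀ a ∈ Submonoid.closure (Set.range z), ∃ k, a ∈ M ^ k := fun a ha => by
    induction ha using Submonoid.closure_induction with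
    | mem x hx => exact ⟨1, by rw [pow_one, hM]; exact Submodule.subset_span hx⟩
    | one => exact ⟨0, by rw [pow_zero]; exact Submodule.one_le.1 le_rfl⟩
    | mul x y _ _ hx hy =>
      obtain ⟨i, hi⟩ := hx
      obtain ⟨j, hj⟩ := hy
      exact ⟨i + j, by rw [pow_add]; exact Submodule.mul_mem_mul hi hj⟩
  have h6 : Subalgebra.toSubmodule (Algebra.adjoin ℝ (Set.range z)) ≤
      ⨆ k : Fin (N + 1), M ^ k.val := by
    rw [Algebra.adjoin_eq_span, Submodule.span_le]
    intro a ha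
    obtain ⟨k, hk⟩ := h5 a ha
    exact h4 k hk
  have h7 : FiniteDimensional ℝ (⨆ k : Fin (N + 1), M ^ k.val : Submodule ℝ B) :=
    Module.Finite.of_fg h3
  exact Submodule.finiteDimensional_of_le h6

theorem nil {E : Type} [Ring E] [Algebra ℝ E] {N : ℕ} {m : Submodule ℝ B} (h : Nil N m)
    (φ : E →ₐ[ℝ] B) (hφ : Function.Injective φ) : Nil N (m.comap φ.toLinearMap) := by
  have h1 : (m.comap φ.toLinearMap).map φ.toLinearMap ≤ m := Submodule.map_comap_le _ _
  refine ⟨Submodule.mul_le.2 fun a ha b hb => ?_, ?_⟩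
  · show φ (a * b) ∈ m
    rw [map_mul]
    exact h.mul (Submodule.mul_mem_mul ha hb)
  · rw [eq_bot_iff]
    intro a ha
    have h2 := Submodule.mem_map_of_mem (f := φ.toLinearMap) ha
    rw [Submodule.map_pow] at h2
    have h3 := pow_le_pow_left' h1 (N + 1) h2
    rw [h.pow, Submodule.mem_bot] at h3
    exact hφ (h3.trans (map_zero φ).symm)

end FinAux

theorem fin_pf :
    S_fin := by
  intro N B _ _ _ m h z hz
  have hfd := FinAux.fd h hz
  obtain ⟨T, hT⟩ : ∃ T, T = Algebra.adjoin ℝ (Set.range z) := ⟨_, rfl⟩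
  have hzT : ∀ i, z i ∈ T := fun i => hT ▸ Algebra.subset_adjoin ⟨i, rfl⟩
  rw [← hT] at hfd
  have e := (Module.finBasis ℝ T).equivFun
  have hn : Nontrivial (Fin (Module.finrank ℝ T) → ℝ) := e.symm.surjective.nontrivial
  let f : T →ₐ[ℝ] ((Fin (Module.finrank ℝ T) → ℝ) →L[ℝ] (Fin (Module.finrank ℝ T) → ℝ)) :=
    ((e.conjAlgEquiv ℝ).trans (Module.End.toContinuousLinearMap _)).toAlgHom.comp
      (Algebra.lmul ℝ T)
  have hf : Function.Injective f :=
    ((e.conjAlgEquiv ℝ).trans (Module.End.toContinuousLinearMap _)).injective.comp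
      Algebra.lmul_injective
  have g := AlgEquiv.ofInjective f hf
  have hE : FiniteDimensional ℝ f.range := g.toLinearEquiv.finiteDimensional
  have hφ : Function.Injective (T.val.comp g.symm.toAlgHom) :=
    Subtype.val_injective.comp g.symm.injective
  have hw : ∀ i, (T.val.comp g.symm.toAlgHom) (g ⟨z i, hzT i⟩) = z i := fun i =>
    congrArg Subtype.val (g.symm_apply_apply _)
  have h0 : NormOneClass ((Fin (Module.finrank ℝ T) → ℝ) →L[ℝ] (Fin (Module.finrank ℝ T) → ℝ)) :=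
    ContinuousLinearMap.normOneClass
  have h1 : NormOneClass f.range := ⟨h0.norm_one⟩
  refine ⟨f.range, inferInstance, inferInstance, FiniteDimensional.complete ℝ _, h1, hE,
    T.val.comp g.symm.toAlgHom, _, fun i => g ⟨z i, hzT i⟩, hφ, FinAux.nil h _ hφ,
    fun i => ⟨?_, hw i⟩⟩
  show (T.val.comp g.symm.toAlgHom) (g ⟨z i, hzT i⟩) ∈ m
  rw [hw]
  exact hz i

end Vale.Agent.P029.KZ
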