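import Vale.Agent.P029.KFlowP

noncomputable section
namespace Vale.Agent.P029.KZ

open FlowAux in
theorem flowG_pf (K : Type) [Field K] [CharZero K] (hfil : S_fil K) (hrel : S_rel K)
    (hpoly : S_poly K) : S_flowG K := by
  intro N n ψ Φ hn1 hψ hΦ
  have hH := hψ.hom
  obtain ⟨p, hp⟩ := hpoly N n ψ Φ hn1 hH
  have key : ∀ (j : ℕ) (B : Type) [Ring B] [Algebra K B] (m : Submodule K B), Nil N m →
      ∀ a b a' b' : B, a ∈ m → b ∈ m → a' ∈ m → b' ∈ m → Cross a b a' b' →
        (p B (a + a') (b + b')).coeff j = (p B a b * p B a' b').coeff j := by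
    intro j
    induction j with
    | zero =>
      intro B _ _ m hm a b a' b' h1 h2 h3 h4 hP
      simp only [Polynomial.mul_coeff_zero, (hp B _ _).1]
      exact hΦ B m hm a b a' b' h1 h2 h3 h4 hP
    | succ j ih =>
      intro B _ _ m hm a b a' b' h1 h2 h3 h4 hP
      obtain ⟨m', hm', hd⟩ := hfil.dual B N m hm
      have ca : Commute a (ev K a' b' ψ) := commute_ev hP.aa hP.ab ψ
      have cb : Commute b (ev K a' b' ψ) := commute_ev hP.ba hP.bb ψ
      have ca' : Commute a' (ev K a b ψ) := commute_ev hP.aa.symm hP.ba.symm ψ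
      have cb' : Commute b' (ev K a b ψ) := commute_ev hP.ab.symm hP.bb.symm ψ
      have r1 := (hp B a b).2.2 m hm h1 h2 (ev K a' b' ψ)
      have r2 := (hp B a' b').2.2 m hm h3 h4 0
      have r3 := (hp B (a + a') (b + b')).2.2 m hm (add_mem h1 h3) (add_mem h2 h4) 0 j
      have z : ∀ u : B, br u 0 = 0 := fun u => by simp [br]
      have e1 : br b (ev K a' b' ψ + ev K a b ψ) = br b (ev K a b ψ) := by
        unfold br
        rw [mul_add, add_mul, cb.eq]
        abel
      have e2 : br (b + b') (ev K a b ψ + ev K a' b' ψ) = br b (ev K a b ψ) + br b' (ev K a' b' ψ) := by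
        unfold br
        simp only [mul_add, add_mul, cb.eq, cb'.eq]
        abel
      rw [br_eq_zero.2 ca, e1] at r1
      rw [z, zero_add] at r2
      rw [z, zero_add, hψ.cross hP, e2] at r3
      have r := hrel B _ _ _ _ _ _ _ r1 r2 j
      have hC : Cross (dn a 0) (dn b (br b (ev K a b ψ))) (dn a' 0) (dn b' (br b' (ev K a' b' ψ))) := by
        have k1 : Commute a (br b' (ev K a' b' ψ)) := (hP.ab.mul_right ca).sub_right (ca.mul_right hP.ab)
        have k2 : Commute b (br b' (ev K a' b' ψ)) := (hP.bb.mul_right cb).sub_right (cb.mul_right hP.bb)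
        have k3 : Commute a' (br b (ev K a b ψ)) :=
          (hP.ba.symm.mul_right ca').sub_right (ca'.mul_right hP.ba.symm)
        have k4 : Commute b' (br b (ev K a b ψ)) :=
          (hP.bb.symm.mul_right cb').sub_right (cb'.mul_right hP.bb.symm)
        refine ⟨commute_dn hP.aa (by simp [br]), commute_dn hP.ab ?_, commute_dn hP.ba ?_,
          commute_dn hP.bb ?_⟩
        · rw [br_eq_zero.2 k1]; simp [br]
        · rw [br_eq_zero.2 k3.symm]; simp [br]
        · rw [br_eq_zero.2 k2, br_eq_zero.2 k4.symm, add_zero]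
      have i1 := ih _ m' hm' _ _ _ _ (hd _ _ h1 (zero_mem _))
        (hd _ _ h2 (br_mem hm h2 (ev_mem hm hn1 hH h1 h2))) (hd _ _ h3 (zero_mem _))
        (hd _ _ h4 (br_mem hm h4 (ev_mem hm hn1 hH h3 h4))) hC
      rw [dn_add, dn_add, add_zero] at i1
      apply smul_right_injective B (Nat.cast_add_one_ne_zero j : ((j : K) + 1) ≠ 0)
      simp only []
      rw [r3.2, r.2, i1, ih B m hm _ _ _ _ h1 h2 h3 h4 hP, add_comm (ev K a b ψ)]
  intro B _ _ m hm a b a' b' h1 h2 h3 h4 hP
  have e := congrArg (Polynomial.eval 1) (Polynomial.ext fun j => key j B m hm a b a' b' h1 h2 h3 h4 hP)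
  simpa only [eval_one_mul, (hp B _ _).2.1] using e

end Vale.Agent.P029.KZ
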