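import Vale.Agent.P029.KStm

noncomputable section
namespace Vale.Agent.P029.KZ

namespace IhAux
variable {K : Type} [Field K]

theorem lie_D {m n : ℕ} {ψ φ : A K} (hψ : LieW m ψ) (h : LieW n φ) : LieW (m + n) (D ψ φ) := by
  unfold D
  induction h with
  | x => rw [dv_X]; exact LieW.zero _
  | y => rw [dv_Y, add_comm]; exact LieW.y.br hψ
  | zero n => rw [dv_zero]; exact LieW.zero _
  | add _ _ h1 h2 => rw [dv_add]; exact h1.add h2
  | smul c _ h1 => rw [dv_smul]; exact h1.smul c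
  | @br a b f g hf hg h1 h2 =>
    rw [dv_br, ev_XY, ev_XY]
    have e1 := hf.br h2
    have e2 := h1.br hg
    rw [show a + (m + b) = m + (a + b) by ring] at e1
    rw [add_assoc] at e2
    exact e1.add e2

theorem half (hdef : S_def K) {m : ℕ} {ψ φ : A K} (hm : 3 ≤ m) (hψ : WW m ψ) (hφ : Five φ)
    {B : Type} [Ring B] [Algebra K B] {a1 a2 a3 a4 a5 g1 g2 g3 g4 g5 : B}
    (hP : Pent a1 a2 a3 a4 a5) (e1 : g5 = g1 + ev K a2 a5 ψ) (e2 : g1 = g2 + ev K a3 a1 ψ)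
    (e3 : g2 = g3 + ev K a4 a2 ψ) (e4 : g3 = g4 + ev K a5 a3 ψ) (e5 : g4 = g5 + ev K a1 a4 ψ) :
    (ev K a2 a5 (D ψ φ) + br (ev K a2 a5 φ) g1) + (ev K a3 a1 (D ψ φ) + br (ev K a3 a1 φ) g2) +
      (ev K a4 a2 (D ψ φ) + br (ev K a4 a2 φ) g3) + (ev K a5 a3 (D ψ φ) + br (ev K a5 a3 φ) g4) +
      (ev K a1 a4 (D ψ φ) + br (ev K a1 a4 φ) g5) = 0 := by
  obtain ⟨⟨c1, c2, c3, c4, c5⟩, hQ⟩ := hdef m ψ hm hψ B a1 a2 a3 a4 a5 g1 g2 g3 g4 g5 hP e1 e2 e3 e4 e5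
  have h := congrArg TrivSqZeroExt.snd (hφ _ _ _ _ _ _ hQ)
  simp only [ev_dn, TrivSqZeroExt.snd_add, dn_snd, TrivSqZeroExt.snd_zero] at h
  rw [← dv_edge, ← dv_edge, ← dv_edge, ← dv_edge, ← dv_edge, ← e1, ← e2, ← e3, ← e4, ← e5,
    ← c1, ← c2, ← c3, ← c4, ← c5]
  exact h

end IhAux

open IhAux in
theorem ih_pf (K : Type) [Field K] [CharZero K] (hthree : S_three K) (hdef : S_def K) :
    S_ih K := by
  intro m n ψ φ hm hn hψ hφ
  have hL : LieW (m + n) (ihara ψ φ) := by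
    have := lie_D hφ.lie hψ.lie
    rw [add_comm] at this
    exact ((lie_D hψ.lie hφ.lie).sub this).add (hψ.lie.br hφ.lie)
  have h5 : Five (ihara ψ φ) := by
    intro B _ _ a1 a2 a3 a4 a5 hP
    have f1 := hψ.five B _ _ _ _ _ hP
    have f2 := hφ.five B _ _ _ _ _ hP
    have u := half hdef hm hψ hφ.five hP (g1 := 0) (g5 := ev K a2 a5 ψ) (g2 := -ev K a3 a1 ψ)
      (g3 := -ev K a3 a1 ψ - ev K a4 a2 ψ) (g4 := ev K a2 a5 ψ + ev K a1 a4 ψ) (by abel) (by abel)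
      (by abel) (by linear_combination (norm := abel) -f1) rfl
    have v := half hdef hn hφ hψ.five hP (g1 := 0) (g5 := ev K a2 a5 φ) (g2 := -ev K a3 a1 φ)
      (g3 := -ev K a3 a1 φ - ev K a4 a2 φ) (g4 := ev K a2 a5 φ + ev K a1 a4 φ) (by abel) (by abel)
      (by abel) (by linear_combination (norm := abel) -f2) rfl
    have f3 : ev K a5 a3 ψ = -(ev K a2 a5 ψ + ev K a3 a1 ψ + ev K a4 a2 ψ + ev K a1 a4 ψ) := by
      linear_combination (norm := abel) f1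
    have f4 : ev K a5 a3 φ = -(ev K a2 a5 φ + ev K a3 a1 φ + ev K a4 a2 φ + ev K a1 a4 φ) := by
      linear_combination (norm := abel) f2
    simp only [ihara, map_add, map_sub, map_br]
    rw [f4] at u
    rw [f3] at v
    rw [f3, f4]
    unfold br at u v ⊢
    linear_combination (norm := noncomm_ring) u - v
  obtain ⟨h2, h3⟩ := hthree (m + n) _ (by omega) hL h5
  exact ⟨hL, h2, h3, h5⟩

end Vale.Agent.P029.KZ
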