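import Vale.Agent.P029.KStm

noncomputable section
namespace Vale.Agent.P029.KZ

namespace KInd

variable {K : Type} [Field K]

theorem ell_sub (N : ℕ) (f g : A K) : ell N (f - g) = ell N f - ell N g := by simp [ell]

theorem ev_neg {B : Type} [Ring B] [Algebra K B] (a b : B) (Φ : A K) :
    ev K a b (ev K ((-1 : K) • X : A K) ((-1 : K) • Y) Φ) = ev K (-a) (-b) Φ := by
  simp [map_ev]

theorem br_neg {B : Type} [Ring B] (a b : B) : br (-a) (-b) = br a b := by simp [br]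

theorem pentN_neg {N : ℕ} {Φ : A K} (h : PentN N Φ) :
    PentN N (ev K ((-1 : K) • X : A K) ((-1 : K) • Y) Φ) := by
  intro B _ _ m hm a1 a2 a3 a4 a5 h1 h2 h3 h4 h5 hp
  simp only [ev_neg]
  exact h B m hm _ _ _ _ _ (neg_mem h1) (neg_mem h2) (neg_mem h3) (neg_mem h4) (neg_mem h5)
    ⟨hp.c12.neg_left.neg_right, hp.c23.neg_left.neg_right, hp.c34.neg_left.neg_right,
      hp.c45.neg_left.neg_right, hp.c51.neg_left.neg_right, by simpa only [br_neg] using hp.six⟩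

theorem grpN_neg {N : ℕ} {Φ : A K} (h : GrpN N Φ) :
    GrpN N (ev K ((-1 : K) • X : A K) ((-1 : K) • Y) Φ) := by
  intro B _ _ m hm a b a' b' h1 h2 h3 h4 hc
  simp only [ev_neg]
  rw [neg_add, neg_add]
  exact h B m hm _ _ _ _ (neg_mem h1) (neg_mem h2) (neg_mem h3) (neg_mem h4)
    ⟨hc.aa.neg_left.neg_right, hc.ab.neg_left.neg_right, hc.ba.neg_left.neg_right,
      hc.bb.neg_left.neg_right⟩

theorem iter_mem (hfil : S_fil K) {n : ℕ} {ψ : A K} (hψ : ψ ∈ Hom K n) (Φ : A K) (k : ℕ) :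
    (S ψ)^[k] Φ ∈ Fil K (k * n) := by
  induction k with
  | zero => rw [zero_mul, hfil.zero]; trivial
  | succ k ih =>
    rw [Function.iterate_succ_apply', Nat.succ_mul, add_comm]
    exact (hfil.der n _ ψ _ hψ ih).2.2

theorem flow_mem (hfil : S_fil K) {N n : ℕ} (hN : 1 ≤ N) (hn : 1 ≤ n) {ψ Φ : A K}
    (hψ : ψ ∈ Hom K n) (hΦ : Φ - 1 ∈ Fil K 1) : flow N ψ Φ - Φ - ψ ∈ Fil K (n + 1) := by
  obtain ⟨M, rfl⟩ : ∃ M, N = M + 1 := ⟨N - 1, by omega⟩
  have e : flow (M + 1) ψ Φ - Φ - ψ = ∑ k ∈ Finset.range M,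
      (((k + 1 + 1).factorial : K)⁻¹) • (S ψ)^[k + 1 + 1] Φ + (D ψ Φ + ψ * (Φ - 1)) := by
    rw [flow, Finset.sum_range_succ', Finset.sum_range_succ']
    simp only [zero_add, Nat.factorial_one, Nat.factorial_zero, Nat.cast_one, inv_one, one_smul,
      Function.iterate_one, Function.iterate_zero, id_eq, S, mul_sub, mul_one]
    abel
  rw [e]
  refine add_mem (Submodule.sum_mem _ fun k _ => Submodule.smul_mem _ _ ?_) (add_mem ?_ ?_)
  · exact hfil.anti _ _ (by nlinarith) (iter_mem hfil hψ Φ _)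
  · exact (hfil.der n 0 ψ Φ hψ (by rw [hfil.zero]; trivial)).2.1
  · exact hfil.mul _ _ _ _ (hfil.hom n hψ) hΦ

end KInd

open KInd in
theorem ind_pf (K : Type) [Field K] [CharZero K] (hfil : S_fil K) (hdiff : S_diff K) (hflowP : S_flowP K) (hflowG : S_flowG K) (hell : S_ell K) :
    S_ind K := by
  intro N Φ hN ho hP hG h2 hne
  have key : ∀ n, 3 ≤ n → n ≤ N → ∃ Ψ : A K, PentN N Ψ ∧ GrpN N Ψ ∧ Ψ - 1 ∈ Fil K 1 ∧
      Φ - Ψ ∈ Fil K n ∧ ell N Ψ = -ell N Φ := by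
    intro n hn
    induction n, hn using Nat.le_induction with
    | base =>
      intro _
      have hX : ((-1 : K) • X : A K) ∈ Fil K 1 := Submodule.smul_mem _ _ (hfil.hom 1 X_mem)
      have hY : ((-1 : K) • Y : A K) ∈ Fil K 1 := Submodule.smul_mem _ _ (hfil.hom 1 Y_mem)
      refine ⟨_, pentN_neg hP, grpN_neg hG, ?_, ?_, ?_⟩
      · have := hfil.sub 2 _ _ _ hX hY h2
        rw [map_sub, map_one] at this
        exact hfil.anti 1 2 (by norm_num) this
      · obtain ⟨ψ, hψ, hr⟩ := hfil.split 2 _ h2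
        have h3 := hfil.sub 3 _ _ _ hX hY hr
        rw [map_sub, map_sub, map_one, ev_smul hψ, ev_XY, neg_one_sq, one_smul] at h3
        have h4 := sub_mem hr h3
        rwa [sub_sub_sub_cancel_right, sub_sub_sub_cancel_right] at h4
      · rw [hell.scale, ho.neg_one_pow, neg_one_mul]
    | succ n hn ih =>
      intro hnN
      obtain ⟨Ψ, a1, a2, a3, a4, a5⟩ := ih (by omega)
      obtain ⟨ψ, hψ, hr⟩ := hdiff N n Φ Ψ hn (by omega) hP a1 hG a2 a3 a4
      have hf := flow_mem hfil (N := N) (by omega) (by omega) hψ.lie.hom a3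
      refine ⟨flow N ψ Ψ, hflowP N n ψ Ψ hn hψ a1, hflowG N n ψ Ψ (by omega) hψ.lie a2, ?_, ?_, ?_⟩
      · have h3 := add_mem (add_mem (hfil.anti 1 _ (by omega) hf) a3)
          (hfil.anti 1 n (by omega) (hfil.hom n hψ.lie.hom))
        have e : flow N ψ Ψ - Ψ - ψ + (Ψ - 1) + ψ = flow N ψ Ψ - 1 := by abel
        rwa [e] at h3
      · have h3 := sub_mem hr hf
        rwa [sub_sub_sub_cancel_right, sub_sub_sub_cancel_right] at h3
      · rw [hell.flow N n ψ Ψ (by omega) (by omega) hψ.lie a3, a5,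
          hell.hom N n ψ hψ.lie.hom (by omega), add_zero]
  obtain ⟨Ψ, a1, a2, a3, a4, a5⟩ := key N hN le_rfl
  obtain ⟨ψ, hψ, hr⟩ := hdiff N N Φ Ψ hN le_rfl hP a1 hG a2 a3 a4
  refine ⟨ψ, hψ, fun h0 => hne ?_⟩
  obtain ⟨m, hm, hx, hy⟩ := hell.nil N
  have h3 : ell N (Φ - Ψ - ψ) = 0 := by
    rw [ell, hm.ev_Fil hx hy hr]
    rfl
  rw [ell_sub, ell_sub, a5, h0] at h3
  linear_combination h3 / 2

end Vale.Agent.P029.KZ
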