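import Vale.Agent.P029.KStm

open Filter Topology

noncomputable section
namespace Vale.Agent.P029.KZ

namespace PentNx

variable {E : Type} [NormedRing E] [NormedAlgebra ℝ E]

theorem an_ev (a b : E) (f : A ℝ) (t : ℝ) :
    AnalyticAt ℝ (fun t : ℝ => ev ℝ (t • a) (t • b) f) t := by
  induction f using A_ind with
  | hc c => simp only [AlgHom.commutes]; exact analyticAt_const
  | hx => simp only [ev_X]; exact analyticAt_id.smul analyticAt_const
  | hy => simp only [ev_Y]; exact analyticAt_id.smul analyticAt_const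
  | hm f g hf hg => simp only [map_mul]; exact hf.mul hg
  | ha f g hf hg => simp only [map_add]; exact hf.add hg

theorem sm_ev (a : E) : ∀ᶠ t : ℝ in 𝓝 0, Sm (t • a) := by
  have h : Continuous fun t : ℝ => ‖t • a‖ := by fun_prop
  have h2 : Tendsto (fun t : ℝ => ‖t • a‖) (𝓝 0) (𝓝 0) := by simpa using h.tendsto 0
  exact h2.eventually (ge_mem_nhds (by norm_num))

theorem at_one {F G : ℝ → E} (hF : ∀ t, AnalyticAt ℝ F t) (hG : ∀ t, AnalyticAt ℝ G t)
    (h : F =ᶠ[𝓝 0] G) : F 1 = G 1 :=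
  congrFun (AnalyticOnNhd.eq_of_eventuallyEq (fun t _ => hF t) (fun t _ => hG t) h) 1

theorem comm_smul {a b : E} (h : Commute a b) (t : ℝ) : Commute (t • a) (t • b) :=
  (h.smul_left t).smul_right t

theorem comm_back {B : Type} [Ring B] [Algebra ℝ B] {φ : E →ₐ[ℝ] B} (hφ : Function.Injective φ)
    {a b : E} (h : Commute (φ a) (φ b)) : Commute a b :=
  hφ (by rw [map_mul, map_mul]; exact h)

theorem sys {a1 a2 a3 a4 a5 : E} (h : Pent a1 a2 a3 a4 a5) (t : ℝ) :
    Sys (t • a1) (t • a3) (t • a5) (t • a2) (t • a4) := by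
  refine ⟨comm_smul h.c51.symm t, comm_smul h.c12 t, comm_smul h.c23.symm t, comm_smul h.c34 t,
    comm_smul h.c45.symm t, ?_⟩
  have h6 := h.six
  unfold KZ.br at h6
  unfold P029.br
  simp only [smul_mul_smul_comm]
  linear_combination (norm := module) (t * t) • h6

end PentNx

open PentNx in
theorem pentN_pf (han : S_an) (hfin : S_fin) :
    S_pentN := by
  intro N Φ hΦ
  constructor
  · intro B _ _ m hm a1 a2 a3 a4 a5 h1 h2 h3 h4 h5 hP
    rcases subsingleton_or_nontrivial B with hB | hB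
    · exact Subsingleton.elim _ _
    obtain ⟨E, _, _, _, _, _, φ, m', w, hφ, hm', hw⟩ := hfin N B m hm ![a1, a2, a3, a4, a5]
      (by intro i; fin_cases i; exacts [h1, h2, h3, h4, h5])
    have e1 : φ (w 0) = a1 := (hw 0).2
    have e2 : φ (w 1) = a2 := (hw 1).2
    have e3 : φ (w 2) = a3 := (hw 2).2
    have e4 : φ (w 3) = a4 := (hw 3).2
    have e5 : φ (w 4) = a5 := (hw 4).2
    subst e1 e2 e3 e4 e5
    have hP' : Pent (w 0) (w 1) (w 2) (w 3) (w 4) :=
      ⟨comm_back hφ hP.c12, comm_back hφ hP.c23, comm_back hφ hP.c34, comm_back hφ hP.c45,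
        comm_back hφ hP.c51, hφ (by simpa only [map_add, map_br, map_zero] using hP.six)⟩
    have key := at_one (F := fun t : ℝ => ev ℝ (t • w 1) (t • w 4) Φ * ev ℝ (t • w 2) (t • w 0) Φ *
      ev ℝ (t • w 3) (t • w 1) Φ * ev ℝ (t • w 4) (t • w 2) Φ * ev ℝ (t • w 0) (t • w 3) Φ)
      (G := fun _ => 1) (fun t => ((((an_ev _ _ _ t).mul (an_ev _ _ _ t)).mul
        (an_ev _ _ _ t)).mul (an_ev _ _ _ t)).mul (an_ev _ _ _ t)) (fun _ => analyticAt_const) (by
      filter_upwards [eventually_all.2 fun i => sm_ev (w i)] with t ht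
      have e : ∀ i j, ev ℝ (t • w i) (t • w j) Φ = Phi (t • w i) (t • w j) := fun i j =>
        hΦ E m' hm' _ _ (m'.smul_mem t (hw i).1) (m'.smul_mem t (hw j).1) (ht i) (ht j)
      simp only [e]
      exact han.pent E _ _ _ _ _ (sys hP' t) (ht 0) (ht 2) (ht 4) (ht 1) (ht 3))
    simp only [one_smul] at key
    simpa only [map_mul, map_ev, map_one] using congrArg φ key
  · intro B _ _ m hm a b a' b' h1 h2 h3 h4 hC
    rcases subsingleton_or_nontrivial B with hB | hB
    · exact Subsingleton.elim _ _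
    obtain ⟨E, _, _, _, _, _, φ, m', w, hφ, hm', hw⟩ := hfin N B m hm ![a, b, a', b', 0]
      (by intro i; fin_cases i; exacts [h1, h2, h3, h4, m.zero_mem])
    have e1 : φ (w 0) = a := (hw 0).2
    have e2 : φ (w 1) = b := (hw 1).2
    have e3 : φ (w 2) = a' := (hw 2).2
    have e4 : φ (w 3) = b' := (hw 3).2
    subst e1 e2 e3 e4
    have key := at_one (F := fun t : ℝ => ev ℝ (t • (w 0 + w 2)) (t • (w 1 + w 3)) Φ)
      (G := fun t : ℝ => ev ℝ (t • w 0) (t • w 1) Φ * ev ℝ (t • w 2) (t • w 3) Φ)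
      (fun t => an_ev _ _ _ t) (fun t => (an_ev _ _ _ t).mul (an_ev _ _ _ t)) (by
      filter_upwards [eventually_all.2 fun i => sm_ev (w i), sm_ev (w 0 + w 2),
        sm_ev (w 1 + w 3)] with t ht k1 k2
      have e : ∀ i j, ev ℝ (t • w i) (t • w j) Φ = Phi (t • w i) (t • w j) := fun i j =>
        hΦ E m' hm' _ _ (m'.smul_mem t (hw i).1) (m'.smul_mem t (hw j).1) (ht i) (ht j)
      rw [e, e, hΦ E m' hm' _ _ (m'.smul_mem t (add_mem (hw 0).1 (hw 2).1))
        (m'.smul_mem t (add_mem (hw 1).1 (hw 3).1)) k1 k2]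
      rw [smul_add] at k1 k2
      rw [smul_add, smul_add]
      exact han.grp E _ _ _ _ (ht 0) (ht 1) (ht 2) (ht 3) k1 k2
        (comm_smul (comm_back hφ hC.aa) t) (comm_smul (comm_back hφ hC.ab) t)
        (comm_smul (comm_back hφ hC.ba) t) (comm_smul (comm_back hφ hC.bb) t))
    simp only [one_smul] at key
    simpa only [map_mul, map_ev, map_add] using congrArg φ key

end Vale.Agent.P029.KZ
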