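import Vale.Agent.P029.KStm

noncomputable section
namespace Vale.Agent.P029.KZ

namespace KPhi

/-- the relation killing all terms of weight `> N` -/
def rel (N : ℕ) (a b : A ℝ) : Prop := a ∈ Fil ℝ (N + 1) ∧ b = 0

theorem lift_ex {N : ℕ} {B : Type} [Ring B] [Algebra ℝ B] {m : Submodule ℝ B} (h : Nil N m)
    {a b : B} (ha : a ∈ m) (hb : b ∈ m) : ∃ g : RingQuot (rel N) →ₐ[ℝ] B,
      ∀ f, g (RingQuot.mkAlgHom ℝ (rel N) f) = ev ℝ a b f :=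
  ⟨RingQuot.liftAlgHom ℝ ⟨ev ℝ a b, fun _ _ e => by rw [e.2, map_zero, h.ev_Fil ha hb e.1]⟩,
    fun f => RingQuot.liftAlgHom_mkAlgHom_apply ℝ _ _ f⟩

theorem nontriv (N : ℕ) : Nontrivial (RingQuot (rel N)) := by
  obtain ⟨g, -⟩ := lift_ex (N := N) (B := ℝ) (m := ⊥)
    ⟨by rw [Submodule.bot_mul], by rw [pow_succ, Submodule.mul_bot]⟩ (zero_mem _) (zero_mem _)
  exact g.toRingHom.domain_nontrivial

theorem nil (hfil : S_fil ℝ) (N : ℕ) :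
    Nil N ((Fil ℝ 1).map (RingQuot.mkAlgHom ℝ (rel N)).toLinearMap) := by
  have h1 : ∀ j k, (Fil ℝ j).map (RingQuot.mkAlgHom ℝ (rel N)).toLinearMap *
      (Fil ℝ k).map (RingQuot.mkAlgHom ℝ (rel N)).toLinearMap ≤
      (Fil ℝ (j + k)).map (RingQuot.mkAlgHom ℝ (rel N)).toLinearMap := by
    intro j k
    rw [Submodule.mul_le]
    rintro _ ⟨f, hf, rfl⟩ _ ⟨g, hg, rfl⟩
    exact ⟨f * g, hfil.mul j k f g hf hg, map_mul (RingQuot.mkAlgHom ℝ (rel N)) f g⟩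
  have h2 : ∀ k, (Fil ℝ 1).map (RingQuot.mkAlgHom ℝ (rel N)).toLinearMap ^ (k + 1) ≤
      (Fil ℝ (k + 1)).map (RingQuot.mkAlgHom ℝ (rel N)).toLinearMap := by
    intro k
    induction k with
    | zero => rw [zero_add, pow_one]
    | succ k ih => rw [pow_succ]; exact (mul_le_mul' ih le_rfl).trans (h1 _ _)
  refine ⟨(h1 1 1).trans (Submodule.map_mono (hfil.anti 1 _ (by omega))),
    le_bot_iff.1 ((h2 N).trans ?_)⟩
  rintro _ ⟨f, hf, rfl⟩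
  have h3 := RingQuot.mkAlgHom_rel ℝ (s := rel N) (x := f) (y := 0) ⟨hf, rfl⟩
  rw [map_zero] at h3
  exact h3

theorem small {E : Type} [NormedRing E] [NormedAlgebra ℝ E] (a b : E) :
    ∃ ε : ℝ, 0 < ε ∧ Sm (ε • a) ∧ Sm (ε • b) := by
  have h0 : 0 < ‖a‖ + ‖b‖ + 1 := by positivity
  have h : ∀ c : E, ‖c‖ ≤ ‖a‖ + ‖b‖ + 1 → Sm ((1 / 10000 / (‖a‖ + ‖b‖ + 1) : ℝ) • c) := by
    intro c hc
    rw [Sm, norm_smul, Real.norm_of_nonneg (by positivity), div_mul_eq_mul_div, div_le_iff₀ h0]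
    linarith
  exact ⟨_, by positivity, h a (by linarith [norm_nonneg b]), h b (by linarith [norm_nonneg a])⟩

end KPhi

open KPhi in
theorem phi_pf (han : S_an) (hfin : S_fin) (hfil : S_fil ℝ) :
    S_phi := by
  intro N
  have := nontriv N
  obtain ⟨E, _, _, _, _, _, φ, m', w, -, -, hw⟩ := hfin N (RingQuot (rel N)) _ (nil hfil N)
    ![RingQuot.mkAlgHom ℝ (rel N) X, RingQuot.mkAlgHom ℝ (rel N) Y, 0, 0, 0] (by
      intro i
      fin_cases i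
      · exact ⟨X, hfil.hom 1 X_mem, rfl⟩
      · exact ⟨Y, hfil.hom 1 Y_mem, rfl⟩
      · exact zero_mem _
      · exact zero_mem _
      · exact zero_mem _)
  obtain ⟨ε, hε, s0, s1⟩ := small (w 0) (w 1)
  obtain ⟨Φ, hΦ⟩ := RingQuot.mkAlgHom_surjective ℝ (rel N) (φ (Phi (ε • w 0) (ε • w 1)))
  refine ⟨ev ℝ (ε⁻¹ • X) (ε⁻¹ • Y) Φ, fun E' _ _ _ _ m hm a b ha hb sa sb => ?_⟩
  obtain ⟨g, hg⟩ := lift_ex hm (m.smul_mem ε⁻¹ ha) (m.smul_mem ε⁻¹ hb)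
  have e0 : g.comp φ (ε • w 0) = a := by
    have : φ (w 0) = RingQuot.mkAlgHom ℝ (rel N) X := (hw 0).2
    rw [map_smul, AlgHom.comp_apply, this, hg, ev_X, smul_inv_smul₀ hε.ne']
  have e1 : g.comp φ (ε • w 1) = b := by
    have : φ (w 1) = RingQuot.mkAlgHom ℝ (rel N) Y := (hw 1).2
    rw [map_smul, AlgHom.comp_apply, this, hg, ev_Y, smul_inv_smul₀ hε.ne']
  have h := han.map E E' (g.comp φ) (g.comp φ).toLinearMap.continuous_of_finiteDimensional _ _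
    s0 s1 (e0.symm ▸ sa) (e1.symm ▸ sb)
  rw [e0, e1, AlgHom.comp_apply, ← hΦ, hg] at h
  rw [map_ev, map_smul, map_smul, ev_X, ev_Y, h]

end Vale.Agent.P029.KZ
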