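import Vale.Agent.P029.KStm

noncomputable section
namespace Vale.Agent.P029.KZ

theorem poly_pf (K : Type) [Field K] [CharZero K] (hfil : S_fil K) :
    S_poly K := by
  intro N n ψ Φ hn hψ
  refine ⟨fun B _ _ a b => ∑ k ∈ Finset.range (N + 1),
    Polynomial.monomial k (((k.factorial : K)⁻¹) • ev K a b ((S ψ)^[k] Φ)), fun B _ _ a b => ?_⟩
  have hc : ∀ (C : Type) [Ring C] [Algebra K C] (a b : C) (j : ℕ),
      (∑ k ∈ Finset.range (N + 1), Polynomial.monomial k
        (((k.factorial : K)⁻¹) • ev K a b ((S ψ)^[k] Φ))).coeff j =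
        if j < N + 1 then ((j.factorial : K)⁻¹) • ev K a b ((S ψ)^[j] Φ) else 0 := by
    intro C _ _ a b j
    simp only [Polynomial.finsetSum_coeff, Polynomial.coeff_monomial, Finset.sum_ite_eq',
      Finset.mem_range]
  have hF : ∀ k, (S ψ)^[k] Φ ∈ Fil K k := by
    intro k
    induction k with
    | zero => rw [hfil.zero]; trivial
    | succ k ih =>
      rw [Function.iterate_succ_apply']
      exact hfil.anti _ _ (by omega) (hfil.der n k ψ _ hψ ih).2.2
  refine ⟨by simp only [hc]; simp, ?_, fun m hm ha hb g j => ?_⟩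
  · simp only [Polynomial.eval_finsetSum, Polynomial.eval_monomial, one_pow, mul_one, flow,
      map_sum, map_smul]
  · simp only [hc]
    have hS : ∀ u : A K, ev K a b (S ψ u) = dv K a b (br a g) (br b (g + ev K a b ψ)) u +
        (g + ev K a b ψ) * ev K a b u - ev K a b u * g := by
      intro u
      rw [dv_edge, S, map_add, map_mul]
      unfold br
      noncomm_ring
    by_cases hj : j < N + 1
    · simp only [if_pos hj, ev_dn, dn_smul, dn_fst, dn_snd, true_and, mul_smul_comm,
        smul_mul_assoc]
      rw [← smul_add, ← smul_sub, ← hS, ← Function.iterate_succ_apply' (S ψ)]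
      split_ifs with h
      · rw [smul_smul, Nat.factorial_succ]
        congr 1
        have : ((j : K) + 1) ≠ 0 := Nat.cast_add_one_ne_zero j
        have : (j.factorial : K) ≠ 0 := Nat.cast_ne_zero.2 (Nat.factorial_ne_zero j)
        push_cast
        field_simp
      · rw [hm.ev_Fil ha hb (hfil.anti _ _ (by omega) (hF _)), smul_zero, smul_zero]
    · simp only [if_neg hj, if_neg (show ¬(j + 1 < N + 1) by omega)]
      simp

end Vale.Agent.P029.KZ
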