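import Vale.Agent.P029.KStm

noncomputable section
namespace Vale.Agent.P029.KZ

theorem pot_pf (K : Type) [Field K] [CharZero K] :
    S_pot K := by
  intro M _ _ φ h1 h2 h3
  refine ⟨fun i j k l m => (-1/12 : K) • φ j i k + (-1/12 : K) • φ j i l + (-7/30 : K) • φ j i m +
    (1/60 : K) • φ k i m + (1/60 : K) • φ l i m + (-1/12 : K) • φ i j k +
    (-1/12 : K) • φ i j l + (-7/30 : K) • φ i j m + (1/60 : K) • φ k j m +
    (1/60 : K) • φ l j m + (1/12 : K) • φ i k l + (1/60 : K) • φ i k m +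
    (1/12 : K) • φ j k l + (1/60 : K) • φ j k m + (-7/30 : K) • φ l k m +
    (1/12 : K) • φ i l k + (1/60 : K) • φ i l m + (1/12 : K) • φ j l k +
    (1/60 : K) • φ j l m + (-7/30 : K) • φ k l m, fun i j k l m hd => ⟨?_, ?_, ?_, ?_⟩⟩
  · module
  · module
  · simp only [h1 j i k, h1 j i l, h1 j i m, h1 k i l, h1 k i m, h1 l i m, h1 i j k, h1 i j l,
      h1 i j m, h1 k j l, h1 k j m, h1 l j m, h1 i k j, h1 i k l, h1 i k m, h1 j k l,
      h1 j k m, h1 l k m, h1 i l j, h1 i l k, h1 i l m, h1 j l k, h1 j l m, h1 k l m,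
      h1 i m j, h1 i m k, h1 i m l, h1 j m k, h1 j m l, h1 k m l]
    module
  · have t1 := h3 i k l j m (by unfold Dis at *; omega)
    have t2 := h3 j k l i m (by unfold Dis at *; omega)
    have p0 := h2 i j k l m (by unfold Dis at *; omega)
    have p1 := h2 i j k m l (by unfold Dis at *; omega)
    have p2 := h2 i j l k m (by unfold Dis at *; omega)
    have p3 := h2 i j l m k (by unfold Dis at *; omega)
    have p4 := h2 i j m k l (by unfold Dis at *; omega)
    have p5 := h2 i j m l k (by unfold Dis at *; omega)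
    have p6 := h2 i k j l m (by unfold Dis at *; omega)
    have p7 := h2 i k j m l (by unfold Dis at *; omega)
    have p8 := h2 i k l j m (by unfold Dis at *; omega)
    have p9 := h2 i k m j l (by unfold Dis at *; omega)
    have p10 := h2 i l j k m (by unfold Dis at *; omega)
    have p11 := h2 i l k j m (by unfold Dis at *; omega)
    simp only [h1 j i k, h1 j i l, h1 j i m, h1 k i l, h1 k i m, h1 l i m, h1 i j k, h1 i j l,
      h1 i j m, h1 k j l, h1 k j m, h1 l j m, h1 i k j, h1 i k l, h1 i k m, h1 j k l,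
      h1 j k m, h1 l k m, h1 i l j, h1 i l k, h1 i l m, h1 j l k, h1 j l m, h1 k l m,
      h1 i m j, h1 i m k, h1 i m l, h1 j m k, h1 j m l, h1 k m l] at t1 t2 p0 p1 p2 p3 p4 p5 p6 p7 p8 p9 p10 p11 ⊢
    linear_combination (norm := module) (7/60 : K) • p0 + (-7/60 : K) • p1 + (-4/15 : K) • p2 + (7/60 : K) • p3 +
      (4/15 : K) • p4 + (-7/60 : K) • p5 + (-2/15 : K) • p6 + (2/15 : K) • p7 +
      (3/20 : K) • p8 + (11/60 : K) • p9 + (11/60 : K) • p10 + (-3/20 : K) • p11 +
      (-1/3 : K) • t1 + (-1/3 : K) • t2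

end Vale.Agent.P029.KZ
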