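import Vale.Agent.P029.KThree

noncomputable section
namespace Vale.Agent.P029.KZ

open ThreeAux in
theorem spec_pf (K : Type) [Field K] [CharZero K] (hp5 : S_p5 K) (hfib : S_fib K) (hdel : S_del K) :
    S_spec K := by
  intro n f hn hf
  obtain ⟨s, hs⟩ : ∃ s, s = br Y f + br (-X - Y) (ev K X (-X - Y) f) := ⟨_, rfl⟩
  rw [← hs]
  have hev : ∀ (B : Type) [Ring B] [Algebra K B] (a b : B),
      ev K a b s = br b (ev K a b f) + br (-a - b) (ev K a (-a - b) f) := by
    intro B _ _ a b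
    simp [hs, map_ev, map_br]
  have hL : LieW (1 + n) s :=
    hs ▸ (LieW.y.br hf.lie).add (lie_Z.br (lie_ev hf.lie LieW.x lie_Z))
  have hn1 : 1 + n ≠ 1 := by omega
  have s1 : ∀ (B : Type) [Ring B] [Algebra K B] (a b : B), ev K a (-a - b) s = ev K a b s := by
    intro B _ _ a b
    have e : -a - (-a - b) = b := by abel
    rw [hev, hev, e, add_comm]
  have s2 : ∀ (B : Type) [Ring B] [Algebra K B] (a b : B), ev K b a s = ev K a b s := by
    intro B _ _ a b
    have e : -b - a = -a - b := by abel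
    have h3 := hf.three.app a b
    rw [hev, hev, e, hf.two.app a b, hf.two.app (-a - b) a]
    have h4 : ev K b (-a - b) f = -ev K a b f - ev K (-a - b) a f := by
      linear_combination (norm := abel) h3
    rw [h4]
    unfold br
    noncomm_ring
  have H := hfib s s (-s) (-s) (fun B _ _ x hx => by
    obtain ⟨γ, δ, d1, -, d3⟩ := hdel n f hn hf B x hx
    have t1 := (d3 0 1 2 3 4 (by unfold Dis; decide)).2.2.2.2.2.2
    have t2 := (d3 0 3 4 1 2 (by unfold Dis; decide)).2.2.2.2.2.2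
    have t3 := (d3 0 1 3 2 4 (by unfold Dis; decide)).2.2.2.2.2.2
    have t4 := (d3 0 2 4 1 3 (by unfold Dis; decide)).2.2.2.2.2.2
    rw [← hs] at t1 t2 t3 t4
    rw [map_neg, map_neg, ← t1, ← t2, ← t3, ← t4]
    abel)
  have d2 : ∀ y z u : A K, dv K y z 0 u s = dv K (-z - y) 0 0 u s - dv K z 0 0 u s := by
    intro y z u
    have h0 := H (DualNumber (A K)) (dn z 0) (dn 0 u) (dn y 0)
    have e1 : -dn z 0 - dn 0 u - dn y 0 = -dn y 0 - dn z u := by
      rw [dn_neg, dn_neg, dn_sub, dn_sub, dn_sub]; congr 1 <;> abel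
    have e2 : -dn y 0 - dn z u = dn (-z - y) (-u) := by
      rw [dn_neg, dn_sub]; congr 1 <;> abel
    rw [e1, s1, map_neg, map_neg, s2 _ _ (dn 0 u), e2] at h0
    have h1 := congrArg TrivSqZeroExt.snd h0
    simp only [ev_dn, TrivSqZeroExt.snd_add, TrivSqZeroExt.snd_neg, dn_snd, dv_zero_dir,
      TrivSqZeroExt.snd_zero, lam_left hL hn1 (-z - y) (-u) u] at h1
    linear_combination (norm := abel) h1
  have d1 : ∀ y z u : A K, dv K y z u 0 s = dv K z y 0 u s := by
    intro y z u
    have h1 := congrArg TrivSqZeroExt.snd (s2 _ (dn z 0) (dn y u))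
    simpa only [ev_dn, dn_snd] using h1
  have e1 := euler hL (X : A K) Y
  have a1 : -X - Y = (-Y - X : A K) := by abel
  have a2 : dv K (-Y - X : A K) 0 0 X s + dv K (-Y - X : A K) 0 0 Y s = 0 := by
    have a3 : X + Y = -(-Y - X : A K) := by abel
    rw [← lam_add, a3, lam_neg, lam_self hL hn1, neg_zero]
  rw [d1, d2 Y X, d2 X Y, lam_self hL hn1, lam_self hL hn1, a1, sub_zero, sub_zero, a2, ev_XY] at e1
  exact (smul_eq_zero.1 e1.symm).resolve_left (Nat.cast_ne_zero.2 (by omega))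

end Vale.Agent.P029.KZ
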