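import Vale.Agent.P029.KStm

noncomputable section
namespace Vale.Agent.P029.KZ

namespace ThreeAux
variable {K : Type} [Field K] {B : Type} [Ring B] [Algebra K B]

theorem lie_ev {n : ℕ} {f p q : A K} (h : LieW n f) (hp : LieW 1 p) (hq : LieW 1 q) :
    LieW n (ev K p q f) := by
  induction h with
  | x => simpa using hp
  | y => simpa using hq
  | zero n => simpa using LieW.zero n
  | add _ _ h1 h2 => rw [map_add]; exact h1.add h2
  | smul c _ h1 => rw [map_smul]; exact h1.smul c
  | br _ _ h1 h2 => rw [map_br]; exact h1.br h2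

theorem lie_Z : LieW 1 (-X - Y : A K) := LieW.x.neg.sub LieW.y

theorem dv_of_zero {n : ℕ} {f : A K} (h : LieW n f) (hn : n ≠ 1) {a b u v : B}
    (hc : Commute (dn a u) (dn b v)) : dv K a b u v f = 0 := by
  unfold dv
  rw [h.eq_zero hn hc]
  simp

theorem lam_left {n : ℕ} {f : A K} (h : LieW n f) (hn : n ≠ 1) (a u v : B) :
    dv K a 0 u v f = dv K a 0 0 v f := by
  have h1 : dv K a 0 u 0 f = 0 := dv_of_zero h hn (by rw [dn_zero]; exact Commute.zero_right _)
  have h2 := dv_add_dir a 0 u 0 0 v f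
  rw [add_zero, zero_add, h1, zero_add] at h2
  exact h2

theorem lam_self {n : ℕ} {f : A K} (h : LieW n f) (hn : n ≠ 1) (a : B) :
    dv K a 0 0 a f = 0 :=
  dv_of_zero h hn (commute_dn (Commute.zero_right _) (by simp [br]))

theorem lam_add (f : A K) (a u v : B) :
    dv K a 0 0 (u + v) f = dv K a 0 0 u f + dv K a 0 0 v f := by
  rw [← dv_add_dir, add_zero]

theorem lam_neg (f : A K) (a u : B) : dv K a 0 0 (-u) f = -dv K a 0 0 u f := by
  have := dv_smul_dir (-1 : K) a 0 0 u f
  simpa using this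

theorem dv_neg_left (f : A K) (a b u : B) : dv K a b (-u) 0 f = -dv K a b u 0 f := by
  have := dv_smul_dir (-1 : K) a b u 0 f
  simpa using this

theorem euler {n : ℕ} {f : A K} (h : LieW n f) (a b : B) :
    dv K a b a 0 f + dv K a b 0 b f = (n : K) • ev K a b f := by
  rw [← dv_add_dir, add_zero, zero_add, dv_euler h.hom]

/-- the key rigidity lemma -/
theorem rigid [CharZero K] {n : ℕ} {R : A K} (hn : 3 ≤ n) (h : LieW n R) (h2 : Two R)
    (h3 : ev K Y (-X - Y) R = R)
    (H : ∀ (B : Type) [Ring B] [Algebra K B] (p q r : B),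
      -ev K p q R + ev K r (-p - q - r) R - ev K p r R + ev K q (-p - q - r) R = 0) : R = 0 := by
  have hn1 : n ≠ 1 := by omega
  have rot : ∀ (B : Type) [Ring B] [Algebra K B] (a b : B), ev K b (-a - b) R = ev K a b R := by
    intro B _ _ a b
    have := congrArg (ev K a b) h3
    simpa [map_ev] using this
  have d1 : ∀ x y u : A K, dv K x y u 0 R = dv K x 0 0 u R + dv K (-x - y) 0 0 u R := by
    intro x y u
    have h0 := H (DualNumber (A K)) (dn y 0) (dn (-x - y) 0) (dn x (-u))
    have e : -dn y 0 - dn (-x - y) 0 - dn x (-u) = dn (0 : A K) u := by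
      rw [dn_neg, dn_sub, dn_sub]; congr 1 <;> abel
    rw [e, sub_eq_add_neg _ (ev K (dn y 0) (dn x (-u)) R), ← h2.app (dn y 0) (dn x (-u))] at h0
    have h1 := congrArg TrivSqZeroExt.snd h0
    simp only [ev_dn, TrivSqZeroExt.snd_add, TrivSqZeroExt.snd_neg, dn_snd, dv_zero_dir,
      TrivSqZeroExt.snd_zero, lam_left h hn1 x (-u) u, dv_neg_left] at h1
    linear_combination (norm := abel) -h1
  have d2 : ∀ x y v : A K, dv K x y 0 v R = -dv K y x v 0 R := by
    intro x y v
    have h1 := congrArg TrivSqZeroExt.snd (h2.app (dn y v) (dn x 0))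
    simpa only [ev_dn, TrivSqZeroExt.snd_neg, dn_snd] using h1
  have key : ∀ a b : A K, (n : K) • ev K a b R = (2 : K) • dv K a 0 0 b R := by
    intro a b
    have e1 := euler h b (-a - b)
    rw [rot, d2, d1, d1, lam_self h hn1, lam_self h hn1] at e1
    have a1 : -b - (-a - b) = a := by abel
    have a2 : -(-a - b) - b = a := by abel
    rw [a1, a2, sub_eq_add_neg (-a), lam_add, lam_neg, lam_neg, lam_self h hn1] at e1
    rw [← e1, two_smul]
    abel
  have hn0 : (n : K) ≠ 0 := Nat.cast_ne_zero.2 (by omega)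
  have lin : ∀ a b : A K, ev K a ((2 : K) • b) R = (2 : K) • ev K a b R := by
    intro a b
    apply smul_right_injective _ hn0
    have := dv_smul_dir (2 : K) a 0 0 b R
    rw [smul_zero] at this
    simp only []
    rw [key, this, smul_comm (n : K), key]
  have e1 := ev_smul h.hom (2 : K) (X : A K) Y
  rw [lin, h2.app Y, lin, h2.app X Y, ev_XY] at e1
  have e2 : ((2 : K) ^ n - 4) • R = 0 := by
    rw [sub_smul, ← e1]
    module
  have e3 : (2 : K) ^ n - 4 ≠ 0 := by
    have : (2 ^ n : ℕ) ≠ 4 := by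
      have : 2 ^ 3 ≤ 2 ^ n := Nat.pow_le_pow_right (by norm_num) hn
      omega
    intro h0
    apply this
    have h1 : ((2 ^ n : ℕ) : K) = ((4 : ℕ) : K) := by push_cast; exact sub_eq_zero.1 h0
    exact Nat.cast_injective h1
  exact (smul_eq_zero.1 e2).resolve_left e3

theorem two_of {n : ℕ} {f : A K} (hn : n ≠ 1) (h : LieW n f) (h5 : Five f) : Two f := by
  have := h5 (A K) X X 0 Y 0 ⟨Commute.refl _, Commute.zero_right _, Commute.zero_left _,
    Commute.zero_right _, Commute.zero_left _, by simp [br]⟩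
  rw [h.eq_zero hn (Commute.zero_right X), h.eq_zero hn (Commute.zero_left X),
    h.eq_zero hn (a := 0) (b := 0) (Commute.zero_left 0), ev_XY] at this
  unfold Two
  linear_combination (norm := abel) this

end ThreeAux

open ThreeAux in
theorem three_pf (K : Type) [Field K] [CharZero K] (hp5 : S_p5 K) (hfib : S_fib K) :
    S_three K := by
  intro n f hn h h5
  have hn1 : n ≠ 1 := by omega
  have h2 := two_of hn1 h h5
  refine ⟨h2, ?_⟩
  obtain ⟨R, hR⟩ : ∃ R, R = f + ev K Y (-X - Y) f + ev K (-X - Y) X f := ⟨_, rfl⟩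
  unfold Three
  rw [← hR]
  have hev : ∀ (B : Type) [Ring B] [Algebra K B] (a b : B),
      ev K a b R = ev K a b f + ev K b (-a - b) f + ev K (-a - b) a f := by
    intro B _ _ a b
    simp [hR, map_ev]
  have hL : LieW n R := hR ▸ (h.add (lie_ev h LieW.y lie_Z)).add (lie_ev h lie_Z LieW.x)
  have R2 : Two R := by
    unfold Two
    have e : -Y - X = (-X - Y : A K) := by abel
    rw [hev, e, h2.app X Y, h2.app (-X - Y) X, h2.app Y (-X - Y), ev_XY, hR]
    abel
  have R3 : ev K Y (-X - Y) R = R := by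
    have e : -Y - (-X - Y) = (X : A K) := by abel
    rw [hev, e, ev_XY, hR]
    abel
  refine rigid hn hL R2 R3 (fun B _ _ p q r => ?_)
  have := hfib (-R) R (-R) R (fun B _ _ x hx => ?_) B p q r
  · simpa only [map_neg, sub_eq_add_neg] using this
  have tri : ∀ j k l m, Dis 0 j k l m → ev K (x 0 k) (x 0 j) R =
      ev K (x 0 j) (x j k) f + ev K (x j k) (x 0 k) f + ev K (x 0 k) (x 0 j) f := by
    intro j k l m hd
    obtain ⟨s1, s2⟩ := hp5.shift B x hx 0 j k l m hd n f hn1 h
    rw [hev, s1, s2]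
    abel
  have P : ∀ i j k l m, Dis i j k l m → ev K (x k l) (x l m) f + ev K (x m i) (x i j) f +
      ev K (x j k) (x k l) f + ev K (x l m) (x m i) f + ev K (x i j) (x j k) f = 0 :=
    fun i j k l m hd => h5 B _ _ _ _ _ (hp5.pent B x hx i j k l m hd)
  have t1 := tri 1 2 3 4 (by unfold Dis; decide)
  have t2 := tri 1 3 2 4 (by unfold Dis; decide)
  have t3 := tri 4 2 1 3 (by unfold Dis; decide)
  have t4 := tri 4 3 1 2 (by unfold Dis; decide)
  have p1 := P 0 1 2 4 3 (by unfold Dis; decide)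
  have p2 := P 0 1 3 4 2 (by unfold Dis; decide)
  have p3 := P 0 4 2 1 3 (by unfold Dis; decide)
  have p4 := P 0 4 3 1 2 (by unfold Dis; decide)
  rw [map_neg, map_neg, ← R2.app, ← R2.app (x 0 1), t1, t2, t3, t4]
  simp only [hx.symm 4 3, hx.symm 3 0, hx.symm 4 2, hx.symm 2 0, hx.symm 2 1, hx.symm 3 1]
    at p1 p2 p3 p4 ⊢
  have q1 := h2.app (x 2 4) (x 3 4)
  have q2 := h2.app (x 1 2) (x 2 4)
  have q3 := h2.app (x 1 3) (x 3 4)
  have q4 := h2.app (x 1 2) (x 1 3)
  linear_combination (norm := abel) p1 + p2 + p3 + p4 - q1 - q2 - q3 - q4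

end Vale.Agent.P029.KZ
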