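import Vale.Agent.P029.KStm

noncomputable section
namespace Vale.Agent.P029.KZ

namespace Trunc

variable {K : Type} [Field K] {C : Type} [Ring C] [Algebra K C]

theorem pow_mem {h : C} (hc : ∀ z, Commute h z) (k : ℕ) :
    ∀ z ∈ LinearMap.range (LinearMap.mulLeft K h) ^ k, ∃ w, z = h ^ k * w := by
  induction k with
  | zero => exact fun z _ => ⟨z, by simp⟩
  | succ k ih =>
    intro z hz
    rw [pow_succ] at hz
    refine Submodule.mul_induction_on hz ?_ ?_
    · rintro a ha _ ⟨b, rfl⟩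
      obtain ⟨w, rfl⟩ := ih a ha
      refine ⟨w * b, ?_⟩
      rw [LinearMap.mulLeft_apply, pow_succ, mul_assoc, mul_assoc, ← mul_assoc w, ← (hc w).eq,
        mul_assoc]
    · rintro _ _ ⟨a, rfl⟩ ⟨b, rfl⟩
      exact ⟨a + b, (mul_add _ _ _).symm⟩

theorem nil {h : C} (hc : ∀ z, Commute h z) {n : ℕ} (hn : h ^ (n + 1) = 0) :
    Nil n (LinearMap.range (LinearMap.mulLeft K h)) := by
  refine ⟨Submodule.mul_le.2 ?_, eq_bot_iff.2 fun z hz => ?_⟩
  · rintro _ ⟨a, rfl⟩ b _
    exact ⟨a * b, (mul_assoc _ _ _).symm⟩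
  · obtain ⟨w, rfl⟩ := pow_mem hc _ z hz
    rw [hn, zero_mul]
    exact zero_mem _

theorem two (B : Type) [Ring B] (k : ℕ) :
    (Ideal.span {(Polynomial.X : Polynomial B) ^ k}).IsTwoSided := by
  refine ⟨fun {a} b ha => ?_⟩
  obtain ⟨c, rfl⟩ := Ideal.mem_span_singleton'.1 ha
  exact Ideal.mem_span_singleton'.2 ⟨c * b, by rw [mul_assoc, mul_assoc, Polynomial.X_pow_mul]⟩

end Trunc

theorem trunc_pf (K : Type) [Field K] [CharZero K] :
    S_trunc K := by
  intro B _ _ n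
  have := Trunc.two B (n + 1)
  let I : Ideal (Polynomial B) := Ideal.span {Polynomial.X ^ (n + 1)}
  let q : Polynomial B →ₐ[K] Polynomial B ⧸ I := Ideal.Quotient.mkₐ K I
  have hc : ∀ z, Commute (q Polynomial.X) z := fun z => by
    obtain ⟨p, rfl⟩ := Ideal.Quotient.mkₐ_surjective K I z
    exact (Polynomial.commute_X p).map q
  have hn : q Polynomial.X ^ (n + 1) = 0 := by
    rw [← map_pow]
    exact Ideal.Quotient.eq_zero_iff_mem.2 (Ideal.subset_span rfl)
  refine ⟨Polynomial B ⧸ I, inferInstance, inferInstance, q.comp Polynomial.CAlgHom,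
    q Polynomial.X, _, Trunc.nil hc hn, hc, fun b => ⟨_, rfl⟩, fun b hb => ?_⟩
  rw [AlgHom.comp_apply, ← map_pow, ← map_mul] at hb
  obtain ⟨c, hc⟩ := Ideal.mem_span_singleton'.1 (Ideal.Quotient.eq_zero_iff_mem.1 hb)
  have := congrArg (fun p => Polynomial.coeff p n) hc
  simpa [Polynomial.coeff_mul_X_pow', Polynomial.X_pow_mul] using this.symm

end Vale.Agent.P029.KZ
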