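import Vale.Agent.P029.An5
import Vale.Agent.P029.An6
import Vale.Agent.P029.An7
import Vale.Agent.P029.KDyn
import Vale.Agent.P029.KP5
import Vale.Agent.P029.KFib
import Vale.Agent.P029.KThree
import Vale.Agent.P029.KPot
import Vale.Agent.P029.KDel
import Vale.Agent.P029.KSpec
import Vale.Agent.P029.KDef
import Vale.Agent.P029.KIh
import Vale.Agent.P029.KFil
import Vale.Agent.P029.KTrunc
import Vale.Agent.P029.KDiff
import Vale.Agent.P029.KRel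
import Vale.Agent.P029.KPoly
import Vale.Agent.P029.KFlowG
import Vale.Agent.P029.KEll
import Vale.Agent.P029.KInd
import Vale.Agent.P029.KDict
import Vale.Agent.P029.KDesc
import Vale.Agent.P029.KFin
import Vale.Agent.P029.KPhi
import Vale.Agent.P029.KPentN
import Vale.Agent.P029.KDepth

noncomputable section

namespace Vale.Agent.P029.KZ

section
variable (K : Type) [Field K] [CharZero K]

theorem three_all : S_three K := three_pf K (p5_pf K) (fib_pf K (p5_pf K))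

theorem del_all : S_del K := del_pf K (p5_pf K) (pot_pf K)

theorem def_all : S_def K :=
  def_pf K (p5_pf K) (del_all K) (spec_pf K (p5_pf K) (fib_pf K (p5_pf K)) (del_all K))

theorem ell_all : S_ell K := ell_pf K (fil_pf K) (dict_pf K)

theorem ind_all : S_ind K :=
  ind_pf K (fil_pf K) (diff_pf K (fil_pf K) (trunc_pf K) (dyn_pf K) (three_all K))
    (flowP_pf K (fil_pf K) (rel_pf K) (poly_pf K (fil_pf K)) (def_all K))
    (flowG_pf K (fil_pf K) (rel_pf K) (poly_pf K (fil_pf K))) (ell_all K)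

end

theorem an_all : S_an where
  pent _ _ _ _ _ _ _ _ _ _ h h1 h2 h3 h4 h5 := phi_pent h h1 h2 h3 h4 h5
  grp _ _ _ _ _ _ _ _ _ h1 h2 h3 h4 h5 h6 c1 c2 c3 c4 := phi_grp h1 h2 h3 h4 h5 h6 c1 c2 c3 c4
  zr _ _ _ _ _ _ h := phi_zero_right h
  zl _ _ _ _ _ _ h := phi_zero_left h
  map _ _ _ _ _ _ _ _ _ _ f hf _ _ h1 h2 h3 h4 := phi_map f hf h1 h2 h3 h4
  coef _ _ _ _ _ _ _ h1 h2 h3 h4 l _ hi _ hμ h0 hk := phi_coef h1 h2 h3 h4 l hi hμ h0 hk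

theorem sigma_all : S_sigma :=
  sigma_of (phi_pf an_all fin_pf (fil_pf ℝ)) (pentN_pf an_all fin_pf)
    (depth_pf an_all fin_pf (fil_pf ℝ) (ell_all ℝ)) (ind_all ℝ) (desc_pf (three_all ℚ))

theorem ww_of {n : ℕ} (hn : 3 ≤ n) {ψ : FA ℚ (Fin 2)} (hψ : ψ ∈ P029.LieW ℚ one1 n)
    (h : P029.Pent ψ) : WW n ψ := by
  have h1 := ((dict_pf ℚ).lie n ψ).2 hψ
  have h5 := ((dict_pf ℚ).five ψ).2 h
  obtain ⟨h2, h3⟩ := three_all ℚ n ψ hn h1 h5
  exact ⟨h1, h2, h3, h5⟩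

end Vale.Agent.P029.KZ

namespace Vale.Agent.P029

open FreeAlgebra

/-- Furusho: the pentagon implies the hexagon. -/
theorem hexQ {n : ℕ} (hn : 3 ≤ n) {ψ : FA ℚ (Fin 2)} (hψ : ψ ∈ LieW ℚ one1 n) (h : Pent ψ)
    {A : Type} [Ring A] [Algebra ℚ A] (u w : A) :
    ev u w ψ + ev w (-u - w) ψ + ev (-u - w) u ψ = 0 :=
  (KZ.ww_of hn hψ h).three.app u w

/-- Closure under the Ihara bracket. -/
theorem pent_ihQ {m n : ℕ} (hm : 3 ≤ m) (hn : 3 ≤ n) {ψ φ : FA ℚ (Fin 2)}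
    (hψ : ψ ∈ LieW ℚ one1 m) (hφ : φ ∈ LieW ℚ one1 n) (h : Pent ψ) (h' : Pent φ) :
    Pent (ih ψ φ) := by
  have := KZ.ih_pf ℚ (KZ.three_all ℚ) (KZ.def_all ℚ) m n ψ φ hm hn (KZ.ww_of hm hψ h)
    (KZ.ww_of hn hφ h')
  rw [← (KZ.dict_pf ℚ).ih]
  exact ((KZ.dict_pf ℚ).five _).1 this.five

/-- Existence of the generators. -/
theorem exists_sigma_rat (k : ℕ) : ∃ ψ ∈ LieW ℚ (one1 : Fin 2 → ℕ) (2 * k + 3),
    Pent ψ ∧ co (xy (2 * k + 2)) ψ ≠ 0 := by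
  obtain ⟨ψ, h1, h2⟩ := KZ.sigma_all (2 * k + 3) (by omega) ⟨k + 1, by ring⟩
  rw [(KZ.dict_pf ℚ).ell _ _ (by omega)] at h2
  exact ⟨ψ, ((KZ.dict_pf ℚ).lie _ _).1 h1.lie, ((KZ.dict_pf ℚ).five _).1 h1.five, h2⟩

end Vale.Agent.P029
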