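import Vale.Agent.P029.Br1
import Vale.Agent.P029.KI
import Vale.Agent.P029.Fib

noncomputable section

namespace Vale.Agent.P029

open FreeAlgebra

section
variable {g : Type} [LieRing g] [LieAlgebra ℚ g]

theorem br3_zero (a b : g) : evL 0 a b = 0 := map_zero _

theorem br3_add (ψ φ : L) (a b : g) : evL (ψ + φ) a b = evL ψ a b + evL φ a b := map_add _ _ _

theorem br3_smul (r : ℚ) (ψ : L) (a b : g) : evL (r • ψ) a b = r • evL ψ a b := map_smul _ _ _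

theorem br3_comm {z w : g} (h : ⁅z, w⁆ = 0) : Commute (rho 1 z) (rho 1 w) := by
  have := rho_br 1 1 z w
  rw [h, rho_zero] at this
  exact sub_eq_zero.1 this

theorem br3_ev {n : ℕ} {ψ : L} (hψ : jL (Fin 2) ψ ∈ HomW ℚ one1 n) (u v : g) :
    ev (rho 1 u) (rho 1 v) (jL (Fin 2) ψ) = rho n (evL ψ u v) := by
  rw [evL, ← lift_rho _ hψ, ev]
  congr 2
  funext x
  fin_cases x <;> rfl

theorem br3_inj {n : ℕ} (hn : n ≠ 0) {z w : g} (h : rho n z = rho n w) : z = w := by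
  have h1 : ⁅z, (0 : g)⁆ + ((n : ℚ) * 1) • z = ⁅w, (0 : g)⁆ + ((n : ℚ) * 1) • w :=
    congrArg (fun f : Module.End ℚ (g × ℚ) => (f (0, 1)).1) h
  rw [lie_zero, lie_zero, zero_add, zero_add, mul_one] at h1
  exact smul_right_injective g (Nat.cast_ne_zero.2 hn) h1

end

theorem br3_rel {z : T4Free} (h : z ∈ t4Rel) : (LieSubmodule.Quotient.mk z : T4) = 0 :=
  LieSubmodule.Quotient.mk_eq_zero'.2 (LieSubmodule.subset_lieSpan h)

theorem br3_symm (i j : Fin 4) : t i j = t j i :=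
  sub_eq_zero.1 (br3_rel (Or.inr (Or.inl ⟨i, j, rfl⟩)))

theorem br3_far (i j k l : Fin 4) (h : i ≠ j ∧ i ≠ k ∧ i ≠ l ∧ j ≠ k ∧ j ≠ l ∧ k ≠ l) :
    ⁅t i j, t k l⁆ = 0 :=
  br3_rel (Or.inr (Or.inr (Or.inl
    ⟨i, j, k, l, h.1, h.2.1, h.2.2.1, h.2.2.2.1, h.2.2.2.2.1, h.2.2.2.2.2, rfl⟩)))

theorem br3_tri (i j k : Fin 4) (h : i ≠ j ∧ i ≠ k ∧ j ≠ k) : ⁅t i j, t i k + t j k⁆ = 0 :=
  br3_rel (Or.inr (Or.inr (Or.inr ⟨i, j, k, h.1, h.2.1, h.2.2, rfl⟩)))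

theorem br3_id (f : FA ℚ (Fin 2)) : ev (ι ℚ 0) (ι ℚ 1) f = f := by
  have : (ev (ι ℚ 0) (ι ℚ 1) : FA ℚ (Fin 2) →ₐ[ℚ] FA ℚ (Fin 2)) = AlgHom.id ℚ _ := by
    refine FreeAlgebra.hom_ext (funext fun x => ?_)
    fin_cases x <;> simp [ev]
  rw [this, AlgHom.id_apply]

theorem W_zero : (0 : L) ∈ W := by
  refine ⟨?_, ?_, ?_⟩ <;> simp only [br3_zero, add_zero]

theorem W_add {ψ φ : L} (h : ψ ∈ W) (h' : φ ∈ W) : ψ + φ ∈ W := by
  obtain ⟨h1, h2, h3⟩ := h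
  obtain ⟨k1, k2, k3⟩ := h'
  refine ⟨?_, ?_, ?_⟩ <;> simp only [br3_add]
  · linear_combination (norm := abel1) h1 + k1
  · linear_combination (norm := abel1) h2 + k2
  · linear_combination (norm := abel1) h3 + k3

theorem W_smul {ψ : L} (h : ψ ∈ W) (r : ℚ) : r • ψ ∈ W := by
  obtain ⟨h1, h2, h3⟩ := h
  refine ⟨?_, ?_, ?_⟩ <;> simp only [br3_smul, ← smul_add]
  · rw [h1, smul_zero]
  · rw [h2, smul_zero]
  · rw [h3]

theorem br3_pent {g : Type} [LieRing g] [LieAlgebra ℚ g] {n : ℕ} (hn : 3 ≤ n) {ψ : L}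
    (hψ : jL (Fin 2) ψ ∈ HomW ℚ one1 n) (h : Pent (jL (Fin 2) ψ)) {a b c p q : g}
    (ac : ⁅a, c⁆ = 0) (pq : ⁅p, q⁆ = 0) (h1 : ⁅a, p + b⁆ = 0) (h2 : ⁅b, a + p⁆ = 0)
    (h3 : ⁅b, q + c⁆ = 0) (h4 : ⁅c, b + q⁆ = 0) :
    evL ψ a (b + q) + evL ψ (p + b) c = evL ψ b c + evL ψ (a + p) (q + c) + evL ψ a b := by
  have hG := LieW_le_LieGe (by omega : 2 ≤ n) (mem_LieW_of (jL_mem ψ) hψ)
  have hS : Sys (rho 1 a) (rho 1 b) (rho 1 c) (rho 1 (a + (p + b))) (rho 1 (b + q + c)) := by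
    refine ⟨br3_comm ac, br3_comm (by rw [lie_add, lie_self, h1, add_zero]),
      br3_comm (by rw [← add_assoc, lie_add, lie_self, h2, add_zero]),
      br3_comm (by rw [add_assoc, lie_add, lie_self, h3, add_zero]),
      br3_comm (by rw [lie_add, lie_self, h4, add_zero]), ?_⟩
    simp only [rho_br, ← rho_add]
    refine Eq.trans (congrArg _ ?_) (rho_zero _)
    simp only [lie_add, add_lie, lie_self, ← lie_skew a b, ← lie_skew b c, ← lie_skew a c,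
      ← lie_skew p c, ← lie_skew a q, ← lie_skew p b] at ac pq h1 h2 h3 ⊢
    linear_combination (norm := abel1) pq - h2 + h3 - ac
  have e := h _ _ _ _ _ _ hS
  have s1 := ev_shift (u := rho 1 a) (v := rho 1 (b + q)) (Commute.zero_right _) (br3_comm ac)
    (Commute.zero_right _) (br3_comm h4).symm (Commute.zero_left _) hG
  have s2 := ev_shift (u := rho 1 (p + b)) (v := rho 1 c) (br3_comm h1).symm (Commute.zero_right _)
    (br3_comm ac).symm (Commute.zero_right _) (Commute.zero_right _) hG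
  have s3 := ev_shift (br3_comm h2).symm (br3_comm h2).symm (br3_comm h3).symm (br3_comm h3).symm
    (Commute.refl _) hG
  rw [add_zero, ← rho_add] at s1
  rw [add_zero, ← rho_add, add_comm _ a] at s2
  rw [← rho_add, ← rho_add, add_assoc a, add_comm (q + c) b, ← add_assoc b] at s3
  have p1 := pent_two hG h (rho 1 b) (rho 1 c)
  have p2 := pent_two hG h (rho 1 a) (rho 1 b)
  have p3 := pent_two hG h (rho 1 (a + (p + b))) (rho 1 (b + q + c))
  refine br3_inj (n := n) (by omega) ?_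
  simp only [rho_add n, ← br3_ev hψ]
  rw [pentE, s1, s2] at e
  rw [s3] at p3
  linear_combination (norm := abel1) e - p1 - p2 - p3

theorem pent_to_W {n : ℕ} (hn : 3 ≤ n) {ψ : L} (hψ : jL (Fin 2) ψ ∈ HomW ℚ one1 n)
    (h : Pent (jL (Fin 2) ψ)) : ψ ∈ W := by
  have hW := mem_LieW_of (jL_mem ψ) hψ
  refine ⟨jL_inj ?_, jL_inj ?_, br3_pent hn hψ h (br3_far 0 1 2 3 (by decide))
    (br3_far 0 2 1 3 (by decide)) (br3_tri 0 1 2 (by decide)) ?_ (br3_tri 1 2 3 (by decide)) ?_⟩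
  · have := pent_two (LieW_le_LieGe (by omega : 2 ≤ n) hW) h (ι ℚ 0 : FA ℚ (Fin 2)) (ι ℚ 1)
    rw [br3_id] at this
    simp only [map_add, map_zero, map_evL _ jL_lie, gx, gy, jL_of]
    exact this
  · have := hexQ hn hW h (ι ℚ 0 : FA ℚ (Fin 2)) (ι ℚ 1)
    rw [br3_id] at this
    simp only [map_add, map_zero, map_evL _ jL_lie, gx, gy, jL_of, map_sub, map_neg]
    exact this
  · rw [br3_symm 0 1, br3_symm 0 2]
    exact br3_tri 1 2 0 (by decide)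
  · rw [br3_symm 1 2, br3_symm 1 3]
    exact br3_tri 2 3 1 (by decide)

end Vale.Agent.P029
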