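import Vale.Agent.P029.Lie2

noncomputable section

namespace Vale.Agent.P029

open FreeAlgebra

variable {R : Type} [CommRing R] {X Y : Type} {A : Type} [Ring A] [Algebra R A]

theorem dI_isDer (ψ : FA R (Fin 2)) : IsDer (dI ψ) := by
  exact der_isDer _

@[simp] theorem dI_x (ψ : FA R (Fin 2)) : dI ψ (ι R 0) = 0 := by
  rw [dI, der_ι]
  rfl

@[simp] theorem dI_y (ψ : FA R (Fin 2)) : dI ψ (ι R 1) = br (ι R 1) ψ := by
  rw [dI, der_ι]
  rfl

theorem iha_ext {D D' : Module.End R (FA R (Fin 2))} (hD : IsDer D) (hD' : IsDer D')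
    (h0 : D (ι R 0) = D' (ι R 0)) (h1 : D (ι R 1) = D' (ι R 1)) : D = D' := by
  refine hD.ext hD' (fun x => ?_)
  fin_cases x
  · exact h0
  · exact h1

theorem iha_br_apply (D D' : Module.End R A) (z : A) : br D D' z = D (D' z) - D' (D z) := rfl

theorem dI_add (ψ φ : FA R (Fin 2)) : dI (ψ + φ) = dI ψ + dI φ := by
  refine iha_ext (dI_isDer _) ((dI_isDer _).add (dI_isDer _)) ?_ ?_
  · simp only [LinearMap.add_apply, dI_x, add_zero]
  · simp only [LinearMap.add_apply, dI_y, br_add_right]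

theorem dI_smul (r : R) (ψ : FA R (Fin 2)) : dI (r • ψ) = r • dI ψ := by
  refine iha_ext (dI_isDer _) ((dI_isDer _).smul r) ?_ ?_
  · simp only [LinearMap.smul_apply, dI_x, smul_zero]
  · simp only [LinearMap.smul_apply, dI_y, br_smul_right]

theorem dI_ih (ψ φ : FA R (Fin 2)) : dI (ih ψ φ) = br (dI ψ) (dI φ) := by
  refine iha_ext (dI_isDer _) ((dI_isDer _).br (dI_isDer _)) ?_ ?_
  · simp only [iha_br_apply, dI_x, map_zero, sub_zero]
  · simp only [iha_br_apply, dI_y, (dI_isDer _).map_br, ih]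
    unfold br
    noncomm_ring

theorem ih_add_left (a b c : FA R (Fin 2)) : ih (a + b) c = ih a c + ih b c := by
  simp only [ih, dI_add, LinearMap.add_apply, map_add, br_add_left]
  abel

theorem ih_add_right (a b c : FA R (Fin 2)) : ih a (b + c) = ih a b + ih a c := by
  simp only [ih, dI_add, LinearMap.add_apply, map_add, br_add_right]
  abel

theorem ih_smul_left (r : R) (a b : FA R (Fin 2)) : ih (r • a) b = r • ih a b := by
  simp only [ih, dI_smul, LinearMap.smul_apply, map_smul, br_smul_left, smul_add, smul_sub]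

theorem ih_smul_right (r : R) (a b : FA R (Fin 2)) : ih a (r • b) = r • ih a b := by
  simp only [ih, dI_smul, LinearMap.smul_apply, map_smul, br_smul_right, smul_add, smul_sub]

theorem ih_self (a : FA R (Fin 2)) : ih a a = 0 := by
  simp only [ih, sub_self, br_self, add_zero]

theorem ih_jacobi (a b c : FA R (Fin 2)) : ih a (ih b c) = ih (ih a b) c + ih b (ih a c) := by
  have e : ∀ u v : FA R (Fin 2), ih u v = dI u v - dI v u + br u v := fun _ _ => rfl
  rw [e a (ih b c), e (ih a b) c, e b (ih a c), dI_ih, dI_ih, dI_ih]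
  simp only [iha_br_apply, e, map_add, map_sub, (dI_isDer _).map_br]
  unfold br
  noncomm_ring

theorem dI_LieA {ψ φ : FA R (Fin 2)} (hψ : ψ ∈ LieA R (Fin 2)) (hφ : φ ∈ LieA R (Fin 2)) :
    dI ψ φ ∈ LieA R (Fin 2) := by
  refine isDer_LieA (dI_isDer ψ) (fun x => ?_) hφ
  fin_cases x
  · exact (dI_x ψ).symm ▸ zero_mem _
  · exact (dI_y ψ).symm ▸ LieA_br (ι_mem_LieA 1) hψ

theorem dI_HomW {m n : ℕ} {ψ φ : FA R (Fin 2)} (hψ : ψ ∈ HomW R one1 m) (hφ : φ ∈ HomW R one1 n) :
    dI ψ φ ∈ HomW R one1 (n + m) := by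
  refine isDer_HomW (dI_isDer ψ) (fun x => ?_) hφ
  fin_cases x
  · exact (dI_x ψ).symm ▸ zero_mem _
  · exact (dI_y ψ).symm ▸ HomW_br (ι_mem_HomW 1) hψ

theorem ih_LieA {ψ φ : FA R (Fin 2)} (hψ : ψ ∈ LieA R (Fin 2)) (hφ : φ ∈ LieA R (Fin 2)) :
    ih ψ φ ∈ LieA R (Fin 2) := by
  exact add_mem (sub_mem (dI_LieA hψ hφ) (dI_LieA hφ hψ)) (LieA_br hψ hφ)

theorem ih_LieW {m n : ℕ} {ψ φ : FA R (Fin 2)} (hψ : ψ ∈ LieW R one1 m)
    (hφ : φ ∈ LieW R one1 n) : ih ψ φ ∈ LieW R one1 (m + n) := by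
  have h1 := LieW_le_HomW hψ
  have h2 := LieW_le_HomW hφ
  refine mem_LieW_of (ih_LieA (LieW_le_LieA hψ) (LieW_le_LieA hφ)) ?_
  exact add_mem (sub_mem (by rw [add_comm]; exact dI_HomW h1 h2) (dI_HomW h2 h1)) (HomW_br h1 h2)

theorem iha_word (w : List (Fin 2)) (hw : ww ![0, 1] w = 0) : w = List.replicate w.length 0 := by
  induction w with
  | nil => rfl
  | cons x w ih =>
    rw [ww_cons] at hw
    have hx : x = 0 := by
      fin_cases x
      · rfl
      · simp at hw
    rw [List.length_cons, List.replicate_succ, ← ih (by omega), hx]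

theorem co_xy_dI {ψ : FA R (Fin 2)} (hψ : ψ ∈ LieGe R (Fin 2) 2) (φ : FA R (Fin 2)) (j : ℕ) :
    co (xy j) (dI ψ φ) = 0 := by
  have h1 : ψ ∈ GeW R ![0, 1] 1 := mem_GeW.2 (fun w hw => by
    rw [iha_word w (by omega)]
    exact co_replicate hψ 0 _)
  have hy : ι R (1 : Fin 2) ∈ GeW R ![0, 1] 1 := HomW_le_GeW le_rfl (ι_mem_HomW (wt := ![0, 1]) 1)
  have h2 : dI ψ φ ∈ GeW R ![0, 1] 2 := by
    induction φ using FreeAlgebra.induction with
    | grade0 r =>
      rw [Algebra.algebraMap_eq_smul_one, map_smul, (dI_isDer ψ).map_one, smul_zero]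
      exact zero_mem _
    | grade1 x =>
      have hx : x = 0 ∨ x = 1 := by omega
      rcases hx with rfl | rfl
      · rw [dI_x]; exact zero_mem _
      · rw [dI_y, br]
        exact sub_mem (GeW_mul (m := 1) (n := 1) hy h1) (GeW_mul (m := 1) (n := 1) h1 hy)
    | mul a b ha hb =>
      rw [dI_isDer ψ a b]
      exact add_mem (GeW_anti (by omega) (GeW_mul ha (mem_GeW_zero b)))
        (GeW_anti (by omega) (GeW_mul (mem_GeW_zero a) hb))
    | add a b ha hb => rw [map_add]; exact add_mem ha hb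
  refine mem_GeW.1 h2 _ ?_
  have e : ww ![0, 1] (List.replicate j (0 : Fin 2)) = 0 := by
    induction j with
    | zero => rfl
    | succ j ih => rw [List.replicate_succ, ww_cons, ih]; rfl
  rw [xy, ww_append, e]
  decide

theorem co_xy_mul {ψ : FA R (Fin 2)} (hψ : ψ ∈ LieGe R (Fin 2) 2) (φ : FA R (Fin 2)) (j : ℕ) :
    co (xy j) (ψ * φ) = co (xy j) ψ * co [] φ := by
  have hl : (xy j).length = j + 1 := by simp [xy]
  rw [co_mul, Finset.sum_range_succ, List.take_length, List.drop_length,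
    Finset.sum_eq_zero, zero_add]
  intro i hi
  rw [hl, Finset.mem_range] at hi
  have e : (xy j).take i = List.replicate i 0 := by
    rw [xy, List.take_append_of_le_length (by simp; omega), List.take_replicate,
      min_eq_left (by omega)]
  rw [e, co_replicate hψ, zero_mul]

theorem co_xy_ih {ψ φ : FA R (Fin 2)} (hψ : ψ ∈ LieGe R (Fin 2) 2) (hφ : φ ∈ LieGe R (Fin 2) 2)
    (j : ℕ) : co (xy j) (ih ψ φ) = 0 := by
  rw [ih, br, map_add, map_sub, map_sub, co_xy_dI hψ, co_xy_dI hφ, co_xy_mul hψ, co_xy_mul hφ,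
    co_nil_LieA (LieGe_le_LieA hψ), co_nil_LieA (LieGe_le_LieA hφ)]
  simp

theorem ev_dI (u v : A) (ψ φ : FA R (Fin 2)) :
    ev u v (dI ψ φ) = derA ![u, v] ![0, br v (ev u v ψ)] φ := by
  have e1 : (fun x => ev (R := R) u v (ι R x)) = ![u, v] := by
    funext x
    fin_cases x <;> simp
  have e2 : (fun x => ev (R := R) u v (![0, br (ι R 1) ψ] x)) = ![0, br v (ev u v ψ)] := by
    funext x
    fin_cases x <;> simp [map_br]
  rw [dI, map_der, e1, e2]

end Vale.Agent.P029
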