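import Vale.Agent.P029.Br1
import Vale.Agent.P029.Iha

noncomputable section

namespace Vale.Agent.P029

open FreeAlgebra

namespace Br4

theorem homog_gen {X : Type} (wt : X → ℕ) (n : ℕ) (a : FreeLieAlgebra ℚ X) :
    (∀ s : ℚ, FreeLieAlgebra.lift ℚ (fun x => s ^ wt x • FreeLieAlgebra.of ℚ x) a = s ^ n • a) ↔
      jL X a ∈ HomW ℚ wt n := by
  have key : ∀ s : ℚ, jL X (FreeLieAlgebra.lift ℚ (fun x => s ^ wt x • FreeLieAlgebra.of ℚ x) a) =
      FreeAlgebra.lift ℚ (fun x => s ^ wt x • ι ℚ x) (jL X a) := fun s => by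
    rw [map_lift_lie (jL X) jL_lie]
    simp only [map_smul, jL_of]
  constructor
  · intro h
    refine mem_HomW.2 fun w hw => ?_
    have h2 := congrArg (fun z => co w (jL X z)) (h 2)
    simp only [key, co_lift_scale, map_smul, smul_eq_mul] at h2
    have e : (w.map fun x => (2 : ℚ) ^ wt x).prod = 2 ^ ww wt w := by
      clear hw h2
      induction w with
      | nil => simp
      | cons x w ih => simp [ih, pow_add]
    rw [e] at h2
    by_contra h0
    exact hw (pow_right_injective₀ (by norm_num) (by norm_num) (mul_right_cancel₀ h0 h2))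
  · intro h s
    apply jL_inj
    rw [key, lift_smul_scale _ s h, lift_id, map_smul]

/-- The free algebra with the Ihara bracket. -/
def Ih : Type := FA ℚ (Fin 2)

instance : AddCommGroup Ih := inferInstanceAs (AddCommGroup (FA ℚ (Fin 2)))
instance : Module ℚ Ih := inferInstanceAs (Module ℚ (FA ℚ (Fin 2)))

instance : LieRing Ih where
  bracket a b := ih (R := ℚ) a b
  add_lie := ih_add_left (R := ℚ)
  lie_add := ih_add_right (R := ℚ)
  lie_self := ih_self (R := ℚ)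
  leibniz_lie := ih_jacobi (R := ℚ)

instance : LieAlgebra ℚ Ih where
  lie_smul := ih_smul_right (R := ℚ)

end Br4

theorem exists_IhD : ∃ D, IsIhD D := by
  obtain ⟨θ, hθ⟩ := exists_jL_inv (X := Fin 2)
  have key : ∀ ψ a : L, jL (Fin 2) (θ (dI (jL (Fin 2) ψ) (jL (Fin 2) a))) =
      dI (jL (Fin 2) ψ) (jL (Fin 2) a) := fun ψ a => by
    obtain ⟨b, hb⟩ := jL_surj (dI_LieA (jL_mem ψ) (jL_mem a))
    rw [← hb, hθ]
  refine ⟨fun ψ => ⟨θ ∘ₗ dI (jL (Fin 2) ψ) ∘ₗ jL (Fin 2), fun a b => jL_inj ?_⟩,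
    fun ψ => ⟨jL_inj ?_, jL_inj ?_⟩⟩
  · simp only [LinearMap.comp_apply, map_sub, jL_lie]
    rw [← jL_lie a b, key, key, key, jL_lie, (dI_isDer _).map_br, br_skew (jL (Fin 2) b)]
    abel
  · change jL (Fin 2) (θ (dI (jL (Fin 2) ψ) (jL (Fin 2) gx))) = _
    rw [key, gx, jL_of, dI_x, map_zero]
  · change jL (Fin 2) (θ (dI (jL (Fin 2) ψ) (jL (Fin 2) gy))) = _
    rw [key, jL_lie, gy, jL_of, dI_y]

theorem jL_IhD {D : L → LieDerivation ℚ L L} (hD : IsIhD D) (ψ φ : L) :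
    jL (Fin 2) (D ψ φ) = dI (jL (Fin 2) ψ) (jL (Fin 2) φ) := by
  have hφ : φ ∈ Submodule.span ℚ (Set.range (fm (FreeLieAlgebra.of ℚ : Fin 2 → _))) := by
    rw [span_fm]
    trivial
  induction hφ using Submodule.span_induction with
  | mem x hx =>
    obtain ⟨m, rfl⟩ := hx
    induction m with
    | ih1 x =>
      fin_cases x
      · have := (hD ψ).1
        change jL (Fin 2) (D ψ gx) = dI (jL (Fin 2) ψ) (jL (Fin 2) gx)
        rw [this, gx, jL_of, dI_x, map_zero]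
      · have := (hD ψ).2
        change jL (Fin 2) (D ψ gy) = dI (jL (Fin 2) ψ) (jL (Fin 2) gy)
        rw [this, jL_lie, gy, jL_of, dI_y]
    | ih2 a b ha hb =>
      change jL (Fin 2) (D ψ ⁅fm _ a, fm _ b⁆) = dI (jL (Fin 2) ψ) (jL (Fin 2) ⁅fm _ a, fm _ b⁆)
      rw [LieDerivation.apply_lie_eq_add, map_add, jL_lie, jL_lie, jL_lie, ha, hb,
        (dI_isDer _).map_br, add_comm]
  | zero => simp
  | add x y _ _ h1 h2 => simp only [map_add, h1, h2]
  | smul c x _ h1 => simp only [map_smul, h1]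

theorem homog_iff {n : ℕ} {ψ : L} : Homog n ψ ↔ jL (Fin 2) ψ ∈ HomW ℚ one1 n := by
  rw [← Br4.homog_gen]
  refine forall_congr' fun s => ?_
  have e : (![s • gx, s • gy] : Fin 2 → L) =
      fun x => s ^ one1 x • FreeLieAlgebra.of ℚ x := by
    funext x
    fin_cases x <;> simp [one1, gx, gy]
  rw [evL, e]

theorem homogF_iff {n : ℕ} {a : F} : HomogF n a ↔ jL ℕ a ∈ HomW ℚ wtG n :=
  Br4.homog_gen wtG n a

/-- The homomorphism to the Ihara Lie algebra. -/
theorem exists_ih_hom (σ : ℕ → FA ℚ (Fin 2)) : ∃ φ : F →ₗ[ℚ] FA ℚ (Fin 2),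
    (∀ k, φ (FreeLieAlgebra.of ℚ k) = σ k) ∧ ∀ a b, φ ⁅a, b⁆ = ih (φ a) (φ b) :=
  ⟨(FreeLieAlgebra.lift ℚ (L := Br4.Ih) σ).toLinearMap,
    fun k => FreeLieAlgebra.lift_of_apply (L := Br4.Ih) σ k,
    fun a b => (FreeLieAlgebra.lift ℚ (L := Br4.Ih) σ).map_lie a b⟩

end Vale.Agent.P029
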