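import Vale.Agent.P029.Words

noncomputable section

namespace Vale.Agent.P029

open FreeAlgebra

variable {R : Type} [CommRing R] {X Y : Type} {A : Type} [Ring A] [Algebra R A]

@[simp] theorem dn_fst (a b : A) : (dn a b).fst = a := by simp [dn]
@[simp] theorem dn_snd (a b : A) : (dn a b).snd = b := by simp [dn]
theorem dn_ext {a b a' b' : A} : dn a b = dn a' b' ↔ a = a' ∧ b = b' := by
  constructor
  · intro h; exact ⟨by simpa using congrArg TrivSqZeroExt.fst h,
      by simpa using congrArg TrivSqZeroExt.snd h⟩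
  · rintro ⟨rfl, rfl⟩; rfl
theorem dn_eta (z : DualNumber A) : dn z.fst z.snd = z := by ext <;> simp
theorem dn_mul (a b a' b' : A) : dn a b * dn a' b' = dn (a * a') (b * a' + a * b') := by
  ext <;> simp [add_comm]
theorem dn_add (a b a' b' : A) : dn a b + dn a' b' = dn (a + a') (b + b') := by ext <;> simp
theorem dn_sub (a b a' b' : A) : dn a b - dn a' b' = dn (a - a') (b - b') := by ext <;> simp
theorem dn_neg (a b : A) : -dn a b = dn (-a) (-b) := by ext <;> simp
theorem dn_smul (r : R) (a b : A) : r • dn a b = dn (r • a) (r • b) := by ext <;> simp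
theorem dn_zero : dn (0 : A) 0 = 0 := by ext <;> simp
theorem dn_one : dn (1 : A) 0 = 1 := by ext <;> simp
theorem dn_br (a b a' b' : A) : br (dn a b) (dn a' b') = dn (br a a') (br b a' + br a b') := by
  simp only [br, dn_mul, dn_sub, dn_ext, true_and]; abel

theorem lift_dn (g f : X → A) (φ : FA R X) :
    FreeAlgebra.lift R (fun x => dn (g x) (f x)) φ =
      dn (FreeAlgebra.lift R g φ) (derA g f φ) := by
  have h := map_lift (TrivSqZeroExt.fstHom R A A) (fun x => dn (g x) (f x)) φ
  simp only [TrivSqZeroExt.fstHom_apply, dn_fst] at h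
  rw [← dn_eta (FreeAlgebra.lift R (fun x => dn (g x) (f x)) φ), h]
  rfl

theorem ev_dn (u u' v v' : A) (φ : FA R (Fin 2)) :
    ev (dn u u') (dn v v') φ = dn (ev u v φ) (derA ![u, v] ![u', v'] φ) := by
  have h : ![dn u u', dn v v'] = fun x => dn (![u, v] x) (![u', v'] x) := by
    funext x; fin_cases x <;> rfl
  rw [ev, h, lift_dn]
  rfl

@[simp] theorem derA_ι (g f : X → A) (x : X) : derA (R := R) g f (ι R x) = f x := by
  simp [derA]

@[simp] theorem derA_one (g f : X → A) : derA (R := R) g f 1 = 0 := by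
  simp [derA]

theorem derA_mul (g f : X → A) (a b : FA R X) : derA g f (a * b) =
    derA g f a * FreeAlgebra.lift R g b + FreeAlgebra.lift R g a * derA g f b := by
  have h := map_mul (FreeAlgebra.lift R fun x => dn (g x) (f x)) a b
  rw [lift_dn, lift_dn, lift_dn, dn_mul] at h
  exact (dn_ext.1 h).2

/-- Derivations along a homomorphism are determined by the values on the generators. -/
theorem derA_ext (G : FA R X →ₐ[R] A) {D D' : FA R X →ₗ[R] A}
    (hD : ∀ a b, D (a * b) = D a * G b + G a * D b)
    (hD' : ∀ a b, D' (a * b) = D' a * G b + G a * D' b)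
    (h : ∀ x, D (ι R x) = D' (ι R x)) : D = D' := by
  have key : ∀ E : FA R X →ₗ[R] A, (∀ a b, E (a * b) = E a * G b + G a * E b) → E 1 = 0 :=
    fun E hE => by simpa using hE 1 1
  refine LinearMap.ext fun φ => ?_
  induction φ using FreeAlgebra.induction with
  | grade0 r => rw [Algebra.algebraMap_eq_smul_one, map_smul, map_smul, key D hD, key D' hD']
  | grade1 x => exact h x
  | mul a b ha hb => rw [hD, hD', ha, hb]
  | add a b ha hb => rw [map_add, map_add, ha, hb]

theorem derA_add (g f f' : X → A) (φ : FA R X) :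
    derA g (fun x => f x + f' x) φ = derA g f φ + derA g f' φ := by
  refine LinearMap.congr_fun (derA_ext (FreeAlgebra.lift R g) (D' := derA g f + derA g f')
    (derA_mul g fun x => f x + f' x) (fun a b => ?_) fun x => by simp) φ
  simp only [LinearMap.add_apply, derA_mul]
  noncomm_ring

theorem derA_zero (g : X → A) (φ : FA R X) : derA g (fun _ => 0) φ = 0 := by
  exact LinearMap.congr_fun (derA_ext (FreeAlgebra.lift R g) (D' := 0)
    (derA_mul _ _) (fun a b => by simp) fun x => by simp) φ

theorem derA_inner (g : X → A) (Λ : A) (φ : FA R X) :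
    derA g (fun x => br (g x) Λ) φ = br (FreeAlgebra.lift R g φ) Λ := by
  refine LinearMap.congr_fun (derA_ext (FreeAlgebra.lift R g)
    (D' := (LinearMap.mulRight R Λ - LinearMap.mulLeft R Λ) ∘ₗ (FreeAlgebra.lift R g).toLinearMap)
    (derA_mul _ _) (fun a b => ?_) fun x => by simp [br]) φ
  simp only [LinearMap.comp_apply, LinearMap.sub_apply, LinearMap.mulRight_apply,
    LinearMap.mulLeft_apply, AlgHom.toLinearMap_apply, map_mul]
  noncomm_ring

@[simp] theorem der_ι (f : X → FA R X) (x : X) : der f (ι R x) = f x := by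
  exact derA_ι _ _ x

theorem der_isDer (f : X → FA R X) : IsDer (der f) := by
  intro a b
  rw [der, derA_mul, lift_id, lift_id]

theorem map_der (G : FA R X →ₐ[R] A) (f : X → FA R X) (φ : FA R X) :
    G (der f φ) = derA (fun x => G (ι R x)) (fun x => G (f x)) φ := by
  have hG : ∀ a, G a = FreeAlgebra.lift R (fun x => G (ι R x)) a := fun a => by
    rw [← map_lift, lift_id]
  refine LinearMap.congr_fun (derA_ext G (D := G.toLinearMap ∘ₗ der f) (fun a b => ?_)
    (fun a b => ?_) fun x => by simp) φ
  · simp only [LinearMap.comp_apply, AlgHom.toLinearMap_apply, der_isDer f a b, map_add, map_mul]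
  · rw [derA_mul, ← hG, ← hG]

theorem map_derA {A' : Type} [Ring A'] [Algebra R A'] (G : A →ₐ[R] A') (g f : X → A)
    (φ : FA R X) : G (derA g f φ) = derA (fun x => G (g x)) (fun x => G (f x)) φ := by
  refine LinearMap.congr_fun (derA_ext (FreeAlgebra.lift R fun x => G (g x))
    (D := G.toLinearMap ∘ₗ derA g f) (fun a b => ?_) (derA_mul _ _) fun x => by simp) φ
  simp only [LinearMap.comp_apply, AlgHom.toLinearMap_apply, derA_mul, map_add, map_mul, map_lift]

theorem IsDer.lift {D : Module.End R A} (hD : IsDer D) (g : X → A) (φ : FA R X) :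
    D (FreeAlgebra.lift R g φ) = derA g (fun x => D (g x)) φ := by
  refine LinearMap.congr_fun (derA_ext (FreeAlgebra.lift R g)
    (D := D ∘ₗ (FreeAlgebra.lift R g).toLinearMap) (fun a b => ?_) (derA_mul _ _)
    fun x => by simp) φ
  simp only [LinearMap.comp_apply, AlgHom.toLinearMap_apply, map_mul, hD _ _]

theorem IsDer.ext {D D' : Module.End R (FA R X)} (hD : IsDer D) (hD' : IsDer D')
    (h : ∀ x, D (ι R x) = D' (ι R x)) : D = D' := by
  exact derA_ext (AlgHom.id R _) hD hD' h

/-- Intertwining of derivations along a homomorphism. -/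
theorem IsDer.intertwine (G : FA R X →ₐ[R] A) {D : Module.End R (FA R X)} {D' : Module.End R A}
    (hD : IsDer D) (hD' : IsDer D') (h : ∀ x, G (D (ι R x)) = D' (G (ι R x))) (φ : FA R X) :
    G (D φ) = D' (G φ) := by
  refine LinearMap.congr_fun (derA_ext G (D := G.toLinearMap ∘ₗ D) (D' := D' ∘ₗ G.toLinearMap)
    (fun a b => ?_) (fun a b => ?_) h) φ
  · simp only [LinearMap.comp_apply, AlgHom.toLinearMap_apply, hD a b, map_add, map_mul]
  · simp only [LinearMap.comp_apply, AlgHom.toLinearMap_apply, map_mul, hD' _ _]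

theorem IsDer.map_one {D : Module.End R A} (hD : IsDer D) : D 1 = 0 := by
  simpa using hD 1 1

theorem IsDer.map_br {D : Module.End R A} (hD : IsDer D) (a b : A) :
    D (br a b) = br (D a) b + br a (D b) := by
  rw [P029.br, P029.br, P029.br, map_sub, hD, hD]
  abel

theorem isDer_zero : IsDer (0 : Module.End R A) := by
  intro a b
  simp

theorem IsDer.add {D D' : Module.End R A} (hD : IsDer D) (hD' : IsDer D') : IsDer (D + D') := by
  intro a b
  simp only [LinearMap.add_apply, hD a b, hD' a b]
  noncomm_ring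

theorem IsDer.smul {D : Module.End R A} (hD : IsDer D) (r : R) : IsDer (r • D) := by
  intro a b
  simp only [LinearMap.smul_apply, hD a b, smul_add, smul_mul_assoc, mul_smul_comm]

theorem IsDer.br {D D' : Module.End R A} (hD : IsDer D) (hD' : IsDer D') :
    IsDer (br D D') := by
  intro a b
  simp only [P029.br, LinearMap.sub_apply, Module.End.mul_apply, hD _ _, hD' _ _, map_add]
  noncomm_ring

theorem IsDer.sq {A : Type} [Ring A] [Algebra (ZMod 2) A] {D : Module.End (ZMod 2) A}
    (hD : IsDer D) : IsDer (D * D) := by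
  intro a b
  have h2 : D a * D b + D a * D b = 0 := by
    rw [← two_smul (ZMod 2)]
    exact zero_smul (ZMod 2) _
  simp only [Module.End.mul_apply, hD _ _, map_add]
  rw [add_assoc, ← add_assoc (D a * D b), h2, zero_add]

theorem isDer_ad (a : A) : IsDer (LinearMap.mulLeft R a - LinearMap.mulRight R a) := by
  intro b c
  simp only [LinearMap.sub_apply, LinearMap.mulRight_apply, LinearMap.mulLeft_apply]
  noncomm_ring

theorem IsDer.br_mulLeft {D : Module.End R A} (hD : IsDer D) (a : A) :
    P029.br D (LinearMap.mulLeft R a) = LinearMap.mulLeft R (D a) := by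
  refine LinearMap.ext fun b => ?_
  simp only [P029.br, LinearMap.sub_apply, Module.End.mul_apply, LinearMap.mulLeft_apply, hD _ _]
  abel

theorem br_mulLeft (a b : A) : br (LinearMap.mulLeft R a) (LinearMap.mulLeft R b) =
    (LinearMap.mulLeft R (br a b) : Module.End R A) := by
  refine LinearMap.ext fun c => ?_
  simp only [br, LinearMap.sub_apply, Module.End.mul_apply, LinearMap.mulLeft_apply]
  noncomm_ring

theorem lift_mulLeft (g : X → A) (φ : FA R X) :
    FreeAlgebra.lift R (fun x => (LinearMap.mulLeft R (g x) : Module.End R A)) φ =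
      LinearMap.mulLeft R (FreeAlgebra.lift R g φ) := by
  exact (map_lift (Algebra.lmul R A) g φ).symm

theorem ev_mulLeft (u v : A) (φ : FA R (Fin 2)) :
    ev (LinearMap.mulLeft R u : Module.End R A) (LinearMap.mulLeft R v) φ =
      LinearMap.mulLeft R (ev u v φ) := by
  exact (map_ev (Algebra.lmul R A) u v φ).symm

/-- Intertwining of actions. -/
theorem lift_intertwine {M N : Type} [AddCommGroup M] [Module R M] [AddCommGroup N] [Module R N]
    (T : M →ₗ[R] N) (g : X → Module.End R M) (g' : X → Module.End R N)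
    (h : ∀ x m, T (g x m) = g' x (T m)) (φ : FA R X) (m : M) :
    T (FreeAlgebra.lift R g φ m) = FreeAlgebra.lift R g' φ (T m) := by
  induction φ using FreeAlgebra.induction generalizing m with
  | grade0 r => simp only [AlgHom.commutes, Module.algebraMap_end_apply, map_smul]
  | grade1 x => simp only [lift_ι_apply, h]
  | mul a b ha hb => simp only [map_mul, Module.End.mul_apply, ha, hb]
  | add a b ha hb => simp only [map_add, LinearMap.add_apply, ha, hb]

theorem ev_intertwine {M N : Type} [AddCommGroup M] [Module R M] [AddCommGroup N] [Module R N]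
    (T : M →ₗ[R] N) (u v : Module.End R M) (u' v' : Module.End R N)
    (hu : ∀ m, T (u m) = u' (T m)) (hv : ∀ m, T (v m) = v' (T m)) (φ : FA R (Fin 2)) (m : M) :
    T (ev u v φ m) = ev u' v' φ (T m) := by
  refine lift_intertwine T _ _ (fun x m => ?_) φ m
  fin_cases x
  · exact hu m
  · exact hv m

/-- If every generator kills `m` then `φ` acts on `m` by its constant term. -/
theorem lift_apply_killed {M : Type} [AddCommGroup M] [Module R M] (g : X → Module.End R M) (m : M)
    (h : ∀ x, g x m = 0) (φ : FA R X) : FreeAlgebra.lift R g φ m = co [] φ • m := by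
  induction φ using FreeAlgebra.induction with
  | grade0 r =>
    rw [AlgHom.commutes, Module.algebraMap_end_apply, Algebra.algebraMap_eq_smul_one, map_smul,
      co_nil_one, smul_eq_mul, mul_one]
  | grade1 x => rw [lift_ι_apply, h, co_nil_ι, zero_smul]
  | mul a b ha hb =>
    rw [map_mul, Module.End.mul_apply, hb, map_smul, ha, co_nil_mul, mul_comm, mul_smul]
  | add a b ha hb => rw [map_add, LinearMap.add_apply, ha, hb, map_add, add_smul]

/-- Derivations of a quotient algebra. -/
theorem exists_quotDer (r : FA R X → FA R X → Prop) (f : X → RingQuot r)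
    (h : ∀ a b, r a b →
      FreeAlgebra.lift R (fun x => dn (RingQuot.mkAlgHom R r (ι R x)) (f x)) a =
      FreeAlgebra.lift R (fun x => dn (RingQuot.mkAlgHom R r (ι R x)) (f x)) b) :
    ∃ D : Module.End R (RingQuot r), IsDer D ∧ ∀ x, D (RingQuot.mkAlgHom R r (ι R x)) = f x := by
  let G : RingQuot r →ₐ[R] DualNumber (RingQuot r) := RingQuot.liftAlgHom R
    ⟨FreeAlgebra.lift R fun x => dn (RingQuot.mkAlgHom R r (ι R x)) (f x), fun a b => h a b⟩
  have hG : ∀ φ, G (RingQuot.mkAlgHom R r φ) = dn (RingQuot.mkAlgHom R r φ)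
      (derA (fun x => RingQuot.mkAlgHom R r (ι R x)) f φ) := fun φ => by
    rw [RingQuot.liftAlgHom_mkAlgHom_apply, lift_dn, ← map_lift, lift_id]
  refine ⟨(TrivSqZeroExt.sndHom (RingQuot r) (RingQuot r)).restrictScalars R ∘ₗ G.toLinearMap,
    fun a b => ?_, fun x => ?_⟩
  · obtain ⟨a, rfl⟩ := RingQuot.mkAlgHom_surjective R r a
    obtain ⟨b, rfl⟩ := RingQuot.mkAlgHom_surjective R r b
    change (G _).snd = (G _).snd * _ + _ * (G _).snd
    rw [map_mul, hG, hG, dn_mul, dn_snd, dn_snd, dn_snd]
  · change (G _).snd = _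
    rw [hG, dn_snd, derA_ι]

theorem IsDer.quot_ext (r : FA R X → FA R X → Prop) {D D' : Module.End R (RingQuot r)}
    (hD : IsDer D) (hD' : IsDer D')
    (h : ∀ x, D (RingQuot.mkAlgHom R r (ι R x)) = D' (RingQuot.mkAlgHom R r (ι R x))) :
    D = D' := by
  refine LinearMap.ext fun a => ?_
  obtain ⟨a, rfl⟩ := RingQuot.mkAlgHom_surjective R r a
  refine LinearMap.congr_fun (derA_ext (RingQuot.mkAlgHom R r)
    (D := D ∘ₗ (RingQuot.mkAlgHom R r).toLinearMap) (D' := D' ∘ₗ (RingQuot.mkAlgHom R r).toLinearMap)
    (fun a b => ?_) (fun a b => ?_) h) a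
  · simp only [LinearMap.comp_apply, AlgHom.toLinearMap_apply, map_mul, hD _ _]
  · simp only [LinearMap.comp_apply, AlgHom.toLinearMap_apply, map_mul, hD' _ _]

end Vale.Agent.P029
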