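import Vale.Agent.P029.Lie2

noncomputable section

namespace Vale.Agent.P029

open FreeAlgebra

variable {R : Type} [CommRing R] {X Y : Type} {A : Type} [Ring A] [Algebra R A]
variable {p : X → Prop} {s : X → Y → FA R Y} {t : X → FA R Y}

theorem elimR_apply (φ : FA R X) : elimR p s t φ = elimRep p s t φ 1 := rfl

theorem elimRep_pos {x : X} (h : p x) : elimRep p s t (ι R x) = der (s x) := by
  simp [elimRep, h]

theorem elimRep_neg {x : X} (h : ¬p x) : elimRep p s t (ι R x) = LinearMap.mulLeft R (t x) := by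
  simp [elimRep, h]

theorem elimR_mul (φ χ : FA R X) : elimR p s t (φ * χ) = elimRep p s t φ (elimR p s t χ) := by
  rw [elimR_apply, map_mul]
  rfl

theorem elim_keep_pos {x : X} (h : p x) : keep p (ι R x) = ι R x := by
  simp [keep, h]

theorem elim_keep_neg {x : X} (h : ¬p x) : keep p (ι R x) = 0 := by
  simp [keep, h]

theorem elim_ι_pos {x : X} (h : p x) : elimR p s t (ι R x) = 0 := by
  rw [elimR_apply, elimRep_pos h]
  exact (der_isDer _).map_one

theorem elim_ι_neg {x : X} (h : ¬p x) : elimR p s t (ι R x) = t x := by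
  rw [elimR_apply, elimRep_neg h, LinearMap.mulLeft_apply, mul_one]

theorem elim_br {f g : FA R X} {D1 D2 : Module.End R (FA R Y)}
    (hf : elimRep p s t f = D1 + LinearMap.mulLeft R (elimR p s t f))
    (hg : elimRep p s t g = D2 + LinearMap.mulLeft R (elimR p s t g)) :
    elimR p s t (br f g) = D1 (elimR p s t g) - D2 (elimR p s t f) +
      br (elimR p s t f) (elimR p s t g) := by
  unfold br
  rw [map_sub, elimR_mul, elimR_mul, hf, hg]
  simp only [LinearMap.add_apply, LinearMap.mulLeft_apply]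
  abel

theorem elimRep_lie {φ : FA R X} (hφ : φ ∈ LieA R X) :
    elimRep p s t φ = elimRep p s t (keep p φ) + LinearMap.mulLeft R (elimR p s t φ) ∧
      IsDer (elimRep p s t (keep p φ)) := by
  refine lieA_ind (P := fun φ => elimRep p s t φ =
    elimRep p s t (keep p φ) + LinearMap.mulLeft R (elimR p s t φ) ∧
      IsDer (elimRep p s t (keep p φ))) ?_ ?_ ?_ ?_ ?_ hφ
  · intro x
    by_cases h : p x
    · rw [elim_keep_pos h, elim_ι_pos h, elimRep_pos h, LinearMap.mulLeft_zero_eq_zero, add_zero]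
      exact ⟨rfl, der_isDer _⟩
    · rw [elim_keep_neg h, elim_ι_neg h, elimRep_neg h, map_zero, zero_add]
      exact ⟨rfl, isDer_zero⟩
  · simp only [map_zero, LinearMap.mulLeft_zero_eq_zero, add_zero, true_and]
    exact isDer_zero
  · intro f g _ _ hf hg
    simp only [map_add]
    refine ⟨?_, hf.2.add hg.2⟩
    rw [hf.1, hg.1]
    refine LinearMap.ext (fun χ => ?_)
    simp only [LinearMap.add_apply, LinearMap.mulLeft_apply, add_mul]
    abel
  · intro r f _ hf
    simp only [map_smul]
    refine ⟨?_, hf.2.smul r⟩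
    rw [hf.1]
    refine LinearMap.ext (fun χ => ?_)
    simp only [LinearMap.add_apply, LinearMap.mulLeft_apply, LinearMap.smul_apply, smul_add,
      smul_mul_assoc]
  · intro f g _ _ hf hg
    rw [elim_br hf.1 hg.1, map_br, map_br, map_br]
    refine ⟨?_, hf.2.br hg.2⟩
    rw [hf.1, hg.1]
    refine LinearMap.ext (fun χ => ?_)
    simp only [br, LinearMap.add_apply, LinearMap.sub_apply, Module.End.mul_apply,
      LinearMap.mulLeft_apply, map_add, hf.2 _ _, hg.2 _ _]
    noncomm_ring

theorem elim_keep_LieA (hs : ∀ x y, p x → s x y ∈ LieA R Y) {φ : FA R X} (hφ : φ ∈ LieA R X) :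
    ∀ χ ∈ LieA R Y, elimRep p s t (keep p φ) χ ∈ LieA R Y := by
  refine lieA_ind (P := fun φ => ∀ χ ∈ LieA R Y, elimRep p s t (keep p φ) χ ∈ LieA R Y)
    ?_ ?_ ?_ ?_ ?_ hφ
  · intro x χ hχ
    by_cases h : p x
    · rw [elim_keep_pos h, elimRep_pos h]
      exact isDer_LieA (der_isDer _) (fun y => by rw [der_ι]; exact hs x y h) hχ
    · rw [elim_keep_neg h, map_zero]; exact zero_mem _
  · intro χ _; rw [map_zero, map_zero]; exact zero_mem _
  · intro f g _ _ hf hg χ hχ
    rw [map_add, map_add]; exact add_mem (hf χ hχ) (hg χ hχ)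
  · intro r f _ hf χ hχ
    rw [map_smul, map_smul]; exact Submodule.smul_mem _ _ (hf χ hχ)
  · intro f g _ _ hf hg χ hχ
    rw [map_br, map_br]
    exact sub_mem (hf _ (hg χ hχ)) (hg _ (hf χ hχ))

theorem elimR_mem_LieA (hs : ∀ x y, p x → s x y ∈ LieA R Y) (ht : ∀ x, ¬p x → t x ∈ LieA R Y)
    {φ : FA R X} (hφ : φ ∈ LieA R X) : elimR p s t φ ∈ LieA R Y := by
  refine lieA_ind (P := fun φ => elimR p s t φ ∈ LieA R Y) ?_ ?_ ?_ ?_ ?_ hφ
  · intro x
    by_cases h : p x
    · rw [elim_ι_pos h]; exact zero_mem _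
    · rw [elim_ι_neg h]; exact ht x h
  · rw [map_zero]; exact zero_mem _
  · intro f g _ _ hf hg; rw [map_add]; exact add_mem hf hg
  · intro r f _ hf; rw [map_smul]; exact Submodule.smul_mem _ _ hf
  · intro f g hf hg hf' hg'
    rw [elim_br (elimRep_lie hf).1 (elimRep_lie hg).1]
    exact add_mem (sub_mem (elim_keep_LieA hs hf _ hg') (elim_keep_LieA hs hg _ hf'))
      (LieA_br hf' hg')

theorem elim_ad (f : X → A) (j : FA R Y →ₐ[R] A)
    (h2 : ∀ x y, p x → j (s x y) = br (f x) (j (ι R y))) {φ : FA R X} (hφ : φ ∈ LieA R X) :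
    ∀ χ, j (elimRep p s t (keep p φ) χ) = br (FreeAlgebra.lift R f (keep p φ)) (j χ) := by
  refine lieA_ind (P := fun φ => ∀ χ, j (elimRep p s t (keep p φ) χ) =
    br (FreeAlgebra.lift R f (keep p φ)) (j χ)) ?_ ?_ ?_ ?_ ?_ hφ
  · intro x χ
    by_cases h : p x
    · rw [elim_keep_pos h, elimRep_pos h, lift_ι_apply]
      exact IsDer.intertwine j (der_isDer _) (isDer_ad (f x))
        (fun y => by rw [der_ι, h2 x y h]; rfl) χ
    · rw [elim_keep_neg h, map_zero, map_zero, LinearMap.zero_apply, map_zero, br_zero_left]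
  · intro χ
    simp only [map_zero, LinearMap.zero_apply, br_zero_left]
  · intro a b _ _ ha hb χ
    simp only [map_add, LinearMap.add_apply, ha, hb, br_add_left]
  · intro r a _ ha χ
    simp only [map_smul, LinearMap.smul_apply, ha, br_smul_left]
  · intro a b _ _ ha hb χ
    rw [map_br, map_br, map_br]
    have e : ∀ D1 D2 : Module.End R (FA R Y), br D1 D2 χ = D1 (D2 χ) - D2 (D1 χ) := fun _ _ => rfl
    rw [e, map_sub, ha, hb, hb, ha]
    unfold br
    noncomm_ring

/-- Factorisation of a Lie element. -/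
theorem elim_factor (f : X → A) (j : FA R Y →ₐ[R] A) (h1 : ∀ x, ¬p x → j (t x) = f x)
    (h2 : ∀ x y, p x → j (s x y) = br (f x) (j (ι R y))) {φ : FA R X} (hφ : φ ∈ LieA R X) :
    FreeAlgebra.lift R f φ = FreeAlgebra.lift R f (keep p φ) + j (elimR p s t φ) := by
  refine lieA_ind (P := fun φ => FreeAlgebra.lift R f φ =
    FreeAlgebra.lift R f (keep p φ) + j (elimR p s t φ)) ?_ ?_ ?_ ?_ ?_ hφ
  · intro x
    by_cases h : p x
    · rw [elim_keep_pos h, elim_ι_pos h, map_zero, add_zero]
    · rw [elim_keep_neg h, elim_ι_neg h, map_zero, zero_add, h1 x h, lift_ι_apply]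
  · simp only [map_zero, add_zero]
  · intro a b _ _ ha hb
    simp only [map_add, ha, hb]
    abel
  · intro r a _ ha
    simp only [map_smul, ha, smul_add]
  · intro a b ha hb ha' hb'
    rw [elim_br (elimRep_lie ha).1 (elimRep_lie hb).1, map_br, map_br, map_br, ha', hb', map_add,
      map_sub, map_br, elim_ad f j h2 ha, elim_ad f j h2 hb]
    unfold br
    noncomm_ring

theorem elimR_mul_pos (φ : FA R X) {x : X} (h : p x) : elimR p s t (φ * ι R x) = 0 := by
  rw [elimR_mul, elim_ι_pos h, map_zero]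

theorem elimR_one : elimR p s t 1 = 1 := by
  rw [elimR_apply, map_one (elimRep p s t)]
  rfl

theorem elimR_HomW {wt : X → ℕ} {wt' : Y → ℕ} (ht : ∀ x, ¬p x → t x ∈ HomW R wt' (wt x))
    (hs : ∀ x y, p x → s x y ∈ HomW R wt' (wt' y + wt x)) {n : ℕ} {φ : FA R X}
    (hφ : φ ∈ HomW R wt n) : elimR p s t φ ∈ HomW R wt' n := by
  have key : ∀ w : List X, elimR p s t (wd R w) ∈ HomW R wt' (ww wt w) := by
    intro w
    induction w with
    | nil => rw [wd_nil, elimR_one]; exact one_mem_HomW
    | cons x w ih =>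
      rw [wd_cons, elimR_mul, ww_cons]
      by_cases h : p x
      · rw [elimRep_pos h, add_comm]
        exact isDer_HomW (der_isDer _) (fun y => by rw [der_ι]; exact hs x y h) ih
      · rw [elimRep_neg h]
        exact HomW_mul (ht x h) ih
  induction hφ using Submodule.span_induction with
  | mem f hf =>
    obtain ⟨w, rfl, rfl⟩ := hf
    exact key w
  | zero => rw [map_zero]; exact zero_mem _
  | add f g _ _ hf hg => rw [map_add]; exact add_mem hf hg
  | smul r f _ hf => rw [map_smul]; exact Submodule.smul_mem _ _ hf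

theorem elimR_lift (g : Y → FA R X)
    (h : ∀ y, elimRep p s t (g y) = LinearMap.mulLeft R (ι R y)) (χ : FA R Y) :
    elimR p s t (FreeAlgebra.lift R g χ) = χ := by
  rw [elimR_apply, map_lift]
  simp only [h]
  rw [lift_mulLeft, lift_id, LinearMap.mulLeft_apply, mul_one]

theorem keep_mem_LieA {φ : FA R X} (hφ : φ ∈ LieA R X) : keep p φ ∈ LieA R X := by
  refine lift_LieA (fun x => ?_) hφ
  split_ifs
  · exact ι_mem_LieA x
  · exact zero_mem _

/-- A Lie element all of whose words end in `p` letters only involves `p` letters. -/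
theorem keep_eq_of_last {φ : FA R X} (hφ : φ ∈ LieA R X)
    (h : ∀ w z, ¬p z → co (w ++ [z]) φ = 0) : keep p φ = φ := by
  have e := elim_factor (p := p) (s := fun x (y : List X × X) => ι R (x :: y.1, y.2))
    (t := fun x => ι R (([] : List X), x)) (ι R)
    (FreeAlgebra.lift R (fun y : List X × X => adL (ι R) y.1 (ι R y.2)))
    (fun x _ => by rw [lift_ι_apply]; rfl)
    (fun x y _ => by rw [lift_ι_apply, lift_ι_apply]; rfl) hφ
  have z : elimR p (fun x (y : List X × X) => ι R (x :: y.1, y.2))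
      (fun x => ι R (([] : List X), x)) φ = 0 := by
    obtain ⟨S, -, hS⟩ := exists_sum_last φ
    rw [hS, co_nil_LieA hφ, zero_smul, zero_add, map_sum]
    refine Finset.sum_eq_zero (fun z _ => ?_)
    by_cases hz : p z
    · exact elimR_mul_pos _ hz
    · have : stR [z] φ = 0 := ext_co (fun w => by rw [co_stR, h w z hz, map_zero])
      rw [this, zero_mul, map_zero]
  rw [z, map_zero, add_zero, lift_id, lift_id] at e
  exact e.symm

theorem eq_zero_of_last {φ : FA R (Fin 2)} (hφ : φ ∈ LieGe R (Fin 2) 2)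
    (h : ∀ w, co (w ++ [0]) φ = 0) : φ = 0 := by
  have hL := LieGe_le_LieA hφ
  have e := keep_eq_of_last (p := fun x => x = 1) hL (fun w z hz => by
    have : z = 0 := by fin_cases z <;> simp_all
    rw [this]; exact h w)
  have c : co [1] φ = 0 := co_replicate hφ 1 1
  rw [keep_single hL, c, zero_smul] at e
  exact e.symm

theorem adI_zero : (adI 0 : FA R (Fin 2)) = ι R 1 := rfl

theorem adI_succ (i : ℕ) : (adI (i + 1) : FA R (Fin 2)) = br (ι R 0) (adI i) := by
  simp [adI, Function.iterate_succ_apply']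

theorem adI_mem_LieA (i : ℕ) : (adI i : FA R (Fin 2)) ∈ LieA R (Fin 2) := by
  induction i with
  | zero => exact ι_mem_LieA 1
  | succ i ih => rw [adI_succ]; exact LieA_br (ι_mem_LieA 0) ih

theorem adI_mem_HomW (a b i : ℕ) : (adI i : FA R (Fin 2)) ∈ HomW R ![a, b] (a * i + b) := by
  induction i with
  | zero => rw [mul_zero, zero_add]; exact ι_mem_HomW (wt := ![a, b]) 1
  | succ i ih =>
    have e : a * (i + 1) + b = a + (a * i + b) := by ring
    rw [adI_succ, e]
    exact HomW_br (ι_mem_HomW (wt := ![a, b]) 0) ih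

theorem rI_lift (χ : FA R ℕ) : rI (FreeAlgebra.lift R (adI (R := R)) χ) = χ := by
  refine elimR_lift _ (fun i => ?_) χ
  induction i with
  | zero => rw [adI_zero, elimRep_neg (by decide)]
  | succ i ih =>
    rw [adI_succ, map_br, ih, elimRep_pos (p := fun x : Fin 2 => x = 0) rfl,
      (der_isDer _).br_mulLeft, der_ι]

theorem lift_rI {φ : FA R (Fin 2)} (hφ : φ ∈ LieA R (Fin 2)) :
    φ = co [0] φ • ι R 0 + FreeAlgebra.lift R (adI (R := R)) (rI φ) := by
  have e := elim_factor (p := fun x : Fin 2 => x = 0) (s := fun _ i => ι R (i + 1))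
    (t := fun _ => ι R 0) (ι R) (FreeAlgebra.lift R (adI (R := R)))
    (fun x hx => by
      have : x = 1 := by fin_cases x <;> simp_all
      rw [lift_ι_apply, this, adI_zero])
    (fun x y hx => by rw [lift_ι_apply, lift_ι_apply, adI_succ, hx]) hφ
  rw [lift_id, lift_id, keep_single hφ] at e
  exact e

theorem rI_mem_LieA {φ : FA R (Fin 2)} (hφ : φ ∈ LieA R (Fin 2)) : rI φ ∈ LieA R ℕ := by
  exact elimR_mem_LieA (fun _ _ _ => ι_mem_LieA _) (fun _ _ => ι_mem_LieA _) hφ

theorem rI_HomW (a b : ℕ) {n : ℕ} {φ : FA R (Fin 2)} (hφ : φ ∈ HomW R ![a, b] n) :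
    rI φ ∈ HomW R (fun i => a * i + b) n := by
  refine elimR_HomW (fun x hx => ?_) (fun x y hx => ?_) hφ
  · have : x = 1 := by fin_cases x <;> simp_all
    have e := ι_mem_HomW (R := R) (wt := fun i => a * i + b) 0
    rw [this]
    simpa using e
  · have e := ι_mem_HomW (R := R) (wt := fun i => a * i + b) (y + 1)
    have e2 : a * (y + 1) + b = a * y + b + a := by ring
    rw [hx]
    simpa [e2] using e

end Vale.Agent.P029
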