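import Vale.Agent.P029.UDefs
import Vale.Agent.P029.Elim
import Vale.Agent.P029.Iha

noncomputable section

namespace Vale.Agent.P029

open FreeAlgebra

namespace Gam

theorem two_eq {A : Type} [Ring A] [Algebra F2 A] (z : A) : z + z = 0 := by
  have h : (2 : F2) = 0 := rfl
  rw [← two_smul F2 z, h, zero_smul]

theorem fin2 {x : Fin 2} (h : ¬x = 1) : x = 0 := by omega

theorem keep_zero {ψ : FA F2 (Fin 2)} (hψ : ψ ∈ LieGe F2 (Fin 2) 2) :
    keep (fun x => x = (1 : Fin 2)) ψ = 0 := by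
  have h : co [(1 : Fin 2)] ψ = 0 := co_replicate hψ 1 1
  rw [keep_single (LieGe_le_LieA hψ), h, zero_smul]

/-- The representation behind `gam`. -/
def rho : FA F2 (Fin 2) →ₐ[F2] Module.End F2 (FA F2 (Fin 2)) :=
  elimRep (fun x => x = 1) (fun _ => ![ι F2 1, 0]) (fun _ => ι F2 0)

theorem gam_eq (ψ : FA F2 (Fin 2)) : gam ψ = rho ψ 1 := rfl

theorem rho_lie {ψ : FA F2 (Fin 2)} (hψ : ψ ∈ LieGe F2 (Fin 2) 2) :
    rho ψ = LinearMap.mulLeft F2 (gam ψ) := by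
  have h := (elimRep_lie (p := fun x => x = (1 : Fin 2)) (s := fun _ => ![ι F2 1, 0])
    (t := fun _ => ι F2 (0 : Fin 2)) (LieGe_le_LieA hψ)).1
  rw [keep_zero hψ, map_zero, zero_add] at h
  exact h

theorem rho_y : rho (ι F2 1) = dP := elimRep_pos rfl

theorem rho_ev (ψ : FA F2 (Fin 2)) : rho ψ = ev (rho (ι F2 0)) dP ψ := by
  rw [← rho_y, ← map_ev, ev_id]

theorem dP_isDer : IsDer dP := der_isDer _

theorem rho_dI {ψ : FA F2 (Fin 2)} (hψ : ψ ∈ LieGe F2 (Fin 2) 2) (h1 : dP (gam ψ) = 0)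
    (φ : FA F2 (Fin 2)) : rho (dI ψ φ) = 0 := by
  have h2 : (![0, br dP (ev (rho (ι F2 0)) dP ψ)] : Fin 2 → Module.End F2 (FA F2 (Fin 2))) =
      fun _ => 0 := by
    rw [← rho_ev, rho_lie hψ, dP_isDer.br_mulLeft, h1, LinearMap.mulLeft_zero_eq_zero]
    funext i
    fin_cases i <;> rfl
  rw [rho_ev, ev_dI, h2, derA_zero]

theorem dP_x : dP (ι F2 0) = ι F2 1 := der_ι _ _

theorem dP_y : dP (ι F2 1) = 0 := der_ι _ _

theorem dP_J1 (χ : FA F2 (Fin 2)) : dP (J1 χ) = 0 := by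
  have h : (fun x => dP ((![ι F2 1, br (ι F2 0) (ι F2 1)] : Fin 2 → FA F2 (Fin 2)) x)) =
      fun _ => 0 := by
    funext i
    fin_cases i
    · exact dP_y
    · change dP (br (ι F2 0) (ι F2 1)) = 0
      rw [dP_isDer.map_br, dP_x, dP_y, br_self, br_zero_right, add_zero]
  have h2 := dP_isDer.lift ![ι F2 1, br (ι F2 0) (ι F2 1)] χ
  rw [h, derA_zero] at h2
  exact h2

theorem kp_zero : kp (ι F2 0) = ι F2 0 := by simp [kp]

theorem kp_one : kp (ι F2 1) = ι F2 1 := by simp [kp]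

end Gam

open Gam

theorem gam_ev {ψ : FA F2 (Fin 2)} (hψ : ψ ∈ LieGe F2 (Fin 2) 2) {A : Type} [Ring A]
    [Algebra F2 A] (u n : A) (hn : n * n = 0) : ev u n ψ = ev u (br n u) (gam ψ) := by
  have h := elim_factor (p := fun x => x = (1 : Fin 2)) (s := fun _ => ![ι F2 1, 0])
    (t := fun _ => ι F2 (0 : Fin 2)) ![u, n] (ev u (br n u))
    (fun x hx => by rw [fin2 hx, ev_x]; rfl)
    (fun x y hx => by
      rw [hx]
      by_cases hy : y = 1
      · rw [hy, ev_y]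
        change ev u (br n u) 0 = br n (br n u)
        have h2 : br n (br n u) = n * n * u + u * (n * n) - (n * u * n + n * u * n) := by
          simp only [br]
          noncomm_ring
        rw [map_zero, h2, two_eq, hn]
        simp
      · rw [fin2 hy, ev_x]
        exact ev_y _ _) (LieGe_le_LieA hψ)
  rw [keep_zero hψ, map_zero, zero_add] at h
  exact h

theorem gam_LieA {ψ : FA F2 (Fin 2)} (hψ : ψ ∈ LieA F2 (Fin 2)) : gam ψ ∈ LieA F2 (Fin 2) := by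
  refine elimR_mem_LieA (fun x y _ => ?_) (fun x _ => ι_mem_LieA _) hψ
  fin_cases y
  · exact ι_mem_LieA _
  · exact zero_mem _

theorem gam_HomW {n : ℕ} {ψ : FA F2 (Fin 2)} (hψ : ψ ∈ HomW F2 one1 n) :
    gam ψ ∈ HomW F2 ![1, 2] n := by
  refine elimR_HomW (fun x _ => ι_mem_HomW (wt := ![1, 2]) 0) (fun x y _ => ?_) hψ
  fin_cases y
  · exact ι_mem_HomW (wt := ![1, 2]) 1
  · exact zero_mem _

theorem gam_ev_zero {ψ : FA F2 (Fin 2)} (hψ : ψ ∈ LieGe F2 (Fin 2) 2) {A : Type} [Ring A]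
    [Algebra F2 A] (u : A) : ev u 0 (gam ψ) = 0 := by
  have h := gam_ev hψ u 0 (mul_zero 0)
  rw [br_zero_left, ev_ab (Commute.zero_right u) hψ] at h
  exact h.symm

theorem gam_ih {ψ φ : FA F2 (Fin 2)} (hψ : ψ ∈ LieGe F2 (Fin 2) 2) (hφ : φ ∈ LieGe F2 (Fin 2) 2)
    (h1 : dP (gam ψ) = 0) (h2 : dP (gam φ) = 0) : gam (ih ψ φ) = br (gam ψ) (gam φ) := by
  rw [gam_eq (ih ψ φ), ih, map_add, map_sub, rho_dI hψ h1, rho_dI hφ h2, map_br, rho_lie hψ,
    rho_lie hφ, br_mulLeft, sub_self, zero_add, LinearMap.mulLeft_apply, mul_one]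

theorem dP_JJ (Ω : FA F2 ℕ) : dP (JJ Ω) = 0 := dP_J1 _

theorem rI_J1 (χ : FA F2 (Fin 2)) : kp (rI (J1 χ)) = χ := by
  have h : J1 χ = FreeAlgebra.lift F2 (adI (R := F2)) (ev (ι F2 0) (ι F2 1) χ) := by
    rw [map_ev, lift_ι_apply, lift_ι_apply]
    rfl
  rw [h, rI_lift, map_ev, kp_zero, kp_one, ev_id]

theorem JI_JJ (Ω : FA F2 ℕ) : JI (JJ Ω) = Ω := by
  change rI (kp (rI (J1 (FreeAlgebra.lift F2 (adI (R := F2)) Ω)))) = Ω
  rw [rI_J1, rI_lift]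

theorem JI_HomW {n : ℕ} {Ψ : FA F2 (Fin 2)} (h : Ψ ∈ HomW F2 ![1, 2] n) :
    JI Ψ ∈ HomW F2 wtG n := by
  have h1 : kp (rI Ψ) ∈ HomW F2 ![2, 3] n := by
    refine lift_HomW (fun i => ?_) (rI_HomW 1 2 h)
    split_ifs with h0 h1
    · rw [h0]
      exact ι_mem_HomW (wt := ![2, 3]) 0
    · rw [h1]
      exact ι_mem_HomW (wt := ![2, 3]) 1
    · exact zero_mem _
  exact rI_HomW 2 3 h1

theorem JI_LieA {Ψ : FA F2 (Fin 2)} (h : Ψ ∈ LieA F2 (Fin 2)) : JI Ψ ∈ LieA F2 ℕ := by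
  have h1 : kp (rI Ψ) ∈ LieA F2 (Fin 2) := by
    refine lift_LieA (fun i => ?_) (rI_mem_LieA h)
    split_ifs
    · exact ι_mem_LieA _
    · exact ι_mem_LieA _
    · exact zero_mem _
  exact rI_mem_LieA h1

end Vale.Agent.P029
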