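import Vale.Agent.P029.Words

noncomputable section

namespace Vale.Agent.P029

open FreeAlgebra

variable {R : Type} [CommRing R] {X Y : Type} {A : Type} [Ring A] [Algebra R A]
variable {wt : X → ℕ} {wt' : Y → ℕ} {m n k : ℕ}

theorem grade_cons (x : X) (w : List X) : wd R (x :: w) = ι R x * wd R w := by simp [wd]

theorem grade_map {M : Type} [AddCommGroup M] [Module R M] {P : List X → Prop}
    (T : FA R X →ₗ[R] M) {S : Submodule R M} (h : ∀ w, P w → T (wd R w) ∈ S) {f : FA R X}
    (hf : f ∈ Submodule.span R {g | ∃ w, P w ∧ g = wd R w}) : T f ∈ S :=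
  (Submodule.span_le (p := S.comap T)).2 (by rintro _ ⟨w, hw, rfl⟩; exact h w hw) hf

theorem grade_eq {M : Type} [AddCommGroup M] [Module R M] {P : List X → Prop}
    (T T' : FA R X →ₗ[R] M) (h : ∀ w, P w → T (wd R w) = T' (wd R w)) {f : FA R X}
    (hf : f ∈ Submodule.span R {g | ∃ w, P w ∧ g = wd R w}) : T f = T' f :=
  LinearMap.eqOn_span (by rintro _ ⟨w, hw, rfl⟩; exact h w hw) hf

theorem grade_mul {P Q : List X → Prop} {S : Submodule R (FA R X)}
    (h : ∀ v w, P v → Q w → wd R v * wd R w ∈ S) {f g : FA R X}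
    (hf : f ∈ Submodule.span R {g | ∃ w, P w ∧ g = wd R w})
    (hg : g ∈ Submodule.span R {g | ∃ w, Q w ∧ g = wd R w}) : f * g ∈ S :=
  grade_map (LinearMap.mulRight R g)
    (fun v hv => grade_map (LinearMap.mulLeft R (wd R v)) (fun w hw => h v w hv hw) hg) hf

theorem grade_one {D : Module.End R (FA R X)} (hD : IsDer D) : D (wd R []) = 0 := by
  have h := hD 1 1
  rw [mul_one, mul_one, one_mul] at h
  exact left_eq_add.1 h

theorem wd_mem_HomW (w : List X) : wd R w ∈ HomW R wt (ww wt w) := by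
  exact Submodule.subset_span ⟨w, rfl, rfl⟩

theorem ι_mem_HomW (x : X) : ι R x ∈ HomW R wt (wt x) := by
  simpa using wd_mem_HomW (R := R) (wt := wt) [x]

theorem one_mem_HomW : (1 : FA R X) ∈ HomW R wt 0 := by
  exact wd_mem_HomW (R := R) (wt := wt) []

theorem HomW_mul {f g : FA R X} (hf : f ∈ HomW R wt m) (hg : g ∈ HomW R wt n) :
    f * g ∈ HomW R wt (m + n) := by
  refine grade_mul (P := fun w => ww wt w = m) (Q := fun w => ww wt w = n) ?_ hf hg
  rintro v w rfl rfl
  rw [← wd_append, ← ww_append]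
  exact wd_mem_HomW _

theorem HomW_br {f g : FA R X} (hf : f ∈ HomW R wt m) (hg : g ∈ HomW R wt n) :
    br f g ∈ HomW R wt (m + n) := by
  exact Submodule.sub_mem _ (HomW_mul hf hg) (add_comm m n ▸ HomW_mul hg hf)

theorem GeW_mul {f g : FA R X} (hf : f ∈ GeW R wt m) (hg : g ∈ GeW R wt n) :
    f * g ∈ GeW R wt (m + n) := by
  refine grade_mul (P := fun w => m ≤ ww wt w) (Q := fun w => n ≤ ww wt w) ?_ hf hg
  intro v w hv hw
  rw [← wd_append]
  exact Submodule.subset_span ⟨v ++ w, by rw [ww_append]; omega, rfl⟩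

theorem HomW_le_GeW (h : m ≤ n) : HomW R wt n ≤ GeW R wt m := by
  exact Submodule.span_mono fun _ ⟨w, h1, h2⟩ => ⟨w, h1 ▸ h, h2⟩

theorem GeW_anti (h : m ≤ n) : GeW R wt n ≤ GeW R wt m := by
  exact Submodule.span_mono fun _ ⟨w, h1, h2⟩ => ⟨w, h.trans h1, h2⟩

theorem mem_GeW_zero (f : FA R X) : f ∈ GeW R wt 0 := by
  exact mem_GeW.2 fun _ h => absurd h (Nat.not_lt_zero _)

theorem co_proj (w : List X) (f : FA R X) :
    co w (proj wt n f) = if ww wt w = n then co w f else 0 := by
  classical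
  have : co w ∘ₗ proj wt n = if ww wt w = n then (co w : FA R X →ₗ[R] R) else 0 := by
    refine lin_ext fun v => ?_
    rw [LinearMap.comp_apply, proj, onW_wd]
    by_cases h : v = w
    · subst h
      split_ifs <;> simp
    · split_ifs <;> simp [co_wd, h]
  have h2 := LinearMap.congr_fun this f
  rw [LinearMap.comp_apply] at h2
  rw [h2]
  split_ifs <;> simp

theorem proj_mem (f : FA R X) : proj wt n f ∈ HomW R wt n := by
  exact mem_HomW.2 fun w h => by rw [co_proj, if_neg h]

theorem proj_of_mem {f : FA R X} (hf : f ∈ HomW R wt n) : proj wt n f = f := by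
  refine ext_co fun w => ?_
  rw [co_proj]
  split_ifs with h
  · rfl
  · exact (mem_HomW.1 hf w h).symm

theorem proj_of_ne {f : FA R X} (hf : f ∈ HomW R wt m) (h : m ≠ n) : proj wt n f = 0 := by
  refine ext_co fun w => ?_
  rw [co_proj, map_zero]
  split_ifs with h1
  · exact mem_HomW.1 hf w (h1 ▸ h.symm)
  · rfl

theorem proj_of_GeW {f : FA R X} (hf : f ∈ GeW R wt m) (h : n < m) : proj wt n f = 0 := by
  refine ext_co fun w => ?_
  rw [co_proj, map_zero]
  split_ifs with h1
  · exact mem_GeW.1 hf w (h1 ▸ h)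
  · rfl

theorem sub_proj_mem {f : FA R X} (hf : f ∈ GeW R wt n) : f - proj wt n f ∈ GeW R wt (n + 1) := by
  refine mem_GeW.2 fun w h => ?_
  rw [map_sub, co_proj]
  split_ifs with h1
  · exact sub_self _
  · rw [sub_zero]
    exact mem_GeW.1 hf w (by omega)

theorem exists_sum_proj (wt : X → ℕ) (f : FA R X) : ∃ N, (∀ n, N ≤ n → proj wt n f = 0) ∧
    f = ∑ n ∈ Finset.range N, proj wt n f := by
  obtain ⟨s, hs, -⟩ := exists_sum_wd f
  have h0 : ∀ w, s.sup (ww wt) + 1 ≤ ww wt w → co w f = 0 := fun w hw => hs w fun h => by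
    have := Finset.le_sup (f := ww wt) h
    omega
  refine ⟨s.sup (ww wt) + 1, fun n hn => ext_co fun w => ?_, ext_co fun w => ?_⟩
  · rw [co_proj, map_zero]
    split_ifs with h
    · exact h0 w (h ▸ hn)
    · rfl
  · simp only [map_sum, co_proj, Finset.sum_ite_eq, Finset.mem_range]
    split_ifs with h
    · rfl
    · exact h0 w (not_lt.1 h)

theorem lift_HomW {g : X → FA R Y} (hg : ∀ x, g x ∈ HomW R wt' (wt x)) {f : FA R X}
    (hf : f ∈ HomW R wt n) : FreeAlgebra.lift R g f ∈ HomW R wt' n := by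
  refine grade_map (P := fun w => ww wt w = n) (FreeAlgebra.lift R g).toLinearMap ?_ hf
  rintro w rfl
  clear hf
  change FreeAlgebra.lift R g (wd R w) ∈ _
  induction w with
  | nil => simpa using one_mem_HomW
  | cons x w ih =>
    rw [grade_cons, map_mul, FreeAlgebra.lift_ι_apply, ww_cons]
    exact HomW_mul (hg x) ih

theorem lift_GeW {g : X → FA R Y} (hg : ∀ x, g x ∈ GeW R wt' (wt x)) {f : FA R X}
    (hf : f ∈ GeW R wt n) : FreeAlgebra.lift R g f ∈ GeW R wt' n := by
  refine grade_map (P := fun w => n ≤ ww wt w) (FreeAlgebra.lift R g).toLinearMap ?_ hf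
  intro w hw
  refine GeW_anti hw ?_
  change FreeAlgebra.lift R g (wd R w) ∈ _
  clear hw
  induction w with
  | nil => exact mem_GeW_zero _
  | cons x w ih =>
    rw [grade_cons, map_mul, FreeAlgebra.lift_ι_apply, ww_cons]
    exact GeW_mul (hg x) ih

theorem grade_proj {T : FA R X →ₗ[R] FA R Y}
    (hT : ∀ n, ∀ f ∈ HomW R wt n, T f ∈ HomW R wt' n) (f : FA R X) :
    proj wt' n (T f) = T (proj wt n f) := by
  refine LinearMap.congr_fun (f := proj wt' n ∘ₗ T) (g := T ∘ₗ proj wt n) (lin_ext fun w => ?_) f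
  rw [LinearMap.comp_apply, LinearMap.comp_apply]
  by_cases h : ww wt w = n
  · subst h
    rw [proj_of_mem (wd_mem_HomW w), proj_of_mem (hT _ _ (wd_mem_HomW w))]
  · rw [proj_of_ne (wd_mem_HomW w) h, proj_of_ne (hT _ _ (wd_mem_HomW w)) h, map_zero]

theorem proj_lift {g : X → FA R Y} (hg : ∀ x, g x ∈ HomW R wt' (wt x)) (f : FA R X) :
    proj wt' n (FreeAlgebra.lift R g f) = FreeAlgebra.lift R g (proj wt n f) := by
  exact grade_proj (T := (FreeAlgebra.lift R g).toLinearMap) (fun _ _ hf => lift_HomW hg hf) f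

/-- A linear map respecting the gradings commutes with the projections. -/
theorem proj_map {T : FA R X →ₗ[R] FA R Y}
    (hT : ∀ n, ∀ f ∈ HomW R wt n, T f ∈ HomW R wt' n) (f : FA R X) :
    proj wt' n (T f) = T (proj wt n f) := by
  exact grade_proj hT f

theorem isDer_HomW {D : Module.End R (FA R X)} (hD : IsDer D)
    (hx : ∀ x, D (ι R x) ∈ HomW R wt (wt x + k)) {f : FA R X} (hf : f ∈ HomW R wt n) :
    D f ∈ HomW R wt (n + k) := by
  refine grade_map (P := fun w => ww wt w = n) D ?_ hf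
  rintro w rfl
  clear hf
  induction w with
  | nil => rw [grade_one hD]; exact zero_mem _
  | cons x w ih =>
    rw [grade_cons, hD, ww_cons]
    refine add_mem ?_ (add_assoc (wt x) _ k ▸ HomW_mul (ι_mem_HomW x) ih)
    exact add_right_comm (wt x) k _ ▸ HomW_mul (hx x) (wd_mem_HomW w)

theorem isDer_GeW {D : Module.End R (FA R X)} (hD : IsDer D)
    (hx : ∀ x, D (ι R x) ∈ GeW R wt (wt x + k)) {f : FA R X} (hf : f ∈ GeW R wt n) :
    D f ∈ GeW R wt (n + k) := by
  refine grade_map (P := fun w => n ≤ ww wt w) D ?_ hf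
  intro w hw
  refine GeW_anti (Nat.add_le_add_right hw k) ?_
  clear hw
  induction w with
  | nil => rw [grade_one hD]; exact zero_mem _
  | cons x w ih =>
    rw [grade_cons, hD, ww_cons]
    refine add_mem ?_ (add_assoc (wt x) _ k ▸ GeW_mul (HomW_le_GeW le_rfl (ι_mem_HomW x)) ih)
    exact add_right_comm (wt x) k _ ▸ GeW_mul (hx x) (HomW_le_GeW le_rfl (wd_mem_HomW w))

/-- Scaling by a central element. -/
theorem lift_scale (g : X → A) (τ : A) (hτ : ∀ x, Commute τ (g x)) {f : FA R X}
    (hf : f ∈ HomW R wt n) :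
    FreeAlgebra.lift R (fun x => τ ^ wt x * g x) f = τ ^ n * FreeAlgebra.lift R g f := by
  refine grade_eq (P := fun w => ww wt w = n)
    (FreeAlgebra.lift R fun x => τ ^ wt x * g x).toLinearMap
    (LinearMap.mulLeft R (τ ^ n) ∘ₗ (FreeAlgebra.lift R g).toLinearMap) ?_ hf
  rintro w rfl
  clear hf
  change FreeAlgebra.lift R _ (wd R w) = τ ^ ww wt w * FreeAlgebra.lift R g (wd R w)
  induction w with
  | nil => simp
  | cons x w ih =>
    rw [grade_cons, map_mul, map_mul, FreeAlgebra.lift_ι_apply, FreeAlgebra.lift_ι_apply, ih,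
      ww_cons, pow_add, mul_assoc, mul_assoc, ← mul_assoc (g x), ← ((hτ x).pow_left _).eq,
      mul_assoc]

theorem lift_smul_scale (g : X → A) (s : R) {f : FA R X} (hf : f ∈ HomW R wt n) :
    FreeAlgebra.lift R (fun x => s ^ wt x • g x) f = s ^ n • FreeAlgebra.lift R g f := by
  have := lift_scale g (algebraMap R A s) (fun x => Algebra.commutes s (g x)) hf
  simpa only [← map_pow, ← Algebra.smul_def] using this

theorem co_lift_scale (c : X → R) (w : List X) (f : FA R X) :
    co w (FreeAlgebra.lift R (fun x => c x • ι R x) f) = (w.map c).prod * co w f := by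
  classical
  have h1 : ∀ v : List X, FreeAlgebra.lift R (fun x => c x • ι R x) (wd R v) =
      (v.map c).prod • wd R v := fun v => by
    induction v with
    | nil => simp
    | cons x v ih =>
      rw [grade_cons, map_mul, FreeAlgebra.lift_ι_apply, ih, List.map_cons, List.prod_cons,
        smul_mul_smul_comm]
  have h2 : co w ∘ₗ (FreeAlgebra.lift R fun x => c x • ι R x).toLinearMap =
      (w.map c).prod • co w := lin_ext fun v => by
    change co w (FreeAlgebra.lift R _ (wd R v)) = (w.map c).prod • co w (wd R v)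
    rw [h1, map_smul]
    by_cases h : v = w
    · rw [h]
    · simp [co_wd, h]
  exact LinearMap.congr_fun h2 f

/-- If all products of at least `n` generators vanish then `GeW one1 n` is killed. -/
theorem lift_GeW_eq_zero (g : X → A) (hg : ∀ w : List X, n ≤ w.length → (w.map g).prod = 0)
    {f : FA R X} (hf : f ∈ GeW R one1 n) : FreeAlgebra.lift R g f = 0 := by
  refine grade_eq (P := fun w => n ≤ ww one1 w) (FreeAlgebra.lift R g).toLinearMap 0 ?_ hf
  intro w hw
  change FreeAlgebra.lift R g (wd R w) = 0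
  rw [lift_wd]
  exact hg w (by simpa using hw)

end Vale.Agent.P029
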