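import Vale.Agent.P029.KDefs

/-! P029 part K: basic lemmas. -/

noncomputable section
namespace Vale.Agent.P029.KZ

variable {K : Type} [Field K] {B C : Type} [Ring B] [Ring C]

@[simp] theorem dn_fst (a u : B) : (dn a u).fst = a := by simp [dn]
@[simp] theorem dn_snd (a u : B) : (dn a u).snd = u := by simp [dn]
theorem dn_eta (z : DualNumber B) : dn z.fst z.snd = z := TrivSqZeroExt.ext (by simp) (by simp)
theorem dn_inj {a u b v : B} : dn a u = dn b v ↔ a = b ∧ u = v :=
  ⟨fun h => ⟨by simpa using congrArg TrivSqZeroExt.fst h,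
    by simpa using congrArg TrivSqZeroExt.snd h⟩, fun h => by rw [h.1, h.2]⟩
theorem snd_mul' (z w : DualNumber B) : (z * w).snd = z.fst * w.snd + z.snd * w.fst := by
  simp [TrivSqZeroExt.snd_mul]
theorem dn_mul (a u b v : B) : dn a u * dn b v = dn (a * b) (a * v + u * b) :=
  TrivSqZeroExt.ext (by simp) (by simp)
theorem dn_add (a u b v : B) : dn a u + dn b v = dn (a + b) (u + v) :=
  TrivSqZeroExt.ext (by simp) (by simp)
theorem dn_sub (a u b v : B) : dn a u - dn b v = dn (a - b) (u - v) :=
  TrivSqZeroExt.ext (by simp) (by simp)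
theorem dn_neg (a u : B) : -dn a u = dn (-a) (-u) := TrivSqZeroExt.ext (by simp) (by simp)
theorem dn_zero : dn (0 : B) 0 = 0 := TrivSqZeroExt.ext (by simp) (by simp)
theorem dn_one : dn (1 : B) 0 = 1 := TrivSqZeroExt.ext (by simp) (by simp)
theorem dn_br (a u b v : B) : br (dn a u) (dn b v) = dn (br a b) (br a v + br u b) := by
  unfold br
  rw [dn_mul, dn_mul, dn_sub]
  congr 1
  abel
theorem br_eq_zero {a b : B} : br a b = 0 ↔ Commute a b := sub_eq_zero
theorem commute_dn {a u b v : B} (h : Commute a b) (h' : br a v + br u b = 0) :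
    Commute (dn a u) (dn b v) := by
  rw [← br_eq_zero, dn_br, br_eq_zero.2 h, h', dn_zero]

variable [Algebra K B] [Algebra K C]

theorem dn_smul (c : K) (a u : B) : c • dn a u = dn (c • a) (c • u) :=
  TrivSqZeroExt.ext (by simp) (by simp)

@[simp] theorem ev_X (a b : B) : ev K a b X = a := by simp [ev, X]
@[simp] theorem ev_Y (a b : B) : ev K a b Y = b := by simp [ev, Y]
theorem map_br (φ : B →ₐ[K] C) (a b : B) : φ (br a b) = br (φ a) (φ b) := by simp [br]

theorem A_ext {φ χ : A K →ₐ[K] B} (hx : φ X = χ X) (hy : φ Y = χ Y) : φ = χ := by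
  ext i
  fin_cases i
  · exact hx
  · exact hy

theorem map_ev (φ : B →ₐ[K] C) (a b : B) (f : A K) : φ (ev K a b f) = ev K (φ a) (φ b) f :=
  DFunLike.congr_fun (A_ext (φ := φ.comp (ev K a b)) (χ := ev K (φ a) (φ b)) (by simp) (by simp)) f

theorem ev_XY (f : A K) : ev K X Y f = f :=
  DFunLike.congr_fun (A_ext (φ := ev K X Y) (χ := AlgHom.id K _) (by simp) (by simp)) f

theorem A_ind {P : A K → Prop} (hc : ∀ c : K, P (algebraMap K _ c)) (hx : P X) (hy : P Y)
    (hm : ∀ f g, P f → P g → P (f * g)) (ha : ∀ f g, P f → P g → P (f + g)) (f : A K) : P f := by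
  refine FreeAlgebra.induction K (Fin 2) hc (fun i => ?_) hm ha f
  fin_cases i
  · exact hx
  · exact hy

theorem commute_ev {z a b : B} (ha : Commute z a) (hb : Commute z b) (f : A K) :
    Commute z (ev K a b f) := by
  induction f using A_ind with
  | hc c => rw [AlgHom.commutes]; exact (Algebra.commutes c z).symm
  | hx => simpa using ha
  | hy => simpa using hb
  | hm f g hf hg => rw [map_mul]; exact hf.mul_right hg
  | ha f g hf hg => rw [map_add]; exact hf.add_right hg

theorem Cross.commute_ev {a b a' b' : B} (h : Cross a b a' b') (f g : A K) :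
    Commute (ev K a b f) (ev K a' b' g) :=
  KZ.commute_ev (KZ.commute_ev h.aa.symm h.ba.symm f).symm
    (KZ.commute_ev h.ab.symm h.bb.symm f).symm g

theorem ev_dn (a b u v : B) (f : A K) :
    ev K (dn a u) (dn b v) f = dn (ev K a b f) (dv K a b u v f) := by
  refine TrivSqZeroExt.ext ?_ (by simp [dv])
  have := map_ev (TrivSqZeroExt.fstHom K B B) (dn a u) (dn b v) f
  simpa using this

@[simp] theorem dv_X (a b u v : B) : dv K a b u v X = u := by simp [dv]
@[simp] theorem dv_Y (a b u v : B) : dv K a b u v Y = v := by simp [dv]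
@[simp] theorem dv_zero (a b u v : B) : dv K a b u v 0 = 0 := by simp [dv]
@[simp] theorem dv_one (a b u v : B) : dv K a b u v 1 = 0 := by simp [dv]
@[simp] theorem dv_algebraMap (a b u v : B) (c : K) : dv K a b u v (algebraMap K _ c) = 0 := by
  unfold dv
  rw [AlgHom.commutes, Algebra.algebraMap_eq_smul_one]
  simp
theorem dv_add (a b u v : B) (f g : A K) :
    dv K a b u v (f + g) = dv K a b u v f + dv K a b u v g := by simp [dv]
theorem dv_sub (a b u v : B) (f g : A K) :
    dv K a b u v (f - g) = dv K a b u v f - dv K a b u v g := by simp [dv]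
theorem dv_smul (a b u v : B) (c : K) (f : A K) : dv K a b u v (c • f) = c • dv K a b u v f := by
  simp [dv]
theorem dv_mul (a b u v : B) (f g : A K) :
    dv K a b u v (f * g) = ev K a b f * dv K a b u v g + dv K a b u v f * ev K a b g := by
  have h := ev_dn a b u v (f * g)
  rw [map_mul, ev_dn, ev_dn, dn_mul] at h
  exact (dn_inj.1 h).2.symm
theorem dv_br (a b u v : B) (f g : A K) : dv K a b u v (br f g) =
    br (ev K a b f) (dv K a b u v g) + br (dv K a b u v f) (ev K a b g) := by
  unfold br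
  rw [dv_sub, dv_mul, dv_mul]
  abel

theorem dv_add_dir (a b u v u' v' : B) (f : A K) :
    dv K a b (u + u') (v + v') f = dv K a b u v f + dv K a b u' v' f := by
  induction f using A_ind with
  | hc c => simp
  | hx => simp
  | hy => simp
  | hm f g hf hg => simp only [dv_mul, hf, hg, mul_add, add_mul]; abel
  | ha f g hf hg => simp only [dv_add, hf, hg]; abel

theorem dv_smul_dir (c : K) (a b u v : B) (f : A K) :
    dv K a b (c • u) (c • v) f = c • dv K a b u v f := by
  induction f using A_ind with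
  | hc c => simp
  | hx => simp
  | hy => simp
  | hm f g hf hg => simp only [dv_mul, hf, hg, mul_smul_comm, smul_mul_assoc, smul_add]
  | ha f g hf hg => simp only [dv_add, hf, hg, smul_add]

theorem dv_zero_dir (a b : B) (f : A K) : dv K a b 0 0 f = 0 := by
  simpa using dv_smul_dir (0 : K) a b 0 0 f

theorem map_dv (φ : B →ₐ[K] C) (a b u v : B) (f : A K) :
    φ (dv K a b u v f) = dv K (φ a) (φ b) (φ u) (φ v) f := by
  induction f using A_ind with
  | hc c => simp
  | hx => simp
  | hy => simp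
  | hm f g hf hg => simp only [dv_mul, map_add, map_mul, hf, hg, map_ev]
  | ha f g hf hg => simp only [dv_add, map_add, hf, hg]

theorem dv_inner (a b g : B) (f : A K) : dv K a b (br a g) (br b g) f = br (ev K a b f) g := by
  induction f using A_ind with
  | hc c => rw [dv_algebraMap, AlgHom.commutes]; exact (br_eq_zero.2 (Algebra.commutes c g)).symm
  | hx => simp
  | hy => simp
  | hm f f' hf hg => rw [dv_mul, hf, hg, map_mul]; unfold br; noncomm_ring
  | ha f f' hf hg => rw [dv_add, hf, hg, map_add]; unfold br; noncomm_ring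

theorem ev_D (a b : B) (ψ f : A K) : ev K a b (D ψ f) = dv K a b 0 (br b (ev K a b ψ)) f := by
  unfold D
  rw [map_dv, ev_X, ev_Y, map_zero, map_br, ev_Y]

/-- chain rule along an edge -/
theorem dv_edge (a b g : B) (ψ f : A K) :
    dv K a b (br a g) (br b (g + ev K a b ψ)) f = ev K a b (D ψ f) + br (ev K a b f) g := by
  have h : br b (g + ev K a b ψ) = br b (ev K a b ψ) + br b g := by unfold br; noncomm_ring
  rw [ev_D, ← dv_inner, ← dv_add_dir, zero_add, h]

theorem X_mem : (X : A K) ∈ Hom K 1 := by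
  rw [Hom, pow_one]; exact Submodule.subset_span (by simp)
theorem Y_mem : (Y : A K) ∈ Hom K 1 := by
  rw [Hom, pow_one]; exact Submodule.subset_span (by simp)
theorem one_mem_Hom : (1 : A K) ∈ Hom K 0 := by
  rw [Hom, pow_zero]; exact Submodule.one_le.1 le_rfl
theorem Hom_mul {m n : ℕ} {f g : A K} (hf : f ∈ Hom K m) (hg : g ∈ Hom K n) :
    f * g ∈ Hom K (m + n) := by
  rw [Hom, pow_add]; exact Submodule.mul_mem_mul hf hg

/-- induction on homogeneous polynomials -/
theorem Hom_ind {P : ℕ → A K → Prop} (h1 : P 0 1) (_h0 : ∀ n, P n 0)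
    (ha : ∀ n f g, P n f → P n g → P n (f + g)) (hs : ∀ n (c : K) f, P n f → P n (c • f))
    (hx : ∀ n f, f ∈ Hom K n → P n f → P (n + 1) (X * f))
    (hy : ∀ n f, f ∈ Hom K n → P n f → P (n + 1) (Y * f)) :
    ∀ n, ∀ f ∈ Hom K n, P n f := by
  intro n
  induction n with
  | zero =>
    intro f hf
    rw [Hom, pow_zero, Submodule.mem_one] at hf
    obtain ⟨c, rfl⟩ := hf
    rw [Algebra.algebraMap_eq_smul_one]
    exact hs 0 c 1 h1
  | succ n ih =>
    intro f hf
    rw [Hom, pow_succ'] at hf
    refine Submodule.mul_induction_on hf (fun p hp g hg => ?_) (ha _)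
    obtain ⟨c, d, rfl⟩ := Submodule.mem_span_pair.1 hp
    rw [add_mul, smul_mul_assoc, smul_mul_assoc]
    exact ha _ _ _ (hs _ _ _ (hx n g hg (ih g hg))) (hs _ _ _ (hy n g hg (ih g hg)))

theorem ev_smul {n : ℕ} {f : A K} (hf : f ∈ Hom K n) (c : K) (a b : B) :
    ev K (c • a) (c • b) f = c ^ n • ev K a b f := by
  revert n f
  refine fun {n f} hf => Hom_ind (P := fun n f => ev K (c • a) (c • b) f = c ^ n • ev K a b f)
    (by simp) (by simp) ?_ ?_ ?_ ?_ n f hf
  · intro n f g hf hg; simp only [map_add, hf, hg, smul_add]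
  · intro n d f hf; simp only [map_smul, hf, smul_comm d]
  · intro n f _ hf; simp only [map_mul, hf, ev_X, smul_mul_smul_comm, pow_succ']
  · intro n f _ hf; simp only [map_mul, hf, ev_Y, smul_mul_smul_comm, pow_succ']

/-- Euler identity -/
theorem dv_euler {n : ℕ} {f : A K} (hf : f ∈ Hom K n) (a b : B) :
    dv K a b a b f = (n : K) • ev K a b f := by
  refine Hom_ind (P := fun n f => dv K a b a b f = (n : K) • ev K a b f)
    (by simp) (by simp) ?_ ?_ ?_ ?_ n f hf
  · intro n f g hf hg; simp only [map_add, dv_add, hf, hg, smul_add]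
  · intro n d f hf; simp only [map_smul, dv_smul, hf, smul_comm d]
  · intro n f _ hf
    simp only [map_mul, dv_mul, hf, ev_X, dv_X, mul_smul_comm, Nat.cast_succ, add_smul, one_smul]
  · intro n f _ hf
    simp only [map_mul, dv_mul, hf, ev_Y, dv_Y, mul_smul_comm, Nat.cast_succ, add_smul, one_smul]

theorem ev_mem_pow {n : ℕ} {f : A K} (hf : f ∈ Hom K n) {m : Submodule K B} {a b : B}
    (ha : a ∈ m) (hb : b ∈ m) : ev K a b f ∈ m ^ n := by
  refine Hom_ind (P := fun n f => ev K a b f ∈ m ^ n) ?_ (by simp) ?_ ?_ ?_ ?_ n f hf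
  · rw [map_one, pow_zero]; exact Submodule.one_le.1 le_rfl
  · intro n f g hf hg; rw [map_add]; exact add_mem hf hg
  · intro n d f hf; rw [map_smul]; exact Submodule.smul_mem _ _ hf
  · intro n f _ hf; rw [map_mul, ev_X, pow_succ']; exact Submodule.mul_mem_mul ha hf
  · intro n f _ hf; rw [map_mul, ev_Y, pow_succ']; exact Submodule.mul_mem_mul hb hf

theorem LieW.hom {n : ℕ} {f : A K} (h : LieW n f) : f ∈ Hom K n := by
  induction h with
  | x => exact X_mem
  | y => exact Y_mem
  | zero n => exact zero_mem _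
  | add _ _ h1 h2 => exact add_mem h1 h2
  | smul c _ h1 => exact Submodule.smul_mem _ _ h1
  | br _ _ h1 h2 => exact sub_mem (Hom_mul h1 h2) (by rw [add_comm]; exact Hom_mul h2 h1)

theorem LieW.neg {n : ℕ} {f : A K} (h : LieW n f) : LieW n (-f) := by
  simpa using h.smul (-1)

theorem LieW.sub {n : ℕ} {f g : A K} (hf : LieW n f) (hg : LieW n g) : LieW n (f - g) := by
  rw [sub_eq_add_neg]; exact hf.add hg.neg

/-- Lie polynomials are primitive -/
theorem LieW.cross {n : ℕ} {f : A K} (h : LieW n f) {a b a' b' : B} (hc : Cross a b a' b') :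
    ev K (a + a') (b + b') f = ev K a b f + ev K a' b' f := by
  induction h with
  | x => simp
  | y => simp
  | zero n => simp
  | add _ _ h1 h2 => simp only [map_add, h1, h2]; abel
  | smul c _ h1 => simp only [map_smul, h1, smul_add]
  | @br m n f g _ _ h1 h2 =>
    have e1 := (hc.commute_ev f g).eq
    have e2 := (hc.commute_ev g f).eq
    simp only [map_br, h1, h2]
    unfold KZ.br
    simp only [mul_add, add_mul, e1, e2]
    abel

theorem LieW.eq_zero {n : ℕ} {f : A K} (h : LieW n f) (hn : n ≠ 1) {a b : B} (hc : Commute a b) :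
    ev K a b f = 0 := by
  induction h with
  | x => exact absurd rfl hn
  | y => exact absurd rfl hn
  | zero n => simp
  | add _ _ h1 h2 => simp [h1 hn, h2 hn]
  | smul c _ h1 => simp [h1 hn]
  | @br m n f g _ _ _ _ =>
    rw [map_br, br_eq_zero]
    exact (Cross.mk (Commute.refl a) hc hc.symm (Commute.refl b)).commute_ev f g

/-- central shifts do not matter -/
theorem LieW.shift {n : ℕ} {f : A K} (h : LieW n f) (hn : n ≠ 1) {a b c d : B}
    (hc : Cross a b c d) (hcd : Commute c d) : ev K (a + c) (b + d) f = ev K a b f := by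
  rw [h.cross hc, h.eq_zero hn hcd, add_zero]

theorem Two.app {f : A K} (h : Two f) (a b : B) : ev K b a f = -ev K a b f := by
  have := congrArg (ev K a b) h
  rw [map_add, map_ev, ev_X, ev_Y, map_zero] at this
  exact eq_neg_of_add_eq_zero_right this

theorem Three.app {f : A K} (h : Three f) (a b : B) :
    ev K a b f + ev K b (-a - b) f + ev K (-a - b) a f = 0 := by
  have := congrArg (ev K a b) h
  simpa [map_ev] using this

theorem Pent.rot {a1 a2 a3 a4 a5 : B} (h : Pent a1 a2 a3 a4 a5) : Pent a2 a3 a4 a5 a1 :=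
  ⟨h.c23, h.c34, h.c45, h.c51, h.c12, by rw [← h.six]; abel⟩

theorem Nil.pow_le {N : ℕ} {m : Submodule K B} (h : Nil N m) (k : ℕ) : m ^ (k + 1) ≤ m := by
  induction k with
  | zero => rw [zero_add, pow_one]
  | succ k ih => rw [pow_succ]; exact (mul_le_mul' ih le_rfl).trans h.mul

theorem Nil.pow_succ_le {N : ℕ} {m : Submodule K B} (h : Nil N m) (k : ℕ) :
    m ^ (k + 2) ≤ m ^ (k + 1) := by
  rw [pow_succ, pow_succ, mul_assoc]; exact mul_le_mul' le_rfl h.mul

theorem Nil.pow_eq_bot {N : ℕ} {m : Submodule K B} (h : Nil N m) {k : ℕ} (hk : N < k) :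
    m ^ k = ⊥ := by
  obtain ⟨j, rfl⟩ := Nat.exists_eq_add_of_lt hk
  rw [add_right_comm, pow_add, h.pow, Submodule.bot_mul]

theorem Nil.elt {N : ℕ} {m : Submodule K B} (h : Nil N m) {a : B} (ha : a ∈ m) :
    a ^ (N + 1) = 0 := by
  have := Submodule.pow_mem_pow m ha (N + 1)
  rwa [h.pow, Submodule.mem_bot] at this

theorem Nil.isUnit {N : ℕ} {m : Submodule K B} (h : Nil N m) {z : B} (hz : z - 1 ∈ m) :
    IsUnit z := by
  have : IsNilpotent (z - 1) := ⟨_, h.elt hz⟩
  simpa using this.isUnit_add_one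

theorem Nil.ev_Fil {N : ℕ} {m : Submodule K B} (h : Nil N m) {a b : B} (ha : a ∈ m) (hb : b ∈ m)
    {f : A K} (hf : f ∈ Fil K (N + 1)) : ev K a b f = 0 := by
  refine Submodule.mul_induction_on hf (fun p hp g _ => ?_) (fun f g h1 h2 => by simp [h1, h2])
  have := ev_mem_pow hp ha hb
  rw [h.pow, Submodule.mem_bot] at this
  rw [map_mul, this, zero_mul]

end Vale.Agent.P029.KZ
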