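import Mathlib

/-! P029 part K (existence of the generators, closure under the Ihara bracket): definitions. -/

noncomputable section
namespace Vale.Agent.P029.KZ

/-- noncommutative polynomials in `x` (letter `0`) and `y` (letter `1`) -/
abbrev A (K : Type) [Field K] : Type := FreeAlgebra K (Fin 2)

section Alg
variable {K : Type} [Field K] {B : Type} [Ring B]

def X : A K := FreeAlgebra.ι K 0
def Y : A K := FreeAlgebra.ι K 1

/-- commutator -/
def br (a b : B) : B := a * b - b * a

variable (K) in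
/-- substitution `x ↦ a`, `y ↦ b` -/
def ev [Algebra K B] (a b : B) : A K →ₐ[K] B := FreeAlgebra.lift K ![a, b]

variable (K) in
/-- homogeneous polynomials of weight `n` -/
def Hom (n : ℕ) : Submodule K (A K) := Submodule.span K {X, Y} ^ n

variable (K) in
/-- polynomials all of whose terms have weight at least `n` -/
def Fil (n : ℕ) : Submodule K (A K) := Hom K n * ⊤

/-- homogeneous Lie polynomials of weight `n` -/
inductive LieW : ℕ → A K → Prop
  | x : LieW 1 X
  | y : LieW 1 Y
  | zero (n : ℕ) : LieW n 0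
  | add {n : ℕ} {f g : A K} : LieW n f → LieW n g → LieW n (f + g)
  | smul {n : ℕ} (c : K) {f : A K} : LieW n f → LieW n (c • f)
  | br {m n : ℕ} {f g : A K} : LieW m f → LieW n g → LieW (m + n) (br f g)

/-- the five boundary elements `x12, x34, x51, x23, x45` of a pentagon -/
structure Pent (a1 a2 a3 a4 a5 : B) : Prop where
  c12 : Commute a1 a2
  c23 : Commute a2 a3
  c34 : Commute a3 a4
  c45 : Commute a4 a5
  c51 : Commute a5 a1
  six : br a1 a3 + br a2 a4 + br a3 a5 + br a4 a1 + br a5 a2 = 0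

/-- the relations of the sphere braid Lie algebra on five strands -/
structure P5 (x : Fin 5 → Fin 5 → B) : Prop where
  symm : ∀ i j, x i j = x j i
  diag : ∀ i, x i i = 0
  sum : ∀ i, ∑ j, x i j = 0
  comm : ∀ i j k l, i ≠ k → i ≠ l → j ≠ k → j ≠ l → Commute (x i j) (x k l)

/-- pairwise distinct indices -/
def Dis (i j k l m : Fin 5) : Prop :=
  i ≠ j ∧ i ≠ k ∧ i ≠ l ∧ i ≠ m ∧ j ≠ k ∧ j ≠ l ∧ j ≠ m ∧ k ≠ l ∧ k ≠ m ∧ l ≠ m

/-- two pairs that commute with each other -/
structure Cross (a b a' b' : B) : Prop where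
  aa : Commute a a'
  ab : Commute a b'
  ba : Commute b a'
  bb : Commute b b'

def Two (f : A K) : Prop := f + ev K Y X f = 0

def Three (f : A K) : Prop := f + ev K Y (-X - Y) f + ev K (-X - Y) X f = 0

/-- linear five-cycle relation -/
def Five (f : A K) : Prop :=
  ∀ (B : Type) [Ring B] [Algebra K B] (a1 a2 a3 a4 a5 : B), Pent a1 a2 a3 a4 a5 →
    ev K a2 a5 f + ev K a3 a1 f + ev K a4 a2 f + ev K a5 a3 f + ev K a1 a4 f = 0

/-- the weight `n` part of the solution space -/
structure WW (n : ℕ) (f : A K) : Prop where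
  lie : LieW n f
  two : Two f
  three : Three f
  five : Five f

/-- the dual number `a + ε b` -/
def dn (a b : B) : DualNumber B := TrivSqZeroExt.inl a + TrivSqZeroExt.inr b

variable (K) in
/-- derivative of `f(a, b)` in the direction `(u, v)` -/
def dv [Algebra K B] (a b u v : B) (f : A K) : B := (ev K (dn a u) (dn b v) f).snd

/-- the derivation `x ↦ 0`, `y ↦ [y, ψ]` -/
def D (ψ f : A K) : A K := dv K X Y 0 (br Y ψ) f

/-- Ihara bracket -/
def ihara (ψ φ : A K) : A K := D ψ φ - D φ ψ + br ψ φ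

/-- the operator `f ↦ D_ψ f + ψ f` -/
def S (ψ f : A K) : A K := D ψ f + ψ * f

/-- a subspace closed under products, all products of `N + 1` elements of which vanish -/
structure Nil [Algebra K B] (N : ℕ) (m : Submodule K B) : Prop where
  mul : m * m ≤ m
  pow : m ^ (N + 1) = ⊥

/-- pentagon equation modulo weight `> N` -/
def PentN (N : ℕ) (Φ : A K) : Prop :=
  ∀ (B : Type) [Ring B] [Algebra K B] (m : Submodule K B), Nil N m → ∀ a1 a2 a3 a4 a5 : B,
    a1 ∈ m → a2 ∈ m → a3 ∈ m → a4 ∈ m → a5 ∈ m → Pent a1 a2 a3 a4 a5 →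
      ev K a2 a5 Φ * ev K a3 a1 Φ * ev K a4 a2 Φ * ev K a5 a3 Φ * ev K a1 a4 Φ = 1

/-- group-like modulo weight `> N` -/
def GrpN (N : ℕ) (Φ : A K) : Prop :=
  ∀ (B : Type) [Ring B] [Algebra K B] (m : Submodule K B), Nil N m → ∀ a b a' b' : B,
    a ∈ m → b ∈ m → a' ∈ m → b' ∈ m → Cross a b a' b' →
      ev K (a + a') (b + b') Φ = ev K a b Φ * ev K a' b' Φ

variable (K) in
/-- `e_i ↦ e_(i+1)` for `i ≥ 1`, `e_0 ↦ 0` -/
def xM (N : ℕ) : Module.End K (Fin (N + 1) → K) where
  toFun v i := if h : 2 ≤ i.val then v ⟨i.val - 1, by omega⟩ else 0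
  map_add' v w := by funext i; simp only [Pi.add_apply]; split_ifs <;> simp
  map_smul' c v := by funext i; simp only [Pi.smul_apply]; split_ifs <;> simp

variable (K) in
/-- `e_0 ↦ e_1`, the other basis vectors go to zero -/
def yM (N : ℕ) : Module.End K (Fin (N + 1) → K) where
  toFun v i := if i.val = 1 then v 0 else 0
  map_add' v w := by funext i; simp only [Pi.add_apply]; split_ifs <;> simp
  map_smul' c v := by funext i; simp only [Pi.smul_apply]; split_ifs <;> simp

/-- the coefficient of `x^(N-1) y` -/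
def ell (N : ℕ) (f : A K) : K := ev K (xM K N) (yM K N) f (Pi.single 0 1) (Fin.last N)

/-- truncated exponential of the operator `S ψ` -/
def flow (N : ℕ) (ψ Φ : A K) : A K :=
  ∑ k ∈ Finset.range (N + 1), ((k.factorial : K)⁻¹) • (S ψ)^[k] Φ

variable (K) in
/-- `P` lifts the polynomial `p` to dual numbers, and the derivative of `p` is the dual part of `P`
up to the inner terms `gl * p - p * gr` -/
def Rel [Algebra K B] (P : Polynomial (DualNumber B)) (p : Polynomial B) (gl gr : B) : Prop :=
  ∀ j : ℕ, (P.coeff j).fst = p.coeff j ∧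
    ((j : K) + 1) • p.coeff (j + 1) = (P.coeff j).snd + gl * p.coeff j - p.coeff j * gr

end Alg

end Vale.Agent.P029.KZ
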