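import Vale.Agent.P029.KStm

noncomputable section
namespace Vale.Agent.P029.KZ

namespace FlowAux
variable {K : Type} [Field K] {B : Type} [Ring B] [Algebra K B]

theorem eval_one_mul (p q : Polynomial B) : (p * q).eval 1 = p.eval 1 * q.eval 1 := by
  rw [Polynomial.eval, Polynomial.eval₂_mul_noncomm _ _ (fun k => Commute.one_right _)]
  rfl

theorem ev_mem {N n : ℕ} {m : Submodule K B} (hm : Nil N m) {ψ : A K} (hn : 1 ≤ n)
    (hψ : ψ ∈ Hom K n) {a b : B} (ha : a ∈ m) (hb : b ∈ m) : ev K a b ψ ∈ m := by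
  obtain ⟨k, rfl⟩ := Nat.exists_eq_add_of_le' hn
  exact hm.pow_le k (ev_mem_pow hψ ha hb)

theorem br_mem {N : ℕ} {m : Submodule K B} (hm : Nil N m) {a g : B} (ha : a ∈ m) (hg : g ∈ m) :
    br a g ∈ m :=
  sub_mem (hm.mul (Submodule.mul_mem_mul ha hg)) (hm.mul (Submodule.mul_mem_mul hg ha))

end FlowAux

open FlowAux in
theorem flowP_pf (K : Type) [Field K] [CharZero K] (hfil : S_fil K) (hrel : S_rel K)
    (hpoly : S_poly K) (hdef : S_def K) : S_flowP K := by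
  intro N n ψ Φ hn hψ hΦ
  have hH := hψ.lie.hom
  have hn1 : 1 ≤ n := by omega
  obtain ⟨p, hp⟩ := hpoly N n ψ Φ hn1 hH
  have key : ∀ (j : ℕ) (B : Type) [Ring B] [Algebra K B] (m : Submodule K B), Nil N m →
      ∀ a1 a2 a3 a4 a5 : B, a1 ∈ m → a2 ∈ m → a3 ∈ m → a4 ∈ m → a5 ∈ m → Pent a1 a2 a3 a4 a5 →
        (p B a2 a5 * p B a3 a1 * p B a4 a2 * p B a5 a3 * p B a1 a4).coeff j =
          (1 : Polynomial B).coeff j := by
    intro j
    induction j with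
    | zero =>
      intro B _ _ m hm a1 a2 a3 a4 a5 h1 h2 h3 h4 h5 hP
      simp only [Polynomial.mul_coeff_zero, (hp B _ _).1, Polynomial.coeff_one_zero]
      exact hΦ B m hm a1 a2 a3 a4 a5 h1 h2 h3 h4 h5 hP
    | succ j ih =>
      intro B _ _ m hm a1 a2 a3 a4 a5 h1 h2 h3 h4 h5 hP
      have f1 := hψ.five B _ _ _ _ _ hP
      obtain ⟨g1, g2, g3, g4, g5, m1, m2, m3, m4, m5, e1, e2, e3, e4, e5⟩ :
          ∃ g1 g2 g3 g4 g5 : B, g1 ∈ m ∧ g2 ∈ m ∧ g3 ∈ m ∧ g4 ∈ m ∧ g5 ∈ m ∧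
            g5 = g1 + ev K a2 a5 ψ ∧ g1 = g2 + ev K a3 a1 ψ ∧ g2 = g3 + ev K a4 a2 ψ ∧
            g3 = g4 + ev K a5 a3 ψ ∧ g4 = g5 + ev K a1 a4 ψ :=
        ⟨0, -ev K a3 a1 ψ, -ev K a3 a1 ψ - ev K a4 a2 ψ, ev K a2 a5 ψ + ev K a1 a4 ψ, ev K a2 a5 ψ,
          zero_mem _, neg_mem (ev_mem hm hn1 hH h3 h1),
          sub_mem (neg_mem (ev_mem hm hn1 hH h3 h1)) (ev_mem hm hn1 hH h4 h2),
          add_mem (ev_mem hm hn1 hH h2 h5) (ev_mem hm hn1 hH h1 h4), ev_mem hm hn1 hH h2 h5,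
          by abel, by abel, by abel, by linear_combination (norm := abel) -f1, rfl⟩
      obtain ⟨⟨c1, c2, c3, c4, c5⟩, hQ⟩ :=
        hdef n ψ hn hψ B a1 a2 a3 a4 a5 g1 g2 g3 g4 g5 hP e1 e2 e3 e4 e5
      obtain ⟨m', hm', hd⟩ := hfil.dual B N m hm
      have r1 := (hp B a2 a5).2.2 m hm h2 h5 g1
      have r2 := (hp B a3 a1).2.2 m hm h3 h1 g2
      have r3 := (hp B a4 a2).2.2 m hm h4 h2 g3
      have r4 := (hp B a5 a3).2.2 m hm h5 h3 g4
      have r5 := (hp B a1 a4).2.2 m hm h1 h4 g5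
      rw [← e1, ← c2] at r1
      rw [← e2, ← c3] at r2
      rw [← e3, ← c4] at r3
      rw [← e4, ← c5] at r4
      rw [← e5, ← c1] at r5
      have r := hrel B _ _ _ _ _ _ _ (hrel B _ _ _ _ _ _ _ (hrel B _ _ _ _ _ _ _
        (hrel B _ _ _ _ _ _ _ r1 r2) r3) r4) r5 j
      rw [ih _ m' hm' _ _ _ _ _ (hd _ _ h1 (br_mem hm h1 m1)) (hd _ _ h2 (br_mem hm h2 m2))
        (hd _ _ h3 (br_mem hm h3 m3)) (hd _ _ h4 (br_mem hm h4 m4)) (hd _ _ h5 (br_mem hm h5 m5)) hQ,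
        ih B m hm _ _ _ _ _ h1 h2 h3 h4 h5 hP] at r
      have r' := r.2
      have z : ((1 : Polynomial (DualNumber B)).coeff j).snd + g5 * (1 : Polynomial B).coeff j -
          (1 : Polynomial B).coeff j * g5 = 0 := by
        simp only [Polynomial.coeff_one]
        split_ifs <;> simp
      rw [z] at r'
      rw [(smul_eq_zero.1 r').resolve_left (Nat.cast_add_one_ne_zero j), Polynomial.coeff_one,
        if_neg (Nat.succ_ne_zero j)]
  intro B _ _ m hm a1 a2 a3 a4 a5 h1 h2 h3 h4 h5 hP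
  have e := congrArg (Polynomial.eval 1)
    (Polynomial.ext fun j => key j B m hm a1 a2 a3 a4 a5 h1 h2 h3 h4 h5 hP)
  simpa only [eval_one_mul, (hp B _ _).2.1, Polynomial.eval_one] using e

end Vale.Agent.P029.KZ
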