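import Vale.Agent.P029.KStm

noncomputable section
namespace Vale.Agent.P029.KZ

theorem rel_pf (K : Type) [Field K] [CharZero K] :
    S_rel K := by
  intro B _ _ P Q p q g1 g2 g3 h1 h2 j
  have hd : ∀ (r : Polynomial B) (i : ℕ),
      ((i : K) + 1) • r.coeff (i + 1) = (Polynomial.derivative r).coeff i := by
    intro r i
    rw [Polynomial.coeff_derivative, Algebra.smul_def, Algebra.commutes]
    simp
  refine ⟨?_, ?_⟩
  · rw [Polynomial.coeff_mul, Polynomial.coeff_mul, TrivSqZeroExt.fst_sum]
    refine Finset.sum_congr rfl fun c _ => ?_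
    rw [TrivSqZeroExt.fst_mul, (h1 _).1, (h2 _).1]
  · rw [hd, Polynomial.derivative_mul, Polynomial.coeff_add, Polynomial.coeff_mul,
      Polynomial.coeff_mul, Polynomial.coeff_mul, Polynomial.coeff_mul, TrivSqZeroExt.snd_sum,
      Finset.mul_sum, Finset.sum_mul, ← Finset.sum_add_distrib, ← Finset.sum_add_distrib,
      ← Finset.sum_sub_distrib]
    refine Finset.sum_congr rfl fun c _ => ?_
    rw [← hd, ← hd, (h1 _).2, (h2 _).2, snd_mul', (h1 _).1, (h2 _).1]
    noncomm_ring

end Vale.Agent.P029.KZ
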