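import Vale.Agent.P029.KBase
import Vale.Agent.P029.ADefs

/-! P029 part K: statements of the pieces. -/

open Set Filter Topology

noncomputable section
namespace Vale.Agent.P029.KZ

section Alg
variable (K : Type) [Field K]

/-- primitive implies Lie -/
def S_dyn : Prop := ∀ (n : ℕ) (f : A K), 1 ≤ n → f ∈ Hom K n →
  (∀ (B : Type) [Ring B] [Algebra K B] (a b a' b' : B), Cross a b a' b' →
    ev K (a + a') (b + b') f = ev K a b f + ev K a' b' f) → LieW n f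

structure S_p5 : Prop where
  ext : ∀ (B : Type) [Ring B] [Algebra K B] (a1 a2 a3 a4 a5 : B), Pent a1 a2 a3 a4 a5 →
    ∃ x : Fin 5 → Fin 5 → B, P5 x ∧ x 0 1 = a1 ∧ x 2 3 = a2 ∧ x 4 0 = a3 ∧ x 1 2 = a4 ∧ x 3 4 = a5
  pent : ∀ (B : Type) [Ring B] [Algebra K B] (x : Fin 5 → Fin 5 → B), P5 x → ∀ i j k l m,
    Dis i j k l m → Pent (x i j) (x k l) (x m i) (x j k) (x l m)
  tri : ∀ (B : Type) [Ring B] [Algebra K B] (x : Fin 5 → Fin 5 → B), P5 x → ∀ i j k l m,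
    Dis i j k l m → x i j + x i k + x j k = x l m
  four : ∀ (B : Type) [Ring B] [Algebra K B] (x : Fin 5 → Fin 5 → B), P5 x → ∀ i j k l m,
    Dis i j k l m → x i j + x i k + x i l + x i m = 0
  shift : ∀ (B : Type) [Ring B] [Algebra K B] (x : Fin 5 → Fin 5 → B), P5 x → ∀ i j k l m,
    Dis i j k l m → ∀ (n : ℕ) (f : A K), n ≠ 1 → LieW n f →
      ev K (x i j) (x j k) f = ev K (x i j) (-x i k - x i j) f ∧
      ev K (x j k) (x i k) f = ev K (-x i k - x i j) (x i k) f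
  ofSum : ∀ (B : Type) [Ring B] [Algebra K B] (x : Fin 5 → Fin 5 → B), (∀ i j, x i j = x j i) →
    (∀ i, x i i = 0) → (∀ i j k l m, Dis i j k l m → x i j + x i k + x j k = x l m) →
    (∀ i j k l m, Dis i j k l m → Commute (x i j) (x k l)) → P5 x

/-- the fibre of forgetting a point is free -/
def S_fib : Prop := ∀ f1 f2 f3 f4 : A K,
  (∀ (B : Type) [Ring B] [Algebra K B] (x : Fin 5 → Fin 5 → B), P5 x →
    ev K (x 0 1) (x 0 2) f1 + ev K (x 0 3) (x 0 4) f2 + ev K (x 0 1) (x 0 3) f3 +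
      ev K (x 0 2) (x 0 4) f4 = 0) →
  ∀ (B : Type) [Ring B] [Algebra K B] (p q r : B),
    ev K p q f1 + ev K r (-p - q - r) f2 + ev K p r f3 + ev K q (-p - q - r) f4 = 0

/-- the five-cycle relation implies the other two -/
def S_three : Prop := ∀ (n : ℕ) (f : A K), 3 ≤ n → LieW n f → Five f → Two f ∧ Three f

/-- potential on the fifteen vertices -/
def S_pot : Prop := ∀ (M : Type) [AddCommGroup M] [Module K M] (φ : Fin 5 → Fin 5 → Fin 5 → M),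
  (∀ i j k, φ k j i = -φ i j k) →
  (∀ i j k l m, Dis i j k l m → φ i j k + φ k l m + φ m i j + φ j k l + φ l m i = 0) →
  (∀ i j k l m, Dis i j k l m → φ i j k + φ j k i + φ k i j = 0) →
  ∃ γ : Fin 5 → Fin 5 → Fin 5 → Fin 5 → Fin 5 → M, ∀ i j k l m, Dis i j k l m →
    γ j i k l m = γ i j k l m ∧ γ i j l k m = γ i j k l m ∧ γ k l i j m = γ i j k l m ∧
      γ i j k m l = γ i j k l m + φ l k m

/-- the infinitesimal conjugations of the ten generators -/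
def S_del : Prop := ∀ (n : ℕ) (f : A K), 3 ≤ n → WW n f →
  ∀ (B : Type) [Ring B] [Algebra K B] (x : Fin 5 → Fin 5 → B), P5 x →
    ∃ (γ : Fin 5 → Fin 5 → Fin 5 → Fin 5 → Fin 5 → B) (δ : Fin 5 → Fin 5 → B),
      (∀ i j, δ i j = δ j i) ∧ (∀ i, δ i i = 0) ∧ ∀ i j k l m, Dis i j k l m →
        δ i j = br (x i j) (γ i j k l m) ∧ δ k l = br (x k l) (γ i j k l m) ∧
        γ k l i j m = γ i j k l m ∧ γ j i k l m = γ i j k l m ∧ γ i j l k m = γ i j k l m ∧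
        γ i j k m l = γ i j k l m + ev K (x k l) (x k m) f ∧
        δ i j + δ i k + δ j k - δ l m =
          ev K (x i j) (x i k) (br Y f + br (-X - Y) (ev K X (-X - Y) f))

/-- Drinfeld's special identity -/
def S_spec : Prop := ∀ (n : ℕ) (f : A K), 3 ≤ n → WW n f →
  br Y f + br (-X - Y) (ev K X (-X - Y) f) = 0

/-- the deformed pentagon family -/
def S_def : Prop := ∀ (n : ℕ) (f : A K), 3 ≤ n → WW n f →
  ∀ (B : Type) [Ring B] [Algebra K B] (a1 a2 a3 a4 a5 g1 g2 g3 g4 g5 : B), Pent a1 a2 a3 a4 a5 →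
    g5 = g1 + ev K a2 a5 f → g1 = g2 + ev K a3 a1 f → g2 = g3 + ev K a4 a2 f →
    g3 = g4 + ev K a5 a3 f → g4 = g5 + ev K a1 a4 f →
      (br a1 g1 = br a1 g5 ∧ br a2 g2 = br a2 g1 ∧ br a3 g3 = br a3 g2 ∧ br a4 g4 = br a4 g3 ∧
        br a5 g5 = br a5 g4) ∧
      Pent (dn a1 (br a1 g1)) (dn a2 (br a2 g2)) (dn a3 (br a3 g3)) (dn a4 (br a4 g4))
        (dn a5 (br a5 g5))

/-- closure under the Ihara bracket -/
def S_ih : Prop := ∀ (m n : ℕ) (ψ φ : A K), 3 ≤ m → 3 ≤ n → WW m ψ → WW n φ →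
  WW (m + n) (ihara ψ φ)

structure S_fil : Prop where
  hom : ∀ n, Hom K n ≤ Fil K n
  zero : Fil K 0 = ⊤
  anti : ∀ m n, m ≤ n → Fil K n ≤ Fil K m
  mul : ∀ m n (f g : A K), f ∈ Fil K m → g ∈ Fil K n → f * g ∈ Fil K (m + n)
  split : ∀ n (f : A K), f ∈ Fil K n → ∃ ψ ∈ Hom K n, f - ψ ∈ Fil K (n + 1)
  evm : ∀ (B : Type) [Ring B] [Algebra K B] (N : ℕ) (m : Submodule K B), Nil N m → ∀ a b : B,
    a ∈ m → b ∈ m → ∀ n (f : A K), 1 ≤ n → f ∈ Fil K n → ev K a b f ∈ m ^ n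
  sub : ∀ n (p q f : A K), p ∈ Fil K 1 → q ∈ Fil K 1 → f ∈ Fil K n → ev K p q f ∈ Fil K n
  der : ∀ n k (ψ f : A K), ψ ∈ Hom K n → f ∈ Fil K k → D ψ f ∈ Fil K (n + k) ∧
    D ψ f ∈ Fil K (n + 1) ∧ S ψ f ∈ Fil K (n + k)
  dual : ∀ (B : Type) [Ring B] [Algebra K B] (N : ℕ) (m : Submodule K B), Nil N m →
    ∃ m' : Submodule K (DualNumber B), Nil N m' ∧ ∀ a u, a ∈ m → u ∈ m → dn a u ∈ m'

/-- truncated polynomials over an algebra -/
def S_trunc : Prop := ∀ (B : Type) [Ring B] [Algebra K B] (n : ℕ),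
  ∃ (C : Type) (_ : Ring C) (_ : Algebra K C) (ι : B →ₐ[K] C) (h : C) (m : Submodule K C),
    Nil n m ∧ (∀ z, Commute h z) ∧ (∀ b, h * ι b ∈ m) ∧ ∀ b, h ^ n * ι b = 0 → b = 0

def S_diff : Prop := ∀ (N n : ℕ) (Φ Φ' : A K), 3 ≤ n → n ≤ N → PentN N Φ → PentN N Φ' →
  GrpN N Φ → GrpN N Φ' → Φ' - 1 ∈ Fil K 1 → Φ - Φ' ∈ Fil K n →
    ∃ ψ, WW n ψ ∧ Φ - Φ' - ψ ∈ Fil K (n + 1)

/-- product rule -/
def S_rel : Prop := ∀ (B : Type) [Ring B] [Algebra K B] (P Q : Polynomial (DualNumber B))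
  (p q : Polynomial B) (g1 g2 g3 : B), Rel K P p g1 g2 → Rel K Q q g2 g3 →
    Rel K (P * Q) (p * q) g1 g3

/-- the polynomial in the flow time and its derivative -/
def S_poly : Prop := ∀ (N n : ℕ) (ψ Φ : A K), 1 ≤ n → ψ ∈ Hom K n →
  ∃ p : ∀ (B : Type) [Ring B] [Algebra K B], B → B → Polynomial B,
    ∀ (B : Type) [Ring B] [Algebra K B] (a b : B),
      (p B a b).coeff 0 = ev K a b Φ ∧ (p B a b).eval 1 = ev K a b (flow N ψ Φ) ∧
      ∀ m : Submodule K B, Nil N m → a ∈ m → b ∈ m → ∀ g : B,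
        Rel K (p (DualNumber B) (dn a (br a g)) (dn b (br b (g + ev K a b ψ)))) (p B a b)
          (g + ev K a b ψ) g

def S_flowP : Prop := ∀ (N n : ℕ) (ψ Φ : A K), 3 ≤ n → WW n ψ → PentN N Φ → PentN N (flow N ψ Φ)

def S_flowG : Prop := ∀ (N n : ℕ) (ψ Φ : A K), 1 ≤ n → LieW n ψ → GrpN N Φ → GrpN N (flow N ψ Φ)

structure S_ell : Prop where
  add : ∀ N (f g : A K), ell N (f + g) = ell N f + ell N g
  smul : ∀ N (c : K) (f : A K), ell N (c • f) = c * ell N f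
  hom : ∀ N n (f : A K), f ∈ Hom K n → n ≠ N → ell N f = 0
  nil : ∀ N, ∃ m : Submodule K (Module.End K (Fin (N + 1) → K)), Nil N m ∧ xM K N ∈ m ∧ yM K N ∈ m
  scale : ∀ N (c : K) (f : A K), ell N (ev K (c • X) (c • Y) f) = c ^ N * ell N f
  flow : ∀ N n (ψ Φ : A K), 1 ≤ N → 2 ≤ n → LieW n ψ → Φ - 1 ∈ Fil K 1 →
    ell N (flow N ψ Φ) = ell N Φ + ell N ψ
  ih : ∀ N m n (ψ φ : A K), 2 ≤ m → 2 ≤ n → LieW m ψ → LieW n φ → ell N (ihara ψ φ) = 0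

def S_ind : Prop := ∀ (N : ℕ) (Φ : A K), 3 ≤ N → Odd N → PentN N Φ → GrpN N Φ →
  Φ - 1 ∈ Fil K 2 → ell N Φ ≠ 0 → ∃ ψ : A K, WW N ψ ∧ ell N ψ ≠ 0

/-- dictionary to the definitions of `Defs` -/
structure S_dict : Prop where
  lie : ∀ (n : ℕ) (f : A K), LieW n f ↔ f ∈ P029.LieW K one1 n
  ell : ∀ (N : ℕ) (f : A K), 1 ≤ N → ell N f = co (xy (N - 1)) f
  ih : ∀ ψ φ : A K, ihara ψ φ = P029.ih ψ φ
  five : ∀ f : A K, Five f ↔ P029.Pent f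

end Alg

def S_desc : Prop := ∀ N : ℕ, 3 ≤ N → (∃ ψ : A ℝ, WW N ψ ∧ ell N ψ ≠ 0) →
  ∃ ψ : A ℚ, WW N ψ ∧ ell N ψ ≠ 0

/-- the output of block A -/
structure S_an : Prop where
  pent : ∀ (E : Type) [NormedRing E] [NormedAlgebra ℝ E] [CompleteSpace E] [NormOneClass E]
    (a b c d e : E), Sys a b c d e → Sm a → Sm b → Sm c → Sm d → Sm e →
      Phi d c * Phi b a * Phi e d * Phi c b * Phi a e = 1
  grp : ∀ (E : Type) [NormedRing E] [NormedAlgebra ℝ E] [CompleteSpace E] [NormOneClass E]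
    (a c a' c' : E), Sm a → Sm c → Sm a' → Sm c' → Sm (a + a') → Sm (c + c') → Commute a a' →
      Commute a c' → Commute c a' → Commute c c' → Phi (a + a') (c + c') = Phi a c * Phi a' c'
  zr : ∀ (E : Type) [NormedRing E] [NormedAlgebra ℝ E] [CompleteSpace E] [NormOneClass E] (a : E),
    Sm a → Phi a 0 = 1
  zl : ∀ (E : Type) [NormedRing E] [NormedAlgebra ℝ E] [CompleteSpace E] [NormOneClass E] (a : E),
    Sm a → Phi 0 a = 1
  map : ∀ (E : Type) [NormedRing E] [NormedAlgebra ℝ E] [CompleteSpace E] [NormOneClass E]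
    (E' : Type) [NormedRing E'] [NormedAlgebra ℝ E'] [CompleteSpace E'] [NormOneClass E']
    (f : E →ₐ[ℝ] E'), Continuous f → ∀ a c : E, Sm a → Sm c → Sm (f a) → Sm (f c) →
      f (Phi a c) = Phi (f a) (f c)
  coef : ∀ (E : Type) [NormedRing E] [NormedAlgebra ℝ E] [CompleteSpace E] [NormOneClass E]
    (a c : E), Sm a → Sm c → c * a = 0 → c * c = 0 → ∀ (l : E →L[ℝ] ℝ) (i : ℕ), 0 < i → ∀ μ : ℝ,
      0 < μ → l 1 = 0 → (∀ k, l (a ^ k * c) = if k = i then μ else 0) → l (Phi a c) < 0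

/-- `Φ` is the associator truncated at weight `N` -/
def IsPhi (N : ℕ) (Φ : A ℝ) : Prop :=
  ∀ (E : Type) [NormedRing E] [NormedAlgebra ℝ E] [CompleteSpace E] [NormOneClass E]
    (m : Submodule ℝ E), Nil N m → ∀ a b : E, a ∈ m → b ∈ m → Sm a → Sm b → ev ℝ a b Φ = Phi a b

/-- reduction to finite-dimensional Banach algebras -/
def S_fin : Prop := ∀ (N : ℕ) (B : Type) [Ring B] [Algebra ℝ B] [Nontrivial B] (m : Submodule ℝ B),
  Nil N m → ∀ z : Fin 5 → B, (∀ i, z i ∈ m) →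
    ∃ (E : Type) (_ : NormedRing E) (_ : NormedAlgebra ℝ E) (_ : CompleteSpace E)
      (_ : NormOneClass E) (_ : FiniteDimensional ℝ E) (φ : E →ₐ[ℝ] B) (m' : Submodule ℝ E)
      (w : Fin 5 → E), Function.Injective φ ∧ Nil N m' ∧ ∀ i, w i ∈ m' ∧ φ (w i) = z i

def S_phi : Prop := ∀ N : ℕ, ∃ Φ : A ℝ, IsPhi N Φ

def S_pentN : Prop := ∀ (N : ℕ) (Φ : A ℝ), IsPhi N Φ → PentN N Φ ∧ GrpN N Φ

def S_depth : Prop := ∀ (N : ℕ) (Φ : A ℝ), 2 ≤ N → IsPhi N Φ → Φ - 1 ∈ Fil ℝ 2 ∧ ell N Φ ≠ 0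

/-- existence of the generators -/
def S_sigma : Prop := ∀ N : ℕ, 3 ≤ N → Odd N → ∃ ψ : A ℚ, WW N ψ ∧ ell N ψ ≠ 0

theorem sigma_of (h2 : S_phi) (h3 : S_pentN) (h5 : S_depth) (h6 : S_ind ℝ) (h7 : S_desc) :
    S_sigma := by
  intro N hN ho
  obtain ⟨Φ, hΦ⟩ := h2 N
  exact h7 N hN (h6 N Φ hN ho (h3 N Φ hΦ).1 (h3 N Φ hΦ).2 (h5 N Φ (by omega) hΦ).1
    (h5 N Φ (by omega) hΦ).2)

end Vale.Agent.P029.KZ
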