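import Vale.Agent.P029.Grade
import Vale.Agent.P029.Der

noncomputable section

namespace Vale.Agent.P029

open FreeAlgebra

variable {R : Type} [CommRing R] {X Y : Type} {A : Type} [Ring A] [Algebra R A]
variable {wt : X → ℕ} {wt' : Y → ℕ} {m n k : ℕ}

@[simp] theorem lm_of (x : X) : lm R (FreeMagma.of x) = ι R x := rfl
@[simp] theorem lm_mul (a b : FreeMagma X) : lm R (a * b) = br (lm R a) (lm R b) := rfl
@[simp] theorem mw_of (wt : X → ℕ) (x : X) : mw wt (FreeMagma.of x) = wt x := rfl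
@[simp] theorem mw_mul (wt : X → ℕ) (a b : FreeMagma X) : mw wt (a * b) = mw wt a + mw wt b := rfl

theorem lie1_br {S T : Set A} {U : Submodule R A} (h : ∀ a ∈ S, ∀ b ∈ T, br a b ∈ U) {f g : A}
    (hf : f ∈ Submodule.span R S) (hg : g ∈ Submodule.span R T) : br f g ∈ U := by
  induction hf using Submodule.span_induction with
  | mem a ha =>
    induction hg using Submodule.span_induction with
    | mem b hb => exact h a ha b hb
    | zero => rw [br_zero_right]; exact zero_mem _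
    | add x y _ _ hx hy => rw [br_add_right]; exact add_mem hx hy
    | smul r x _ hx => rw [br_smul_right]; exact U.smul_mem r hx
  | zero => rw [br_zero_left]; exact zero_mem _
  | add x y _ _ hx hy => rw [br_add_left]; exact add_mem hx hy
  | smul r x _ hx => rw [br_smul_left]; exact U.smul_mem r hx

theorem mw_pos (h : ∀ x, 0 < wt x) (a : FreeMagma X) : 0 < mw wt a := by
  induction a with
  | ih1 x => exact h x
  | ih2 a b ha _ => rw [mw_mul]; omega

theorem lm_mem_HomW (a : FreeMagma X) : lm R a ∈ HomW R wt (mw wt a) := by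
  induction a with
  | ih1 x => exact ι_mem_HomW x
  | ih2 a b ha hb => exact HomW_br ha hb

theorem lm_mem_LieA (a : FreeMagma X) : lm R a ∈ LieA R X := by
  exact Submodule.subset_span ⟨a, rfl⟩

theorem lm_mem_LieW (a : FreeMagma X) : lm R a ∈ LieW R wt (mw wt a) := by
  exact Submodule.subset_span ⟨a, rfl, rfl⟩

theorem ι_mem_LieA (x : X) : ι R x ∈ LieA R X := by
  exact lm_mem_LieA (FreeMagma.of x)

theorem ι_mem_LieW (x : X) : ι R x ∈ LieW R wt (wt x) := by
  exact lm_mem_LieW (FreeMagma.of x)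

theorem LieA_br {f g : FA R X} (hf : f ∈ LieA R X) (hg : g ∈ LieA R X) : br f g ∈ LieA R X := by
  refine lie1_br ?_ hf hg
  rintro _ ⟨a, rfl⟩ _ ⟨b, rfl⟩
  exact lm_mem_LieA (a * b)

theorem LieW_br {f g : FA R X} (hf : f ∈ LieW R wt m) (hg : g ∈ LieW R wt n) :
    br f g ∈ LieW R wt (m + n) := by
  refine lie1_br ?_ hf hg
  rintro _ ⟨a, rfl, rfl⟩ _ ⟨b, rfl, rfl⟩
  exact lm_mem_LieW (a * b)

theorem LieGe_br {f g : FA R X} (hf : f ∈ LieGe R X m) (hg : g ∈ LieGe R X n) :
    br f g ∈ LieGe R X (m + n) := by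
  refine lie1_br ?_ hf hg
  rintro _ ⟨a, ha, rfl⟩ _ ⟨b, hb, rfl⟩
  exact Submodule.subset_span ⟨a * b, add_le_add ha hb, rfl⟩

theorem LieW_le_LieA : LieW R wt n ≤ LieA R X := by
  refine Submodule.span_mono ?_
  rintro _ ⟨a, -, rfl⟩
  exact ⟨a, rfl⟩

theorem LieGe_le_LieA : LieGe R X n ≤ LieA R X := by
  refine Submodule.span_mono ?_
  rintro _ ⟨a, -, rfl⟩
  exact ⟨a, rfl⟩

theorem LieA_le_LieGe_one : LieA R X ≤ LieGe R X 1 := by
  refine Submodule.span_mono ?_
  rintro _ ⟨a, rfl⟩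
  exact ⟨a, mw_pos (fun _ => one_pos) a, rfl⟩

theorem LieW_le_HomW : LieW R wt n ≤ HomW R wt n := by
  refine Submodule.span_le.2 ?_
  rintro _ ⟨a, rfl, rfl⟩
  exact lm_mem_HomW a

theorem LieGe_le_GeW : LieGe R X n ≤ GeW R one1 n := by
  refine Submodule.span_le.2 ?_
  rintro _ ⟨a, ha, rfl⟩
  exact HomW_le_GeW ha (lm_mem_HomW a)

theorem LieGe_anti (h : m ≤ n) : LieGe R X n ≤ LieGe R X m := by
  refine Submodule.span_mono ?_
  rintro _ ⟨a, ha, rfl⟩
  exact ⟨a, h.trans ha, rfl⟩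

theorem LieW_le_LieGe (h : m ≤ n) : LieW R (one1 : X → ℕ) n ≤ LieGe R X m := by
  refine Submodule.span_mono ?_
  rintro _ ⟨a, rfl, rfl⟩
  exact ⟨a, h, rfl⟩

theorem lieA_ind {P : FA R X → Prop} (hι : ∀ x, P (ι R x)) (h0 : P 0)
    (hadd : ∀ f g, f ∈ LieA R X → g ∈ LieA R X → P f → P g → P (f + g))
    (hsmul : ∀ (r : R) f, f ∈ LieA R X → P f → P (r • f))
    (hbr : ∀ f g, f ∈ LieA R X → g ∈ LieA R X → P f → P g → P (br f g))
    {f : FA R X} (hf : f ∈ LieA R X) : P f := by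
  induction hf using Submodule.span_induction with
  | mem f hf =>
    obtain ⟨a, rfl⟩ := hf
    induction a with
    | ih1 x => exact hι x
    | ih2 a b ha hb => exact hbr _ _ (lm_mem_LieA a) (lm_mem_LieA b) ha hb
  | zero => exact h0
  | add f g hf hg h1 h2 => exact hadd f g hf hg h1 h2
  | smul r f hf h1 => exact hsmul r f hf h1

theorem proj_mem_LieW {f : FA R X} (hf : f ∈ LieA R X) : proj wt n f ∈ LieW R wt n := by
  refine (Submodule.span_le (p := (LieW R wt n).comap (proj wt n))).2 ?_ hf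
  rintro _ ⟨a, rfl⟩
  show proj wt n (lm R a) ∈ LieW R wt n
  by_cases h : mw wt a = n
  · subst h
    rw [proj_of_mem (lm_mem_HomW a)]
    exact lm_mem_LieW a
  · rw [proj_of_ne (lm_mem_HomW a) h]
    exact zero_mem _

theorem mem_LieW_of {f : FA R X} (hf : f ∈ LieA R X) (h : f ∈ HomW R wt n) : f ∈ LieW R wt n := by
  rw [← proj_of_mem h]
  exact proj_mem_LieW hf

theorem mem_LieGe_of {f : FA R X} (hf : f ∈ LieA R X) (h : f ∈ GeW R one1 n) :
    f ∈ LieGe R X n := by
  obtain ⟨N, -, hN⟩ := exists_sum_proj one1 f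
  rw [hN]
  refine Submodule.sum_mem _ fun i _ => ?_
  rcases lt_or_ge i n with hi | hi
  · rw [proj_of_GeW h hi]
    exact zero_mem _
  · exact LieW_le_LieGe hi (proj_mem_LieW hf)

theorem proj_mem_LieGe {f : FA R X} (hf : f ∈ LieGe R X k) : proj one1 n f ∈ LieGe R X k := by
  rcases lt_or_ge n k with hi | hi
  · rw [proj_of_GeW (LieGe_le_GeW hf) hi]
    exact zero_mem _
  · exact LieW_le_LieGe hi (proj_mem_LieW (LieGe_le_LieA hf))

theorem lift_LieA {g : X → FA R Y} (hg : ∀ x, g x ∈ LieA R Y) {f : FA R X} (hf : f ∈ LieA R X) :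
    FreeAlgebra.lift R g f ∈ LieA R Y := by
  refine lieA_ind (P := fun f => FreeAlgebra.lift R g f ∈ LieA R Y) (fun x => ?_) ?_
    (fun a b _ _ ha hb => ?_) (fun r a _ ha => ?_) (fun a b _ _ ha hb => ?_) hf
  · rw [FreeAlgebra.lift_ι_apply]
    exact hg x
  · rw [map_zero]
    exact zero_mem _
  · rw [map_add]
    exact add_mem ha hb
  · rw [map_smul]
    exact Submodule.smul_mem _ _ ha
  · rw [map_br]
    exact LieA_br ha hb

theorem isDer_LieA {D : Module.End R (FA R X)} (hD : IsDer D) (hx : ∀ x, D (ι R x) ∈ LieA R X)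
    {f : FA R X} (hf : f ∈ LieA R X) : D f ∈ LieA R X := by
  refine lieA_ind (P := fun f => D f ∈ LieA R X) hx ?_
    (fun a b _ _ ha hb => ?_) (fun r a _ ha => ?_) (fun a b h1 h2 ha hb => ?_) hf
  · rw [map_zero]
    exact zero_mem _
  · rw [map_add]
    exact add_mem ha hb
  · rw [map_smul]
    exact Submodule.smul_mem _ _ ha
  · rw [hD.map_br]
    exact add_mem (LieA_br ha h2) (LieA_br h1 hb)

theorem co_nil_LieA {f : FA R X} (hf : f ∈ LieA R X) : co [] f = 0 := by
  exact mem_GeW.1 (LieGe_le_GeW (LieA_le_LieGe_one hf)) [] (by simp)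

/-- Generation of the weight `n` part by generators and brackets of lower weights. -/
theorem LieW_le_gen (h : ∀ x, 0 < wt x) : LieW R wt n ≤
    Submodule.span R {f | ∃ x, wt x = n ∧ f = ι R x} ⊔
    Submodule.span R {f | ∃ i j a b, 0 < i ∧ 0 < j ∧ i + j = n ∧ a ∈ LieW R wt i ∧
      b ∈ LieW R wt j ∧ f = br a b} := by
  refine Submodule.span_le.2 ?_
  rintro _ ⟨a, ha, rfl⟩
  induction a with
  | ih1 x => exact Submodule.mem_sup_left (Submodule.subset_span ⟨x, ha, rfl⟩)
  | ih2 a b _ _ =>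
    exact Submodule.mem_sup_right (Submodule.subset_span ⟨mw wt a, mw wt b, lm R a, lm R b,
      mw_pos h a, mw_pos h b, ha, lm_mem_LieW a, lm_mem_LieW b, rfl⟩)

theorem lift_isDer {g : X → Module.End R A} (hg : ∀ x, IsDer (g x)) {f : FA R X}
    (hf : f ∈ LieA R X) : IsDer (FreeAlgebra.lift R g f) := by
  refine lieA_ind (P := fun f => IsDer (FreeAlgebra.lift R g f)) (fun x => ?_) ?_
    (fun a b _ _ ha hb => ?_) (fun r a _ ha => ?_) (fun a b _ _ ha hb => ?_) hf
  · rw [FreeAlgebra.lift_ι_apply]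
    exact hg x
  · rw [map_zero]
    exact isDer_zero
  · rw [map_add]
    exact ha.add hb
  · rw [map_smul]
    exact ha.smul r
  · rw [map_br]
    exact ha.br hb

end Vale.Agent.P029
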