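import Vale.Agent.P029.Asm1
import Vale.Agent.P029.Asm2
import Vale.Agent.P029.Br2
import Vale.Agent.P029.Br3
import Vale.Agent.P029.Br4

noncomputable section

namespace Vale.Agent.P029

open FreeAlgebra

theorem main : (∃ D, IsIhD D) ∧ ∀ D, IsIhD D → ∃ (σ : ℕ → L) (φ : F →ₗ[ℚ] L),
    (∀ k, σ k ∈ W ∧ Homog (2 * k + 3) (σ k)) ∧ (∀ k, φ (FreeLieAlgebra.of ℚ k) = σ k) ∧
    (∀ a b, φ ⁅a, b⁆ = D (φ a) (φ b) - D (φ b) (φ a) + ⁅φ a, φ b⁆) ∧
    Function.Injective φ ∧ Set.range φ = W ∧ ∀ n a, HomogF n a ↔ Homog n (φ a) := by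
  refine ⟨exists_IhD, fun D hD => ?_⟩
  obtain ⟨σ0, hσ⟩ := exists_sigma
  obtain ⟨φ0, h0, hbr⟩ := exists_ih_hom (fun k => bc ℚ (σ0 k))
  obtain ⟨θ2, hθ2⟩ := exists_jL_inv (X := Fin 2)
  obtain ⟨θN, hθN⟩ := exists_jL_inv (X := ℕ)
  have hfm : ∀ m, φ0 (fm (FreeLieAlgebra.of ℚ) m) = bc ℚ (ihm σ0 m) := by
    intro m
    induction m with
    | ih1 k => exact h0 k
    | ih2 a b iha ihb =>
      show φ0 ⁅fm (FreeLieAlgebra.of ℚ) a, fm (FreeLieAlgebra.of ℚ) b⁆ =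
        bc ℚ (ih (ihm σ0 a) (ihm σ0 b))
      rw [hbr, iha, ihb, bc_ih]
  have hind : ∀ P : F → Prop, P 0 → (∀ a b, P a → P b → P (a + b)) →
      (∀ (r : ℚ) a, P a → P (r • a)) → (∀ m, P (fm (FreeLieAlgebra.of ℚ) m)) → ∀ a, P a := by
    intro P p0 pa ps pm a
    have ha : a ∈ Submodule.span ℚ (Set.range (fm (FreeLieAlgebra.of ℚ : ℕ → F))) := by
      rw [span_fm]; trivial
    induction ha using Submodule.span_induction with
    | mem x hx => obtain ⟨m, rfl⟩ := hx; exact pm m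
    | zero => exact p0
    | add x y _ _ hx hy => exact pa _ _ hx hy
    | smul r x _ hx => exact ps _ _ hx
  have hW : ∀ m, bc ℚ (ihm σ0 m) ∈ LieW ℚ (one1 : Fin 2 → ℕ) (mw wtG m) := fun m =>
    bc_LieW (ihm_spec hσ m).2.1.1
  have hlie : ∀ a, φ0 a ∈ LieA ℚ (Fin 2) := by
    refine hind _ (by simp) (fun a b ha hb => ?_) (fun r a ha => ?_) (fun m => ?_)
    · rw [map_add]; exact add_mem ha hb
    · rw [map_smul]; exact Submodule.smul_mem _ _ ha
    · rw [hfm]; exact LieW_le_LieA (hW m)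
  have hj : ∀ a, jL (Fin 2) (θ2 (φ0 a)) = φ0 a := by
    intro a
    obtain ⟨b, hb⟩ := jL_surj (hlie a)
    rw [← hb, hθ2]
  have hθ : ∀ m, (φ0 ∘ₗ θN) (lm ℚ m) = bc ℚ (ihm σ0 m) := by
    intro m
    rw [LinearMap.comp_apply, ← jL_fm, hθN, hfm]
  have hθj : ∀ a, (φ0 ∘ₗ θN) (jL ℕ a) = φ0 a := by
    intro a; rw [LinearMap.comp_apply, hθN]
  have hmem : ∀ m, θ2 (φ0 (fm (FreeLieAlgebra.of ℚ) m)) ∈ W := by
    intro m
    apply pent_to_W (ihm_spec hσ m).1
    · rw [hj, hfm]; exact LieW_le_HomW (hW m)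
    · rw [hj, hfm]; exact (ihm_spec hσ m).2.1.2
  have hproj : ∀ k, ∀ f ∈ LieA ℚ ℕ,
      proj one1 k ((φ0 ∘ₗ θN) f) = (φ0 ∘ₗ θN) (proj wtG k f) := by
    intro k f hf
    induction hf using Submodule.span_induction with
    | mem x hx =>
      obtain ⟨m, rfl⟩ := hx
      by_cases hk : mw wtG m = k
      · subst hk
        rw [proj_of_mem (lm_mem_HomW m), hθ, proj_of_mem (LieW_le_HomW (hW m))]
      · rw [proj_of_ne (lm_mem_HomW m) hk, hθ, proj_of_ne (LieW_le_HomW (hW m)) hk, map_zero]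
    | zero => simp
    | add x y _ _ hx hy => simp only [map_add, hx, hy]
    | smul r x _ hx => simp only [map_smul, hx]
  refine ⟨fun k => θ2 (φ0 (FreeLieAlgebra.of ℚ k)), θ2 ∘ₗ φ0, fun k => ⟨hmem (FreeMagma.of k), ?_⟩,
    fun k => rfl, fun a b => ?_, ?_, ?_, fun n a => ?_⟩
  · rw [homog_iff, hj, h0]
    exact LieW_le_HomW (bc_LieW (hσ k).1.1)
  · apply jL_inj
    rw [LinearMap.comp_apply, hj, hbr]
    simp only [LinearMap.comp_apply, map_add, map_sub, jL_lie, jL_IhD hD, hj, ih]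
  · rw [injective_iff_map_eq_zero]
    intro a ha
    have h1 : φ0 a = 0 := by
      rw [← hj a]
      have : θ2 (φ0 a) = 0 := ha
      rw [this, map_zero]
    have h2 := asm_inj hσ _ hθ (jL_mem a) (by rw [hθj, h1])
    apply jL_inj
    rw [h2, map_zero]
  · ext ψ
    constructor
    · rintro ⟨a, rfl⟩
      revert a
      refine hind _ (by simpa using W_zero) (fun a b ha hb => ?_) (fun r a ha => ?_) hmem
      · rw [map_add]; exact W_add ha hb
      · rw [map_smul]; exact W_smul ha r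
    · intro hψ
      obtain ⟨h1, h2⟩ := W_to_pent hψ
      have h3 := asm_surj hσ h1 h2
      have h4 : Submodule.span ℚ (Set.range (fun m => bc ℚ (ihm σ0 m))) ≤ LinearMap.range φ0 := by
        rw [Submodule.span_le]
        rintro _ ⟨m, rfl⟩
        exact ⟨_, hfm m⟩
      obtain ⟨a, ha⟩ := h4 h3
      refine ⟨a, jL_inj ?_⟩
      rw [LinearMap.comp_apply, hj, ha]
  · rw [homogF_iff, homog_iff, LinearMap.comp_apply, hj]
    constructor
    · intro h
      rw [← hθj, ← proj_of_mem h, ← hproj n _ (jL_mem a)]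
      exact proj_mem _
    · intro h
      rw [mem_HomW]
      intro w hw
      have h1 : (φ0 ∘ₗ θN) (proj wtG (ww wtG w) (jL ℕ a)) = 0 := by
        rw [← hproj _ _ (jL_mem a), hθj, proj_of_ne h (Ne.symm hw)]
      have h2 := asm_inj hσ _ hθ (LieW_le_LieA (proj_mem_LieW (jL_mem a))) h1
      have h3 := co_proj (wt := wtG) (n := ww wtG w) w (jL ℕ a)
      rw [h2, map_zero, if_pos rfl] at h3
      exact h3.symm

end Vale.Agent.P029
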