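import Vale.Agent.P029.Elim

noncomputable section

namespace Vale.Agent.P029

open FreeAlgebra

namespace Pure

variable {R : Type} [CommRing R] {X : Type}

theorem keep_pos {p : X → Prop} {x : X} (h : p x) : keep p (ι R x) = ι R x := by simp [keep, h]

theorem keep_neg {p : X → Prop} {x : X} (h : ¬p x) : keep p (ι R x) = 0 := by simp [keep, h]

theorem keep_wd {p : X → Prop} {w : List X} (h : ∀ x ∈ w, p x) : keep p (wd R w) = wd R w := by
  induction w with
  | nil => simp
  | cons x w ih =>
    rw [wd_cons, map_mul, keep_pos (h x List.mem_cons_self),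
      ih fun y hy => h y (List.mem_cons_of_mem _ hy)]

theorem exists_keep (χ : FA R X) : ∃ S : Finset X, keep (· ∈ S) χ = χ := by
  classical
  obtain ⟨s, -, hs⟩ := exists_sum_wd χ
  refine ⟨s.biUnion List.toFinset, ?_⟩
  rw [hs, map_sum]
  refine Finset.sum_congr rfl fun w hw => ?_
  rw [map_smul, keep_wd fun x hx => Finset.mem_biUnion.2 ⟨w, hw, List.mem_toFinset.2 hx⟩]

theorem keep_HomW {p : X → Prop} {m : ℕ} {χ : FA R X} (h : χ ∈ HomW R one1 m) :
    keep p χ ∈ HomW R one1 m := by
  refine lift_HomW (fun x => ?_) h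
  split_ifs
  · exact ι_mem_HomW x
  · exact zero_mem _

theorem keep_keep [DecidableEq X] (S : Finset X) (z : X) (χ : FA R X) :
    keep (· ∈ S) (keep (· ≠ z) χ) = keep (· ≠ z) (keep (· ∈ insert z S) χ) := by
  have : (keep (· ∈ S)).comp (keep (R := R) (· ≠ z)) =
      (keep (· ≠ z)).comp (keep (· ∈ insert z S)) := by
    ext x
    by_cases h1 : x = z <;> by_cases h2 : x ∈ S <;> simp [keep, h1, h2]
  exact DFunLike.congr_fun this χ

theorem eq_replicate (w : List (List X)) : w.length ≤ ww (fun l => l.length + 1) w ∧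
    (ww (fun l => l.length + 1) w ≤ w.length → w = List.replicate w.length []) := by
  induction w with
  | nil => simp
  | cons l w ih =>
    rw [ww_cons, List.length_cons]
    refine ⟨by omega, fun h => ?_⟩
    rw [List.replicate_succ, ← ih.2 (by omega), List.eq_nil_of_length_eq_zero (l := l) (by omega)]

theorem adL_mem (l : List X) (z : X) : adL (ι R) l (ι R z) ∈ LieA R X := by
  induction l with
  | nil => exact ι_mem_LieA z
  | cons x l ih => exact LieA_br (ι_mem_LieA x) ih

variable [NoZeroDivisors R] {k : R}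

theorem cancel (hk : k ≠ 0) {a b : FA R X} (h : k • a = k • b) : a = b := by
  refine ext_co fun w => ?_
  have := congrArg (co w) h
  rw [map_smul, map_smul, smul_eq_mul, smul_eq_mul, ← sub_eq_zero, ← mul_sub] at this
  exact sub_eq_zero.1 ((mul_eq_zero.1 this).resolve_left hk)

theorem co_nil (hk : k ≠ 0) {χ : FA R X} (h : k • χ ∈ LieA R X) : co [] χ = 0 := by
  have := co_nil_LieA h
  rw [map_smul, smul_eq_mul] at this
  exact (mul_eq_zero.1 this).resolve_left hk

theorem top_mem (hk : k ≠ 0) {m n : ℕ} (hmn : m ≤ n) {ρ : FA R (List X)}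
    (hρ : ρ ∈ HomW R (fun l => l.length + 1) m) (h : k • ρ ∈ LieA R (List X)) :
    proj one1 n ρ ∈ LieA R (List X) := by
  have h1 : proj one1 n ρ = co (List.replicate n []) ρ • wd R (List.replicate n []) := by
    refine ext_co fun w => ?_
    rw [co_proj, map_smul, co_wd, ww_one1, smul_eq_mul]
    by_cases hw : List.replicate n [] = w
    · subst hw
      simp
    · rw [if_neg hw, mul_zero]
      split_ifs with hl
      · refine mem_HomW.1 hρ w fun e => hw ?_
        rw [← hl]
        exact ((eq_replicate w).2 (by omega)).symm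
      · rfl
  rw [h1]
  rcases n with _ | _ | n
  · rw [List.replicate_zero, co_nil hk h, zero_smul]
    exact zero_mem _
  · rw [zero_add, List.replicate_one, wd_singleton]
    exact Submodule.smul_mem _ _ (ι_mem_LieA _)
  · have h2 := co_replicate (mem_LieGe_of (LieW_le_LieA (proj_mem_LieW (wt := one1)
      (n := n + 1 + 1) h)) (HomW_le_GeW (m := 2) (by omega) (proj_mem _))) [] (n + 1 + 1)
    rw [co_proj, ww_one1, List.length_replicate, if_pos rfl, map_smul, smul_eq_mul] at h2
    rw [(mul_eq_zero.1 h2).resolve_left hk, zero_smul]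
    exact zero_mem _

theorem hom_mem (hk : k ≠ 0) (m : ℕ) : ∀ (X : Type) (χ : FA R X), χ ∈ HomW R one1 m →
    k • χ ∈ LieA R X → χ ∈ LieA R X := by
  classical
  induction m using Nat.strong_induction_on with
  | _ m ih =>
  intro X χ hχ h
  obtain ⟨S, hS⟩ := exists_keep χ
  induction S using Finset.induction_on generalizing χ with
  | empty =>
    obtain ⟨s, -, hs⟩ := exists_sum_last χ
    rw [← hS, hs, co_nil hk h, zero_smul, zero_add, map_sum]
    refine sum_mem fun z _ => ?_
    rw [map_mul, keep_neg (Finset.notMem_empty z), mul_zero]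
    exact zero_mem _
  | insert z S _ ihS =>
    let r : FA R X →ₗ[R] FA R (List X) :=
      elimR (· ≠ z) (fun x l => ι R (x :: l)) fun _ => ι R []
    let j : FA R (List X) →ₐ[R] FA R X := FreeAlgebra.lift R fun l => adL (ι R) l (ι R z)
    have h1 : k • χ = keep (· ≠ z) (k • χ) + j (r (k • χ)) := by
      have := elim_factor (p := (· ≠ z)) (s := fun x l => ι R (x :: l)) (t := fun _ => ι R [])
        (ι R) j (fun x hx => by simp [j, adL, not_not.1 hx]) (fun x l _ => by simp [j, adL]) h
      rwa [lift_id, lift_id] at this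
    rw [map_smul, map_smul, map_smul, ← smul_add] at h1
    have h2 : k • r χ ∈ LieA R (List X) := by
      rw [← map_smul]
      exact elimR_mem_LieA (fun _ _ _ => ι_mem_LieA _) (fun _ _ => ι_mem_LieA _) h
    have h3 : r χ ∈ HomW R (fun l => l.length + 1) m :=
      elimR_HomW (fun _ _ => ι_mem_HomW (wt := fun l : List X => l.length + 1) [])
        (fun x l _ => ι_mem_HomW (wt := fun l : List X => l.length + 1) (x :: l)) hχ
    rw [cancel hk h1]
    refine add_mem (ihS _ (keep_HomW hχ) ?_ (by rw [keep_keep, hS]))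
      (lift_LieA (fun l => adL_mem l z) ?_)
    · rw [← map_smul]
      exact keep_mem_LieA h
    · obtain ⟨N, -, hN⟩ := exists_sum_proj one1 (r χ)
      rw [hN]
      refine sum_mem fun n _ => ?_
      rcases lt_or_ge n m with hn | hn
      · refine ih n hn _ _ (proj_mem _) ?_
        rw [← map_smul]
        exact LieW_le_LieA (proj_mem_LieW h2)
      · exact top_mem hk hn h3 h2

theorem pure (hk : k ≠ 0) {χ : FA R X} (h : k • χ ∈ LieA R X) : χ ∈ LieA R X := by
  obtain ⟨N, -, hN⟩ := exists_sum_proj one1 χ
  rw [hN]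
  refine sum_mem fun n _ => hom_mem hk n _ _ (proj_mem _) ?_
  rw [← map_smul]
  exact LieW_le_LieA (proj_mem_LieW h)

end Pure

/-- The Lie ring is a pure subgroup of the free ring. -/
theorem pure_lie {X : Type} {k : ℤ} (hk : k ≠ 0) {χ : FA ℤ X} (h : k • χ ∈ LieA ℤ X) :
    χ ∈ LieA ℤ X :=
  Pure.pure hk h

end Vale.Agent.P029
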