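import Vale.Agent.P029.Fib
import Vale.Agent.P029.BC

noncomputable section

namespace Vale.Agent.P029

open FreeAlgebra
open scoped TensorProduct

namespace RedZ

theorem shift {A B : Type} [Ring A] [Ring B] {G : Type} [FunLike G B A] [RingHomClass G B A]
    (f : G) {s t : A} (hs : ∀ x, Commute s (f x)) (ht : ∀ x, Commute t (f x)) {a b c d e : B}
    (h : Sys a b c d e) : Sys (f a + s) (f b + t) (f c) (f d) (f e + t) := by
  have h1 := h.map f
  refine ⟨h1.ac.add_left (hs c), h1.ad.add_left (hs d), h1.bd.add_left (ht d),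
    (h1.be.add_left (ht e)).add_right ((ht b).symm.add_left (Commute.refl t)),
    h1.ce.add_right (ht c).symm, ?_⟩
  have h2 := h1.five
  have a1 := (hs b).eq
  have a2 := (hs e).eq
  have a3 := (ht a).eq
  have a4 := (ht c).eq
  have a5 := (ht d).eq
  unfold br at h2 ⊢
  simp only [mul_add, add_mul, a1, a2, a3, a4, a5]
  rw [← h2]
  abel

variable {R : Type} [CommRing R]

theorem comm {M N : Type} [AddCommGroup M] [Module R M] [AddCommGroup N] [Module R N]
    (s : Module.End R N) (x : Module.End R M) :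
    Commute (Module.End.lTensorAlgHom R N M s) (Module.End.rTensorAlgHom R M N x) := by
  show (s.lTensor M) ∘ₗ (x.rTensor N) = (x.rTensor N) ∘ₗ (s.lTensor M)
  rw [LinearMap.lTensor_comp_rTensor, LinearMap.rTensor_comp_lTensor]

theorem rT {M N : Type} [AddCommGroup M] [Module R M] [AddCommGroup N] [Module R N]
    (x : Module.End R M) (m : M) (n : N) :
    Module.End.rTensorAlgHom R M N x (m ⊗ₜ n) = x m ⊗ₜ n := rfl

theorem lT {M N : Type} [AddCommGroup M] [Module R M] [AddCommGroup N] [Module R N]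
    (s : Module.End R N) (m : M) (n : N) :
    Module.End.lTensorAlgHom R N M s (m ⊗ₜ n) = m ⊗ₜ s n := rfl

/-- It suffices to check the pentagon in one explicit algebra. -/
theorem red (ψ : FA R (Fin 2))
    (h : ∀ a b c d e : Module.End R (FA R (Fin 3) ⊗[R] FA R (Fin 2)), Sys a b c d e →
      pentE a b c d e ψ = 0) : Pent ψ := by
  intro A _ _ a b c d e hs
  obtain ⟨a0, b0, da, db, a1, a2, a3, b1, b2, b3, h0⟩ := fib_sys (R := R)
  have h1 := h _ _ _ _ _ (shift (Module.End.rTensorAlgHom R (FA R (Fin 3)) (FA R (Fin 2)))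
    (comm (LinearMap.mulLeft R (ι R 0))) (comm (LinearMap.mulLeft R (ι R 1))) h0)
  obtain ⟨φ, hφ⟩ : ∃ φ : FA R (Fin 3) →ₐ[R] A, φ = FreeAlgebra.lift R ![c, d, e - b] := ⟨_, rfl⟩
  have p0 : φ (ι R 0) = c := by simp [hφ]
  have p1 : φ (ι R 1) = d := by simp [hφ]
  have p2 : φ (ι R 2) = e - b := by simp [hφ]
  have q0 : ev a b (ι R 0) = a := by simp [ev]
  have q1 : ev a b (ι R 1) = b := by simp [ev]
  have ia : ∀ f, φ (a0 f) = a * φ f - φ f * a := fun f =>
    IsDer.intertwine φ da (isDer_ad a) (fun x => by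
      show _ = a * φ _ - φ _ * a
      fin_cases x
      · simp [a1, p0, hs.ac.eq]
      · simp [a2, p1, hs.ad.eq]
      · have h5 := hs.five
        have c1 := hs.ce.eq
        have c2 := hs.bd.eq
        show φ (a0 (ι R 2)) = a * φ (ι R 2) - φ (ι R 2) * a
        rw [a3, map_add, map_br, map_br, map_add, p0, p1, p2, ← sub_eq_zero, ← h5]
        unfold br
        simp only [mul_add, add_mul, mul_sub, sub_mul, c1, c2]
        abel) f
  have ib : ∀ f, φ (b0 f) = b * φ f - φ f * b := fun f =>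
    IsDer.intertwine φ db (isDer_ad b) (fun x => by
      show _ = b * φ _ - φ _ * b
      fin_cases x
      · show φ (b0 (ι R 0)) = b * φ (ι R 0) - φ (ι R 0) * b
        rw [b1, map_br, p0, p2]
        unfold br
        simp only [mul_sub, sub_mul, hs.ce.eq]
        abel
      · simp [b2, p1, hs.bd.eq]
      · show φ (b0 (ι R 2)) = b * φ (ι R 2) - φ (ι R 2) * b
        rw [b3, map_zero, p2, mul_sub, sub_mul, hs.be.eq, sub_self]) f
  obtain ⟨Θ, hΘ⟩ : ∃ Θ : FA R (Fin 3) ⊗[R] FA R (Fin 2) →ₗ[R] A,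
      ∀ f g, Θ (f ⊗ₜ g) = φ f * ev a b g :=
    ⟨TensorProduct.lift ((LinearMap.mul R A).compl₁₂ φ.toLinearMap (ev a b).toLinearMap),
      fun _ _ => rfl⟩
  have key : ∀ (u : Module.End R (FA R (Fin 3) ⊗[R] FA R (Fin 2))) (v : A),
      (∀ f g, Θ (u (f ⊗ₜ g)) = v * (φ f * ev a b g)) →
      ∀ m, Θ (u m) = LinearMap.mulLeft R v (Θ m) := fun u v hu m =>
    LinearMap.congr_fun (TensorProduct.ext' (g := Θ ∘ₗ u) (h := LinearMap.mulLeft R v ∘ₗ Θ)
      fun f g => by simp [hu, hΘ]) m
  have ka := key (Module.End.rTensorAlgHom R _ _ a0 +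
    Module.End.lTensorAlgHom R _ _ (LinearMap.mulLeft R (ι R 0))) a fun f g => by
      rw [LinearMap.add_apply, rT, lT]
      simp [hΘ, ia, q0, sub_mul, mul_assoc]
  have kb := key (Module.End.rTensorAlgHom R _ _ b0 +
    Module.End.lTensorAlgHom R _ _ (LinearMap.mulLeft R (ι R 1))) b fun f g => by
      rw [LinearMap.add_apply, rT, lT]
      simp [hΘ, ib, q1, sub_mul, mul_assoc]
  have kc := key (Module.End.rTensorAlgHom R _ _ (LinearMap.mulLeft R (ι R 0))) c fun f g => by
    rw [rT]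
    simp [hΘ, p0, mul_assoc]
  have kd := key (Module.End.rTensorAlgHom R _ _ (LinearMap.mulLeft R (ι R 1))) d fun f g => by
    rw [rT]
    simp [hΘ, p1, mul_assoc]
  have ke := key (Module.End.rTensorAlgHom R _ _ (b0 + LinearMap.mulLeft R (ι R 2)) +
    Module.End.lTensorAlgHom R _ _ (LinearMap.mulLeft R (ι R 1))) e fun f g => by
      rw [LinearMap.add_apply, rT, lT]
      simp [hΘ, ib, q1, p2, sub_mul, mul_assoc]
  have h2 := congrArg Θ (LinearMap.congr_fun h1 (1 ⊗ₜ 1))
  simp only [pentE, LinearMap.add_apply, map_add Θ] at h2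
  rw [ev_intertwine Θ _ _ _ _ ka ke, ev_intertwine Θ _ _ _ _ kc kb, ev_intertwine Θ _ _ _ _ ke kd,
    ev_intertwine Θ _ _ _ _ kb ka, ev_intertwine Θ _ _ _ _ kd kc] at h2
  simpa [ev_mulLeft, hΘ, pentE] using h2

theorem tf [IsDedekindDomain R] {K : Type} [CommRing K] [Algebra R K]
    (hK : Function.Injective (algebraMap R K)) (ψ : FA R (Fin 2))
    (h : ∀ (A : Type) [Ring A] [Algebra K A] [Algebra R A] (a b c d e : A), Sys a b c d e →
      pentE a b c d e ψ = 0) {A : Type} [Ring A] [Algebra R A] (t : Module.IsTorsionFree R A)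
    {a b c d e : A} (hs : Sys a b c d e) : pentE a b c d e ψ = 0 := by
  refine Algebra.TensorProduct.includeRight_injective hK ?_
  have h1 := h _ _ _ _ _ _ (hs.map (Algebra.TensorProduct.includeRight (R := R) (A := K)))
  simp only [pentE, map_add, map_ev, map_zero]
  exact h1

theorem fin [IsDedekindDomain R] {K : Type} [CommRing K] [Algebra R K]
    (hK : Function.Injective (algebraMap R K)) (ψ : FA R (Fin 2))
    (h : ∀ (A : Type) [Ring A] [Algebra K A] [Algebra R A] (a b c d e : A), Sys a b c d e →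
      pentE a b c d e ψ = 0) : Pent ψ := by
  have t1 : Module.IsTorsionFree R (FA R (Fin 3) ⊗[R] FA R (Fin 2)) := inferInstance
  have t2 : Module.IsTorsionFree R (Module.End R (FA R (Fin 3) ⊗[R] FA R (Fin 2))) :=
    Function.Injective.moduleIsTorsionFree _ DFunLike.coe_injective fun _ _ => rfl
  exact red ψ fun a b c d e hs => tf hK ψ h t2 hs

end RedZ

/-- The pentagon over the rationals implies the pentagon in every ring. -/
theorem pent_int {ψ : FA ℤ (Fin 2)} (h : Pent (bc ℚ ψ)) : Pent ψ := by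
  refine RedZ.fin (K := ℚ) (algebraMap ℤ ℚ).injective_int ψ fun A _ _ _ a b c d e hs => ?_
  have h1 := h A a b c d e hs
  simpa only [pentE, ev_bc] using h1

end Vale.Agent.P029
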