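import Vale.Agent.P029.Gam
import Vale.Agent.P029.Fib

noncomputable section

namespace Vale.Agent.P029

open FreeAlgebra

namespace U2Rep

variable {G : Type} [Ring G] [Algebra F2 G]

theorem two (z : G) : z + z = 0 := by
  rw [← two_smul F2 z]
  show ((0 : F2)) • z = 0
  exact zero_smul _ _

/-- The operator `(g0, g1) ↦ (δ g0 + g1 p, δ g1 + g0 q)`. -/
def op (δ : Module.End F2 G) (p q : G) : Module.End F2 (G × G) where
  toFun g := (δ g.1 + g.2 * p, δ g.2 + g.1 * q)
  map_add' g h := by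
    ext
    · simp only [Prod.fst_add, Prod.snd_add, map_add, add_mul]; abel
    · simp only [Prod.fst_add, Prod.snd_add, map_add, add_mul]; abel
  map_smul' r g := by
    ext
    · simp only [Prod.smul_fst, Prod.smul_snd, map_smul, smul_mul_assoc, RingHom.id_apply, smul_add]
    · simp only [Prod.smul_fst, Prod.smul_snd, map_smul, smul_mul_assoc, RingHom.id_apply, smul_add]

theorem op_apply (δ : Module.End F2 G) (p q : G) (g : G × G) :
    op δ p q g = (δ g.1 + g.2 * p, δ g.2 + g.1 * q) := rfl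

theorem br_op_L {δ : Module.End F2 G} (hδ : IsDer δ) (p q z : G) :
    br (op δ p q) (op (LinearMap.mulLeft F2 z) 0 0) = op (LinearMap.mulLeft F2 (δ z)) 0 0 := by
  refine LinearMap.ext fun g => Prod.ext ?_ ?_ <;>
    simp only [br, LinearMap.sub_apply, Module.End.mul_apply, op_apply, LinearMap.mulLeft_apply,
      Prod.fst_sub, Prod.snd_sub, mul_zero, add_zero, hδ _ _] <;> noncomm_ring

theorem br_L_L (y z : G) : br (op (LinearMap.mulLeft F2 y) 0 0) (op (LinearMap.mulLeft F2 z) 0 0) =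
    op (LinearMap.mulLeft F2 (br y z)) 0 0 := by
  refine LinearMap.ext fun g => Prod.ext ?_ ?_ <;>
    simp only [br, LinearMap.sub_apply, Module.End.mul_apply, op_apply, LinearMap.mulLeft_apply,
      Prod.fst_sub, Prod.snd_sub, mul_zero, add_zero] <;> noncomm_ring

theorem op_zero : op (LinearMap.mulLeft F2 (0 : G)) 0 0 = 0 := by
  refine LinearMap.ext fun g => Prod.ext ?_ ?_ <;> simp [op_apply]

theorem comm_L {δ : Module.End F2 G} (hδ : IsDer δ) (p q z : G) (hz : δ z = 0) :
    Commute (op δ p q) (op (LinearMap.mulLeft F2 z) 0 0) := by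
  rw [← br_eq_zero, br_op_L hδ, hz, op_zero]

theorem sq_up {δ : Module.End F2 G} (hδ : IsDer δ) (h : δ * δ = 0) (p : G) (hp : δ p = 0) :
    op δ p 0 * op δ p 0 = 0 := by
  have h' : ∀ g, δ (δ g) = 0 := fun g => LinearMap.congr_fun h g
  refine LinearMap.ext fun g => Prod.ext ?_ ?_
  · simp only [Module.End.mul_apply, op_apply, mul_zero, add_zero, map_add, h', hδ _ _, hp,
      zero_add, LinearMap.zero_apply, Prod.fst_zero]
    exact two _
  · simp only [Module.End.mul_apply, op_apply, mul_zero, add_zero, h', LinearMap.zero_apply,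
      Prod.snd_zero]

theorem sq_dn {δ : Module.End F2 G} (h : δ * δ = 0) : op δ 0 1 * op δ 0 1 = 0 := by
  have h' : ∀ g, δ (δ g) = 0 := fun g => LinearMap.congr_fun h g
  refine LinearMap.ext fun g => Prod.ext ?_ ?_
  · simp only [Module.End.mul_apply, op_apply, mul_zero, add_zero, h', LinearMap.zero_apply,
      Prod.fst_zero]
  · simp only [Module.End.mul_apply, op_apply, mul_zero, add_zero, map_add, h', mul_one,
      zero_add, LinearMap.zero_apply, Prod.snd_zero]
    exact two _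

theorem comm_up {δ δ' : Module.End F2 G} (hδ : IsDer δ) (hδ' : IsDer δ') (h : br δ δ' = 0)
    (p p' : G) (hp : δ p' = δ' p) : Commute (op δ p 0) (op δ' p' 0) := by
  have h' : ∀ g, δ (δ' g) = δ' (δ g) := fun g => sub_eq_zero.1 (LinearMap.congr_fun h g)
  refine LinearMap.ext fun g => Prod.ext ?_ ?_
  · simp only [Module.End.mul_apply, op_apply, mul_zero, add_zero, map_add, h', hδ _ _, hδ' _ _, hp]
    abel
  · simp only [Module.End.mul_apply, op_apply, mul_zero, add_zero, h']

theorem br_up_dn {δ δ' c : Module.End F2 G} (hc : IsDer c) (p p' w : G) (hw : p + p' = w)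
    (hp : c p = 0) (hp' : c p' = 0)
    (h : br (δ + δ') c = LinearMap.mulLeft F2 w - LinearMap.mulRight F2 w) :
    br (op δ p 0) (op c 0 1) + br (op c 0 1) (op δ' p' 0) = op (LinearMap.mulLeft F2 w) 0 0 := by
  have h' : ∀ g, δ (c g) + δ' (c g) - (c (δ g) + c (δ' g)) = w * g - g * w := fun g => by
    have := LinearMap.congr_fun h g
    simpa only [br, LinearMap.sub_apply, Module.End.mul_apply, LinearMap.add_apply, map_add,
      LinearMap.mulLeft_apply, LinearMap.mulRight_apply] using this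
  subst hw
  refine LinearMap.ext fun g => Prod.ext ?_ ?_
  · simp only [br, LinearMap.sub_apply, LinearMap.add_apply, Module.End.mul_apply, op_apply,
      LinearMap.mulLeft_apply, Prod.fst_sub, Prod.fst_add, mul_zero, add_zero, map_add, hc _ _, hp,
      hp', mul_one]
    linear_combination (norm := noncomm_ring) h' g.1 - two (δ' (c g.1)) + two (c (δ' g.1)) -
      two (g.1 * p')
  · simp only [br, LinearMap.sub_apply, LinearMap.add_apply, Module.End.mul_apply, op_apply,
      LinearMap.mulLeft_apply, Prod.snd_sub, Prod.snd_add, mul_zero, add_zero, map_add, mul_one]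
    linear_combination (norm := noncomm_ring) h' g.2 - two (δ' (c g.2)) + two (c (δ' g.2)) -
      two (g.2 * p)

theorem ev_inl (δ δ' : Module.End F2 G) (p p' : G) (φ : FA F2 (Fin 2)) :
    ev (op δ p 0) (op δ' p' 0) φ (1, 0) = (ev δ δ' φ 1, 0) :=
  (ev_intertwine (LinearMap.inl F2 G G) δ δ' (op δ p 0) (op δ' p' 0)
    (fun m => by simp [op_apply]) (fun m => by simp [op_apply]) φ 1).symm

theorem ev_gam {ψ : FA F2 (Fin 2)} (hψ : ψ ∈ LieGe F2 (Fin 2) 2) {δ : Module.End F2 G}
    (hδ : IsDer δ) (h : δ * δ = 0) (z : G) :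
    ev (LinearMap.mulLeft F2 z : Module.End F2 G) δ ψ 1 = ev z (δ z) (gam ψ) := by
  rw [gam_ev hψ _ _ h, hδ.br_mulLeft, ev_mulLeft, LinearMap.mulLeft_apply, mul_one]

theorem core {ψ : FA F2 (Fin 2)} (hψ : ψ ∈ LieGe F2 (Fin 2) 3) (h : Pent ψ) (a u π : G)
    (hu : u * u = 0) (hc : u * π = π * u) {b d c : Module.End F2 G} (hb : IsDer b) (hd : IsDer d)
    (hC : IsDer c) (ba : b a = 0) (bu : b u = π) (da : d a = π) (du : d u = π) (ca : c a = 0)
    (cu : c u = 0) (bb : b * b = 0) (dd : d * d = 0) (cc : c * c = 0) (bd : br b d = 0)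
    (bdc : br (b + d) c = LinearMap.mulLeft F2 (br a u) - LinearMap.mulRight F2 (br a u)) :
    ev (a + u) π (gam ψ) + ev (a + u) a ψ + ev a π (gam ψ) = 0 := by
  have hψ2 : ψ ∈ LieGe F2 (Fin 2) 2 := LieGe_anti (by norm_num) hψ
  have bB : b (a + u) = π := by rw [map_add, ba, bu, zero_add]
  have dB : d (a + u) = 0 := by rw [map_add, da, du, two]
  have cB : c (a + u) = 0 := by rw [map_add, ca, cu, add_zero]
  have hS : Sys (op b (a * a) 0) (op c 0 1) (op d ((a + u) * (a + u)) 0)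
      (op (LinearMap.mulLeft F2 a) 0 0) (op (LinearMap.mulLeft F2 (a + u)) 0 0) := by
    refine ⟨comm_up hb hd bd _ _ ?_, comm_L hb _ _ _ ba, comm_L hC _ _ _ ca, comm_L hC _ _ _ cB,
      comm_L hd _ _ _ dB, ?_⟩
    · rw [hb, hd, bB, da]
      linear_combination (norm := noncomm_ring) two (π * u) + hc
    · rw [br_up_dn hC (a * a) ((a + u) * (a + u)) (br a u) ?_ ?_ ?_ bdc, br_op_L hd, br_L_L,
        br_skew (op (LinearMap.mulLeft F2 (a + u)) 0 0), br_op_L hb, bB, da, br_add_right, br_self,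
        zero_add]
      · linear_combination (norm := abel) two (op (LinearMap.mulLeft F2 (br a u)) 0 0)
      · unfold br
        linear_combination (norm := noncomm_ring) two (a * a) + two (u * a) + hu
      · rw [hC, ca, zero_mul, mul_zero, add_zero]
      · rw [hC, cB, zero_mul, mul_zero, add_zero]
  have b2 := sq_up hb bb (a * a) (by rw [hb, ba, zero_mul, mul_zero, add_zero])
  have d2 := sq_up hd dd ((a + u) * (a + u)) (by rw [hd, dB, zero_mul, mul_zero, add_zero])
  have c2 := sq_dn cc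
  have hP := h _ _ _ _ _ _ hS
  unfold pentE at hP
  rw [ev_sq_zero d2 c2 hψ, ev_sq_zero c2 b2 hψ, add_zero, add_zero] at hP
  have hP1 := congrArg Prod.fst (LinearMap.congr_fun hP (1, 0))
  rw [LinearMap.add_apply, LinearMap.add_apply, ev_inl, ev_inl, ev_inl] at hP1
  have e1 : ev b (LinearMap.mulLeft F2 (a + u) : Module.End F2 G) ψ =
      ev (LinearMap.mulLeft F2 (a + u) : Module.End F2 G) b ψ := by
    have := pent_two hψ2 h b (LinearMap.mulLeft F2 (a + u) : Module.End F2 G)
    linear_combination (norm := abel) this -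
      two (ev (LinearMap.mulLeft F2 (a + u) : Module.End F2 G) b ψ)
  rw [e1, ev_gam hψ2 hb bb, ev_gam hψ2 hd dd, bB, da, ev_mulLeft, LinearMap.mulLeft_apply,
    mul_one] at hP1
  exact hP1

/-- The relations `u u = 0`, `u π = π u`. -/
def rel (x y : FA F2 (Fin 3)) : Prop :=
  (x = ι F2 1 * ι F2 1 ∧ y = 0) ∨ (x = ι F2 1 * ι F2 2 ∧ y = ι F2 2 * ι F2 1)

/-- The generators of the quotient. -/
def gn (x : Fin 3) : RingQuot rel := RingQuot.mkAlgHom F2 rel (ι F2 x)

theorem gn_sq : gn 1 * gn 1 = 0 := by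
  have := RingQuot.mkAlgHom_rel F2 (s := rel) (Or.inl ⟨rfl, rfl⟩)
  rwa [map_mul, map_zero] at this

theorem gn_comm : gn 1 * gn 2 = gn 2 * gn 1 := by
  have := RingQuot.mkAlgHom_rel F2 (s := rel) (Or.inr ⟨rfl, rfl⟩)
  rwa [map_mul, map_mul] at this

theorem ex_der (f : Fin 3 → RingQuot rel) (h1 : f 1 * gn 1 + gn 1 * f 1 = 0)
    (h2 : f 1 * gn 2 + gn 1 * f 2 = f 2 * gn 1 + gn 2 * f 1) :
    ∃ D : Module.End F2 (RingQuot rel), IsDer D ∧ ∀ x, D (gn x) = f x := by
  refine exists_quotDer rel f ?_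
  rintro a b (⟨rfl, rfl⟩ | ⟨rfl, rfl⟩)
  · rw [map_mul, map_zero, lift_ι_apply, dn_mul, ← dn_zero, dn_ext]
    exact ⟨gn_sq, h1⟩
  · rw [map_mul, map_mul, lift_ι_apply, lift_ι_apply, dn_mul, dn_mul, dn_ext]
    exact ⟨gn_comm, h2⟩

theorem der_ext {D D' : Module.End F2 (RingQuot rel)} (hD : IsDer D) (hD' : IsDer D')
    (h0 : D (gn 0) = D' (gn 0)) (h1 : D (gn 1) = D' (gn 1)) (h2 : D (gn 2) = D' (gn 2)) :
    D = D' := by
  refine IsDer.quot_ext rel hD hD' fun x => ?_
  fin_cases x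
  exacts [h0, h1, h2]

theorem id1 (a u π : G) (hu : u * u = 0) :
    0 * π + u * br (a * a) u = br (a * a) u * u + π * 0 := by
  unfold br
  linear_combination (norm := noncomm_ring) two (u * a * a * u) - hu * a * a - a * a * hu

theorem id2 (a u : G) :
    0 - (0 + (a * a * u - u * (a * a))) = (a * u - u * a) * a - a * (a * u - u * a) := by
  linear_combination (norm := noncomm_ring) two (u * a * a) - two (a * u * a)

theorem id3 (a u : G) (hu : u * u = 0) :
    0 - (a * a * u - u * (a * a) + (a * a * u - u * (a * a))) =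
      (a * u - u * a) * u - u * (a * u - u * a) := by
  linear_combination (norm := noncomm_ring) two (u * a * u) - a * hu - hu * a -
    two (a * a * u) + two (u * a * a)

theorem id4 (a u π : G) (hc : u * π = π * u) :
    (0 * a + a * 0) * u + a * a * π + ((π * a + a * π) * u + a * a * π) -
      (π * (a * a) + u * (0 * a + a * 0) + (π * (a * a) + u * (π * a + a * π))) - (0 + 0) =
      (a * u - u * a) * π - π * (a * u - u * a) := by
  linear_combination (norm := noncomm_ring) two (a * a * π) - two (π * a * a) +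
    two (π * a * u) - two (π * u * a) - a * hc - hc * a

theorem univ {ψ : FA F2 (Fin 2)} (hψ : ψ ∈ LieGe F2 (Fin 2) 3) (h : Pent ψ) :
    ev (gn 0 + gn 1) (gn 2) (gam ψ) + ev (gn 0 + gn 1) (gn 0) ψ + ev (gn 0) (gn 2) (gam ψ) = 0 := by
  have hu := gn_sq
  have hc := gn_comm
  obtain ⟨b, hb, bx⟩ := ex_der ![0, gn 2, 0]
    (by
      show gn 2 * gn 1 + gn 1 * gn 2 = 0
      rw [hc, two])
    (by
      show gn 2 * gn 2 + gn 1 * 0 = 0 * gn 1 + gn 2 * gn 2
      noncomm_ring)
  obtain ⟨d, hd, dx⟩ := ex_der ![gn 2, gn 2, 0]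
    (by
      show gn 2 * gn 1 + gn 1 * gn 2 = 0
      rw [hc, two])
    (by
      show gn 2 * gn 2 + gn 1 * 0 = 0 * gn 1 + gn 2 * gn 2
      noncomm_ring)
  obtain ⟨c, hC, cx⟩ := ex_der ![0, 0, br (gn 0 * gn 0) (gn 1)]
    (by
      show 0 * gn 1 + gn 1 * 0 = 0
      noncomm_ring)
    (by
      exact id1 (gn 0) (gn 1) (gn 2) hu)
  have b0 : b (gn 0) = 0 := bx 0
  have b1 : b (gn 1) = gn 2 := bx 1
  have b2 : b (gn 2) = 0 := bx 2
  have d0 : d (gn 0) = gn 2 := dx 0
  have d1 : d (gn 1) = gn 2 := dx 1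
  have d2 : d (gn 2) = 0 := dx 2
  have c0 : c (gn 0) = 0 := cx 0
  have c1 : c (gn 1) = 0 := cx 1
  have c2 : c (gn 2) = br (gn 0 * gn 0) (gn 1) := cx 2
  refine core hψ h _ _ _ hu hc hb hd hC b0 b1 d0 d1 c0 c1 ?_ ?_ ?_ ?_ ?_
  · refine der_ext hb.sq isDer_zero ?_ ?_ ?_ <;>
      simp only [Module.End.mul_apply, b0, b1, b2, map_zero, LinearMap.zero_apply]
  · refine der_ext hd.sq isDer_zero ?_ ?_ ?_ <;>
      simp only [Module.End.mul_apply, d0, d1, d2, map_zero, LinearMap.zero_apply]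
  · refine der_ext hC.sq isDer_zero ?_ ?_ ?_ <;>
      simp only [Module.End.mul_apply, c0, c1, c2, map_zero, LinearMap.zero_apply, hC.map_br,
        hC _ _, zero_mul, mul_zero, add_zero, br_zero_left, br_zero_right]
  · refine der_ext (hb.br hd) isDer_zero ?_ ?_ ?_ <;>
      simp only [br, LinearMap.sub_apply, Module.End.mul_apply, b0, b1, b2, d0, d1, d2, map_zero,
        LinearMap.zero_apply, sub_zero]
  · refine der_ext ((hb.add hd).br hC) (isDer_ad _) ?_ ?_ ?_ <;>
      simp only [br, LinearMap.sub_apply, LinearMap.add_apply, Module.End.mul_apply, b0, b1, b2,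
        d0, d1, d2, c0, c1, c2, map_zero, map_add, map_sub, hb _ _, hd _ _,
        LinearMap.mulLeft_apply, LinearMap.mulRight_apply]
    · exact id2 _ _
    · exact id3 _ _ hu
    · exact id4 _ _ _ hc

theorem gen {ψ : FA F2 (Fin 2)} (hψ : ψ ∈ LieGe F2 (Fin 2) 3) (h : Pent ψ) (a u π : G)
    (hu : u * u = 0) (hc : Commute u π) :
    ev (a + u) π (gam ψ) + ev (a + u) a ψ + ev a π (gam ψ) = 0 := by
  let T : RingQuot rel →ₐ[F2] G := RingQuot.liftAlgHom F2 ⟨FreeAlgebra.lift F2 ![a, u, π], by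
    rintro x y (⟨rfl, rfl⟩ | ⟨rfl, rfl⟩)
    · rw [map_mul, map_zero, lift_ι_apply]
      exact hu
    · rw [map_mul, map_mul, lift_ι_apply, lift_ι_apply]
      exact hc⟩
  have hT : ∀ x, T (gn x) = ![a, u, π] x := fun x => by
    rw [gn, RingQuot.liftAlgHom_mkAlgHom_apply, lift_ι_apply]
  have := congrArg T (univ hψ h)
  rw [map_add, map_add, map_ev, map_ev, map_ev, map_add, map_zero, hT, hT, hT] at this
  exact this

end U2Rep

theorem u2_rep {ψ : FA F2 (Fin 2)} (hψ : ψ ∈ LieGe F2 (Fin 2) 3) (h : Pent ψ)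
    (A : Type) [Ring A] [Algebra F2 A] (a u π : A) (hu : u * u = 0) (hc : Commute u π) :
    ev (a + u) π (gam ψ) = ev a π (gam ψ) := by
  have hψ2 : ψ ∈ LieGe F2 (Fin 2) 2 := LieGe_anti (by norm_num) hψ
  have h0 := U2Rep.gen hψ h a u 0 hu (Commute.zero_right u)
  rw [gam_ev_zero hψ2, gam_ev_zero hψ2, zero_add, add_zero] at h0
  have h1 := U2Rep.gen hψ h a u π hu hc
  rw [h0, add_zero] at h1
  linear_combination (norm := abel) h1 - U2Rep.two (ev a π (gam ψ))

end Vale.Agent.P029
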