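import Vale.Agent.P029.Gam

noncomputable section

namespace Vale.Agent.P029

open FreeAlgebra

namespace U2Tail

variable {R : Type} [CommRing R] {X : Type} [DecidableEq X]

theorem co_cons_mul (z x : X) (w : List X) (g : FA R X) :
    co (z :: w) (ι R x * g) = if x = z then co w g else 0 := by
  rw [← co_stL, stL_ι_mul]
  by_cases h : x = z <;> simp [h]

theorem co_snoc_mul (z x : X) (w : List X) (g : FA R X) :
    co (w ++ [z]) (g * ι R x) = if x = z then co w g else 0 := by
  rw [← co_stR, ← wd_singleton, stR_mul_wd _ _ _ (by simp)]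
  by_cases h : x = z
  · simp [h]
  · have : ¬ [z] <:+ [x] := fun hs => h (by simpa [eq_comm] using hs.eq_of_length rfl)
    simp [h, this]

omit [DecidableEq X] in
theorem co_one {w : List X} (hw : w ≠ []) : co w (1 : FA R X) = 0 := by
  rw [← wd_nil, co_wd, if_neg hw.symm]

theorem stR_mul (x : Fin 2) (g : FA R (Fin 2)) :
    stR [0, 0] (ι R x * g) = (if x = 0 then co [0] g else 0) • 1 + ι R x * stR [0, 0] g := by
  refine ext_co fun w => ?_
  rw [co_stR, map_add, map_smul]
  cases w with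
  | nil => rw [List.nil_append, co_cons_mul, co_nil_mul, co_nil_ι, co_nil_one]; simp
  | cons z w =>
    rw [List.cons_append, co_cons_mul, co_cons_mul, co_one (List.cons_ne_nil _ _), co_stR]; simp

theorem co_adI (i : ℕ) : ∀ (l : ℕ) (w : List (Fin 2)) (f : FA F2 (Fin 2)), i ≤ l →
    co (w ++ 1 :: List.replicate l 0) (f * adI i) = if i = l then co w f else 0 := by
  induction i with
  | zero =>
    intro l w f _
    rw [adI_zero]
    cases l with
    | zero => simpa using co_snoc_mul (1 : Fin 2) 1 w f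
    | succ l =>
      rw [List.replicate_succ', ← List.cons_append, ← List.append_assoc, co_snoc_mul]; simp
  | succ i ih =>
    intro l w f hl
    obtain ⟨l, rfl⟩ : ∃ l', l = l' + 1 := ⟨l - 1, by omega⟩
    rw [adI_succ, br, mul_sub, ← mul_assoc, ← mul_assoc, map_sub, ih _ _ _ (by omega),
      if_neg (by omega), List.replicate_succ', ← List.cons_append, ← List.append_assoc,
      co_snoc_mul, if_pos rfl, ih _ _ _ (by omega), zero_sub, CharTwo.neg_eq]
    simp

end U2Tail

open U2Tail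

theorem u2_xx {Ψ : FA F2 (Fin 2)}
    (h : ∀ (A : Type) [Ring A] [Algebra F2 A] (a u π : A), u * u = 0 → Commute u π →
      ev (a + u) π Ψ = ev a π Ψ) : co [0] Ψ = 0 ∧ ∀ w, co (w ++ [0, 0]) Ψ = 0 := by
  let a : Module.End F2 (F2 × F2 × FA F2 (Fin 2)) :=
    { toFun := fun m => (0, 0, m.2.1 • 1 + ι F2 0 * m.2.2)
      map_add' := fun m m' => by
        simp only [Prod.snd_add, Prod.fst_add, add_smul, mul_add, Prod.mk_add_mk, add_zero]
        congr 2; abel
      map_smul' := fun r m => by simp [mul_smul] }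
  let u : Module.End F2 (F2 × F2 × FA F2 (Fin 2)) :=
    { toFun := fun m => (0, m.1, 0)
      map_add' := fun m m' => by simp
      map_smul' := fun r m => by simp }
  let π : Module.End F2 (F2 × F2 × FA F2 (Fin 2)) :=
    { toFun := fun m => (0, 0, ι F2 1 * m.2.2)
      map_add' := fun m m' => by simp [mul_add]
      map_smul' := fun r m => by simp }
  let T : FA F2 (Fin 2) →ₗ[F2] F2 × F2 × FA F2 (Fin 2) :=
    (co []).prod ((co [0]).prod (stR [0, 0]))
  have hT : ∀ g, T g = (co [] g, co [0] g, stR [0, 0] g) := fun g => rfl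
  have h1 := h _ a u π (LinearMap.ext fun m => by simp [u])
    (LinearMap.ext fun m => by simp [u, π])
  have h2 := ev_intertwine T (LinearMap.mulLeft F2 (ι F2 0)) (LinearMap.mulLeft F2 (ι F2 1))
    (a + u) π (fun g => by
      rw [LinearMap.mulLeft_apply, hT, hT, stR_mul, co_cons_mul, co_nil_mul, co_nil_ι]
      simp [a, u]) (fun g => by
      rw [LinearMap.mulLeft_apply, hT, hT, stR_mul, co_cons_mul, co_nil_mul, co_nil_ι]
      simp [π]) Ψ 1
  have h3 : T 1 = (1, 0, 0) := by
    rw [hT, co_nil_one, co_one (List.cons_ne_nil _ _)]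
    congr 2
    exact ext_co fun w => by rw [co_stR, co_one (by simp), map_zero]
  rw [ev_mulLeft, ev_id, LinearMap.mulLeft_apply, mul_one, h1, h3, ev,
    lift_apply_killed _ _ (fun x => by fin_cases x <;> simp [a, π]), hT] at h2
  simp only [Prod.smul_mk, smul_zero, Prod.mk.injEq] at h2
  exact ⟨h2.2.1, fun w => by rw [← co_stR, h2.2.2, map_zero]⟩

theorem u2_light {χ : FA F2 ℕ}
    (h : ∀ w, co (w ++ [0, 0]) (FreeAlgebra.lift F2 (adI (R := F2)) χ) = 0) (w : List ℕ) (i : ℕ)
    (hi : 2 ≤ i) : co (w ++ [i]) χ = 0 := by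
  classical
  obtain ⟨s, hs, hχ⟩ := exists_sum_last χ
  suffices H : stR [i] χ = 0 by rw [← co_stR, H, map_zero]
  by_contra hne
  obtain ⟨j, hj, hmax⟩ := (s.filter fun j => 2 ≤ j ∧ stR [j] χ ≠ 0).exists_max_image id
    ⟨i, Finset.mem_filter.2 ⟨by_contra fun h' => hne (hs i h'), hi, hne⟩⟩
  obtain ⟨hjs, hj2, hj0⟩ := Finset.mem_filter.1 hj
  apply hj0
  rw [← rI_lift (stR [j] χ)]
  suffices H : FreeAlgebra.lift F2 (adI (R := F2)) (stR [j] χ) = 0 by rw [H, map_zero]
  refine ext_co fun v => ?_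
  obtain ⟨l, rfl⟩ : ∃ l, j = l + 2 := ⟨j - 2, by omega⟩
  have h1 := h (v ++ 1 :: List.replicate l 0)
  have h2 : v ++ 1 :: List.replicate l 0 ++ [0, 0] = v ++ 1 :: List.replicate (l + 2) (0 : Fin 2) := by
    rw [List.replicate_add]; simp
  rw [h2, hχ, map_add, map_smul, map_one, map_add, map_smul, co_one (by simp), smul_zero, zero_add,
    map_sum, map_sum, Finset.sum_eq_single (l + 2)] at h1
  · rw [map_mul, lift_ι_apply, co_adI _ _ _ _ le_rfl, if_pos rfl] at h1
    rw [h1, map_zero]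
  · intro z hz hne'
    rw [map_mul, lift_ι_apply]
    rcases le_or_gt z (l + 2) with hl | hl
    · rw [co_adI _ _ _ _ hl, if_neg hne']
    · have : stR [z] χ = 0 := by_contra fun h' =>
        absurd (hmax z (Finset.mem_filter.2 ⟨hz, by omega, h'⟩)) (by simpa using hl)
      rw [this, map_zero, zero_mul, map_zero]
  · exact fun h' => absurd hjs h'

theorem u2_tail {n : ℕ} (hn : 3 ≤ n) {Ψ : FA F2 (Fin 2)} (hL : Ψ ∈ LieA F2 (Fin 2))
    (hH : Ψ ∈ HomW F2 ![1, 2] n)
    (h : ∀ (A : Type) [Ring A] [Algebra F2 A] (a u π : A), u * u = 0 → Commute u π →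
      ev (a + u) π Ψ = ev a π Ψ) : JJ (JI Ψ) = Ψ := by
  obtain ⟨h0, h00⟩ := u2_xx h
  have h1 := lift_rI hL
  rw [h0, zero_smul, zero_add] at h1
  have hχ := rI_mem_LieA hL
  have h2 : keep (fun i => i < 2) (rI Ψ) = rI Ψ :=
    keep_eq_of_last hχ fun w z hz => u2_light (by rw [← h1]; exact h00) w z (not_lt.1 hz)
  have h3 : (FreeAlgebra.lift F2 (adI (R := F2))).comp (keep fun i => i < 2) = J1.comp kp := by
    ext i
    rcases i with _ | _ | i
    · simp [keep, kp, J1, adI_zero]
    · simp [keep, kp, J1, adI_succ, adI_zero]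
    · simp [keep, kp]
  have h4 : kp (rI Ψ) ∈ LieA F2 (Fin 2) := lift_LieA (fun i => by
    split_ifs
    exacts [ι_mem_LieA _, ι_mem_LieA _, zero_mem _]) hχ
  have h5 : kp (rI Ψ) ∈ HomW F2 ![2, 3] n := lift_HomW (fun i => by
    split_ifs with h1 h2
    · subst h1; exact ι_mem_HomW (0 : Fin 2)
    · subst h2; exact ι_mem_HomW (1 : Fin 2)
    · exact zero_mem _) (rI_HomW 1 2 hH)
  have h6 := lift_rI h4
  rw [mem_HomW.1 h5 [0] (by simp; omega), zero_smul, zero_add] at h6
  have h7 := DFunLike.congr_fun h3 (rI Ψ)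
  rw [AlgHom.comp_apply, AlgHom.comp_apply, h2, ← h1] at h7
  change J1 (FreeAlgebra.lift F2 (adI (R := F2)) (rI (kp (rI Ψ)))) = Ψ
  rw [← h6, ← h7]

end Vale.Agent.P029
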