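import Vale.Agent.P029.U1Main
import Vale.Agent.P029.U2Rep
import Vale.Agent.P029.U2Tail
import Vale.Agent.P029.RedZ
import Vale.Agent.P029.KI
import Vale.Agent.P029.Pure

noncomputable section

namespace Vale.Agent.P029

open FreeAlgebra

variable {m n : ℕ} {ψ φ : FA ℤ (Fin 2)}

theorem red_apply (ψ : FA ℤ (Fin 2)) : red ψ = JI (gam (bc F2 ψ)) := rfl

theorem red_bc_smul (k : ℤ) (ψ : FA ℤ (Fin 2)) : bc ℚ (k • ψ) = (k : ℚ) • bc ℚ ψ := by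
  rw [map_zsmul, Int.cast_smul_eq_zsmul]

theorem Lam.zero : Lam n 0 := ⟨zero_mem _, by rw [map_zero]; exact pent_zero⟩

theorem Lam.add (h : Lam n ψ) (h' : Lam n φ) : Lam n (ψ + φ) :=
  ⟨add_mem h.1 h'.1, by rw [map_add]; exact h.2.add h'.2⟩

theorem Lam.smul (h : Lam n ψ) (k : ℤ) : Lam n (k • ψ) :=
  ⟨Submodule.smul_mem _ _ h.1, by rw [red_bc_smul]; exact h.2.smul _⟩

theorem Lam.sub (h : Lam n ψ) (h' : Lam n φ) : Lam n (ψ - φ) :=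
  ⟨sub_mem h.1 h'.1, by rw [map_sub]; exact h.2.sub h'.2⟩

theorem Lam.ih (hm : 3 ≤ m) (hn : 3 ≤ n) (h : Lam m ψ) (h' : Lam n φ) :
    Lam (m + n) (P029.ih ψ φ) :=
  ⟨ih_LieW h.1 h'.1, by
    rw [bc_ih]; exact pent_ihQ hm hn (bc_LieW h.1) (bc_LieW h'.1) h.2 h'.2⟩

theorem red_ge (hn : 3 ≤ n) (h : Lam n ψ) : bc F2 ψ ∈ LieGe F2 (Fin 2) 3 :=
  LieW_le_LieGe hn (bc_LieW h.1)

theorem red_JJ (hn : 3 ≤ n) (h : Lam n ψ) : JJ (red ψ) = gam (bc F2 ψ) :=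
  u2_tail hn (gam_LieA (LieW_le_LieA (bc_LieW h.1))) (gam_HomW (LieW_le_HomW (bc_LieW h.1)))
    fun A _ _ a u π hu hc => u2_rep (red_ge hn h) (pent_bc (pent_int h.2)) A a u π hu hc

theorem red_mem (h : Lam n ψ) : red ψ ∈ LieW F2 wtG n :=
  mem_LieW_of (JI_LieA (gam_LieA (LieW_le_LieA (bc_LieW h.1))))
    (JI_HomW (gam_HomW (LieW_le_HomW (bc_LieW h.1))))

theorem red_eq_zero (hn : 3 ≤ n) (h : Lam n ψ) (h0 : red ψ = 0) :
    ∃ χ, Lam n χ ∧ ψ = (2 : ℤ) • χ := by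
  have h1 : gam (bc F2 ψ) = 0 := by rw [← red_JJ hn h, h0, map_zero]
  have h2 : bc F2 ψ = 0 := u1 (red_ge hn h) (pent_bc (pent_int h.2)) fun A _ _ u v hv => by
    rw [gam_ev (LieGe_anti (by norm_num) (red_ge hn h)) u v hv, h1, map_zero]
  obtain ⟨χ, rfl⟩ := bc_two h2
  refine ⟨χ, ⟨mem_LieW_of (pure_lie two_ne_zero (LieW_le_LieA h.1))
    (HomW_of_smul_int two_ne_zero (LieW_le_HomW h.1)), ?_⟩, rfl⟩
  have := h.2.smul (1 / 2 : ℚ)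
  rw [red_bc_smul, smul_smul] at this
  norm_num at this
  exact this

theorem red_ih (hm : 3 ≤ m) (hn : 3 ≤ n) (h : Lam m ψ) (h' : Lam n φ) :
    red (ih ψ φ) = br (red ψ) (red φ) := by
  rw [red_apply, bc_ih, gam_ih (LieGe_anti (by norm_num) (red_ge hm h))
    (LieGe_anti (by norm_num) (red_ge hn h')) (by rw [← red_JJ hm h, dP_JJ])
    (by rw [← red_JJ hn h', dP_JJ]), ← red_JJ hm h, ← red_JJ hn h', ← map_br JJ, JI_JJ]

end Vale.Agent.P029
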