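import Mathlib

/-! P029: definitions used in the statement. -/

namespace Vale.Agent.P029

/-- The free Lie algebra over the rationals on two generators. -/
abbrev L : Type := FreeLieAlgebra ℚ (Fin 2)

/-- The generator `x`. -/
noncomputable def gx : L := FreeLieAlgebra.of ℚ 0

/-- The generator `y`. -/
noncomputable def gy : L := FreeLieAlgebra.of ℚ 1

/-- `evL ψ a b` is `ψ(a,b)`. -/
noncomputable def evL {g : Type} [LieRing g] [LieAlgebra ℚ g] (ψ : L) (a b : g) : g :=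
  FreeLieAlgebra.lift ℚ ![a, b] ψ

/-- The free Lie algebra on symbols `t i j`. -/
abbrev T4Free : Type := FreeLieAlgebra ℚ (Fin 4 × Fin 4)

/-- The free generator `t i j`. -/
noncomputable def tf (i j : Fin 4) : T4Free := FreeLieAlgebra.of ℚ (i, j)

/-- The relations of `t₄` (the diagonal symbols are killed). -/
def t4Rel : Set T4Free :=
  {z | (∃ i, z = tf i i) ∨ (∃ i j, z = tf i j - tf j i) ∨
    (∃ i j k l, i ≠ j ∧ i ≠ k ∧ i ≠ l ∧ j ≠ k ∧ j ≠ l ∧ k ≠ l ∧ z = ⁅tf i j, tf k l⁆) ∨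
    (∃ i j k, i ≠ j ∧ i ≠ k ∧ j ≠ k ∧ z = ⁅tf i j, tf i k + tf j k⁆)}

/-- The Lie ideal generated by the relations. -/
noncomputable def t4Ideal : LieIdeal ℚ T4Free := LieSubmodule.lieSpan ℚ T4Free t4Rel

/-- The Lie algebra `t₄`. -/
abbrev T4 : Type := T4Free ⧸ t4Ideal

/-- The generator `t i j` of `t₄` (indices `0,1,2,3` stand for `1,2,3,4`). -/
noncomputable def t (i j : Fin 4) : T4 := LieSubmodule.Quotient.mk (tf i j)

/-- The space `W` cut out by the three equations. -/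
def W : Set L :=
  {ψ | ψ + evL ψ gy gx = 0 ∧
    ψ + evL ψ gy (-gx - gy) + evL ψ (-gx - gy) gx = 0 ∧
    evL ψ (t 0 1) (t 1 2 + t 1 3) + evL ψ (t 0 2 + t 1 2) (t 2 3) =
      evL ψ (t 1 2) (t 2 3) + evL ψ (t 0 1 + t 0 2) (t 1 3 + t 2 3) + evL ψ (t 0 1) (t 1 2)}

/-- `ψ` is homogeneous of weight `n`. -/
def Homog (n : ℕ) (ψ : L) : Prop := ∀ s : ℚ, evL ψ (s • gx) (s • gy) = s ^ n • ψ

/-- The free Lie algebra on `e₃, e₅, …`; the generator number `k` is `e_{2k+3}`. -/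
abbrev F : Type := FreeLieAlgebra ℚ ℕ

/-- `a` is homogeneous of weight `n` when the generator number `k` has weight `2k+3`. -/
def HomogF (n : ℕ) (a : F) : Prop :=
  ∀ s : ℚ, FreeLieAlgebra.lift ℚ (fun k : ℕ => s ^ (2 * k + 3) • FreeLieAlgebra.of ℚ k) a = s ^ n • a

/-- `D ψ` is the derivation with `x ↦ 0`, `y ↦ [y, ψ]`. -/
def IsIhD (D : L → LieDerivation ℚ L L) : Prop := ∀ ψ, D ψ gx = 0 ∧ D ψ gy = ⁅gy, ψ⁆

end Vale.Agent.P029
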