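import Vale.Agent.P029.UDefs
import Vale.Agent.P029.Lie2

noncomputable section

namespace Vale.Agent.P029

open FreeAlgebra

namespace U1Inj

abbrev M : Type := (ℕ × Bool) →₀ FF

def G : Module.End F2 M := Finsupp.lsum F2 fun p =>
  (Finsupp.lsingle (0, false)) ∘ₗ LinearMap.mulLeft F2 (cond p.2 (bb p.1) (aa p.1))

def V (b : Bool) : Module.End F2 M := Finsupp.lsum F2 fun p =>
  cond p.2 0 (Finsupp.lsingle (p.1 + 1, b))

theorem G_f (k : ℕ) (f : FF) : G (Finsupp.single (k, false) f) = Finsupp.single (0, false) (aa k * f) := by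
  simp [G]

theorem G_t (k : ℕ) (f : FF) : G (Finsupp.single (k, true) f) = Finsupp.single (0, false) (bb k * f) := by
  simp [G]

theorem V_f (b : Bool) (k : ℕ) (f : FF) :
    V b (Finsupp.single (k, false) f) = Finsupp.single (k + 1, b) f := by
  simp [V]

theorem V_t (b : Bool) (k : ℕ) (f : FF) : V b (Finsupp.single (k, true) f) = 0 := by
  simp [V]

def ρ : R3 →ₐ[F2] Module.End F2 M := FreeAlgebra.lift F2 ![G, V false, V true]

theorem ρ0 : ρ (ι F2 0) = G := by simp [ρ]
theorem ρ1 : ρ (ι F2 1) = V false := by simp [ρ]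
theorem ρ2 : ρ (ι F2 2) = V true := by simp [ρ]

theorem AB_act (f : FF) (r : ℕ) :
    ρ (AB r).1 (Finsupp.single (0, false) f) = Finsupp.single (r, false) f ∧
    ρ (AB r).2 (Finsupp.single (0, false) f) = if r = 0 then 0 else Finsupp.single (r, true) f := by
  induction r with
  | zero => simp [AB]
  | succ r ih =>
    simp only [AB, map_add, map_mul, ρ1, ρ2, LinearMap.add_apply, Module.End.mul_apply, ih.1, ih.2,
      V_f]
    split_ifs <;> simp_all [V_t]

theorem act (φ f : FF) :
    ρ (jj φ) (Finsupp.single (0, false) f) = Finsupp.single (0, false) (φ * f) := by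
  induction φ using FreeAlgebra.induction generalizing f with
  | grade0 r => simp [Algebra.algebraMap_eq_smul_one, Finsupp.smul_single]
  | grade1 x =>
    cases x with
    | inl r => simp [jj, ρ0, (AB_act f r).1, G_f, aa]
    | inr r => simp [jj, ρ0, (AB_act f (r + 1)).2, G_t, bb]
  | mul a b ha hb => rw [map_mul, map_mul, Module.End.mul_apply, hb, ha, mul_assoc]
  | add a b ha hb => rw [map_add, map_add, LinearMap.add_apply, ha, hb, add_mul, Finsupp.single_add]

end U1Inj

theorem jj_inj : Function.Injective jj := by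
  intro φ χ h
  have h1 := U1Inj.act φ 1
  rw [h, U1Inj.act, mul_one, mul_one] at h1
  exact (Finsupp.single_injective _ h1).symm

end Vale.Agent.P029
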