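import Vale.Agent.P029.UDefs
import Vale.Agent.P029.Lie2

noncomputable section

namespace Vale.Agent.P029

open FreeAlgebra

namespace U1J

theorem two (z : R3) : z + z = 0 := by
  rw [← two_smul F2 z]
  show (0 : F2) • z = 0
  exact zero_smul _ _

theorem AB1 (r : ℕ) : (AB (r + 1)).1 = ι F2 1 * (AB r).1 + ι F2 2 * (AB r).2 := rfl

theorem AB2 (r : ℕ) : (AB (r + 1)).2 = ι F2 1 * (AB r).2 + ι F2 2 * (AB r).1 := rfl

theorem XD_mul (a b : R3) : XD (a * b) = XD a * b + a * XD b := der_isDer _ a b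

theorem eta_mul (a b : R3) : etaD (a * b) = etaD a * b + a * etaD b := der_isDer _ a b

theorem XD0 : XD (ι F2 0) = ι F2 0 * ι F2 1 := der_ι _ _
theorem XD1 : XD (ι F2 1) = ι F2 2 * ι F2 2 := der_ι _ _
theorem XD2 : XD (ι F2 2) = ι F2 1 * ι F2 2 := der_ι _ _
theorem eta0 : etaD (ι F2 0) = 0 := der_ι _ _
theorem eta1 : etaD (ι F2 1) = br (ι F2 2) (ι F2 0) + ι F2 0 * ι F2 0 := der_ι _ _
theorem eta2 : etaD (ι F2 2) = br (ι F2 1) (ι F2 0) := der_ι _ _

theorem XD_AB (r : ℕ) :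
    XD (AB r).1 = ι F2 2 * (AB r).2 ∧ XD (AB r).2 = ι F2 1 * (AB r).2 := by
  induction r with
  | zero =>
    refine ⟨?_, ?_⟩
    · show XD 1 = ι F2 2 * 0
      rw [mul_zero]
      exact (der_isDer _).map_one
    · show XD 0 = ι F2 1 * 0
      rw [mul_zero, map_zero]
  | succ r ih =>
    rw [AB1, AB2]
    simp only [map_add, XD_mul, XD1, XD2, ih.1, ih.2]
    constructor
    · linear_combination (norm := noncomm_ring) two (ι F2 1 * ι F2 2 * (AB r).2)
    · linear_combination (norm := noncomm_ring) two (ι F2 2 * ι F2 2 * (AB r).2)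

/-- The first convolution sum. -/
def SA (r : ℕ) : R3 := ∑ i ∈ Finset.range r,
  ((AB i).1 * (ι F2 0 * ι F2 0) * (AB (r - 1 - i)).1 +
    (AB i).2 * (ι F2 0 * ι F2 0) * (AB (r - 1 - i)).2)

/-- The second convolution sum. -/
def SB (r : ℕ) : R3 := ∑ i ∈ Finset.range r,
  ((AB i).1 * (ι F2 0 * ι F2 0) * (AB (r - 1 - i)).2 +
    (AB i).2 * (ι F2 0 * ι F2 0) * (AB (r - 1 - i)).1)

theorem idx (r i : ℕ) : r + 1 - 1 - (i + 1) = r - 1 - i := by omega

theorem SA_succ (r : ℕ) :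
    SA (r + 1) = ι F2 1 * SA r + ι F2 2 * SB r + ι F2 0 * ι F2 0 * (AB r).1 := by
  unfold SA SB
  rw [Finset.sum_range_succ', Finset.mul_sum, Finset.mul_sum, ← Finset.sum_add_distrib]
  congr 1
  · refine Finset.sum_congr rfl fun i _ => ?_
    rw [idx, AB1, AB2]
    noncomm_ring
  · show (1 : R3) * _ * (AB r).1 + 0 * _ * _ = _
    noncomm_ring

theorem SB_succ (r : ℕ) :
    SB (r + 1) = ι F2 1 * SB r + ι F2 2 * SA r + ι F2 0 * ι F2 0 * (AB r).2 := by
  unfold SA SB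
  rw [Finset.sum_range_succ', Finset.mul_sum, Finset.mul_sum, ← Finset.sum_add_distrib]
  congr 1
  · refine Finset.sum_congr rfl fun i _ => ?_
    rw [idx, AB1, AB2]
    noncomm_ring
  · show (1 : R3) * _ * (AB r).2 + 0 * _ * _ = _
    noncomm_ring

theorem eta_AB (r : ℕ) : etaD (AB r).1 = br (AB r).2 (ι F2 0) + SA r ∧
    etaD (AB r).2 = br (AB r).1 (ι F2 0) + SB r := by
  induction r with
  | zero =>
    refine ⟨?_, ?_⟩
    · show etaD 1 = br 0 (ι F2 0) + SA 0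
      rw [show etaD 1 = 0 from (der_isDer _).map_one]
      simp [br, SA]
    · show etaD 0 = br 1 (ι F2 0) + SB 0
      simp [br, SB]
  | succ r ih =>
    rw [AB1, AB2, SA_succ, SB_succ]
    simp only [map_add, eta_mul, eta1, eta2, ih.1, ih.2, br]
    constructor <;> noncomm_ring

theorem jj_aa (r : ℕ) : jj (aa r) = ι F2 0 * (AB r).1 := FreeAlgebra.lift_ι_apply _ _

theorem jj_bb (r : ℕ) : jj (bb r) = ι F2 0 * (AB r).2 := by
  cases r with
  | zero =>
    show jj 0 = ι F2 0 * 0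
    rw [map_zero, mul_zero]
  | succ r => exact FreeAlgebra.lift_ι_apply _ _

theorem jj_a0 : jj (aa 0) = ι F2 0 := by
  rw [jj_aa]
  exact mul_one _

theorem jj_Ya (r : ℕ) : jj (Ya r) = ι F2 0 * (br (AB r).2 (ι F2 0) + SA r) := by
  unfold Ya SA br
  rw [map_add, map_sum, mul_add, Finset.mul_sum]
  congr 1
  · rw [map_sub, map_mul, map_mul, jj_a0, jj_bb]
    noncomm_ring
  · refine Finset.sum_congr rfl fun i _ => ?_
    rw [map_add, map_mul, map_mul, map_mul, map_mul, jj_a0, jj_aa, jj_aa, jj_bb, jj_bb]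
    noncomm_ring

theorem jj_Yb (r : ℕ) : jj (Yb r) = ι F2 0 * (br (AB r).1 (ι F2 0) + SB r) := by
  unfold Yb SB br
  rw [map_add, map_sum, mul_add, Finset.mul_sum]
  congr 1
  · rw [map_sub, map_mul, map_mul, jj_a0, jj_aa]
    noncomm_ring
  · refine Finset.sum_congr rfl fun i _ => ?_
    rw [map_add, map_mul, map_mul, map_mul, map_mul, jj_a0, jj_aa, jj_aa, jj_bb, jj_bb]
    noncomm_ring

end U1J

open U1J in
theorem jj_xF (f : FF) : jj (xF f) = XD (jj f) := by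
  refine IsDer.intertwine jj (der_isDer _) (der_isDer _) (fun x => ?_) f
  rw [der_ι]
  rcases x with r | r
  · show jj (aa (r + 1)) = XD (jj (aa r))
    rw [jj_aa, jj_aa, XD_mul, XD0, (XD_AB r).1, AB1]
    noncomm_ring
  · show jj 0 = XD (jj (bb (r + 1)))
    rw [map_zero, jj_bb, XD_mul, XD0, (XD_AB (r + 1)).2, mul_assoc, two]

open U1J in
theorem jj_YF (f : FF) : jj (YF f) = etaD (jj f) := by
  refine IsDer.intertwine jj (der_isDer _) (der_isDer _) (fun x => ?_) f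
  rw [der_ι]
  rcases x with r | r
  · show jj (Ya r) = etaD (jj (aa r))
    rw [jj_Ya, jj_aa, eta_mul, eta0, (eta_AB r).1, zero_mul, zero_add]
  · show jj (Yb (r + 1)) = etaD (jj (bb (r + 1)))
    rw [jj_Yb, jj_bb, eta_mul, eta0, (eta_AB (r + 1)).2, zero_mul, zero_add]

theorem jj_p : jj (aa 0) = ι F2 0 := by
  exact U1J.jj_a0

end Vale.Agent.P029
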