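import Vale.Agent.P029.UDefs
import Vale.Agent.P029.U1J
import Vale.Agent.P029.U1Inj

noncomputable section

namespace Vale.Agent.P029

open FreeAlgebra

theorem u1cost_sq {A : Type} [Ring A] [Algebra F2 A] (v g : A) :
    br (br v g) g = g * g * v - v * (g * g) := by
  have h2 : ∀ z : A, z + z = 0 := fun z => by
    rw [← two_smul F2 z]
    exact zero_smul F2 z
  unfold br
  linear_combination (norm := noncomm_ring) h2 (v * g * g) - h2 (g * v * g)

theorem YF_sq : YF * YF = tF := by
  have h1 : IsDer etaD := der_isDer _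
  have e0 : etaD (ι F2 0) = 0 := by simp [etaD]
  have e1 : etaD (ι F2 1) = br (ι F2 2) (ι F2 0) + ι F2 0 * ι F2 0 := by simp [etaD]
  have e2 : etaD (ι F2 2) = br (ι F2 1) (ι F2 0) := by simp [etaD]
  have h : etaD * etaD = LinearMap.mulLeft F2 (ι F2 0 * ι F2 0 : R3) -
      LinearMap.mulRight F2 (ι F2 0 * ι F2 0 : R3) := by
    refine h1.sq.ext (isDer_ad _) fun x => ?_
    rw [Module.End.mul_apply, LinearMap.sub_apply, LinearMap.mulLeft_apply,
      LinearMap.mulRight_apply, ← u1cost_sq]
    obtain rfl | rfl | rfl : x = 0 ∨ x = 1 ∨ x = 2 := by omega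
    · simp [e0, br]
    · rw [e1, map_add, h1.map_br, h1, e0, e2]
      simp [br]
    · rw [e2, h1.map_br, e0, e1, br_add_left]
      simp [br, mul_assoc]
  refine LinearMap.ext fun f => jj_inj ?_
  rw [Module.End.mul_apply, jj_YF, jj_YF, ← Module.End.mul_apply, h]
  simp [tF, jj_p]

theorem u1cost_a (r : ℕ) : aa r ∈ HomW F2 cost 2 := ι_mem_HomW (wt := cost) (Sum.inl r)

theorem u1cost_b : ∀ r, bb r ∈ HomW F2 cost 1
  | 0 => zero_mem _
  | r + 1 => ι_mem_HomW (wt := cost) (Sum.inr r)

/-- `t` is the leading part of `T`, of cost `k`. -/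
def u1cost_L (T t : Module.End F2 FF) (k : ℕ) : Prop :=
  ∀ n M m, m ∈ HomW F2 cost n ∧ M - m ∈ GeW F2 cost (n + 1) →
    t m ∈ HomW F2 cost (n + k) ∧ T M - t m ∈ GeW F2 cost (n + k + 1)

theorem u1cost_of {T t : Module.End F2 FF} {k : ℕ} (hT : IsDer T) (ht : IsDer t)
    (h1 : ∀ x, t (ι F2 x) ∈ HomW F2 cost (cost x + k))
    (h2 : ∀ x, T (ι F2 x) - t (ι F2 x) ∈ GeW F2 cost (cost x + (k + 1))) : u1cost_L T t k := by
  intro n M m h
  refine ⟨isDer_HomW ht h1 h.1, ?_⟩
  have h0 : IsDer (T - t) := fun a b => by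
    simp only [LinearMap.sub_apply, hT a b, ht a b]
    noncomm_ring
  have h3 : T m - t m ∈ _ := isDer_GeW h0 (k := k + 1) h2 (HomW_le_GeW le_rfl h.1)
  have h4 := isDer_GeW hT (k := k) (fun x => by
    rw [← sub_add_cancel (T (ι F2 x)) (t (ι F2 x))]
    exact add_mem (GeW_anti (by omega) (h2 x)) (HomW_le_GeW le_rfl (h1 x))) h.2
  rw [add_right_comm, map_sub] at h4
  rw [← sub_add_sub_cancel _ (T m)]
  exact add_mem h4 h3

theorem u1cost_x : u1cost_L xF xF 0 :=
  u1cost_of (der_isDer _) (der_isDer _) (fun x => by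
    cases x with
    | inl r => simpa [xF, cost] using u1cost_a _
    | inr r => simp [xF]) fun x => by simp

theorem u1cost_t : u1cost_L tF tF 4 := by
  have h : IsDer tF := isDer_ad (aa 0 * aa 0)
  have h1 := HomW_mul (u1cost_a 0) (u1cost_a 0)
  refine u1cost_of h h (fun x => ?_) fun x => by simp
  rw [tF, LinearMap.sub_apply, LinearMap.mulLeft_apply, LinearMap.mulRight_apply]
  refine sub_mem ?_ (HomW_mul (ι_mem_HomW x) h1)
  rw [add_comm]
  exact HomW_mul h1 (ι_mem_HomW x)

theorem u1cost_y : u1cost_L YF yF 1 := by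
  have a := u1cost_a
  have b := u1cost_b
  refine u1cost_of (der_isDer _) (der_isDer _) (fun x => ?_) fun x => ?_
  · cases x with
    | inl r => simpa [yF, cost] using HomW_br (b r) (a 0)
    | inr r => simp [yF]
  · cases x with
    | inl r =>
      simp only [YF, yF, der_ι, Sum.elim_inl, Ya, add_sub_cancel_left, cost]
      exact sum_mem fun i _ => add_mem
        (HomW_le_GeW (by omega) (HomW_mul (HomW_mul (a _) (a _)) (a _)))
        (HomW_le_GeW (by omega) (HomW_mul (HomW_mul (b _) (a _)) (b _)))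
    | inr r =>
      simp only [YF, yF, der_ι, Sum.elim_inr, Yb, sub_zero, cost]
      exact add_mem (HomW_le_GeW (by omega) (HomW_br (a _) (a _))) (sum_mem fun i _ => add_mem
        (HomW_le_GeW (by omega) (HomW_mul (HomW_mul (a _) (a _)) (b _)))
        (HomW_le_GeW (by omega) (HomW_mul (HomW_mul (b _) (a _)) (a _))))

theorem u1cost_cons (a : Fin 2) (w : List (Fin 2)) (m : FF) :
    ev xF YF (wd F2 (a :: w)) m = (if a = 0 then xF else YF) (ev xF YF (wd F2 w) m) := by
  obtain rfl | rfl : a = 0 ∨ a = 1 := by omega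
  all_goals simp [wd, ev]

theorem u1cost_main : ∀ w : List (Fin 2), th xF yF tF (aa 0) w ∈ HomW F2 cost (kap w) ∧
    ev xF YF (wd F2 w) (aa 0) - th xF yF tF (aa 0) w ∈ GeW F2 cost (kap w + 1)
  | [] => ⟨u1cost_a 0, by simp [th, wd]⟩
  | [a] => by
    have h := u1cost_main []
    rw [u1cost_cons, kap, th, th]
    split_ifs
    · exact u1cost_x _ _ _ h
    · exact u1cost_y _ _ _ h
  | a :: b :: w => by
    have h := u1cost_main (b :: w)
    have h' := u1cost_main w
    rw [u1cost_cons, kap, th, th]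
    split_ifs with h1 h2
    · exact u1cost_x _ _ _ h
    · rw [u1cost_cons, if_neg (by omega), ← Module.End.mul_apply, YF_sq]
      exact u1cost_t _ _ _ h'
    · exact u1cost_y _ _ _ h

theorem th_cost (w : List (Fin 2)) : th xF yF tF (aa 0) w ∈ HomW F2 cost (kap w) ∧
    ev xF YF (wd F2 w) (aa 0) - th xF yF tF (aa 0) w ∈ GeW F2 cost (kap w + 1) := by
  exact u1cost_main w

theorem u1_cost (h : LinearIndependent F2 (fun w : XE => th xF yF tF (aa 0) w.1)) :
    LinearIndependent F2 (fun w : XE => ev xF YF (wd F2 w.1) (aa 0)) := by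
  rw [linearIndependent_iff'] at h ⊢
  intro s c hc
  have key : ∀ k, ∀ i ∈ s, kap i.1 = k → c i = 0 := fun k => by
    induction k using Nat.strong_induction_on with
    | _ k ih =>
      intro i hi hk
      refine (if_pos hk).symm.trans (h s (fun i => if kap i.1 = k then c i else 0) ?_ i hi)
      have h1 := congrArg (proj cost k) hc
      rw [map_sum, map_zero] at h1
      refine (Finset.sum_congr rfl fun j hj => ?_).trans h1
      obtain ⟨h2, h3⟩ := th_cost j.1
      rcases lt_trichotomy (kap j.1) k with h4 | h4 | h4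
      · simp [ih _ h4 j hj rfl]
      · have h5 := proj_of_GeW (n := k) h3 (by omega)
        rw [map_sub, sub_eq_zero, proj_of_mem (n := k) (f := th _ _ _ _ _) (h4 ▸ h2)] at h5
        rw [map_smul, h5, if_pos h4]
      · have h5 := proj_of_GeW (n := k) h3 (by omega)
        rw [map_sub, sub_eq_zero, proj_of_ne h2 h4.ne'] at h5
        rw [map_smul, h5, if_neg h4.ne', zero_smul, smul_zero]
  exact fun i hi => key _ i hi rfl

end Vale.Agent.P029
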