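import Vale.Agent.P029.UDefs
import Vale.Agent.P029.Lie2

noncomputable section

namespace Vale.Agent.P029

open FreeAlgebra

namespace U1E

/-- The extraction on words. -/
def ex : List Lb → TT
  | [] => 0
  | [μ] => ι F2 μ
  | [_, _] => 0
  | [s, t, u] => ι F2 s * ((if t = P0 then ι F2 u else 0) + (if u = P0 then ι F2 t else 0))
  | s :: t :: u :: v :: w => if t = P0 then ι F2 s * ex (u :: v :: w) else 0

/-- The extraction map. -/
def EE : Module.End F2 TT := onW ex

theorem two (z : TT) : z + z = 0 := by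
  rw [← two_smul F2 z]
  have : (2 : F2) = 0 := rfl
  rw [this, zero_smul]

theorem EE_wd (w : List Lb) : EE (wd F2 w) = ex w := onW_wd _ _

theorem ex_cons2 (s t : Lb) (w : List Lb) (hw : w.length ≠ 1) :
    ex (s :: t :: w) = if t = P0 then ι F2 s * ex w else 0 := by
  match w, hw with
  | [], _ => simp [ex]
  | [u], h => simp at h
  | u :: v :: w, _ => simp [ex]

theorem EE_hom (s t : Lb) {n : ℕ} (hn : n ≠ 1) {f : TT} (hf : f ∈ HomW F2 one1 n) :
    EE (ι F2 s * (ι F2 t * f)) = if t = P0 then ι F2 s * EE f else 0 := by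
  induction hf using Submodule.span_induction with
  | mem x hx =>
    obtain ⟨w, hw, rfl⟩ := hx
    rw [← wd_cons, ← wd_cons, EE_wd, EE_wd, ex_cons2 _ _ _ (by rw [← ww_one1, hw]; exact hn)]
  | zero => simp
  | add x y _ _ hx hy =>
    simp only [mul_add, map_add, hx, hy]; split_ifs <;> simp
  | smul r x _ hx =>
    simp only [mul_smul_comm, map_smul, hx]; split_ifs <;> simp

theorem EE_three (s t u : Lb) : EE (ι F2 s * (ι F2 t * ι F2 u)) =
    ι F2 s * ((if t = P0 then ι F2 u else 0) + (if u = P0 then ι F2 t else 0)) := by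
  have := EE_wd [s, t, u]
  simpa [ex] using this

theorem EE_ι (s : Lb) : EE (ι F2 s) = ι F2 s := by
  have := EE_wd [s]
  simpa [ex] using this

theorem EE_two (s t : Lb) : EE (ι F2 s * ι F2 t) = 0 := by
  have := EE_wd [s, t]
  simpa [ex] using this

theorem EE_comm {D : Module.End F2 TT} (hD : IsDer D)
    (h : ∀ l, D (ι F2 l) = 0 ∨ ∃ l', l' ≠ P0 ∧ D (ι F2 l) = ι F2 l') (f : TT) :
    EE (D f) = D (EE f) := by
  have hh : ∀ n, ∀ g ∈ HomW F2 (one1 : Lb → ℕ) n, D g ∈ HomW F2 (one1 : Lb → ℕ) n := by
    intro n g hg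
    have := isDer_HomW (k := 0) hD (fun x => by
      rcases h x with h | ⟨l', _, h⟩
      · rw [h]; exact zero_mem _
      · rw [h]; exact ι_mem_HomW l') hg
    simpa using this
  have key : ∀ w : List Lb, EE (D (wd F2 w)) = D (EE (wd F2 w)) := by
    intro w
    induction w using ex.induct with
    | case1 => rw [EE_wd]; simp [hD.map_one, ex]
    | case2 μ =>
      rw [wd_singleton, EE_ι]
      rcases h μ with h | ⟨l', _, h⟩ <;> rw [h]
      · simp
      · exact EE_ι _
    | case3 s t =>
      have : wd F2 [s, t] = ι F2 s * ι F2 t := by simp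
      rw [this, EE_two, hD, map_add, map_zero]
      rcases h s with h1 | ⟨s', _, h1⟩ <;> rcases h t with h2 | ⟨t', _, h2⟩ <;>
        simp [h1, h2, EE_two]
    | case4 s t u =>
      have : wd F2 [s, t, u] = ι F2 s * (ι F2 t * ι F2 u) := by simp
      have e1 : EE (D (ι F2 s) * (ι F2 t * ι F2 u)) = D (ι F2 s) *
          ((if t = P0 then ι F2 u else 0) + (if u = P0 then ι F2 t else 0)) := by
        rcases h s with h1 | ⟨s', _, h1⟩ <;> rw [h1]
        · simp
        · exact EE_three _ _ _
      have e2 : EE (ι F2 s * (D (ι F2 t) * ι F2 u)) =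
          ι F2 s * D (if u = P0 then ι F2 t else 0) := by
        rcases h t with h1 | ⟨s', hs, h1⟩
        · split_ifs <;> simp [h1]
        · rw [h1, EE_three, if_neg hs]; split_ifs <;> simp [h1]
      have e3 : EE (ι F2 s * (ι F2 t * D (ι F2 u))) =
          ι F2 s * D (if t = P0 then ι F2 u else 0) := by
        rcases h u with h1 | ⟨s', hs, h1⟩
        · split_ifs <;> simp [h1]
        · rw [h1, EE_three, if_neg hs]; split_ifs <;> simp [h1]
      rw [this, EE_three, hD, hD, hD, mul_add (ι F2 s), map_add, map_add, e1, e2, e3, map_add,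
        mul_add (ι F2 s)]
      abel
    | case5 s u v w ih =>
      have hw : wd F2 (u :: v :: w) ∈ HomW F2 (one1 : Lb → ℕ) (w.length + 2) := by
        have := wd_mem_HomW (R := F2) (wt := one1) (u :: v :: w)
        simpa only [ww_one1, List.length_cons] using this
      have hn : w.length + 2 ≠ 1 := by omega
      rw [wd_cons, wd_cons, EE_hom _ _ hn hw, if_pos rfl, hD, hD, hD, mul_add, map_add, map_add,
        EE_hom _ _ hn (hh _ _ hw), if_pos rfl, ih]
      rcases h s with h1 | ⟨s', _, h1⟩ <;> rcases h P0 with h2 | ⟨t', ht, h2⟩ <;>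
        simp only [zero_mul, mul_zero, map_zero, zero_add, EE_hom _ _ hn hw, if_pos,
          if_neg, not_false_eq_true, *]
    | case6 s t u v w ht =>
      have hw : wd F2 (u :: v :: w) ∈ HomW F2 (one1 : Lb → ℕ) (w.length + 2) := by
        have := wd_mem_HomW (R := F2) (wt := one1) (u :: v :: w)
        simpa only [ww_one1, List.length_cons] using this
      have hn : w.length + 2 ≠ 1 := by omega
      rw [wd_cons, wd_cons, EE_hom _ _ hn hw, if_neg ht, hD, hD, mul_add, map_add, map_add,
        EE_hom _ _ hn (hh _ _ hw), if_neg ht]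
      rcases h s with h1 | ⟨s', _, h1⟩ <;> rcases h t with h2 | ⟨t', ht', h2⟩ <;>
        simp only [zero_mul, mul_zero, map_zero, zero_add, EE_hom _ _ hn hw,
          if_neg, not_false_eq_true, add_zero, *]
  have : EE ∘ₗ D = D ∘ₗ EE := lin_ext key
  exact LinearMap.congr_fun this f

theorem ex_PP (w : List Lb) : ex (w ++ [P0, P0]) = 0 := by
  induction w using ex.induct with
  | case1 => simp [ex]
  | case2 μ => simp [ex, two]
  | case3 s t => simp [ex]
  | case4 s t u => simp [ex, two]
  | case5 s u v w ih =>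
    rw [List.cons_append, List.cons_append, ex_cons2 _ _ _ (by simp), ih]; simp
  | case6 s t u v w ht =>
    rw [List.cons_append, List.cons_append, ex_cons2 _ _ _ (by simp), if_neg ht]

theorem EE_tT (f : TT) : EE (tT f) = PP * EE f - co [P0] f • (PP * PP) := by
  have : EE ∘ₗ tT = LinearMap.mulLeft F2 PP ∘ₗ EE - (co [P0]).smulRight (PP * PP) := by
    apply lin_ext
    intro w
    have h1 : EE (wd F2 w * (PP * PP)) = 0 := by
      have : wd F2 w * (PP * PP) = wd F2 (w ++ [P0, P0]) := by simp [wd_append, PP]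
      rw [this, EE_wd, ex_PP]
    simp only [LinearMap.comp_apply, tT, LinearMap.sub_apply, LinearMap.mulLeft_apply,
      LinearMap.mulRight_apply, map_sub, h1, sub_zero, LinearMap.smulRight_apply, co_wd]
    by_cases hw : w.length = 1
    · obtain ⟨u, rfl⟩ := List.length_eq_one_iff.1 hw
      rw [wd_singleton, mul_assoc, PP, EE_three, EE_ι]
      by_cases hu : u = P0
      · subst hu; simp [two]
      · simp [hu]
    · have hw' : w ≠ [P0] := by rintro rfl; simp at hw
      rw [mul_assoc, PP, EE_hom _ _ hw (by simpa using wd_mem_HomW (R := F2) (wt := one1) w)]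
      simp [hw']
  exact LinearMap.congr_fun this f

theorem hx (l : Lb) : xT (ι F2 l) = 0 ∨ ∃ l', l' ≠ P0 ∧ xT (ι F2 l) = ι F2 l' :=
  Or.inr ⟨(l.1, l.2 + 1), by simp [P0], by simp [xT]⟩

theorem hy (l : Lb) : yT (ι F2 l) = 0 ∨ ∃ l', l' ≠ P0 ∧ yT (ι F2 l) = ι F2 l' := by
  by_cases h : l.2 = 0
  · left; simp [yT, h]
  · right; exact ⟨(l.1 ++ [l.2 - 1], 0), by simp [P0], by simp [yT, h]⟩

theorem co_der {D : Module.End F2 TT} (hD : IsDer D)
    (h : ∀ l, D (ι F2 l) = 0 ∨ ∃ l', l' ≠ P0 ∧ D (ι F2 l) = ι F2 l') (f : TT) :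
    co [P0] (D f) = 0 := by
  have : (co [P0] : TT →ₗ[F2] F2) ∘ₗ D = 0 := by
    apply lin_ext
    intro w
    simp only [LinearMap.comp_apply, LinearMap.zero_apply]
    by_cases hw : w.length = 1
    · obtain ⟨u, rfl⟩ := List.length_eq_one_iff.1 hw
      rw [wd_singleton]
      rcases h u with h | ⟨l', hl, h⟩ <;> rw [h]
      · simp
      · rw [← wd_singleton, co_wd]; simp [hl]
    · have := isDer_HomW (k := 0) (wt := one1) hD (fun x => by
        rcases h x with h | ⟨l', _, h⟩
        · rw [h]; exact zero_mem _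
        · rw [h]; exact ι_mem_HomW l') (wd_mem_HomW w)
      exact mem_HomW.1 this _ (by rw [ww_one1, ww_one1]; simpa using Ne.symm hw)
  exact LinearMap.congr_fun this f

theorem co_tT (f : TT) : co [P0] (tT f) = 0 := by
  have h2 : PP * PP ∈ GeW F2 (one1 : Lb → ℕ) 2 :=
    HomW_le_GeW le_rfl (HomW_mul (m := 1) (n := 1) (ι_mem_HomW (wt := one1) P0)
      (ι_mem_HomW (wt := one1) P0))
  have h1 : tT f ∈ GeW F2 (one1 : Lb → ℕ) 2 := by
    simp only [tT, LinearMap.sub_apply, LinearMap.mulLeft_apply, LinearMap.mulRight_apply]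
    exact sub_mem (GeW_mul (m := 2) (n := 0) h2 (mem_GeW_zero f))
      (GeW_mul (m := 0) (n := 2) (mem_GeW_zero f) h2)
  exact mem_GeW.1 h1 _ (by rw [ww_one1]; simp)

end U1E

open U1E

/-- The extraction map. -/
theorem exists_extract : ∃ E : Module.End F2 TT, E PP = PP ∧ (∀ f, E (xT f) = xT (E f)) ∧
    (∀ f, E (yT f) = yT (E f)) ∧ ∀ f, co [P0] f = 0 → E (tT f) = PP * E f :=
  ⟨EE, EE_ι _, EE_comm (der_isDer _) hx, EE_comm (der_isDer _) hy, fun f hf => by
    rw [EE_tT, hf]; simp⟩

theorem u1_E (h : LinearIndependent F2 (fun w : XE => th xT yT (fun f => PP * f) PP w.1)) :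
    LinearIndependent F2 (fun w : XE => th xT yT tT PP w.1) := by
  obtain ⟨E, h0, h1, h2, h3⟩ := exists_extract
  have hco : ∀ w : List (Fin 2), w ≠ [] → co [P0] (th xT yT tT PP w) = 0 := by
    intro w hw
    match w, hw with
    | [a], _ =>
      simp only [th]; split_ifs
      · exact co_der (der_isDer _) hx _
      · exact co_der (der_isDer _) hy _
    | a :: b :: w, _ =>
      simp only [th]; split_ifs
      · exact co_der (der_isDer _) hx _
      · exact co_tT _
      · exact co_der (der_isDer _) hy _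
  have key : ∀ n (w : List (Fin 2)), w.length ≤ n → w.getLast? = some 0 →
      E (th xT yT tT PP w) = th xT yT (fun f => PP * f) PP w := by
    intro n
    induction n with
    | zero => intro w hw hl; rw [List.length_eq_zero_iff.1 (Nat.le_zero.1 hw)] at hl; simp at hl
    | succ n ih =>
      intro w hw hl
      match w, hw, hl with
      | [], _, hl => simp at hl
      | [a], _, _ =>
        simp only [th]; split_ifs
        · rw [h1, h0]
        · rw [h2, h0]
      | a :: b :: w, hw, hl =>
        have hl' : (b :: w).getLast? = some 0 := by simpa [List.getLast?_cons_cons] using hl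
        have e1 := ih (b :: w) (by simp at hw ⊢; omega) hl'
        simp only [th]; split_ifs with c1 c2
        · rw [h1, e1]
        · have hne : w ≠ [] := by rintro rfl; subst c2; simp at hl'
          have hl'' : w.getLast? = some 0 := by
            obtain ⟨c, w', rfl⟩ := List.exists_cons_of_ne_nil hne
            simpa [List.getLast?_cons_cons] using hl'
          rw [h3 _ (hco w hne), ih w (by simp at hw; omega) hl'']
        · rw [h2, e1]
  apply LinearIndependent.of_comp E
  have : (E ∘ fun w : XE => th xT yT tT PP w.1) =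
      fun w : XE => th xT yT (fun f => PP * f) PP w.1 := by
    funext w; exact key _ w.1 le_rfl w.2
  rw [this]; exact h

end Vale.Agent.P029
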