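import Vale.Agent.P029.UDefs
import Vale.Agent.P029.Lie2

noncomputable section

namespace Vale.Agent.P029

open FreeAlgebra

namespace U1Ind

theorem th_x {M : Type} (x y t : M → M) (m : M) (w : List (Fin 2)) :
    th x y t m (0 :: w) = x (th x y t m w) := by
  cases w <;> simp [th]

theorem th_t {M : Type} (x y t : M → M) (m : M) (w : List (Fin 2)) :
    th x y t m (1 :: 1 :: w) = t (th x y t m w) := by
  simp [th]

theorem th_y {M : Type} (x y t : M → M) (m : M) (w : List (Fin 2)) :
    th x y t m (1 :: 0 :: w) = y (th x y t m (0 :: w)) := by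
  simp [th]

/-- valid words -/
inductive V : List (Fin 2) → Prop
  | nil : V []
  | x {w} : V w → V (0 :: w)
  | t {w} : V w → w ≠ [] → V (1 :: 1 :: w)
  | y {w} : V (0 :: w) → V (1 :: 0 :: w)

theorem valid : ∀ w : List (Fin 2), w.getLast? = some 0 → V w
  | [], h => by simp at h
  | [a], h => by rw [show a = 0 by simpa using h]; exact .x .nil
  | a :: b :: w, h => by
    rw [List.getLast?_cons_cons] at h
    have h1 := valid (b :: w) h
    revert h h1
    refine Fin.cases (fun _ h1 => .x h1) (fun a => ?_) a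
    rw [Subsingleton.elim a 0]
    refine Fin.cases (fun _ h1 => .y h1) (fun b h _ => ?_) b
    rw [Subsingleton.elim b 0] at h ⊢
    have h2 : w ≠ [] := by rintro rfl; simp at h
    exact .t (valid w (by rwa [List.getLast?_cons_of_ne_nil h2] at h)) h2

/-- the leading letter -/
def hd : List (Fin 2) → Lb :=
  th (fun l => (l.1, l.2 + 1)) (fun l => (l.1 ++ [l.2 - 1], 0)) (fun _ => P0) P0

/-- the word after the first double letter -/
def tl : List (Fin 2) → List (Fin 2)
  | [] => []
  | [_] => []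
  | a :: b :: w => if a = 1 ∧ b = 1 then w else tl (b :: w)

theorem tl_x (w : List (Fin 2)) : tl (0 :: w) = tl w := by cases w <;> simp [tl]

theorem tl_t (w : List (Fin 2)) : tl (1 :: 1 :: w) = w := by simp [tl]

theorem tl_y (w : List (Fin 2)) : tl (1 :: 0 :: w) = tl (0 :: w) := by simp [tl]

theorem tl_V {w : List (Fin 2)} (h : V w) : V (tl w) ∧ (tl w).length ≤ w.length - 1 := by
  induction h with
  | nil => exact ⟨.nil, le_rfl⟩
  | x _ ih => rw [tl_x]; exact ⟨ih.1, ih.2.trans (by simp)⟩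
  | t h _ _ => rw [tl_t]; exact ⟨h, by simp⟩
  | y _ ih => rw [tl_y]; exact ⟨ih.1, ih.2.trans (by simp)⟩

theorem inj {w : List (Fin 2)} (h : V w) : ∀ {v}, V v → hd w = hd v → tl w = tl v → w = v := by
  induction h with
  | nil =>
    intro v hv h1 h2
    cases hv with
    | nil => rfl
    | t _ h => exact absurd (tl_t _ ▸ h2).symm h
    | _ => simp [hd, th_x, th, P0] at h1
  | x _ ih =>
    intro v hv h1 h2
    cases hv with
    | x hv =>
      simp only [hd, th_x, Prod.mk.injEq, add_left_inj] at h1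
      rw [tl_x, tl_x] at h2
      rw [ih hv (Prod.ext h1.1 h1.2) h2]
    | nil => simp [hd, th_x, th, P0] at h1
    | _ => simp [hd, th_x, th_y, th_t, P0] at h1
  | t _ h _ =>
    intro v hv h1 h2
    cases hv with
    | nil => exact absurd ((tl_t _).symm.trans h2) h
    | t => rw [tl_t, tl_t] at h2; rw [h2]
    | _ => simp [hd, th_x, th_y, th_t, P0] at h1
  | y _ ih =>
    intro v hv h1 h2
    cases hv with
    | y hv =>
      rw [tl_y, tl_y] at h2
      rw [ih hv (by simpa [hd, th_x, th_y, Prod.ext_iff] using h1) h2]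
    | nil => simp [hd, th, P0] at h1
    | _ => simp [hd, th_x, th_y, th_t, P0] at h1

def deg (l : Lb) : ℕ := l.2 + (l.1.map (· + 2)).sum

/-- polynomials whose first letters have small degree -/
def Low (D : ℕ) : Submodule F2 TT := Submodule.span F2 {f | ∃ ν g, deg ν < D ∧ f = ι F2 ν * g}

theorem low_mem {ν : Lb} {D : ℕ} (h : deg ν < D) (g : TT) : ι F2 ν * g ∈ Low D :=
  Submodule.subset_span ⟨ν, g, h, rfl⟩

theorem low_step {δ : Module.End F2 TT} (hδ : IsDer δ)
    (h : ∀ ν, δ (ι F2 ν) = 0 ∨ ∃ ν', deg ν' = deg ν + 1 ∧ δ (ι F2 ν) = ι F2 ν') {μ μ' : Lb}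
    (h1 : δ (ι F2 μ) = ι F2 μ') (h2 : deg μ' = deg μ + 1) {f g : TT}
    (hf : f - ι F2 μ * g ∈ Low (deg μ)) : δ f - ι F2 μ' * g ∈ Low (deg μ') := by
  have h3 : Low (deg μ) ≤ (Low (deg μ')).comap δ := Submodule.span_le.2 (by
    rintro _ ⟨ν, g, hν, rfl⟩
    change δ _ ∈ Low _
    rw [hδ]
    refine add_mem ?_ (low_mem (by omega) _)
    rcases h ν with h | ⟨ν', h, h'⟩
    · rw [h, zero_mul]; exact zero_mem _
    · rw [h']; exact low_mem (by omega) _)
  have h4 := add_mem (show δ _ ∈ Low _ from h3 hf) (low_mem (show deg μ < deg μ' by omega) (δ g))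
  rwa [map_sub, hδ, h1, sub_add_eq_sub_sub, sub_add_cancel] at h4

theorem low_ker {M : Type} [AddCommGroup M] [Module F2 M] (T : TT →ₗ[F2] M) {D : ℕ}
    (h : ∀ ν g, deg ν < D → T (ι F2 ν * g) = 0) {f g : TT} (hf : f - g ∈ Low D) : T f = T g := by
  have : Low D ≤ LinearMap.ker T := Submodule.span_le.2 (by
    rintro _ ⟨ν, g, hν, rfl⟩; exact h ν g hν)
  exact (LinearMap.sub_mem_ker_iff).1 (this hf)

/-- the family, with value one at the empty word -/
def Θ (w : List (Fin 2)) : TT := if w = [] then 1 else th xT yT (fun f => PP * f) PP w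

theorem lead {w : List (Fin 2)} (h : V w) :
    th xT yT (fun f => PP * f) PP w - ι F2 (hd w) * Θ (tl w) ∈ Low (deg (hd w)) := by
  induction h with
  | nil => simp [th, hd, tl, Θ, PP]
  | x _ ih =>
    rw [th_x, tl_x, hd, th_x]
    exact low_step (der_isDer _) (fun ν => Or.inr ⟨(ν.1, ν.2 + 1), by simp [deg]; omega,
      der_ι _ _⟩) (der_ι _ _) (by simp [deg]; omega) ih
  | t _ h _ => simp [th_t, tl_t, hd, Θ, h, PP]
  | y _ ih =>
    rw [th_y, tl_y, hd, th_y]
    refine low_step (der_isDer _) (fun ν => ?_) ?_ (by simp [deg, hd, th_x]; omega) ih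
    · by_cases h : ν.2 = 0
      · exact Or.inl ((der_ι _ _).trans (if_pos h))
      · exact Or.inr ⟨_, by simp [deg]; omega, (der_ι _ _).trans (if_neg h)⟩
    · exact (der_ι _ _).trans (if_neg (by simp [hd, th_x]))

theorem main (N : ℕ) : ∀ (s : Finset XE) (v : XE → List (Fin 2)) (g : XE → F2), Set.InjOn v s →
    (∀ i ∈ s, V (v i) ∧ (v i).length < N) → ∑ i ∈ s, g i • Θ (v i) = 0 → ∀ i ∈ s, g i = 0 := by
  classical
  induction N with
  | zero => exact fun s v g _ h _ i hi => absurd (h i hi).2 (Nat.not_lt_zero _)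
  | succ N ih =>
    intro s v g hv h h0
    have h1 : ∀ i ∈ s, g i ≠ 0 → v i ≠ [] := fun i hi hg e => hg (by
      have := congrArg (co []) h0
      rwa [map_sum, map_zero, Finset.sum_eq_single_of_mem i hi, e, Θ, if_pos rfl, map_smul,
        co_nil_one, smul_eq_mul, mul_one] at this
      intro j hj hne
      rw [map_smul, Θ, if_neg fun e' => hne (hv hj hi (e'.trans e.symm)), low_ker (co [])
        (fun ν g _ => by rw [co_nil_mul, co_nil_ι, zero_mul]) (lead (h j hj).1), co_nil_mul,
        co_nil_ι, zero_mul, smul_zero])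
    by_contra hc
    push Not at hc
    obtain ⟨i, hi, hm⟩ := (s.filter fun i => g i ≠ 0).exists_max_image (fun i => deg (hd (v i)))
      (hc.imp fun i hi => Finset.mem_filter.2 hi)
    refine (Finset.mem_filter.1 hi).2 (ih ((s.filter fun i => g i ≠ 0).filter
      fun j => hd (v j) = hd (v i)) (fun j => tl (v j)) g (fun j hj k hk e => ?_) (fun j hj => ?_)
      ?_ i (Finset.mem_filter.2 ⟨hi, rfl⟩))
    · simp only [Finset.coe_filter, Finset.mem_filter, Set.mem_ofPred_eq] at hj hk
      exact hv hj.1.1 hk.1.1 (inj (h j hj.1.1).1 (h k hk.1.1).1 (hj.2.trans hk.2.symm) e)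
    · simp only [Finset.mem_filter] at hj
      have h2 := tl_V (h j hj.1.1).1
      have h3 := (h j hj.1.1).2
      have h4 := List.length_pos_iff.2 (h1 j hj.1.1 hj.1.2)
      exact ⟨h2.1, by omega⟩
    · have := congrArg (stL (hd (v i))) h0
      rw [← Finset.sum_filter_of_ne (p := fun i => g i ≠ 0) fun j _ h e => h (by
        rw [e, zero_smul]), map_sum, map_zero] at this
      rw [← this, Finset.sum_filter]
      refine Finset.sum_congr rfl fun j hj => ?_
      have h2 := hm j hj
      obtain ⟨h3, h4⟩ := Finset.mem_filter.1 hj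
      rw [map_smul, Θ.eq_1 (v j), if_neg (h1 j h3 h4), low_ker (stL (hd (v i))) (fun ν g hν => by
        rw [stL_ι_mul, if_neg]; rintro rfl; omega) (lead (h j h3).1), stL_ι_mul]
      split_ifs <;> simp

end U1Ind

open U1Ind in
theorem u1_ind : LinearIndependent F2 (fun w : XE => th xT yT (fun f => PP * f) PP w.1) := by
  refine linearIndependent_iff'.2 fun s g h => main (s.sup (fun w => w.1.length) + 1) s
    Subtype.val g Subtype.val_injective.injOn (fun i hi => ⟨valid _ i.2,
      Nat.lt_succ_of_le (Finset.le_sup (f := fun w : XE => w.1.length) hi)⟩) ?_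
  rw [← h]
  refine Finset.sum_congr rfl fun w _ => ?_
  rw [Θ, if_neg fun e => by simpa [e] using w.2]

end Vale.Agent.P029
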