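import Vale.Agent.P029.UDefs
import Vale.Agent.P029.Elim

noncomputable section

namespace Vale.Agent.P029

open FreeAlgebra

namespace U1T

theorem QQ_ι (l : Lb) : QQ (ι F2 l) = adL (fun k => bb (k + 1)) l.1 (aa l.2) := by
  simp [QQ]

/-- The action of the letters `b` on the labels. -/
def sB : ℕ ⊕ ℕ → Lb → TT :=
  Sum.elim (fun _ _ => 0) (fun k l => ι F2 (k :: l.1, l.2))

/-- The label of the letters `a`. -/
def tA : ℕ ⊕ ℕ → TT := Sum.elim (fun i => ι F2 ([], i)) (fun _ => 0)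

theorem rep_adL (β : List ℕ) (i : ℕ) :
    elimRep (fun x : ℕ ⊕ ℕ => x.isRight = true) sB tA (adL (fun k => bb (k + 1)) β (aa i)) =
      LinearMap.mulLeft F2 (ι F2 ((β, i) : Lb)) := by
  induction β with
  | nil => exact elimRep_neg (by simp)
  | cons k β ih =>
    have h1 : adL (fun k => bb (k + 1)) (k :: β) (aa i) =
        br (ι F2 (Sum.inr k)) (adL (fun k => bb (k + 1)) β (aa i)) := rfl
    have h2 := (der_isDer (sB (Sum.inr k))).br_mulLeft (ι F2 ((β, i) : Lb))
    have h3 : der (sB (Sum.inr k)) (ι F2 ((β, i) : Lb)) = ι F2 ((k :: β, i) : Lb) := by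
      simp [sB]
    rw [h3] at h2
    rw [h1, ← h2, br, map_sub, map_mul, map_mul, ih, elimRep_pos (by simp)]
    rfl

theorem der_adL {D : Module.End F2 FF} (hD : IsDer D) (h : ∀ k, D (bb (k + 1)) = 0)
    (β : List ℕ) (z : FF) :
    D (adL (fun k => bb (k + 1)) β z) = adL (fun k => bb (k + 1)) β (D z) := by
  induction β with
  | nil => rfl
  | cons k β ih =>
    have h1 : ∀ z, adL (fun k => bb (k + 1)) (k :: β) z =
        br (bb (k + 1)) (adL (fun k => bb (k + 1)) β z) := fun _ => rfl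
    rw [h1, h1, hD.map_br, h, ih]
    simp [br]

theorem adL_zero (β : List ℕ) : adL (fun k => bb (k + 1)) β 0 = 0 := by
  induction β with
  | nil => rfl
  | cons k β ih =>
    have h1 : adL (fun k => bb (k + 1)) (k :: β) 0 =
        br (bb (k + 1)) (adL (fun k => bb (k + 1)) β 0) := rfl
    rw [h1, ih]
    simp [br]

theorem QQ_xT (φ : TT) : QQ (xT φ) = xF (QQ φ) := by
  refine IsDer.intertwine QQ (der_isDer _) (der_isDer _) (fun l => ?_) φ
  rw [QQ_ι, der_adL (der_isDer _) fun k => by simp [bb]]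
  simp [aa, QQ_ι]

theorem QQ_yT (φ : TT) : QQ (yT φ) = yF (QQ φ) := by
  refine IsDer.intertwine QQ (der_isDer _) (der_isDer _) (fun l => ?_) φ
  rw [QQ_ι, der_adL (der_isDer _) fun k => by simp [bb]]
  obtain ⟨β, i⟩ := l
  have h1 : der (Sum.elim (fun r => br (bb r) (aa 0)) fun _ => (0 : FF)) (aa i) =
      br (bb i) (aa 0) := by simp [aa]
  rw [h1]
  cases i with
  | zero =>
    rw [show bb 0 = 0 from rfl, br_zero_left, adL_zero]
    simp
  | succ i => simp [QQ_ι, adL]

theorem QQ_PP : QQ PP = aa 0 := QQ_ι _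

theorem QQ_tT (φ : TT) : QQ (tT φ) = tF (QQ φ) := by
  simp [tT, tF, QQ_PP]

end U1T

theorem QQ_inj : Function.Injective QQ := by
  refine Function.LeftInverse.injective
    (g := elimR (fun x : ℕ ⊕ ℕ => x.isRight = true) U1T.sB U1T.tA) fun χ => ?_
  exact elimR_lift _ (fun l => U1T.rep_adL l.1 l.2) χ

theorem QQ_th (w : List (Fin 2)) : QQ (th xT yT tT PP w) = th xF yF tF (aa 0) w := by
  induction w using List.twoStepInduction with
  | nil => exact U1T.QQ_PP
  | singleton a =>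
    simp only [th]
    split_ifs
    · rw [U1T.QQ_xT, U1T.QQ_PP]
    · rw [U1T.QQ_yT, U1T.QQ_PP]
  | cons_cons a b w ih1 ih2 =>
    simp only [th]
    split_ifs
    · rw [U1T.QQ_xT, ih2]
    · rw [U1T.QQ_tT, ih1]
    · rw [U1T.QQ_yT, ih2]

theorem u1_T (h : LinearIndependent F2 (fun w : XE => th xT yT tT PP w.1)) :
    LinearIndependent F2 (fun w : XE => th xF yF tF (aa 0) w.1) := by
  have h1 := h.map' QQ.toLinearMap (LinearMap.ker_eq_bot.2 QQ_inj)
  have h2 : (QQ.toLinearMap ∘ fun w : XE => th xT yT tT PP w.1) =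
      fun w : XE => th xF yF tF (aa 0) w.1 := funext fun w => QQ_th w.1
  rwa [h2] at h1

end Vale.Agent.P029
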