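import Vale.Agent.P029.U1Rep
import Vale.Agent.P029.U1Cost
import Vale.Agent.P029.U1T
import Vale.Agent.P029.U1E
import Vale.Agent.P029.U1Ind

noncomputable section

namespace Vale.Agent.P029

open FreeAlgebra

theorem u1main_YF : YF (aa 0) = 0 := by
  simp [YF, aa, Ya, bb]

theorem u1 {ψ : FA F2 (Fin 2)} (hψ : ψ ∈ LieGe F2 (Fin 2) 3) (h : Pent ψ)
    (h0 : ∀ (A : Type) [Ring A] [Algebra F2 A] (u n : A), n * n = 0 → ev u n ψ = 0) :
    ψ = 0 := by
  classical
  have e1 : ev xF YF ψ (aa 0) = 0 := by
    apply jj_inj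
    have := ev_intertwine jj.toLinearMap xF YF XD etaD jj_xF jj_YF ψ (aa 0)
    simp only [AlgHom.toLinearMap_apply] at this
    rw [this, jj_p, u1_rep hψ h h0, map_zero]
  have hind := u1_cost (u1_T (u1_E u1_ind))
  obtain ⟨s, hs, hsum⟩ := exists_sum_wd ψ
  have hnil : co [] ψ = 0 := co_nil_LieA (LieGe_le_LieA hψ)
  have e2 : ∑ w ∈ s.filter (fun w => w.getLast? = some 0),
      co w ψ • ev xF YF (wd F2 w) (aa 0) = 0 := by
    rw [← e1]
    conv_rhs => rw [hsum]
    rw [map_sum, LinearMap.sum_apply, Finset.sum_filter]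
    refine Finset.sum_congr rfl fun w _ => ?_
    rw [map_smul, LinearMap.smul_apply]
    split_ifs with hw
    · rfl
    · rcases List.eq_nil_or_concat w with rfl | ⟨v, z, rfl⟩
      · rw [hnil, zero_smul]
      · have hz : z = 1 := by
          rw [List.concat_eq_append, List.getLast?_concat] at hw
          fin_cases z
          · exact absurd rfl hw
          · rfl
        rw [hz, List.concat_eq_append, wd_append, wd_singleton, map_mul, ev_y,
          Module.End.mul_apply, u1main_YF, map_zero, smul_zero]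
  refine eq_zero_of_last (LieGe_anti (by norm_num) hψ) fun w => ?_
  by_cases hw : w ++ [0] ∈ s
  · have e3 : ∑ v ∈ s.subtype (fun w => w.getLast? = some 0),
        co v.1 ψ • ev xF YF (wd F2 v.1) (aa 0) = 0 := by
      rw [← e2]
      exact Finset.sum_subtype_eq_sum_filter (fun w => co w ψ • ev xF YF (wd F2 w) (aa 0))
    exact linearIndependent_iff'.1 hind (s.subtype fun w : List (Fin 2) => w.getLast? = some 0)
      (fun v => co v.1 ψ) e3 ⟨w ++ [0], List.getLast?_concat⟩ (Finset.mem_subtype.2 hw)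
  · exact hs _ hw

end Vale.Agent.P029
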