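import Vale.Agent.P029.UDefs
import Vale.Agent.P029.Fib

noncomputable section

namespace Vale.Agent.P029

open FreeAlgebra

namespace U1Rep

/-- The operator with a matrix of operators. -/
def mat (p q r s : Module.End F2 R3) : Module.End F2 (R3 × R3) :=
  (p.coprod q).prod (r.coprod s)

theorem mat_apply (p q r s : Module.End F2 R3) (x y : R3) :
    mat p q r s (x, y) = (p x + q y, r x + s y) := rfl

/-- Left multiplication by a letter. -/
def lt (i : Fin 3) : Module.End F2 R3 := LinearMap.mulLeft F2 (ι F2 i)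

theorem lt_apply (i : Fin 3) (x : R3) : lt i x = ι F2 i * x := rfl

def oa : Module.End F2 (R3 × R3) := mat etaD 0 0 etaD
def ob : Module.End F2 (R3 × R3) := mat (XD + lt 1) 0 (lt 2) XD
def oc : Module.End F2 (R3 × R3) := mat 0 (lt 0) 0 0
def od : Module.End F2 (R3 × R3) := mat 0 0 (lt 0) 0
def oe : Module.End F2 (R3 × R3) := mat XD (lt 2) 0 (XD + lt 1)

theorem oa_apply (x y : R3) : oa (x, y) = (etaD x, etaD y) := by simp [oa, mat_apply]

theorem ob_apply (x y : R3) : ob (x, y) = (XD x + ι F2 1 * x, ι F2 2 * x + XD y) := by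
  simp [ob, mat_apply, lt_apply]

theorem oc_apply (x y : R3) : oc (x, y) = (ι F2 0 * y, 0) := by simp [oc, mat_apply, lt_apply]

theorem od_apply (x y : R3) : od (x, y) = (0, ι F2 0 * x) := by simp [od, mat_apply, lt_apply]

theorem oe_apply (x y : R3) : oe (x, y) = (XD x + ι F2 2 * y, XD y + ι F2 1 * y) := by
  simp [oe, mat_apply, lt_apply]

theorem two (z : R3) : z + z = 0 := by
  rw [← two_smul F2 z, show (2 : F2) = 0 from rfl, zero_smul]

theorem X_der : IsDer XD := der_isDer _

theorem eta_der : IsDer etaD := der_isDer _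

theorem X0 (x : R3) : XD (ι F2 0 * x) = ι F2 0 * (ι F2 1 * x) + ι F2 0 * XD x := by
  rw [X_der]; simp [XD, mul_assoc]

theorem X1 (x : R3) : XD (ι F2 1 * x) = ι F2 2 * (ι F2 2 * x) + ι F2 1 * XD x := by
  rw [X_der]; simp [XD, mul_assoc]

theorem X2 (x : R3) : XD (ι F2 2 * x) = ι F2 1 * (ι F2 2 * x) + ι F2 2 * XD x := by
  rw [X_der]; simp [XD, mul_assoc]

theorem eta0 (x : R3) : etaD (ι F2 0 * x) = ι F2 0 * etaD x := by
  rw [eta_der]; simp [etaD]

theorem eta1 (x : R3) : etaD (ι F2 1 * x) = ι F2 2 * (ι F2 0 * x) - ι F2 0 * (ι F2 2 * x) +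
    ι F2 0 * (ι F2 0 * x) + ι F2 1 * etaD x := by
  rw [eta_der]; simp [etaD, br, mul_assoc, add_mul, sub_mul]

theorem eta2 (x : R3) : etaD (ι F2 2 * x) =
    ι F2 1 * (ι F2 0 * x) - ι F2 0 * (ι F2 1 * x) + ι F2 2 * etaD x := by
  rw [eta_der]; simp [etaD, br, mul_assoc, sub_mul]

theorem op_ext {f g : Module.End F2 (R3 × R3)} (h : ∀ x y, f (x, y) = g (x, y)) : f = g :=
  LinearMap.ext fun z => h z.1 z.2

theorem ac : Commute oa oc := op_ext fun x y => by
  simp only [Module.End.mul_apply, oa_apply, oc_apply, eta0, map_zero]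

theorem ad : Commute oa od := op_ext fun x y => by
  simp only [Module.End.mul_apply, oa_apply, od_apply, eta0, map_zero]

theorem bd : Commute ob od := op_ext fun x y => by
  simp only [Module.End.mul_apply, ob_apply, od_apply, X0, map_zero, mul_zero, add_zero, zero_add,
    mul_add, add_comm]

theorem ce : Commute oc oe := op_ext fun x y => by
  simp only [Module.End.mul_apply, oe_apply, oc_apply, X0, map_zero, mul_zero, add_zero, zero_add,
    mul_add, add_comm]

theorem be : Commute ob oe := op_ext fun x y => by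
  simp only [Module.End.mul_apply, oe_apply, ob_apply, X1, X2, map_add, mul_add]
  refine congrArg₂ Prod.mk ?_ ?_
  · linear_combination (norm := abel1) two (ι F2 1 * (ι F2 2 * y)) - two (ι F2 2 * (ι F2 2 * x))
  · linear_combination (norm := abel1) two (ι F2 2 * (ι F2 2 * y)) - two (ι F2 1 * (ι F2 2 * x))

theorem five : br oa ob + br ob oc + br oc od + br od oe + br oe oa = 0 := op_ext fun x y => by
  simp only [br, LinearMap.add_apply, LinearMap.sub_apply, Module.End.mul_apply, oa_apply,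
    ob_apply, oc_apply, od_apply, oe_apply, X0, eta1, eta2, map_add, mul_add, map_zero,
    add_zero, zero_add, LinearMap.zero_apply, Prod.mk_sub_mk, Prod.mk_add_mk]
  refine congrArg₂ Prod.mk ?_ ?_
  · linear_combination (norm := abel1) two (ι F2 0 * (ι F2 0 * x)) - two (ι F2 0 * (ι F2 2 * x)) +
      two (ι F2 0 * (ι F2 1 * y))
  · linear_combination (norm := abel1) two (ι F2 0 * (ι F2 2 * y)) - two (ι F2 0 * (ι F2 0 * y)) -
      two (ι F2 0 * (ι F2 1 * x))

theorem sys : Sys oa ob oc od oe := ⟨ac, ad, bd, be, ce, five⟩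

theorem cc : oc * oc = 0 := op_ext fun x y => by
  simp only [Module.End.mul_apply, oc_apply, mul_zero]; rfl

theorem dd : od * od = 0 := op_ext fun x y => by
  simp only [Module.End.mul_apply, od_apply, mul_zero]; rfl

end U1Rep

open U1Rep in
theorem u1_rep {ψ : FA F2 (Fin 2)} (hψ : ψ ∈ LieGe F2 (Fin 2) 3) (h : Pent ψ)
    (h0 : ∀ (A : Type) [Ring A] [Algebra F2 A] (u n : A), n * n = 0 → ev u n ψ = 0) :
    ev XD etaD ψ (ι F2 0) = 0 := by
  have h2 : ψ ∈ LieGe F2 (Fin 2) 2 := LieGe_anti (by norm_num) hψ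
  have h3 := h _ _ _ _ _ _ sys
  have h4 := pent_two h2 h oc ob
  have h5 := pent_two h2 h oa oe
  unfold pentE at h3
  rw [h0 _ ob oc cc, add_zero] at h4
  rw [h4, h0 _ oe od dd, h0 _ od oc cc, add_zero, add_zero, add_zero] at h3
  have h6 : ev oe oa ψ = ev ob oa ψ := add_left_cancel (h5.trans h3.symm)
  have h7 : ev XD etaD ψ (1 : R3) = 0 := by
    have h8 := lift_apply_killed (R := F2) ![XD, etaD] (1 : R3) (fun x => by
      fin_cases x
      · exact X_der.map_one
      · exact eta_der.map_one) ψ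
    rw [co_nil_LieA (LieGe_le_LieA hψ), zero_smul] at h8
    exact h8
  have h8 := ev_intertwine (LinearMap.inr F2 R3 R3) XD etaD ob oa
    (fun m => by simp [ob_apply]) (fun m => by simp [oa_apply]) ψ 1
  have h9 := ev_intertwine (LinearMap.inl F2 R3 R3) XD etaD oe oa
    (fun m => by simp [oe_apply]) (fun m => by simp [oa_apply]) ψ (ι F2 0)
  have h10 : (oc * ev oe oa ψ) (0, 1) = (ev oe oa ψ * oc) (0, 1) := by
    rw [(commute_ev ce ac.symm ψ).eq]
  rw [h7, map_zero, LinearMap.inr_apply, ← h6] at h8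
  rw [Module.End.mul_apply, Module.End.mul_apply, ← h8, map_zero, oc_apply, mul_one] at h10
  rw [LinearMap.inl_apply, LinearMap.inl_apply, ← h10] at h9
  exact congrArg Prod.fst h9

end Vale.Agent.P029
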