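import Vale.Agent.P029.Defs

noncomputable section

namespace Vale.Agent.P029

open FreeAlgebra

variable {R : Type} [CommRing R] {X Y : Type} {A : Type} [Ring A] [Algebra R A]

section br
variable {A' : Type} [Ring A']

theorem br_add_left (a b c : A) : br (a + b) c = br a c + br b c := by unfold br; noncomm_ring
theorem br_add_right (a b c : A) : br a (b + c) = br a b + br a c := by unfold br; noncomm_ring
theorem br_sub_left (a b c : A) : br (a - b) c = br a c - br b c := by unfold br; noncomm_ring
theorem br_sub_right (a b c : A) : br a (b - c) = br a b - br a c := by unfold br; noncomm_ring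
theorem br_neg_left (a b : A) : br (-a) b = -br a b := by unfold br; noncomm_ring
theorem br_neg_right (a b : A) : br a (-b) = -br a b := by unfold br; noncomm_ring
theorem br_smul_left (r : R) (a b : A) : br (r • a) b = r • br a b := by simp [br, smul_sub]
theorem br_smul_right (r : R) (a b : A) : br a (r • b) = r • br a b := by simp [br, smul_sub]
@[simp] theorem br_self (a : A) : br a a = 0 := by simp [br]
@[simp] theorem br_zero_left (a : A) : br 0 a = 0 := by simp [br]
@[simp] theorem br_zero_right (a : A) : br a 0 = 0 := by simp [br]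
@[simp] theorem br_one_left (a : A) : br 1 a = 0 := by simp [br]
@[simp] theorem br_one_right (a : A) : br a 1 = 0 := by simp [br]
theorem br_skew (a b : A) : br a b = -br b a := by simp [br]
theorem br_mul_right (a b c : A) : br a (b * c) = br a b * c + b * br a c := by
  unfold br; noncomm_ring
theorem br_mul_left (a b c : A) : br (a * b) c = br a c * b + a * br b c := by
  unfold br; noncomm_ring
theorem br_jacobi (a b c : A) : br a (br b c) = br (br a b) c + br b (br a c) := by
  unfold br; noncomm_ring
theorem br_eq_zero {a b : A} : br a b = 0 ↔ Commute a b := by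
  simp [br, sub_eq_zero, commute_iff_eq]
theorem Commute.br0 {a b : A} (h : Commute a b) : br a b = 0 := br_eq_zero.2 h
theorem map_br {G : Type} [FunLike G A A'] [RingHomClass G A A'] (f : G) (a b : A) :
    f (br a b) = br (f a) (f b) := by simp [br]
theorem br_sum_left {ι' : Type} (s : Finset ι') (f : ι' → A) (b : A) :
    br (∑ i ∈ s, f i) b = ∑ i ∈ s, br (f i) b := by
  simp [br, Finset.sum_mul, Finset.mul_sum, Finset.sum_sub_distrib]
theorem br_sum_right {ι' : Type} (s : Finset ι') (f : ι' → A) (b : A) :
    br b (∑ i ∈ s, f i) = ∑ i ∈ s, br b (f i) := by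
  simp [br, Finset.sum_mul, Finset.mul_sum, Finset.sum_sub_distrib]
end br

@[simp] theorem wd_nil : wd R ([] : List X) = 1 := by simp [wd]
@[simp] theorem wd_cons (x : X) (w : List X) : wd R (x :: w) = ι R x * wd R w := by simp [wd]
theorem wd_append (v w : List X) : wd R (v ++ w) = wd R v * wd R w := by simp [wd]
theorem wd_singleton (x : X) : wd R [x] = ι R x := by simp [wd]
@[simp] theorem ww_nil (wt : X → ℕ) : ww wt [] = 0 := by simp [ww]
@[simp] theorem ww_cons (wt : X → ℕ) (x : X) (w : List X) : ww wt (x :: w) = wt x + ww wt w := by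
  simp [ww]
@[simp] theorem ww_append (wt : X → ℕ) (v w : List X) : ww wt (v ++ w) = ww wt v + ww wt w := by
  simp [ww]
@[simp] theorem ww_one1 (w : List X) : ww one1 w = w.length := by
  induction w with
  | nil => simp
  | cons x w ih => simp [ih, one1, add_comm]
@[simp] theorem ev_x (u v : A) : ev (R := R) u v (ι R 0) = u := by simp [ev]
@[simp] theorem ev_y (u v : A) : ev (R := R) u v (ι R 1) = v := by simp [ev]
theorem lift_wd (f : X → A) (w : List X) : FreeAlgebra.lift R f (wd R w) = (w.map f).prod := by
  induction w with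
  | nil => simp
  | cons x w ih => simp [ih]
theorem map_lift {A' : Type} [Ring A'] [Algebra R A'] (G : A →ₐ[R] A') (f : X → A) (φ : FA R X) :
    G (FreeAlgebra.lift R f φ) = FreeAlgebra.lift R (fun x => G (f x)) φ := by
  have : G.comp (FreeAlgebra.lift R f) = FreeAlgebra.lift R (fun x => G (f x)) := by
    ext x; simp
  exact DFunLike.congr_fun this φ
theorem map_ev {A' : Type} [Ring A'] [Algebra R A'] (G : A →ₐ[R] A') (u v : A)
    (φ : FA R (Fin 2)) : G (ev u v φ) = ev (G u) (G v) φ := by
  unfold ev; rw [map_lift]; congr 2; ext i; fin_cases i <;> simp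
theorem lift_id (φ : FA R X) : FreeAlgebra.lift R (ι R) φ = φ := by
  have : FreeAlgebra.lift R (ι R : X → FA R X) = AlgHom.id R _ := by ext x; simp
  rw [this]; rfl
theorem ev_id (φ : FA R (Fin 2)) : ev (ι R 0) (ι R 1) φ = φ := by
  unfold ev
  have : ![ι R (0 : Fin 2), ι R 1] = ι R := by ext1 i; fin_cases i <;> simp
  rw [this, lift_id]

theorem basis_eq (w : List X) :
    FreeAlgebra.basisFreeMonoid R X (FreeMonoid.ofList w) = wd R w := by
  have h : FreeAlgebra.basisFreeMonoid R X (FreeMonoid.ofList w) =
      MonoidAlgebra.lift R (FreeAlgebra R X) (FreeMonoid X) (FreeMonoid.lift (ι R))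
        (MonoidAlgebra.single (FreeMonoid.ofList w) 1) := rfl
  rw [h, MonoidAlgebra.lift_single, one_smul, FreeMonoid.lift_ofList, wd]

open Classical in
theorem co_wd (w v : List X) : co w (wd R v) = if v = w then 1 else 0 := by
  rw [← basis_eq, co, Module.Basis.coord_apply, Module.Basis.repr_self, Finsupp.single_apply]
  exact if_congr FreeMonoid.ofList.injective.eq_iff rfl rfl

theorem ext_co {f g : FA R X} (h : ∀ w, co w f = co w g) : f = g :=
  (FreeAlgebra.basisFreeMonoid R X).ext_elem fun w => h (FreeMonoid.toList w)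

@[simp] theorem onW_wd {M : Type} [AddCommGroup M] [Module R M] (f : List X → M) (w : List X) :
    onW (R := R) f (wd R w) = f w := by
  rw [← basis_eq, onW, Module.Basis.constr_basis, FreeMonoid.toList_ofList]

theorem lin_ext {M : Type} [AddCommGroup M] [Module R M] {f g : FA R X →ₗ[R] M}
    (h : ∀ w, f (wd R w) = g (wd R w)) : f = g :=
  (FreeAlgebra.basisFreeMonoid R X).ext fun w => by
    have := h (FreeMonoid.toList w)
    rwa [← basis_eq] at this

theorem words_sum (f : FA R X) : ∃ s : Finset (List X), (∀ w, w ∈ s ↔ co w f ≠ 0) ∧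
    f = ∑ w ∈ s, co w f • wd R w := by
  refine ⟨((FreeAlgebra.basisFreeMonoid R X).repr f).support.map
    FreeMonoid.toList.toEmbedding, fun w => ?_, ?_⟩
  · rw [Finset.mem_map_equiv, Finsupp.mem_support_iff]
    rfl
  · rw [Finset.sum_map]
    conv_lhs => rw [← (FreeAlgebra.basisFreeMonoid R X).linearCombination_repr f]
    rw [Finsupp.linearCombination_apply, Finsupp.sum]
    refine Finset.sum_congr rfl fun w _ => ?_
    rw [← basis_eq]
    rfl

theorem wd_ind {P : FA R X → Prop} (h0 : P 0) (hadd : ∀ f g, P f → P g → P (f + g))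
    (hw : ∀ (r : R) (w : List X), P (r • wd R w)) (f : FA R X) : P f := by
  obtain ⟨s, -, h⟩ := words_sum f
  rw [h]
  exact Finset.sum_induction _ P hadd h0 fun w _ => hw _ w

theorem exists_sum_wd (f : FA R X) : ∃ s : Finset (List X), (∀ w, w ∉ s → co w f = 0) ∧
    f = ∑ w ∈ s, co w f • wd R w := by
  obtain ⟨s, h1, h⟩ := words_sum f
  exact ⟨s, fun w hw => not_not.1 fun h2 => hw ((h1 w).2 h2), h⟩

theorem mem_spanW {P : List X → Prop} {f : FA R X} :
    f ∈ Submodule.span R {g | ∃ w, P w ∧ g = wd R w} ↔ ∀ w, ¬P w → co w f = 0 := by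
  constructor
  · intro h w hw
    induction h using Submodule.span_induction with
    | mem g hg =>
      obtain ⟨v, hv, rfl⟩ := hg
      rw [co_wd, if_neg]
      rintro rfl
      exact hw hv
    | zero => exact map_zero _
    | add f g _ _ h1 h2 => rw [map_add, h1, h2, add_zero]
    | smul r f _ h1 => rw [map_smul, h1, smul_zero]
  · intro h
    obtain ⟨s, h1, h2⟩ := words_sum f
    rw [h2]
    exact Submodule.sum_mem _ fun w hw => Submodule.smul_mem _ _
      (Submodule.subset_span ⟨w, not_not.1 fun h3 => (h1 w).1 hw (h w h3), rfl⟩)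

theorem mem_HomW {wt : X → ℕ} {n : ℕ} {f : FA R X} :
    f ∈ HomW R wt n ↔ ∀ w, ww wt w ≠ n → co w f = 0 :=
  mem_spanW (P := fun w => ww wt w = n)

theorem mem_GeW {wt : X → ℕ} {n : ℕ} {f : FA R X} :
    f ∈ GeW R wt n ↔ ∀ w, ww wt w < n → co w f = 0 := by
  simp only [← not_le]
  exact mem_spanW (P := fun w => n ≤ ww wt w)

theorem words_mul (w u v : List X) : co w (wd R u * wd R v) =
    ∑ i ∈ Finset.range (w.length + 1), co (w.take i) (wd R u) * co (w.drop i) (wd R v) := by
  classical
  rw [← wd_append, co_wd]
  split_ifs with h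
  · subst h
    rw [Finset.sum_eq_single u.length]
    · simp [co_wd]
    · intro i hi hne
      rw [co_wd, if_neg, zero_mul]
      intro e
      have := congrArg List.length e
      rw [List.length_take, min_eq_left (Nat.lt_succ_iff.1 (Finset.mem_range.1 hi))] at this
      exact hne this.symm
    · intro hn
      exact absurd (Finset.mem_range.2 (by simp)) hn
  · refine (Finset.sum_eq_zero fun i _ => ?_).symm
    rw [co_wd, co_wd]
    split_ifs with h1 h2
    · exact absurd (by rw [h1, h2, List.take_append_drop]) h
    · exact mul_zero _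
    · exact zero_mul _
    · exact zero_mul _

theorem co_mul (w : List X) (f g : FA R X) :
    co w (f * g) = ∑ i ∈ Finset.range (w.length + 1), co (w.take i) f * co (w.drop i) g := by
  induction f using wd_ind with
  | h0 => simp
  | hadd f f' h1 h2 => simp only [add_mul, map_add, h1, h2, Finset.sum_add_distrib]
  | hw r u =>
    induction g using wd_ind with
    | h0 => simp
    | hadd g g' h1 h2 => simp only [mul_add, map_add, h1, h2, Finset.sum_add_distrib]
    | hw t v =>
      simp only [smul_mul_assoc, mul_smul_comm, map_smul, words_mul, smul_eq_mul, Finset.mul_sum]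
      exact Finset.sum_congr rfl fun i _ => by ring

theorem co_nil_mul (f g : FA R X) : co [] (f * g) = co [] f * co [] g := by
  simp [co_mul]

theorem co_nil_one : co ([] : List X) (1 : FA R X) = 1 := by
  rw [← wd_nil, co_wd, if_pos rfl]

theorem co_nil_ι (x : X) : co [] (ι R x) = 0 := by
  rw [← wd_singleton, co_wd, if_neg (List.cons_ne_nil _ _)]

theorem co_stL (z : X) (w : List X) (f : FA R X) : co w (stL z f) = co (z :: w) f := by
  refine LinearMap.congr_fun (lin_ext (f := co w ∘ₗ stL z) (g := co (z :: w)) fun v => ?_) f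
  rw [LinearMap.comp_apply, stL, onW_wd, co_wd]
  cases v with
  | nil => simp
  | cons x v =>
    by_cases h : x = z
    · rw [if_pos (by simp [h]), co_wd]
      by_cases h2 : v = w <;> simp [h, h2]
    · simp [h]

theorem co_stR (s w : List X) (f : FA R X) : co w (stR s f) = co (w ++ s) f := by
  refine LinearMap.congr_fun (lin_ext (f := co w ∘ₗ stR s) (g := co (w ++ s)) fun v => ?_) f
  rw [LinearMap.comp_apply, stR, onW_wd, co_wd]
  by_cases h : s <:+ v
  · obtain ⟨u, rfl⟩ := h
    rw [if_pos (List.suffix_append _ _), co_wd]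
    by_cases h2 : u = w <;> simp [h2]
  · rw [if_neg h, map_zero, if_neg]
    rintro rfl
    exact h (List.suffix_append _ _)

open Classical in
theorem stL_ι_mul (z x : X) (f : FA R X) : stL z (ι R x * f) = if x = z then f else 0 := by
  induction f using wd_ind with
  | h0 => simp
  | hadd f f' h1 h2 =>
    rw [mul_add, map_add, h1, h2]
    split_ifs <;> simp
  | hw r u =>
    rw [mul_smul_comm, map_smul, ← wd_cons, stL, onW_wd]
    by_cases h : x = z <;> simp [h]

theorem stL_one (z : X) : stL z (1 : FA R X) = 0 := by
  rw [← wd_nil, stL, onW_wd]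
  simp

open Classical in
/-- Stripping a suffix from a product with a word which is at least as long. -/
theorem stR_mul_wd (s v : List X) (f : FA R X) (h : s.length ≤ v.length) :
    stR s (f * wd R v) = if s <:+ v then f * wd R (v.take (v.length - s.length)) else 0 := by
  induction f using wd_ind with
  | h0 => simp
  | hadd f f' h1 h2 =>
    rw [add_mul, map_add, h1, h2]
    split_ifs <;> simp [add_mul]
  | hw r u =>
    rw [smul_mul_assoc, map_smul, ← wd_append, stR, onW_wd]
    by_cases h1 : s <:+ v
    · obtain ⟨t, rfl⟩ := h1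
      rw [← List.append_assoc, if_pos (List.suffix_append _ _), if_pos (List.suffix_append _ _)]
      simp only [List.length_append, Nat.add_sub_cancel, List.take_left', smul_mul_assoc,
        ← wd_append]
    · rw [if_neg h1, if_neg, smul_zero]
      exact fun h2 => h1 (List.suffix_of_suffix_length_le h2 (List.suffix_append _ _) h)

/-- Decomposition according to the last letter. -/
theorem exists_sum_last (f : FA R X) : ∃ s : Finset X, (∀ z, z ∉ s → stR [z] f = 0) ∧
    f = co [] f • 1 + ∑ z ∈ s, stR [z] f * ι R z := by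
  classical
  obtain ⟨t, h1, -⟩ := exists_sum_wd f
  have key : ∀ z, z ∉ t.biUnion List.toFinset → stR [z] f = 0 := fun z hz =>
    ext_co fun w => by
      rw [co_stR, map_zero]
      exact h1 _ fun hw => hz (Finset.mem_biUnion.2 ⟨_, hw, by simp⟩)
  refine ⟨t.biUnion List.toFinset, key, ext_co fun w => ?_⟩
  rw [map_add, map_smul, map_sum]
  rcases List.eq_nil_or_concat' w with rfl | ⟨u, x, rfl⟩
  · simp [co_nil_one, co_nil_mul, co_nil_ι]
  · have e : ∀ z, co (u ++ [x]) (stR [z] f * ι R z) = if z = x then co (u ++ [x]) f else 0 := by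
      intro z
      rw [← co_stR, ← wd_singleton, stR_mul_wd [x] [z] _ le_rfl]
      by_cases h : z = x
      · simp [h, co_stR]
      · rw [if_neg h, if_neg, map_zero]
        intro h2
        exact h (List.singleton_inj.1 (h2.eq_of_length rfl)).symm
    rw [← wd_nil, co_wd, if_neg (by simp), smul_zero, zero_add]
    simp only [e, Finset.sum_ite_eq']
    split_ifs with h
    · rfl
    · rw [← co_stR, key x h, map_zero]

end Vale.Agent.P029
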